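import Crest.Agent.R176.ActA

/-! # R176: the action of `St V R` on the glued space -/

noncomputable section

namespace Crest.Agent.R176

open scoped commutatorElement

set_option linter.unusedSectionVars false

namespace St

variable {V R : Type} [Ring R] [Algebra (ZMod 2) R] [Fintype V] [DecidableEq V] {n : ℕ}
  {L : Loc R}

theorem Act_mono {Ψ Ψ' : V → V → Prop} {ξ : XX V L n} (h : ξ.OK Ψ)
    (hle : ∀ a b, Ψ a b → Ψ' a b) : ξ.OK Ψ' := by
  obtain ⟨y, e, hy⟩ := h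
  exact ⟨y, e, hy.mono hle⟩

theorem Act_SO_single {a b : V} (hab : a ≠ b) : SO (fun c d => c = a ∧ d = b) :=
  ⟨by grind, by grind⟩

theorem Act_third (hV : 3 ≤ Fintype.card V) (a b : V) : ∃ k, k ≠ a ∧ k ≠ b := by
  by_contra hc
  push Not at hc
  have h1 : (Finset.univ : Finset V) ⊆ {a, b} := fun k _ => by
    by_cases hk : k = a
    · simp [hk]
    · simp [hc k hk]
  have h2 := Finset.card_le_card h1
  have h3 : ({a, b} : Finset V).card ≤ 2 := Finset.card_le_two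
  rw [Finset.card_univ] at h2
  omega

/-- equal roots: `x a b r = ⁅x a k r, x k b 1⁆`, pattern `{(a,k),(k,b),(a,b)}` -/
theorem XX.OK.Lm_Rm_same (hn : Fintype.card V = n + 1) (hV : 3 ≤ Fintype.card V) {a b : V}
    (hab : a ≠ b) {ξ : XX V L n} (h : ξ.OK (fun c d => c = a ∧ d = b)) (r s : R) :
    XX.Lm a b r (XX.Rm a b s ξ) = XX.Rm a b s (XX.Lm a b r ξ) := by
  obtain ⟨k, hka, hkb⟩ := Act_third hV a b
  have hΨ : SO (fun c d => (c = a ∧ d = k) ∨ (c = k ∧ d = b) ∨ (c = a ∧ d = b)) :=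
    ⟨by grind, by grind⟩
  have key : ∀ η : XX V L n,
      η.OK (fun c d => (c = a ∧ d = k) ∨ (c = k ∧ d = b) ∨ (c = a ∧ d = b)) →
      XX.Lm a b r η = XX.Lm a k r (XX.Lm k b 1 (XX.Lm a k (-r) (XX.Lm k b (-1) η))) := by
    intro η hη
    have e := hη.Lm_list hn hΨ [(a, b, r)] [(a, k, r), (k, b, 1), (a, k, -r), (k, b, -1)]
      (by simp) (by simp) (by
        have := x_comm_mul hka.symm hkb hab r (1 : R)
        rw [mul_one, commutatorElement_def] at this
        simp [x_neg, ← this, mul_assoc])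
    simpa only [List.foldr_cons, List.foldr_nil] using e
  have h0 : ξ.OK (fun c d => (c = a ∧ d = k) ∨ (c = k ∧ d = b) ∨ (c = a ∧ d = b)) :=
    Act_mono h (fun _ _ h => Or.inr (Or.inr h))
  have h1 := h0.Lm hn hΨ (a := k) (b := b) (by simp) (-1)
  have h2 := h1.Lm hn hΨ (a := a) (b := k) (by simp) (-r)
  have h3 := h2.Lm hn hΨ (a := k) (b := b) (by simp) 1
  rw [key _ (h0.Rm hn hΨ (a := a) (b := b) (by simp) s), key _ h0,
    h0.Lm_Rm_ne hn hΨ (a := k) (b := b) (c := a) (d := b) (by simp) (by simp) (by grind),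
    h1.Lm_Rm_ne hn hΨ (a := a) (b := k) (c := a) (d := b) (by simp) (by simp) (by grind),
    h2.Lm_Rm_ne hn hΨ (a := k) (b := b) (c := a) (d := b) (by simp) (by simp) (by grind),
    h3.Lm_Rm_ne hn hΨ (a := a) (b := k) (c := a) (d := b) (by simp) (by simp) (by grind)]

/-- the matrix of a class -/
def Act_mat (ξ : XX V L n) : Matrix V V R :=
  Quotient.lift (s := Pt.setoid) (fun y : Pt V L n => y.T.mat) (fun _ _ h => Pt.Rel.mat h) ξ

theorem Act_mat_mk (y : Pt V L n) : Act_mat (XX.mk y) = y.T.mat := rfl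

theorem Act_mat_Lm (hn : Fintype.card V = n + 1) {Ψ : V → V → Prop} (hΨ : SO Ψ) {ξ : XX V L n}
    (h : ξ.OK Ψ) {a b : V} (hab : Ψ a b) (r : R) :
    Act_mat (XX.Lm a b r ξ) = pm (x a b r) * Act_mat ξ := by
  obtain ⟨y, rfl, hok, hrk⟩ := ActA_lower hn hΨ h
  have g := hok.lmul hΨ (hrk a b hab) (r := r) (Or.inl hab)
  rw [XX.Lm_mk y r (hrk a b hab) ⟨Ψ, hΨ, g⟩, Act_mat_mk, Act_mat_mk]
  simp [Tri.mat, Tri.lmul, mul_assoc]

theorem Act_mat_Rm (hn : Fintype.card V = n + 1) {Ψ : V → V → Prop} (hΨ : SO Ψ) {ξ : XX V L n}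
    (h : ξ.OK Ψ) {a b : V} (hab : Ψ a b) (r : R) :
    Act_mat (XX.Rm a b r ξ) = Act_mat ξ * pm (x a b r) := by
  obtain ⟨y, rfl, hok, hrk⟩ := ActA_upper hn hΨ h
  have g := hok.rmul hΨ (hrk a b hab) (r := r) (Or.inl hab)
  rw [XX.Rm_mk y r (hrk a b hab) ⟨Ψ, hΨ, g⟩, Act_mat_mk, Act_mat_mk]
  simp [Tri.mat, Tri.rmul, mul_assoc]

theorem Act_map_one {α : Type} [LinearOrder α] (rk : V → α) {y : St V R}
    (hy : y ∈ Ug R (fun a b => rk b < rk a)) (hp : Pat L (fun _ _ => False) y) :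
    (pm y).map L.ε = 1 := by
  ext a b
  rw [Matrix.map_apply, Matrix.one_apply]
  by_cases hab : a = b
  · subst hab
    rw [Ug_shape rk hy a a (lt_irrefl _)]
    simp
  · rw [if_neg hab]
    exact hp a b hab (fun h => h)

theorem Act_mat_bot {ξ : XX V L n} (h : ξ.OK (fun _ _ => False)) :
    (Act_mat ξ).map L.ε = 1 := by
  obtain ⟨y, rfl, hy⟩ := h
  rw [Act_mat_mk, Tri.mat, Matrix.map_mul, Matrix.map_mul, Act_map_one y.T.rk hy.hl hy.pl,
    Act_map_one (α := (Fin (n + 1))ᵒᵈ) (fun a => OrderDual.toDual (y.T.rk a)) hy.hu hy.pu,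
    Matrix.diagonal_map (map_zero _)]
  simp [L.ε_unit]

theorem Act_eps_c0 (r : R) : L.ε (c0 L r) = L.ε r := L.ε_algebraMap _

theorem Act_c0_add (r s : R) : c0 L (r + s) = c0 L r + c0 L s := by simp [c0]

theorem Act_c0_mul (r s : R) : c0 L (r * s) = c0 L r * c0 L s := by simp [c0]

theorem Act_c0_zero : c0 L (0 : R) = 0 := by simp [c0]

/-- the pattern can be dropped when the matrix is congruent to `1` (cf. `HasG.bot`) -/
theorem XX.OK.op (hn : Fintype.card V = n + 1) {ξ : XX V L n} (h : ξ.OK (fun _ _ => False))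
    {a b : V} (hab : a ≠ b) (r : R) : (XX.op a b r ξ).OK (fun _ _ => False) := by
  have hΨ := Act_SO_single hab
  have h0 : ξ.OK (fun c d => c = a ∧ d = b) := Act_mono h (fun _ _ h => h.elim)
  have h1 := h0.Lm hn hΨ (a := a) (b := b) ⟨rfl, rfl⟩ r
  have h2 := h1.Rm hn hΨ (a := a) (b := b) ⟨rfl, rfl⟩ (-c0 L r)
  have hm : (Act_mat (XX.op a b r ξ)).map L.ε = 1 := by
    rw [XX.op, Act_mat_Rm hn hΨ h1 (a := a) (b := b) ⟨rfl, rfl⟩,
      Act_mat_Lm hn hΨ h0 (a := a) (b := b) ⟨rfl, rfl⟩, Matrix.map_mul, Matrix.map_mul,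
      Act_mat_bot h, mul_one, ← pm_map, ← pm_map, ← map_mul, map_x, map_x, ← x_add, map_neg,
      Act_eps_c0, add_neg_cancel, x_zero, map_one]
  obtain ⟨y, e, hy⟩ := h2
  refine ⟨y, e, hy.bot ?_⟩
  rw [XX.op, ← e, Act_mat_mk] at hm
  exact hm

theorem Act_op_zero (hn : Fintype.card V = n + 1) {ξ : XX V L n} (h : ξ.OK (fun _ _ => False))
    {a b : V} (hab : a ≠ b) : XX.op a b 0 ξ = ξ := by
  have hΨ := Act_SO_single hab
  have h0 : ξ.OK (fun c d => c = a ∧ d = b) := Act_mono h (fun _ _ h => h.elim)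
  have e1 := h0.Lm_list hn hΨ [(a, b, (0 : R))] [] (by simp) (by simp) (by simp)
  have e2 := h0.Rm_list hn hΨ [(a, b, (0 : R))] [] (by simp) (by simp) (by simp)
  simp only [List.foldr_cons, List.foldr_nil, List.foldl_cons, List.foldl_nil] at e1 e2
  rw [XX.op, e1, Act_c0_zero, neg_zero, e2]

theorem Act_op_add (hn : Fintype.card V = n + 1) (hV : 3 ≤ Fintype.card V) {ξ : XX V L n}
    (h : ξ.OK (fun _ _ => False)) {a b : V} (hab : a ≠ b) (r s : R) :
    XX.op a b (r + s) ξ = XX.op a b r (XX.op a b s ξ) := by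
  have hΨ := Act_SO_single hab
  have h0 : ξ.OK (fun c d => c = a ∧ d = b) := Act_mono h (fun _ _ h => h.elim)
  have h1 := h0.Lm hn hΨ (a := a) (b := b) ⟨rfl, rfl⟩ s
  have h2 := h0.Lm hn hΨ (a := a) (b := b) ⟨rfl, rfl⟩ (r + s)
  have e1 := h0.Lm_list hn hΨ [(a, b, r), (a, b, s)] [(a, b, r + s)] (by simp) (by simp)
    (by simp [x_add])
  have e2 := h2.Rm_list hn hΨ [(a, b, -c0 L s), (a, b, -c0 L r)] [(a, b, -c0 L (r + s))]
    (by simp) (by simp) (by simp [← x_add, Act_c0_add])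
  simp only [List.foldr_cons, List.foldr_nil, List.foldl_cons, List.foldl_nil] at e1 e2
  simp only [XX.op]
  rw [h1.Lm_Rm_same hn hV hab, e1, e2]

theorem Act_op_comm (hn : Fintype.card V = n + 1) (hV : 3 ≤ Fintype.card V) {ξ : XX V L n}
    (h : ξ.OK (fun _ _ => False)) {i j k l : V} (hij : i ≠ j) (hkl : k ≠ l) (hjk : j ≠ k)
    (hil : i ≠ l) (r s : R) :
    XX.op i j r (XX.op k l s ξ) = XX.op k l s (XX.op i j r ξ) := by
  by_cases hne : i = k ∧ j = l
  · obtain ⟨rfl, rfl⟩ := hne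
    rw [← Act_op_add hn hV h hij, ← Act_op_add hn hV h hij, add_comm]
  have hΨ : SO (fun c d => (c = i ∧ d = j) ∨ (c = k ∧ d = l)) := ⟨by grind, by grind⟩
  have h0 : ξ.OK (fun c d => (c = i ∧ d = j) ∨ (c = k ∧ d = l)) :=
    Act_mono h (fun _ _ h => h.elim)
  have h1 := h0.Lm hn hΨ (a := i) (b := j) (by simp) r
  have h2 := h0.Lm hn hΨ (a := k) (b := l) (by simp) s
  have h3 := h1.Lm hn hΨ (a := k) (b := l) (by simp) s
  have e1 := h0.Lm_list hn hΨ [(i, j, r), (k, l, s)] [(k, l, s), (i, j, r)] (by simp) (by simp)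
    (by simpa using (x_commute hjk hil r s).eq)
  have e2 := h3.Rm_list hn hΨ [(k, l, -c0 L s), (i, j, -c0 L r)]
    [(i, j, -c0 L r), (k, l, -c0 L s)] (by simp) (by simp)
    (by simpa using (x_commute hjk hil (-c0 L r) (-c0 L s)).eq.symm)
  simp only [List.foldr_cons, List.foldr_nil, List.foldl_cons, List.foldl_nil] at e1 e2
  simp only [XX.op]
  rw [h2.Lm_Rm_ne hn hΨ (a := i) (b := j) (c := k) (d := l) (by simp) (by simp) hne,
    h1.Lm_Rm_ne hn hΨ (a := k) (b := l) (c := i) (d := j) (by simp) (by simp)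
      (fun h => hne ⟨h.1.symm, h.2.symm⟩), e1, e2]

theorem Act_x_mul {i j k : V} (hij : i ≠ j) (hjk : j ≠ k) (hik : i ≠ k) (r s : R) :
    x i j r * x j k s = x i k (r * s) * (x j k s * x i j r) := by
  rw [← mul_assoc, ← conj_left hij hjk hik]; group

theorem Act_op_mul (hn : Fintype.card V = n + 1) {ξ : XX V L n}
    (h : ξ.OK (fun _ _ => False)) {i j k : V} (hij : i ≠ j) (hjk : j ≠ k) (hik : i ≠ k)
    (r s : R) :
    XX.op i j r (XX.op j k s ξ) = XX.op i k (r * s) (XX.op j k s (XX.op i j r ξ)) := by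
  have hΨ : SO (fun c d => (c = i ∧ d = j) ∨ (c = j ∧ d = k) ∨ (c = i ∧ d = k)) :=
    ⟨by grind, by grind⟩
  have h0 : ξ.OK (fun c d => (c = i ∧ d = j) ∨ (c = j ∧ d = k) ∨ (c = i ∧ d = k)) :=
    Act_mono h (fun _ _ h => h.elim)
  have h1 := h0.Lm hn hΨ (a := i) (b := j) (by simp) r
  have h2 := h0.Lm hn hΨ (a := j) (b := k) (by simp) s
  have h3 := h1.Lm hn hΨ (a := j) (b := k) (by simp) s
  have h4 := h3.Rm hn hΨ (a := i) (b := j) (by simp) (-c0 L r)
  have h5 := h3.Lm hn hΨ (a := i) (b := k) (by simp) (r * s)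
  have e1 := h0.Lm_list hn hΨ [(i, j, r), (j, k, s)] [(i, k, r * s), (j, k, s), (i, j, r)]
    (by simp) (by simp) (by simpa using Act_x_mul hij hjk hik r s)
  have e2 := h5.Rm_list hn hΨ [(j, k, -c0 L s), (i, j, -c0 L r)]
    [(i, j, -c0 L r), (j, k, -c0 L s), (i, k, -c0 L (r * s))] (by simp) (by simp)
    (by
      have := congrArg (fun g => g⁻¹) (Act_x_mul hij hjk hik (c0 L r) (c0 L s))
      simpa [x_neg, Act_c0_mul, mul_assoc] using this)
  simp only [List.foldr_cons, List.foldr_nil, List.foldl_cons, List.foldl_nil] at e1 e2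
  simp only [XX.op]
  rw [h2.Lm_Rm_ne hn hΨ (a := i) (b := j) (c := j) (d := k) (by simp) (by simp) (by grind),
    h1.Lm_Rm_ne hn hΨ (a := j) (b := k) (c := i) (d := j) (by simp) (by simp) (by grind),
    h4.Lm_Rm_ne hn hΨ (a := i) (b := k) (c := j) (d := k) (by simp) (by simp) (by grind),
    h3.Lm_Rm_ne hn hΨ (a := i) (b := k) (c := i) (d := j) (by simp) (by simp) (by grind),
    e1, e2]

/-- the permutation attached to a generator -/
def Act_perm (hn : Fintype.card V = n + 1) (hV : 3 ≤ Fintype.card V) (a b : V) (r : R) :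
    Equiv.Perm {ξ : XX V L n // ξ.OK (fun _ _ => False)} :=
  if hab : a = b then 1 else
    { toFun := fun ξ => ⟨XX.op a b r ξ.1, ξ.2.op hn hab r⟩
      invFun := fun ξ => ⟨XX.op a b (-r) ξ.1, ξ.2.op hn hab (-r)⟩
      left_inv := fun ξ => Subtype.ext (by
        show XX.op a b (-r) (XX.op a b r ξ.1) = ξ.1
        rw [← Act_op_add hn hV ξ.2 hab, neg_add_cancel, Act_op_zero hn ξ.2 hab])
      right_inv := fun ξ => Subtype.ext (by
        show XX.op a b r (XX.op a b (-r) ξ.1) = ξ.1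
        rw [← Act_op_add hn hV ξ.2 hab, add_neg_cancel, Act_op_zero hn ξ.2 hab]) }

theorem Act_perm_apply (hn : Fintype.card V = n + 1) (hV : 3 ≤ Fintype.card V) {a b : V}
    (hab : a ≠ b) (r : R) (ξ : {ξ : XX V L n // ξ.OK (fun _ _ => False)}) :
    (Act_perm hn hV a b r ξ).1 = XX.op a b r ξ.1 := by
  rw [Act_perm, dif_neg hab]
  rfl

/-- **The action.**  Recipe: additivity of `op` (by `Lm_Rm_same`, `Lm_list`, `Rm_list`,
`c0` additive) makes `op a b r` a permutation of the subtype with inverse `op a b (-r)`; the other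
Steinberg relations: move all `Rm` to the left of all `Lm` by `Lm_Rm_ne` (write the commutator
relation as `X_ij X_jk = X_ik X_jk X_ij`), with `Ψ` the (transitive) set of the two or three roots
involved (for `[x i j, x k l] = 1` with `j ≠ k`, `i ≠ l` the set `{(i,j),(k,l)}` is transitive). -/
theorem exists_action (hn : Fintype.card V = n + 1) (hV : 3 ≤ Fintype.card V) :
    ∃ ρ : St V R →* Equiv.Perm {ξ : XX V L n // ξ.OK (fun _ _ => False)},
      ∀ a b r, a ≠ b → ∀ ξ, (ρ (x a b r) ξ).1 = XX.op a b r ξ.1 := by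
  refine ⟨lift (Act_perm hn hV) (fun i r => by rw [Act_perm, dif_pos rfl]) ?_ ?_ ?_, ?_⟩
  · intro i j r s hij
    ext ξ : 1
    refine Subtype.ext ?_
    rw [Equiv.Perm.mul_apply, Act_perm_apply hn hV hij, Act_perm_apply hn hV hij,
      Act_perm_apply hn hV hij, Act_op_add hn hV ξ.2 hij]
  · intro i j k l r s hij hkl hjk hil
    refine Equiv.ext fun ξ => Subtype.ext ?_
    rw [Equiv.Perm.mul_apply, Equiv.Perm.mul_apply, Act_perm_apply hn hV hij,
      Act_perm_apply hn hV hkl, Act_perm_apply hn hV hkl, Act_perm_apply hn hV hij,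
      Act_op_comm hn hV ξ.2 hij hkl hjk hil]
  · intro i j k r s hij hjk hik
    rw [commutatorElement_def, mul_inv_eq_iff_eq_mul, mul_inv_eq_iff_eq_mul]
    refine Equiv.ext fun ξ => Subtype.ext ?_
    rw [Equiv.Perm.mul_apply, Equiv.Perm.mul_apply, Equiv.Perm.mul_apply,
      Act_perm_apply hn hV hij, Act_perm_apply hn hV hjk, Act_perm_apply hn hV hik,
      Act_perm_apply hn hV hjk, Act_perm_apply hn hV hij, Act_op_mul hn ξ.2 hij hjk hik]
  · intro a b r hab ξ
    rw [lift_x, Act_perm_apply hn hV hab]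

end St

end Crest.Agent.R176
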