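import Crest.Agent.R176.Tri

/-! # R176: Gauss decomposition of the congruence subgroup, centrality of `K₂` -/

noncomputable section

namespace Crest.Agent.R176

open scoped commutatorElement

set_option linter.unusedSectionVars false

namespace St

variable {V V' R : Type} [Ring R] [Algebra (ZMod 2) R] [Fintype V] [DecidableEq V]
  [Fintype V'] [DecidableEq V'] {n : ℕ}

/-- the subgroup generated by the Dennis–Stein elements -/
def TG (V : Type) (L : Loc R) : Subgroup (St V R) :=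
  Subgroup.closure {t | ∃ i j a b, i ≠ j ∧ L.ε (a * b) = 0 ∧ t = ds i j a b}

theorem TG_le_G1 (L : Loc R) : TG V L ≤ G1 V L := by
  rw [TG, Subgroup.closure_le]
  rintro _ ⟨i, j, a, b, -, hab, rfl⟩
  exact ds_mem_G1 L i j hab

theorem TG_isTor (L : Loc R) (hV : 3 ≤ Fintype.card V) {t : St V R} (ht : t ∈ TG V L) :
    ∃ d, IsTor t d := by
  induction ht using Subgroup.closure_induction with
  | mem t ht =>
    obtain ⟨i, j, a, b, hij, hab, rfl⟩ := ht
    exact ⟨_, isTor_ds hV hij (L.isUnit_one_add hab)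
      (L.isUnit_one_add ((L.ε_mul_comm b a).trans hab))⟩
  | one => exact ⟨1, IsTor.one⟩
  | mul t t' _ _ h h' =>
    obtain ⟨d, h⟩ := h
    obtain ⟨d', h'⟩ := h'
    exact ⟨_, h.mul h'⟩
  | inv t _ h =>
    obtain ⟨d, h⟩ := h
    exact ⟨_, h.inv⟩

/-- `y` has a Gauss decomposition for the order `rk` with pattern `Ψ` -/
def HasG (L : Loc R) (Ψ : V → V → Prop) (rk : V ≃ Fin (n + 1)) (y : St V R) : Prop :=
  ∃ (T : Tri V R n) (t : St V R), T.rk = rk ∧ T.OK L Ψ ∧ t ∈ TG V L ∧ IsTor t T.d ∧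
    y = T.l * t * T.u

/-- change of order (`bubble`, `Tri.swap_St` with `e = refl`, `Tri.OK.swap`, `isTor_ds`) -/
theorem HasG.change {L : Loc R} (hV : 3 ≤ Fintype.card V) {Ψ : V → V → Prop} (hΨ : SO Ψ)
    {rk : V ≃ Fin (n + 1)} {y : St V R} (h : HasG L Ψ rk y) (rk' : V ≃ Fin (n + 1)) :
    HasG L Ψ rk' y := by
  refine bubble rk rk' (fun ρ => HasG L Ψ ρ y) h ?_
  rintro _ a ⟨T, t, rfl, hT, ht, hd, rfl⟩ -
  have hab := hT.eps_ab hΨ a
  refine ⟨T.swap a, t * T.tau a, rfl, hT.swap hΨ a, Subgroup.mul_mem _ ht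
    (Subgroup.subset_closure ⟨_, _, _, _, T.vi_ne_vj a, hab, rfl⟩), hd.mul
    (isTor_ds hV (T.vi_ne_vj a) (L.isUnit_one_add hab)
      (L.isUnit_one_add ((L.ε_mul_comm _ _).trans hab))), ?_⟩
  have e := T.swap_St a (Function.Embedding.refl V) hd fun _ => rfl
  simpa only [relabel_refl] using e

/-- `Tri.OK.bot` -/
theorem HasG.bot {L : Loc R} {Ψ : V → V → Prop} {rk : V ≃ Fin (n + 1)} {y : St V R}
    (h : HasG L Ψ rk y) (hy : (pm y).map L.ε = 1) : HasG L (fun _ _ => False) rk y := by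
  obtain ⟨T, t, hrk, hT, ht, hd, rfl⟩ := h
  refine ⟨T, t, hrk, hT.bot ?_, ht, hd, rfl⟩
  rwa [map_mul, map_mul, hd.2] at hy

theorem Gauss_SO {i j : V} (hij : i ≠ j) : SO (fun a b : V => a = i ∧ b = j) :=
  ⟨fun _ h => hij (h.1.symm.trans h.2), fun _ _ _ h h' => ⟨h.1, h'.2⟩⟩

theorem Gauss_mono {L : Loc R} {Ψ Ψ' : V → V → Prop} {rk : V ≃ Fin (n + 1)} {y : St V R}
    (h : HasG L Ψ rk y) (hle : ∀ a b, Ψ a b → Ψ' a b) : HasG L Ψ' rk y := by
  obtain ⟨T, t, hrk, hT, ht, hd, e⟩ := h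
  exact ⟨T, t, hrk, hT.mono hle, ht, hd, e⟩

theorem Gauss_rank (rk : V ≃ Fin (n + 1)) {a b : V} (hab : a ≠ b) :
    ∃ rk' : V ≃ Fin (n + 1), rk' b < rk' a := by
  obtain ⟨rk', h⟩ := exists_rank (n := n) (by rw [Fintype.card_congr rk, Fintype.card_fin])
    _ (Gauss_SO hab).1 (Gauss_SO hab).2
  exact ⟨rk', h a b ⟨rfl, rfl⟩⟩

theorem Gauss_lmul {L : Loc R} (hV : 3 ≤ Fintype.card V) {Ψ : V → V → Prop} (hΨ : SO Ψ)
    {rk : V ≃ Fin (n + 1)} {y : St V R} (h : HasG L Ψ rk y) {a b : V} (hab : a ≠ b) {r : R}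
    (hr : Ψ a b ∨ L.ε r = 0) : HasG L Ψ rk (x a b r * y) := by
  obtain ⟨rk', h'⟩ := Gauss_rank rk hab
  obtain ⟨T, t, rfl, hT, ht, hd, rfl⟩ := h.change hV hΨ rk'
  refine HasG.change hV hΨ (rk := T.rk) ⟨T.lmul a b r, t, rfl, hT.lmul hΨ h' hr, ht, hd, ?_⟩ rk
  simp only [Tri.lmul, mul_assoc]

theorem Gauss_rmul {L : Loc R} (hV : 3 ≤ Fintype.card V) {Ψ : V → V → Prop} (hΨ : SO Ψ)
    {rk : V ≃ Fin (n + 1)} {y : St V R} (h : HasG L Ψ rk y) {a b : V} (hab : a ≠ b) {r : R}
    (hr : Ψ a b ∨ L.ε r = 0) : HasG L Ψ rk (y * x a b r) := by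
  obtain ⟨rk', h'⟩ := Gauss_rank rk hab.symm
  obtain ⟨T, t, rfl, hT, ht, hd, rfl⟩ := h.change hV hΨ rk'
  refine HasG.change hV hΨ (rk := T.rk) ⟨T.rmul a b r, t, rfl, hT.rmul hΨ h' hr, ht, hd, ?_⟩ rk
  simp only [Tri.rmul, mul_assoc]

theorem Gauss_OK_one (L : Loc R) (rk : V ≃ Fin (n + 1)) :
    (⟨rk, 1, 1, 1⟩ : Tri V R n).OK L (fun _ _ => False) := by
  have h : Pat L (fun _ _ : V => False) 1 := fun a b hab _ => by
    rw [map_one, Matrix.one_apply_ne hab, map_zero]
  exact ⟨Subgroup.one_mem _, Subgroup.one_mem _, h, h⟩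

/-- **Gauss decomposition.**  Recipe: let `Ω` be the set of `y` with `HasG ⊥` (any order, by
`change`).  It is closed under left and right multiplication by `x i j r`, `ε r = 0` (choose the
order with `exists_rank`; `lmul`, `rmul`), and under conjugation by `x i j 1` (pattern
`Ψ = {(i,j)}`: `lmul`, `change`, `rmul`, `bot`), hence under conjugation by everything; then use
`G1_eq_NI`: the set of `g` with `g Ω ⊆ Ω` and `g⁻¹ Ω ⊆ Ω` is a normal subgroup. -/
theorem gauss (L : Loc R) (hV : 3 ≤ Fintype.card V) (rk : V ≃ Fin (n + 1)) {y : St V R}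
    (hy : y ∈ G1 V L) : HasG L (fun _ _ => False) rk y := by
  let Ω : St V R → Prop := fun y => y ∈ G1 V L ∧ HasG L (fun _ _ => False) rk y
  have hbot : SO (fun _ _ : V => False) := ⟨fun _ h => h, fun _ _ _ h _ => h⟩
  have hconj : ∀ g y, Ω y → Ω (g * y * g⁻¹) := by
    intro g
    induction g using induction_on with
    | h1 => intro y hy; simpa using hy
    | hx i j r g hij ih =>
      intro y hy
      obtain ⟨h1, h2⟩ := ih y hy
      have h3 := (inferInstance : (G1 V L).Normal).conj_mem _ h1 (x i j r)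
      have e : x i j r * g * y * (x i j r * g)⁻¹ = x i j r * (g * y * g⁻¹) * (x i j r)⁻¹ := by
        group
      rw [e]
      refine ⟨h3, HasG.bot (Ψ := fun a b => a = i ∧ b = j) ?_ ?_⟩
      · rw [← x_neg]
        exact Gauss_rmul hV (Gauss_SO hij)
          (Gauss_lmul hV (Gauss_SO hij) (Gauss_mono h2 fun _ _ h => h.elim) hij
            (Or.inl ⟨rfl, rfl⟩)) hij (Or.inl ⟨rfl, rfl⟩)
      · rw [← pm_map, mem_G1.1 h3, map_one]
  let N : Subgroup (St V R) :=
    { carrier := {g | (∀ y, Ω y → Ω (g * y)) ∧ ∀ y, Ω y → Ω (g⁻¹ * y)}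
      one_mem' := ⟨fun y hy => by simpa using hy, fun y hy => by simpa using hy⟩
      mul_mem' := fun {a b} ha hb =>
        ⟨fun y hy => by rw [mul_assoc]; exact ha.1 _ (hb.1 y hy),
         fun y hy => by rw [mul_inv_rev, mul_assoc]; exact hb.2 _ (ha.2 y hy)⟩
      inv_mem' := fun {a} ha => ⟨ha.2, by simpa using ha.1⟩ }
  have hN1 : ∀ a g : St V R, (∀ y, Ω y → Ω (a * y)) → ∀ y, Ω y → Ω (g * a * g⁻¹ * y) := by
    intro a g ha y hy
    have h1 := hconj g _ (ha _ (hconj g⁻¹ y hy))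
    have e : g * (a * (g⁻¹ * y * g⁻¹⁻¹)) * g⁻¹ = g * a * g⁻¹ * y := by group
    rwa [e] at h1
  have _ : N.Normal := ⟨fun a ha g => ⟨hN1 a g ha.1, fun y hy => by
    have e : (g * a * g⁻¹)⁻¹ = g * a⁻¹ * g⁻¹ := by group
    rw [e]
    exact hN1 a⁻¹ g ha.2 y hy⟩⟩
  have hx1 : ∀ (i j : V) (r : R), L.ε r = 0 → ∀ y, Ω y → Ω (x i j r * y) := by
    intro i j r hr y hy
    by_cases hij : i = j
    · subst hij
      simpa using hy
    · refine ⟨Subgroup.mul_mem _ ?_ hy.1, Gauss_lmul hV hbot hy.2 hij (Or.inr hr)⟩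
      rw [mem_G1, map_x, hr, x_zero]
  have hle : NI V {r | L.ε r = 0} ≤ N := by
    refine Subgroup.normalClosure_le_normal ?_
    rintro _ ⟨i, j, r, hr, rfl⟩
    exact ⟨hx1 i j r hr, by rw [x_inv]; exact hx1 i j r hr⟩
  rw [G1_eq_NI] at hy
  have h1 : Ω 1 := ⟨Subgroup.one_mem _, ⟨rk, 1, 1, 1⟩, 1, rfl, Gauss_OK_one L rk,
    Subgroup.one_mem _, IsTor.one, by simp⟩
  simpa using ((hle hy).1 1 h1).2

/-- a unitriangular element congruent to `1` is a product of `x a b r` with `ε r = 0`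
(same induction as `Ug_surj`, then `Ug_ext`) -/
theorem Ug_mem_closure_J (L : Loc R) {α : Type*} [LinearOrder α] (rk : V → α) {y : St V R}
    (hy : y ∈ Ug R (fun a b => rk b < rk a)) (hp : Pat L (fun _ _ => False) y) :
    y ∈ Subgroup.closure {g : St V R | ∃ a b r, L.ε r = 0 ∧ g = x a b r} := by
  classical
  induction hN : (Finset.univ.filter fun p : V × V => p.1 ≠ p.2 ∧ pm y p.1 p.2 ≠ 0).card
    using Nat.strong_induction_on generalizing y with
  | _ N ih =>
  rcases (Finset.univ.filter fun p : V × V => p.1 ≠ p.2 ∧ pm y p.1 p.2 ≠ 0).eq_empty_or_nonempty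
    with h0 | h0
  · have h1 : pm y = 1 := by
      ext a b
      by_cases hab : a = b
      · subst hab
        rw [Ug_shape rk hy a a (lt_irrefl _), if_pos rfl, Matrix.one_apply_eq]
      · rw [Matrix.one_apply_ne hab]
        by_contra h
        exact Finset.filter_eq_empty_iff.1 h0 (Finset.mem_univ (a, b)) ⟨hab, h⟩
    rw [Ug_inj rk hy h1]
    exact Subgroup.one_mem _
  · obtain ⟨⟨a, b⟩, hab, hmax⟩ := Finset.exists_max_image _ (fun p => rk p.1) h0
    obtain ⟨-, hne, hnz⟩ := Finset.mem_filter.1 hab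
    have hlt : ∀ c d, c ≠ d → pm y c d ≠ 0 → rk d < rk c := fun c d hcd h => by
      by_contra h'
      exact h (by rw [Ug_shape rk hy c d h', if_neg hcd])
    have hcol : ∀ c, pm y c a = if c = a then 1 else 0 := fun c => by
      by_cases hca : c = a
      · exact Ug_shape rk hy c a (by rw [hca]; exact lt_irrefl _)
      · rw [if_neg hca]
        by_contra h
        exact absurd (hmax (c, a) (Finset.mem_filter.2 ⟨Finset.mem_univ _, hca, h⟩))
          (not_le.2 (hlt c a hca h))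
    have hm : ∀ c d, pm (y * x a b (-pm y a b)) c d = if c = a ∧ d = b then 0 else pm y c d := by
      intro c d
      rw [map_mul, pm_x_of_ne hne, mul_add, mul_one, Matrix.add_apply]
      by_cases hd : d = b
      · subst hd
        rw [Matrix.mul_single_apply_same, hcol c]
        by_cases hc : c = a
        · subst hc
          simp
        · simp [hc]
      · rw [Matrix.mul_single_apply_of_ne _ _ _ _ _ hd, add_zero, if_neg fun h => hd h.2]
    have h1 := ih _ ?_ (y := y * x a b (-pm y a b))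
      (Subgroup.mul_mem _ hy (x_mem_Ug (hlt a b hne hnz) _)) (fun c d hcd h => by
        rw [hm]
        split_ifs
        · exact map_zero _
        · exact hp c d hcd h) rfl
    · have h2 : x a b (pm y a b) ∈
          Subgroup.closure {g : St V R | ∃ a b r, L.ε r = 0 ∧ g = x a b r} :=
        Subgroup.subset_closure ⟨a, b, _, hp a b hne not_false, rfl⟩
      have h3 := Subgroup.mul_mem _ h1 h2
      rwa [x_neg, inv_mul_cancel_right] at h3
    · rw [← hN]
      refine Finset.card_lt_card ⟨fun p hp => ?_, fun h => ?_⟩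
      · simp only [Finset.mem_filter, Finset.mem_univ, true_and, hm] at hp ⊢
        refine ⟨hp.1, fun h => hp.2 ?_⟩
        rw [h, ite_self]
      · exact (Finset.mem_filter.1 (h hab)).2.2 (by rw [hm, if_pos ⟨rfl, rfl⟩])

theorem KK_le_TG (L : Loc R) (hV : 3 ≤ Fintype.card V) : KK V L ≤ TG V L := by
  intro z hz
  let rk : V ≃ Fin (Fintype.card V - 1 + 1) := Fintype.equivFinOfCardEq (by omega)
  obtain ⟨T, t, hrk, hT, ht, hd, rfl⟩ := gauss L hV rk hz.1
  have h1 : T.mat = 1 := by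
    have h2 := (mem_KK.1 hz).2
    rwa [map_mul, map_mul, hd.2] at h2
  have h2 : T = ⟨rk, 1, 1, 1⟩ := Tri.ext_mat hT (Gauss_OK_one L rk) hrk (by
    rw [h1]
    simp [Tri.mat])
  subst h2
  simpa using ht

theorem KK_central (L : Loc R) (hV : 3 ≤ Fintype.card V) {z : St V R} (hz : z ∈ KK V L)
    (y : St V R) : Commute z y := by
  obtain ⟨d, hd⟩ := TG_isTor L hV (KK_le_TG L hV hz)
  have h1 : IsTor z 1 := by
    have h2 : d = 1 := by
      funext a
      have h3 := congrFun (congrFun ((mem_KK.1 hz).2.symm.trans hd.2) a) a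
      rw [Matrix.one_apply_eq, Matrix.diagonal_apply_eq] at h3
      exact Units.ext h3.symm
    rwa [h2] at hd
  have h2 := h1.1 y
  rwa [dg_one, mul_inv_eq_iff_eq_mul] at h2

/-- two injections differ by a permutation of the target (`relabel_perm_eq` with `S = univ`) -/
theorem relabel_indep (L : Loc R) (hV' : 3 ≤ Fintype.card V') (e e' : V ↪ V') {z : St V R}
    (hz : z ∈ KK V L) : relabel e z = relabel e' z := by
  obtain ⟨σ, hσ⟩ := Equiv.Perm.exists_extending_pair e e' e.injective e'.injective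
  have h1 := relabel_perm_eq hV' Set.univ σ (fun a ha => (ha trivial).elim)
    (z := relabel e z) fun g _ => (KK_central L hV' (relabel_mem_KK e hz) g).symm
  rw [← h1, relabel_relabel]
  congr 2
  exact Function.Embedding.ext hσ

end St

end Crest.Agent.R176
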