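import Crest.Agent.R176.Orb
import Crest.Agent.R176.Gauss

/-! # R176: the action of `St V R` on the glued space -/

noncomputable section

namespace Crest.Agent.R176

open scoped commutatorElement

set_option linter.unusedSectionVars false

namespace St

variable {V R : Type} [Ring R] [Algebra (ZMod 2) R] [Fintype V] [DecidableEq V] {n : ℕ}
  {L : Loc R}

/-- the constant term, as an element of `R` -/
def c0 (L : Loc R) (r : R) : R := algebraMap (ZMod 2) R (L.ε r)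

/-- the operator of the generator `x a b r`: `g ↦ x a b r * g * (x a b r₀)⁻¹` -/
def XX.op (a b : V) (r : R) (ξ : XX V L n) : XX V L n :=
  XX.Rm a b (-c0 L r) (XX.Lm a b r ξ)

/-! The following lemmas are proved in one chart (`XX.OK.rep`, `exists_rank`, `Lm_mk`, `Rm_mk`),
where they are identities in `St V R` for `T.l` or `T.u`. -/

theorem ActA_lower (hn : Fintype.card V = n + 1) {Ψ : V → V → Prop} (hΨ : SO Ψ) {ξ : XX V L n}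
    (h : ξ.OK Ψ) : ∃ y : Pt V L n, XX.mk y = ξ ∧ y.T.OK L Ψ ∧
      ∀ a b, Ψ a b → y.T.rk b < y.T.rk a := by
  obtain ⟨rk, hrk⟩ := exists_rank hn Ψ hΨ.1 hΨ.2
  obtain ⟨y, hy, hok, e⟩ := h.rep hΨ rk
  exact ⟨y, hy, hok, fun a b hab => by rw [e]; exact hrk a b hab⟩

theorem ActA_upper (hn : Fintype.card V = n + 1) {Ψ : V → V → Prop} (hΨ : SO Ψ) {ξ : XX V L n}
    (h : ξ.OK Ψ) : ∃ y : Pt V L n, XX.mk y = ξ ∧ y.T.OK L Ψ ∧
      ∀ a b, Ψ a b → y.T.rk a < y.T.rk b := by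
  obtain ⟨rk, hrk⟩ := exists_rank hn (fun a b => Ψ b a) hΨ.1
    (fun a b c h1 h2 => hΨ.2 c b a h2 h1)
  obtain ⟨y, hy, hok, e⟩ := h.rep hΨ rk
  exact ⟨y, hy, hok, fun a b hab => by rw [e]; exact hrk b a hab⟩

theorem ActA_Lm_fold {Ψ : V → V → Prop} (hΨ : SO Ψ) (y : Pt V L n) (hok : y.T.OK L Ψ)
    (hrk : ∀ a b, Ψ a b → y.T.rk b < y.T.rk a) (l : List (V × V × R))
    (hl : ∀ p ∈ l, Ψ p.1 p.2.1) :
    ∃ y' : Pt V L n, y'.T.OK L Ψ ∧ y'.γ = y.γ ∧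
      y'.T = { y.T with l := (l.map fun p => x p.1 p.2.1 p.2.2).prod * y.T.l } ∧
      l.foldr (fun p η => XX.Lm p.1 p.2.1 p.2.2 η) (XX.mk y) = XX.mk y' := by
  induction l with
  | nil => exact ⟨y, hok, rfl, by simp, rfl⟩
  | cons p l ih =>
    obtain ⟨y', hok', hγ, hT, e⟩ := ih (fun q hq => hl q (List.mem_cons_of_mem _ hq))
    have hp := hl p List.mem_cons_self
    have hlt : y'.T.rk p.2.1 < y'.T.rk p.1 := by rw [hT]; exact hrk _ _ hp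
    have g := hok'.lmul hΨ hlt (r := p.2.2) (Or.inl hp)
    refine ⟨⟨y'.T.lmul p.1 p.2.1 p.2.2, y'.γ, ⟨Ψ, hΨ, g⟩⟩, g, hγ, ?_, ?_⟩
    · show y'.T.lmul p.1 p.2.1 p.2.2 = _
      rw [hT]
      simp [Tri.lmul, mul_assoc]
    · rw [List.foldr_cons, e]
      exact XX.Lm_mk y' _ hlt _

theorem ActA_Rm_fold {Ψ : V → V → Prop} (hΨ : SO Ψ) (l : List (V × V × R))
    (hl : ∀ p ∈ l, Ψ p.1 p.2.1) (y : Pt V L n) (hok : y.T.OK L Ψ)
    (hrk : ∀ a b, Ψ a b → y.T.rk a < y.T.rk b) :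
    ∃ y' : Pt V L n, y'.γ = y.γ ∧
      y'.T = { y.T with u := y.T.u * (l.map fun p => x p.1 p.2.1 p.2.2).prod } ∧
      l.foldl (fun η p => XX.Rm p.1 p.2.1 p.2.2 η) (XX.mk y) = XX.mk y' := by
  induction l generalizing y with
  | nil => exact ⟨y, rfl, by simp, rfl⟩
  | cons p l ih =>
    have hp := hl p List.mem_cons_self
    have hlt : y.T.rk p.1 < y.T.rk p.2.1 := hrk _ _ hp
    have g := hok.rmul hΨ hlt (r := p.2.2) (Or.inl hp)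
    obtain ⟨y', hγ, hT, e⟩ := ih (fun q hq => hl q (List.mem_cons_of_mem _ hq))
      ⟨y.T.rmul p.1 p.2.1 p.2.2, y.γ, ⟨Ψ, hΨ, g⟩⟩ g hrk
    refine ⟨y', hγ, ?_, ?_⟩
    · rw [hT]
      simp [Tri.rmul, mul_assoc]
    · rw [List.foldl_cons, XX.Rm_mk y _ hlt ⟨Ψ, hΨ, g⟩, e]

theorem ActA_pt_ext {y y' : Pt V L n} (h1 : y.T = y'.T) (h2 : y.γ = y'.γ) : y = y' := by
  cases y; cases y'
  simp only at h1 h2
  subst h1 h2
  rfl

theorem XX.OK.Lm (hn : Fintype.card V = n + 1) {Ψ : V → V → Prop} (hΨ : SO Ψ) {ξ : XX V L n}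
    (h : ξ.OK Ψ) {a b : V} (hab : Ψ a b) (r : R) : (XX.Lm a b r ξ).OK Ψ := by
  obtain ⟨y, rfl, hok, hrk⟩ := ActA_lower hn hΨ h
  have g := hok.lmul hΨ (hrk a b hab) (r := r) (Or.inl hab)
  rw [XX.Lm_mk y r (hrk a b hab) ⟨Ψ, hΨ, g⟩]
  exact ⟨_, rfl, g⟩

theorem XX.OK.Rm (hn : Fintype.card V = n + 1) {Ψ : V → V → Prop} (hΨ : SO Ψ) {ξ : XX V L n}
    (h : ξ.OK Ψ) {a b : V} (hab : Ψ a b) (r : R) : (XX.Rm a b r ξ).OK Ψ := by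
  obtain ⟨y, rfl, hok, hrk⟩ := ActA_upper hn hΨ h
  have g := hok.rmul hΨ (hrk a b hab) (r := r) (Or.inl hab)
  rw [XX.Rm_mk y r (hrk a b hab) ⟨Ψ, hΨ, g⟩]
  exact ⟨_, rfl, g⟩

/-- a relation among root elements with roots in `Ψ` holds for the operators `Lm`: a list of
generators acts through its product (chart in which all roots of `Ψ` are lower) -/
theorem XX.OK.Lm_list (hn : Fintype.card V = n + 1) {Ψ : V → V → Prop} (hΨ : SO Ψ)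
    {ξ : XX V L n} (h : ξ.OK Ψ) (l l' : List (V × V × R)) (hl : ∀ p ∈ l, Ψ p.1 p.2.1)
    (hl' : ∀ p ∈ l', Ψ p.1 p.2.1)
    (e : (l.map fun p => x p.1 p.2.1 p.2.2).prod = (l'.map fun p => x p.1 p.2.1 p.2.2).prod) :
    l.foldr (fun p η => XX.Lm p.1 p.2.1 p.2.2 η) ξ =
      l'.foldr (fun p η => XX.Lm p.1 p.2.1 p.2.2 η) ξ := by
  obtain ⟨y, rfl, hok, hrk⟩ := ActA_lower hn hΨ h
  obtain ⟨y1, -, hγ1, hT1, e1⟩ := ActA_Lm_fold hΨ y hok hrk l hl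
  obtain ⟨y2, -, hγ2, hT2, e2⟩ := ActA_Lm_fold hΨ y hok hrk l' hl'
  rw [e1, e2, ActA_pt_ext (y := y1) (y' := y2) (by rw [hT1, hT2, e]) (by rw [hγ1, hγ2])]

theorem XX.OK.Rm_list (hn : Fintype.card V = n + 1) {Ψ : V → V → Prop} (hΨ : SO Ψ)
    {ξ : XX V L n} (h : ξ.OK Ψ) (l l' : List (V × V × R)) (hl : ∀ p ∈ l, Ψ p.1 p.2.1)
    (hl' : ∀ p ∈ l', Ψ p.1 p.2.1)
    (e : (l.map fun p => x p.1 p.2.1 p.2.2).prod = (l'.map fun p => x p.1 p.2.1 p.2.2).prod) :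
    l.foldl (fun η p => XX.Rm p.1 p.2.1 p.2.2 η) ξ =
      l'.foldl (fun η p => XX.Rm p.1 p.2.1 p.2.2 η) ξ := by
  obtain ⟨y, rfl, hok, hrk⟩ := ActA_upper hn hΨ h
  obtain ⟨y1, hγ1, hT1, e1⟩ := ActA_Rm_fold hΨ l hl y hok hrk
  obtain ⟨y2, hγ2, hT2, e2⟩ := ActA_Rm_fold hΨ l' hl' y hok hrk
  rw [e1, e2, ActA_pt_ext (y := y1) (y' := y2) (by rw [hT1, hT2, e]) (by rw [hγ1, hγ2])]

/-- different roots: a chart where `(a,b)` is lower and `(c,d)` is upper -/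
theorem XX.OK.Lm_Rm_ne (hn : Fintype.card V = n + 1) {Ψ : V → V → Prop} (hΨ : SO Ψ)
    {ξ : XX V L n} (h : ξ.OK Ψ) {a b c d : V} (hab : Ψ a b) (hcd : Ψ c d)
    (hne : ¬ (a = c ∧ b = d)) (r s : R) :
    XX.Lm a b r (XX.Rm c d s ξ) = XX.Rm c d s (XX.Lm a b r ξ) := by
  have h1 : a ≠ b := fun e => hΨ.1 a (by rw [← e] at hab; exact hab)
  have h2 : c ≠ d := fun e => hΨ.1 c (by rw [← e] at hcd; exact hcd)
  obtain ⟨rk, hrk⟩ := exists_rank hn (fun p q => (p = a ∧ q = b) ∨ (p = d ∧ q = c) ∨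
    (b = d ∧ p = a ∧ q = c) ∨ (c = a ∧ p = d ∧ q = b)) (by grind) (by grind)
  obtain ⟨y, rfl, hok, e⟩ := h.rep hΨ rk
  have l1 : y.T.rk b < y.T.rk a := by rw [e]; exact hrk a b (by simp)
  have l2 : y.T.rk c < y.T.rk d := by rw [e]; exact hrk d c (by simp)
  have g1 := hok.lmul hΨ l1 (r := r) (Or.inl hab)
  have g2 := hok.rmul hΨ l2 (r := s) (Or.inl hcd)
  have g3 := g2.lmul hΨ (a := a) (b := b) l1 (r := r) (Or.inl hab)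
  rw [XX.Rm_mk y s l2 ⟨Ψ, hΨ, g2⟩, XX.Lm_mk y r l1 ⟨Ψ, hΨ, g1⟩,
    XX.Lm_mk ⟨y.T.rmul c d s, y.γ, ⟨Ψ, hΨ, g2⟩⟩ r l1 ⟨Ψ, hΨ, g3⟩,
    XX.Rm_mk ⟨y.T.lmul a b r, y.γ, ⟨Ψ, hΨ, g1⟩⟩ s l2 ⟨Ψ, hΨ, g3⟩]
  rfl

end St

end Crest.Agent.R176
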