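import Crest.Agent.R176.AlgB

/-! # R176: the algebra of a Thue system with zero -/

noncomputable section

namespace Crest.Agent.R176

set_option linter.unusedSectionVars false

namespace Sys

variable {X : Type} (S : Sys X)

theorem Alg_rel {A : Type} [Ring A] [Algebra (ZMod 2) A] (f : X → A) (g : ℕ → S.R → A)
    (hg : g 2 0 = 0) (h : ∀ w, FreeAlgebra.lift (ZMod 2) f (wA w) = g w.length (S.wd w))
    {a b : FA X} (hab : S.Rel a b) :
    FreeAlgebra.lift (ZMod 2) f a = FreeAlgebra.lift (ZMod 2) f b := by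
  cases hab with
  | @eqv x y x' y' e =>
    rw [h, h, S.wd_eqv (w := [x, y]) (w' := [x', y']) (Eqv.of_eqv [] [] e)]
    rfl
  | @zer x y e =>
    rw [h, map_zero, S.wd_zero (w := [x, y]) (Zero.of_zer [] [] e)]
    exact hg

theorem Alg_tw {W : Type} [Fintype W] [DecidableEq W] (P : Matrix W W (ZMod 2)) (w : List X) :
    FreeAlgebra.lift (ZMod 2) (fun x => Matrix.of fun a b => P a b • S.wd [x]) (wA w) =
      Matrix.of fun a b => (P ^ w.length) a b • S.wd w := by
  induction w with
  | nil =>
    ext a b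
    by_cases h : a = b <;> simp [Matrix.one_apply, h]
  | cons x w ih =>
    ext a b
    rw [wA_cons, map_mul, FreeAlgebra.lift_ι_apply, ih, List.length_cons, pow_succ']
    simp only [Matrix.mul_apply, Matrix.of_apply, smul_mul_smul_comm, Finset.sum_smul,
      ← wd_append, List.singleton_append]

theorem Alg_aug (w : List X) :
    FreeAlgebra.lift (ZMod 2) (fun _ : X => (0 : ZMod 2)) (wA w) =
      if w.length = 0 then 1 else 0 := by
  cases w with
  | nil => simp
  | cons x w => simp [wA_cons]

theorem Alg_gr (w : List X) :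
    FreeAlgebra.lift (ZMod 2) (fun x => Polynomial.monomial 1 (S.wd [x])) (wA w) =
      Polynomial.monomial w.length (S.wd w) := by
  induction w with
  | nil => simp
  | cons x w ih =>
    rw [wA_cons, map_mul, FreeAlgebra.lift_ι_apply, ih, Polynomial.monomial_mul_monomial,
      ← wd_append, add_comm]
    rfl

/-- twisting by a constant matrix: the letter `x` goes to `x • P` -/
def tw {W : Type} [Fintype W] [DecidableEq W] (P : Matrix W W (ZMod 2)) :
    S.R →ₐ[ZMod 2] Matrix W W S.R :=
  RingQuot.liftAlgHom (ZMod 2) ⟨FreeAlgebra.lift (ZMod 2)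
    (fun x => Matrix.of fun a b => P a b • S.wd [x]), fun _ _ h =>
      S.Alg_rel _ (fun n r => Matrix.of fun a b => (P ^ n) a b • r) (by ext; simp) (S.Alg_tw P) h⟩

theorem tw_wd {W : Type} [Fintype W] [DecidableEq W] (P : Matrix W W (ZMod 2)) (w : List X)
    (a b : W) : S.tw P (S.wd w) a b = (P ^ w.length) a b • S.wd w := by
  rw [tw, wd, mk', RingQuot.liftAlgHom_mkAlgHom_apply, Alg_tw]
  rfl

/-- the augmentation -/
def aug : S.R →ₐ[ZMod 2] ZMod 2 :=
  RingQuot.liftAlgHom (ZMod 2) ⟨FreeAlgebra.lift (ZMod 2) (fun _ => 0), fun _ _ h =>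
    S.Alg_rel _ (fun n _ => if n = 0 then 1 else 0) rfl Alg_aug h⟩

theorem aug_wd (w : List X) : S.aug (S.wd w) = if w = [] then 1 else 0 := by
  rw [aug, wd, mk', RingQuot.liftAlgHom_mkAlgHom_apply, Alg_aug]
  simp

theorem aug_eq_zero (r : S.R) : S.aug r = 0 ↔ r ∈ S.I 1 := by
  have h1 : ∀ r ∈ S.I 1, S.aug r = 0 := by
    intro r hr
    induction hr using Submodule.span_induction with
    | mem x hx =>
      obtain ⟨w, hw, rfl⟩ := hx
      rw [aug_wd, if_neg]
      rintro rfl
      simp at hw
    | zero => exact map_zero _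
    | add x y _ _ hx hy => rw [map_add, hx, hy, add_zero]
    | smul c x _ hx => rw [map_smul, hx, smul_zero]
  have h2 : ∀ r : S.R, r - S.aug r • 1 ∈ S.I 1 := by
    intro r
    induction r using S.induction_wd with
    | h0 => simp
    | hw w =>
      rw [aug_wd]
      split_ifs with h
      · simp [h]
      · rw [zero_smul, sub_zero]
        exact Submodule.subset_span ⟨w, List.length_pos_iff.2 h, rfl⟩
    | ha a b ha hb =>
      rw [map_add, add_smul, add_sub_add_comm]
      exact add_mem ha hb
  refine ⟨fun h => ?_, h1 r⟩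
  simpa [h] using h2 r

/-- the grading homomorphism `x ↦ x t` -/
def gr : S.R →ₐ[ZMod 2] Polynomial S.R :=
  RingQuot.liftAlgHom (ZMod 2) ⟨FreeAlgebra.lift (ZMod 2)
    (fun x => Polynomial.monomial 1 (S.wd [x])), fun _ _ h =>
      S.Alg_rel _ (fun n r => Polynomial.monomial n r) (Polynomial.monomial_zero_right _) S.Alg_gr h⟩

theorem gr_wd (w : List X) : S.gr (S.wd w) = Polynomial.monomial w.length (S.wd w) := by
  rw [gr, wd, mk', RingQuot.liftAlgHom_mkAlgHom_apply, Alg_gr]
  rfl

/-- `r` is the sum of the coefficients of `gr r`, and those of degree `< m` vanish on `I m` -/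
theorem eq_zero_of_mem_I {r : S.R} (h : ∀ m, r ∈ S.I m) : r = 0 := by
  have h1 : ∀ r : S.R, (S.gr r).eval 1 = r := by
    intro r
    induction r using S.induction_wd with
    | h0 => simp
    | hw w => simp [gr_wd]
    | ha a b ha hb => rw [map_add, Polynomial.eval_add, ha, hb]
  have h2 : ∀ (m : ℕ) (r : S.R), r ∈ S.I (m + 1) → (S.gr r).coeff m = 0 := by
    intro m r hr
    induction hr using Submodule.span_induction with
    | mem x hx =>
      obtain ⟨w, hw, rfl⟩ := hx
      rw [gr_wd, Polynomial.coeff_monomial, if_neg (by omega)]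
    | zero => simp
    | add x y _ _ hx hy => rw [map_add, Polynomial.coeff_add, hx, hy, add_zero]
    | smul c x _ hx => rw [map_smul, Polynomial.coeff_smul, hx, smul_zero]
  have h3 : S.gr r = 0 := Polynomial.ext fun m => h2 m r (h _)
  rw [← h1 r, h3, Polynomial.eval_zero]

/-- nonzero words of different lengths are different (`gr_wd`) -/
theorem infinite_I1 (h : S.Inf) : {r : S.R | r ∈ S.I 1}.Infinite := by
  intro hfin
  choose w hw hz using h
  have hdeg : ∀ n, (S.gr (S.wd (w n))).natDegree = (w n).length := fun n => by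
    rw [gr_wd, Polynomial.natDegree_monomial_eq _ (S.wd_ne_zero (hz n))]
  obtain ⟨M, hM⟩ := (hfin.image fun r => (S.gr r).natDegree).bddAbove
  have h1 := hM ⟨S.wd (w (M + 1)), Submodule.subset_span ⟨_, le_trans (by omega) (hw _), rfl⟩, rfl⟩
  have h2 := hw (M + 1)
  simp only [hdeg] at h1
  omega

end Sys

end Crest.Agent.R176
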