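import Crest.Agent.R176.Thue

/-! # R176: the algebra of a Thue system with zero -/

noncomputable section

namespace Crest.Agent.R176

set_option linter.unusedSectionVars false

abbrev FA (X : Type) := FreeAlgebra (ZMod 2) X

/-- a word as an element of the free algebra -/
def wA {X : Type} (w : List X) : FA X := (w.map (FreeAlgebra.ι (ZMod 2))).prod

@[simp] theorem wA_nil {X : Type} : wA ([] : List X) = 1 := rfl

theorem wA_cons {X : Type} (x : X) (w : List X) :
    wA (x :: w) = FreeAlgebra.ι (ZMod 2) x * wA w := by simp [wA]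

theorem wA_append {X : Type} (u v : List X) : wA (u ++ v) = wA u * wA v := by simp [wA]

/-- span of the words of length at least `m` -/
def IA (X : Type) (m : ℕ) : Submodule (ZMod 2) (FA X) :=
  Submodule.span (ZMod 2) {a | ∃ w : List X, m ≤ w.length ∧ a = wA w}

/-- the words form a basis -/
def basisW (X : Type) : Module.Basis (List X) (ZMod 2) (FA X) :=
  (FreeAlgebra.basisFreeMonoid (ZMod 2) X).reindex FreeMonoid.toList

theorem basisW_apply {X : Type} (w : List X) : basisW X w = wA w := by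
  simp [basisW, FreeAlgebra.basisFreeMonoid, FreeAlgebra.equivMonoidAlgebraFreeMonoid, wA,
    FreeMonoid.lift_apply]

theorem mem_IA_zero {X : Type} (a : FA X) : a ∈ IA X 0 := by
  have h : IA X 0 = ⊤ := by
    rw [← (basisW X).span_eq, IA]
    congr 1
    ext a
    simp [basisW_apply, eq_comm]
  rw [h]
  trivial

theorem IA_anti {X : Type} {p q : ℕ} (h : p ≤ q) : IA X q ≤ IA X p := by
  refine Submodule.span_mono ?_
  rintro _ ⟨w, hw, rfl⟩
  exact ⟨w, h.trans hw, rfl⟩

theorem IA_mul {X : Type} {p q : ℕ} {a b : FA X} (ha : a ∈ IA X p) (hb : b ∈ IA X q) :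
    a * b ∈ IA X (p + q) := by
  refine (Submodule.mul_le.1 (le_of_eq_of_le (Submodule.span_mul_span _ _ _)
    (Submodule.span_mono ?_))) a ha b hb
  rintro _ ⟨_, ⟨u, hu, rfl⟩, _, ⟨v, hv, rfl⟩, rfl⟩
  exact ⟨u ++ v, by rw [List.length_append]; omega, (wA_append u v).symm⟩

/-- induction over sums of words -/
theorem AlgA_ind {X : Type} {P : FA X → Prop} (h0 : P 0) (hw : ∀ w, P (wA w))
    (ha : ∀ a b, P a → P b → P (a + b)) (a : FA X) : P a := by
  have h := mem_IA_zero a
  induction h using Submodule.span_induction with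
  | mem x hx =>
    obtain ⟨w, -, rfl⟩ := hx
    exact hw w
  | zero => exact h0
  | add x y _ _ hx hy => exact ha x y hx hy
  | smul c x _ hx =>
    have hc : ∀ c : ZMod 2, c = 0 ∨ c = 1 := by decide
    rcases hc c with rfl | rfl
    · rwa [zero_smul]
    · rwa [one_smul]

namespace Sys

variable {X : Type} (S : Sys X)

inductive Rel : FA X → FA X → Prop
  | eqv {x y x' y' : X} (h : S.eqv x y x' y') : Rel (wA [x, y]) (wA [x', y'])
  | zer {x y : X} (h : S.zer x y) : Rel (wA [x, y]) 0

/-- the algebra -/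
abbrev R : Type := RingQuot S.Rel

def mk' : FA X →ₐ[ZMod 2] S.R := RingQuot.mkAlgHom (ZMod 2) S.Rel

def wd (w : List X) : S.R := S.mk' (wA w)

def I (m : ℕ) : Submodule (ZMod 2) S.R :=
  Submodule.span (ZMod 2) {a | ∃ w : List X, m ≤ w.length ∧ a = S.wd w}

/-- the relators -/
def rels : Set (FA X) := {ρ | ∃ a b, S.Rel a b ∧ ρ = a - b}

theorem mk'_surjective : Function.Surjective S.mk' := RingQuot.mkAlgHom_surjective _ _

@[simp] theorem wd_nil : S.wd [] = 1 := by simp [wd]

theorem wd_append (u v : List X) : S.wd (u ++ v) = S.wd u * S.wd v := by simp [wd, wA_append]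

/-- elements generated by words -/
theorem induction_wd {P : S.R → Prop} (h0 : P 0) (hw : ∀ w, P (S.wd w))
    (ha : ∀ a b, P a → P b → P (a + b)) (r : S.R) : P r := by
  obtain ⟨a, rfl⟩ := S.mk'_surjective r
  induction a using AlgA_ind with
  | h0 => rwa [map_zero]
  | hw w => exact hw w
  | ha a b h1 h2 =>
    rw [map_add]
    exact ha _ _ h1 h2

theorem AlgA_wd (u v : List X) (x y : X) :
    S.wd (u ++ x :: y :: v) = S.wd u * (S.wd [x, y] * S.wd v) := by
  rw [← wd_append, ← wd_append]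
  rfl

theorem wd_eqv {w w' : List X} (h : S.Eqv w w') : S.wd w = S.wd w' := by
  induction h with
  | rel _ _ h =>
    obtain ⟨u, v, h⟩ := h
    have := RingQuot.mkAlgHom_rel (ZMod 2) (Rel.eqv (S := S) h)
    exact (S.AlgA_wd u v _ _).trans (by rw [S.AlgA_wd, wd, wd, wd, wd, mk', this])
  | refl => rfl
  | symm _ _ _ ih => exact ih.symm
  | trans _ _ _ _ _ ih ih' => exact ih.trans ih'

theorem wd_zero {w : List X} (h : S.Zero w) : S.wd w = 0 := by
  obtain ⟨u, x, y, v, hz, e⟩ := h
  have h1 : S.wd [x, y] = 0 :=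
    (RingQuot.mkAlgHom_rel (ZMod 2) (Rel.zer (S := S) hz)).trans (map_zero _)
  rw [S.wd_eqv e, AlgA_wd, h1, zero_mul, mul_zero]

/-- invariant functions vanishing on the zero words -/
def AlgA_W : Submodule (ZMod 2) (List X → ZMod 2) where
  carrier := {f | (∀ u v, S.Eqv u v → f u = f v) ∧ ∀ u, S.Zero u → f u = 0}
  add_mem' := fun {f g} hf hg => ⟨fun u v h => by simp [hf.1 u v h, hg.1 u v h],
    fun u h => by simp [hf.2 u h, hg.2 u h]⟩
  zero_mem' := ⟨fun _ _ _ => rfl, fun _ _ => rfl⟩
  smul_mem' := fun c f hf => ⟨fun u v h => by simp [hf.1 u v h], fun u h => by simp [hf.2 u h]⟩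

/-- the shift operators -/
def AlgA_T (x : X) : Module.End (ZMod 2) S.AlgA_W where
  toFun f := ⟨fun u => f.1 (u ++ [x]), fun _ _ h => f.2.1 _ _ (h.append (Eqv.refl _)),
    fun _ h => f.2.2 _ (h.append_right _)⟩
  map_add' _ _ := rfl
  map_smul' _ _ := rfl

theorem AlgA_lift (w : List X) (f : S.AlgA_W) (u : List X) :
    (FreeAlgebra.lift (ZMod 2) S.AlgA_T (wA w) f).1 u = f.1 (u ++ w) := by
  induction w generalizing u with
  | nil => simp
  | cons x w ih =>
    rw [wA_cons, map_mul, FreeAlgebra.lift_ι_apply, Module.End.mul_apply]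
    exact (ih (u ++ [x])).trans (by simp)

/-- Recipe: the free algebra acts on `C →₀ 𝔽₂`, `C` the quotient of `List X` by `Eqv`, by
`x • [w] = [x :: w]` if `x :: w` is nonzero and `0` otherwise; the action factors through `R`
(`RingQuot.liftAlgHom`), and `wd w • [[]] = [w]` for nonzero `w`. -/
theorem wd_ne_zero {w : List X} (h : ¬ S.Zero w) : S.wd w ≠ 0 := by
  classical
  let φ : S.R →ₐ[ZMod 2] Module.End (ZMod 2) S.AlgA_W :=
    RingQuot.liftAlgHom (ZMod 2) ⟨FreeAlgebra.lift (ZMod 2) S.AlgA_T, fun a b hab => by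
      ext f u
      cases hab with
      | eqv h =>
        rw [AlgA_lift, AlgA_lift]
        exact f.2.1 _ _ (Eqv.of_eqv u [] h)
      | zer h =>
        rw [AlgA_lift, map_zero]
        exact f.2.2 _ (Zero.of_zer u [] h)⟩
  let f : S.AlgA_W := ⟨fun u => if S.Eqv u w then 1 else 0, fun u v huv => by
    simp only [show S.Eqv u w ↔ S.Eqv v w from ⟨huv.symm.trans, huv.trans⟩],
    fun u hu => if_neg fun e => h (Zero.of_eqv e.symm hu)⟩
  intro h0
  have h1 : (φ (S.wd w) f).1 [] = f.1 ([] ++ w) := by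
    rw [← AlgA_lift, wd, mk', RingQuot.liftAlgHom_mkAlgHom_apply]
  rw [h0, map_zero] at h1
  simp [f, Eqv.refl] at h1

end Sys

end Crest.Agent.R176
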