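import Crest.Agent.R176.AlgA

/-! # R176: the algebra of a Thue system with zero -/

noncomputable section

namespace Crest.Agent.R176

set_option linter.unusedSectionVars false

namespace Sys

variable {X : Type} (S : Sys X)

theorem finite_rels [Finite X] : S.rels.Finite := by
  refine ((Set.finite_range fun p : X × X × X × X =>
    wA [p.1, p.2.1] - wA [p.2.2.1, p.2.2.2]).union
      (Set.finite_range fun p : X × X => wA [p.1, p.2] - 0)).subset ?_
  rintro _ ⟨a, b, h, rfl⟩
  cases h with
  | @eqv x y x' y' h => exact Or.inl ⟨(x, y, x', y'), rfl⟩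
  | @zer x y h => exact Or.inr ⟨(x, y), rfl⟩

/-- the kernel of `mk'` (`RingQuot.mkAlgHom`; induction on `RingQuot.Rel` and `EqvGen`, or lift to
the quotient by the two-sided ideal) -/
theorem mk'_eq_zero (a : FA X) :
    S.mk' a = 0 ↔ a ∈ AddSubgroup.closure {a | ∃ u v, ∃ ρ ∈ S.rels, a = u * ρ * v} := by
  set K := AddSubgroup.closure {a : FA X | ∃ u v, ∃ ρ ∈ S.rels, a = u * ρ * v} with hK
  constructor
  · intro ha
    have hmul : ∀ (x y : FA X) {z : FA X}, z ∈ K → x * z * y ∈ K := by
      intro x y z hz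
      induction hz using AddSubgroup.closure_induction with
      | mem z hz =>
        obtain ⟨u, v, ρ, hρ, rfl⟩ := hz
        exact AddSubgroup.subset_closure ⟨x * u, v * y, ρ, hρ, by simp only [mul_assoc]⟩
      | zero => simp
      | add z z' _ _ h1 h2 =>
        rw [mul_add, add_mul]
        exact add_mem h1 h2
      | neg z _ h =>
        rw [mul_neg, neg_mul]
        exact neg_mem h
    let J : TwoSidedIdeal (FA X) := TwoSidedIdeal.mk' K K.zero_mem K.add_mem K.neg_mem
      (fun {x y} hy => by simpa using hmul x 1 hy) (fun {x y} hx => by simpa using hmul 1 y hx)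
    have hJ : ∀ z, z ∈ J ↔ z ∈ K := fun z => TwoSidedIdeal.mem_mk' _ _ _ _ _ _ z
    let φ : S.R →+* J.ringCon.Quotient := RingQuot.lift ⟨J.ringCon.mk', fun x y h => by
      refine (RingCon.eq _).2 ((J.rel_iff _ _).2 ((hJ _).2 ?_))
      exact AddSubgroup.subset_closure ⟨1, 1, _, ⟨x, y, h, rfl⟩, by simp⟩⟩
    have h1 : φ (S.mk' a) = J.ringCon.mk' a := by
      rw [← RingQuot.lift_mkRingHom_apply (r := S.Rel), ← RingQuot.mkAlgHom_coe (ZMod 2)]
      rfl
    rw [ha, map_zero, ← map_zero J.ringCon.mk'] at h1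
    exact (hJ a).1 ((J.mem_iff a).2 ((RingCon.eq _).1 h1.symm))
  · intro ha
    induction ha using AddSubgroup.closure_induction with
    | mem z hz =>
      obtain ⟨u, v, _, ⟨x, y, h, rfl⟩, rfl⟩ := hz
      have : S.mk' x = S.mk' y := RingQuot.mkAlgHom_rel (ZMod 2) h
      rw [map_mul, map_mul, map_sub, this, sub_self, mul_zero, zero_mul]
    | zero => exact map_zero _
    | add z z' _ _ h1 h2 => rw [map_add, h1, h2, add_zero]
    | neg z _ h => rw [map_neg, h, neg_zero]

/-- homogeneous version: project onto the words of length `≥ m` (`basisW`) -/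
theorem ker_deep {a : FA X} {m : ℕ} (ha : S.mk' a = 0) (hm : a ∈ IA X m) :
    a ∈ AddSubgroup.closure {a | ∃ u v : List X, ∃ ρ ∈ S.rels,
      m ≤ u.length + 2 + v.length ∧ a = wA u * ρ * wA v} := by
  let π : FA X →ₗ[ZMod 2] FA X :=
    (basisW X).constr (ZMod 2) fun w => if m ≤ w.length then wA w else 0
  have hπ : ∀ w, π (wA w) = if m ≤ w.length then wA w else 0 := fun w => by
    rw [← basisW_apply w, Module.Basis.constr_basis, basisW_apply]
  have h1 : π a = a := by
    clear ha
    induction hm using Submodule.span_induction with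
    | mem x hx =>
      obtain ⟨w, hw, rfl⟩ := hx
      rw [hπ, if_pos hw]
    | zero => exact map_zero _
    | add x y _ _ hx hy => rw [map_add, hx, hy]
    | smul c x _ hx => rw [map_smul, hx]
  rw [← h1]
  rw [mk'_eq_zero] at ha
  clear h1 hm
  induction ha using AddSubgroup.closure_induction with
  | mem z hz =>
    obtain ⟨u, v, ρ, hρ, rfl⟩ := hz
    induction u using AlgA_ind with
    | h0 => simp
    | ha u u' h1 h2 =>
      rw [add_mul, add_mul, map_add]
      exact add_mem h1 h2
    | hw u =>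
      induction v using AlgA_ind with
      | h0 => simp
      | ha v v' h1 h2 =>
        rw [mul_add, map_add]
        exact add_mem h1 h2
      | hw v =>
        have h2 : ∀ x y : X, π (wA u * wA [x, y] * wA v) =
            if m ≤ u.length + 2 + v.length then wA u * wA [x, y] * wA v else 0 := by
          intro x y
          rw [← wA_append, ← wA_append, hπ, List.length_append, List.length_append]
          rfl
        have h3 : π (wA u * ρ * wA v) =
            if m ≤ u.length + 2 + v.length then wA u * ρ * wA v else 0 := by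
          obtain ⟨p, q, h, rfl⟩ := hρ
          cases h with
          | eqv h =>
            rw [mul_sub, sub_mul, map_sub, h2, h2]
            split_ifs <;> simp
          | zer h => rw [sub_zero, h2]
        rw [h3]
        split_ifs with h
        · exact AddSubgroup.subset_closure ⟨u, v, ρ, hρ, h, rfl⟩
        · exact zero_mem _
  | zero => simp
  | add z z' _ _ h1 h2 =>
    rw [map_add]
    exact add_mem h1 h2
  | neg z _ h =>
    rw [map_neg]
    exact neg_mem h

theorem rels_mem_IA {ρ : FA X} (h : ρ ∈ S.rels) : ρ ∈ IA X 2 ∧ S.mk' ρ = 0 := by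
  have h2 : ∀ x y : X, wA [x, y] ∈ IA X 2 := fun x y =>
    Submodule.subset_span ⟨[x, y], le_rfl, rfl⟩
  obtain ⟨p, q, h, rfl⟩ := h
  have h3 : S.mk' p = S.mk' q := RingQuot.mkAlgHom_rel (ZMod 2) h
  refine ⟨?_, by rw [map_sub, h3, sub_self]⟩
  cases h with
  | eqv h => exact sub_mem (h2 _ _) (h2 _ _)
  | zer h => exact sub_mem (h2 _ _) (zero_mem _)

theorem mem_I_iff {m : ℕ} {r : S.R} : r ∈ S.I m ↔ ∃ a ∈ IA X m, S.mk' a = r := by
  have h : S.I m = (IA X m).map S.mk'.toLinearMap := by
    rw [IA, Submodule.map_span, I]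
    congr 1
    ext a
    constructor
    · rintro ⟨w, hw, rfl⟩
      exact ⟨_, ⟨w, hw, rfl⟩, rfl⟩
    · rintro ⟨_, ⟨w, hw, rfl⟩, rfl⟩
      exact ⟨w, hw, rfl⟩
  rw [h]
  rfl

theorem mem_I_zero (r : S.R) : r ∈ S.I 0 := by
  obtain ⟨a, rfl⟩ := S.mk'_surjective r
  exact S.mem_I_iff.2 ⟨a, mem_IA_zero a, rfl⟩

theorem I_anti {p q : ℕ} (h : p ≤ q) : S.I q ≤ S.I p := by
  intro r hr
  obtain ⟨a, ha, rfl⟩ := S.mem_I_iff.1 hr
  exact S.mem_I_iff.2 ⟨a, IA_anti h ha, rfl⟩

theorem I_mul {p q : ℕ} {a b : S.R} (ha : a ∈ S.I p) (hb : b ∈ S.I q) : a * b ∈ S.I (p + q) := by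
  obtain ⟨a, ha', rfl⟩ := S.mem_I_iff.1 ha
  obtain ⟨b, hb', rfl⟩ := S.mem_I_iff.1 hb
  exact S.mem_I_iff.2 ⟨a * b, IA_mul ha' hb', map_mul _ _ _⟩

end Sys

end Crest.Agent.R176
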