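import Crest.Agent.R176.AlgNilA

/-! # R176: matrices over the augmentation ideal are nilpotent; statement S0266 for a system -/

noncomputable section

namespace Crest.Agent.R176

set_option linter.unusedSectionVars false

namespace Sys

variable {X : Type} [Fintype X] (S : Sys X)

instance AlgNil_gradedMonoid : SetLike.GradedMonoid S.AlgNilA_A where
  one_mem := S.AlgNilA_one_mem
  mul_mem _ _ _ _ ha hb := S.AlgNilA_mul_mem ha hb

theorem AlgNil_of_congr {i j : ℕ} (h : i = j) {a b : S.R} (hab : a = b) (ha : a ∈ S.AlgNilA_A i)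
    (hb : b ∈ S.AlgNilA_A j) :
    DirectSum.of (fun n => S.AlgNilA_A n) i ⟨a, ha⟩ =
      DirectSum.of (fun n => S.AlgNilA_A n) j ⟨b, hb⟩ := by
  subst h hab
  rfl

/-- the decomposition on the free algebra -/
def AlgNil_dec0 : FA X →ₐ[ZMod 2] DirectSum ℕ (fun n => S.AlgNilA_A n) :=
  FreeAlgebra.lift (ZMod 2) fun x =>
    DirectSum.of (fun n => S.AlgNilA_A n) 1 ⟨S.wd [x], S.AlgNilA_wd_mem rfl⟩

theorem AlgNil_dec0_wA (w : List X) : S.AlgNil_dec0 (wA w) =
    DirectSum.of (fun n => S.AlgNilA_A n) w.length ⟨S.wd w, S.AlgNilA_wd_mem rfl⟩ := by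
  induction w with
  | nil =>
    rw [wA_nil, map_one, DirectSum.one_def]
    exact S.AlgNil_of_congr rfl S.wd_nil.symm _ _
  | cons x w ih =>
    rw [wA_cons, map_mul, ih, AlgNil_dec0, FreeAlgebra.lift_ι_apply, DirectSum.of_mul_of]
    exact S.AlgNil_of_congr (by rw [List.length_cons, add_comm]) (S.wd_append [x] w).symm _ _

/-- the decomposition -/
def AlgNil_dec : S.R →ₐ[ZMod 2] DirectSum ℕ (fun n => S.AlgNilA_A n) :=
  RingQuot.liftAlgHom (ZMod 2) ⟨S.AlgNil_dec0, by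
    rintro _ _ (h | h)
    · rw [AlgNil_dec0_wA, AlgNil_dec0_wA]
      exact S.AlgNil_of_congr rfl (S.wd_eqv (Eqv.of_eqv [] [] h)) _ _
    · rw [AlgNil_dec0_wA, map_zero]
      exact (S.AlgNil_of_congr rfl (S.wd_zero (Zero.of_zer [] [] h)) _ (zero_mem _)).trans
        (map_zero _)⟩

theorem AlgNil_dec_wd (w : List X) : S.AlgNil_dec (S.wd w) =
    DirectSum.of (fun n => S.AlgNilA_A n) w.length ⟨S.wd w, S.AlgNilA_wd_mem rfl⟩ := by
  rw [← AlgNil_dec0_wA]
  exact RingQuot.liftAlgHom_mkAlgHom_apply _ _ _ _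

theorem AlgNil_dec_of {i : ℕ} {a : S.R} (ha : a ∈ S.AlgNilA_A i) :
    S.AlgNil_dec a = DirectSum.of (fun n => S.AlgNilA_A n) i ⟨a, ha⟩ := by
  induction ha using Submodule.span_induction with
  | zero => rw [map_zero]; exact (map_zero _).symm
  | add a a' _ _ h h' => rw [map_add, h, h', ← map_add]; rfl
  | smul c a _ h => rw [map_smul, h, ← DirectSum.of_smul]; rfl
  | mem a ha =>
    obtain ⟨w, hw, rfl⟩ := ha
    rw [AlgNil_dec_wd]
    exact S.AlgNil_of_congr hw rfl _ _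

/-- the grading by length -/
@[reducible] def AlgNil_graded : GradedAlgebra S.AlgNilA_A :=
  GradedAlgebra.ofAlgHom S.AlgNilA_A S.AlgNil_dec
    (by
      refine AlgHom.ext fun r => ?_
      induction r using S.induction_wd with
      | h0 => rw [map_zero, map_zero]
      | hw w => rw [AlgHom.comp_apply, AlgNil_dec_wd, DirectSum.coeAlgHom_of]; rfl
      | ha a b ha hb => rw [map_add, map_add, ha, hb])
    (fun _ x => S.AlgNil_dec_of x.2)

theorem AlgNil_A_zero : S.AlgNilA_A 0 = 1 := by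
  rw [Submodule.one_eq_span, AlgNilA_A]
  congr 1
  ext a
  simp

theorem AlgNil_finite_rel : {p : FA X × FA X | S.Rel p.1 p.2}.Finite := by
  refine ((Set.finite_range fun q : X × X × X × X =>
    ((wA [q.1, q.2.1], wA [q.2.2.1, q.2.2.2]) : FA X × FA X)).union
    (Set.finite_range fun q : X × X => ((wA [q.1, q.2], 0) : FA X × FA X))).subset ?_
  rintro ⟨a, b⟩ h
  rcases h with @⟨x, y, x', y', -⟩ | @⟨x, y, -⟩
  · exact Or.inl ⟨(x, y, x', y'), rfl⟩
  · exact Or.inr ⟨(x, y), rfl⟩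

theorem AlgNil_presentation :
    ∃ (m : ℕ) (rel : Finset (FreeAlgebra (ZMod 2) (Fin m) × FreeAlgebra (ZMod 2) (Fin m))),
      Nonempty (S.R ≃ₐ[ZMod 2]
        RingQuot fun x y : FreeAlgebra (ZMod 2) (Fin m) => (x, y) ∈ rel) := by
  set m := Fintype.card X
  set e : X ≃ Fin m := Fintype.equivFin X
  set φ : FA X →ₐ[ZMod 2] FreeAlgebra (ZMod 2) (Fin m) :=
    FreeAlgebra.lift (ZMod 2) fun x => FreeAlgebra.ι (ZMod 2) (e x) with hφ
  set ψ : FreeAlgebra (ZMod 2) (Fin m) →ₐ[ZMod 2] FA X :=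
    FreeAlgebra.lift (ZMod 2) fun i => FreeAlgebra.ι (ZMod 2) (e.symm i) with hψ
  have h1 : ψ.comp φ = AlgHom.id _ _ := by
    ext x
    simp [hφ, hψ]
  have h2 : φ.comp ψ = AlgHom.id _ _ := by
    ext x
    simp [hφ, hψ]
  have h1' : ∀ a, ψ (φ a) = a := fun a => AlgHom.congr_fun h1 a
  have h2' : ∀ a, φ (ψ a) = a := fun a => AlgHom.congr_fun h2 a
  set rel := (S.AlgNil_finite_rel.image fun p => (φ p.1, φ p.2)).toFinset with hrel
  refine ⟨m, rel, ⟨AlgEquiv.ofAlgHom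
    (RingQuot.liftAlgHom (ZMod 2) ⟨(RingQuot.mkAlgHom (ZMod 2) _).comp φ, fun a b h => ?_⟩)
    (RingQuot.liftAlgHom (ZMod 2) ⟨S.mk'.comp ψ, fun a b h => ?_⟩) ?_ ?_⟩⟩
  · exact RingQuot.mkAlgHom_rel (ZMod 2)
      ((Set.Finite.mem_toFinset _).2 ⟨(a, b), h, rfl⟩ : (φ a, φ b) ∈ rel)
  · obtain ⟨p, hp, e⟩ := (Set.Finite.mem_toFinset _).1 h
    obtain ⟨rfl, rfl⟩ := Prod.ext_iff.1 e
    rw [AlgHom.comp_apply, AlgHom.comp_apply, h1', h1']
    exact RingQuot.mkAlgHom_rel (ZMod 2) hp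
  · refine RingQuot.ringQuot_ext' _ _ _ (AlgHom.ext fun a => ?_)
    simp only [AlgHom.comp_apply, RingQuot.liftAlgHom_mkAlgHom_apply, mk', h2', AlgHom.id_apply]
  · refine RingQuot.ringQuot_ext' _ _ _ (AlgHom.ext fun a => ?_)
    simp only [AlgHom.comp_apply, RingQuot.liftAlgHom_mkAlgHom_apply, mk', h1', AlgHom.id_apply]

/-- Recipe: `𝒜 n` = span of the words of length `n`; `GradedAlgebra.ofAlgHom` with the lift of
`x ↦ DirectSum.of 1 (wd [x])` (or the coefficients of `gr`); transport the presentation along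
`X ≃ Fin m` with `RingQuot.liftAlgHom` in both directions. -/
theorem algebra_of (h : ∀ L, S.Nil (Polynomial (ZMod 2)) L) (hinf : S.Inf) :
    ∃ (R : Type) (_ : Ring R) (_ : Algebra (ZMod 2) R) (𝒜 : ℕ → Submodule (ZMod 2) R)
      (_ : GradedAlgebra 𝒜),
      Infinite R ∧ 𝒜 0 = 1 ∧
      (∃ (m : ℕ) (rel : Finset (FreeAlgebra (ZMod 2) (Fin m) × FreeAlgebra (ZMod 2) (Fin m))),
        Nonempty (R ≃ₐ[ZMod 2] RingQuot fun x y : FreeAlgebra (ZMod 2) (Fin m) => (x, y) ∈ rel)) ∧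
      ∀ (l : ℕ) (A : Matrix (Fin l) (Fin l) R), (∀ i j, GradedRing.proj 𝒜 0 (A i j) = 0) →
        IsNilpotent A := by
  let _ := S.AlgNil_graded
  refine ⟨S.R, inferInstance, inferInstance, S.AlgNilA_A, S.AlgNil_graded,
    Set.infinite_univ_iff.1 ((S.infinite_I1 hinf).mono (Set.subset_univ _)), S.AlgNil_A_zero,
    S.AlgNil_presentation, fun l A hA => S.nil_matrix h A fun i j => ?_⟩
  have key : ∀ r : S.R, r - GradedRing.proj S.AlgNilA_A 0 r ∈ S.I 1 := by
    intro r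
    induction r using S.induction_wd with
    | h0 => rw [map_zero, sub_zero]; exact zero_mem _
    | ha a b ha hb => rw [map_add, add_sub_add_comm]; exact add_mem ha hb
    | hw w =>
      rw [GradedRing.proj_apply]
      by_cases hw : w.length = 0
      · rw [DirectSum.decompose_of_mem_same _ (S.AlgNilA_wd_mem hw), sub_self]
        exact zero_mem _
      · rw [DirectSum.decompose_of_mem_ne _ (S.AlgNilA_wd_mem rfl) hw, sub_zero]
        exact Submodule.subset_span ⟨w, Nat.one_le_iff_ne_zero.2 hw, rfl⟩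
  have := key (A i j)
  rwa [hA i j, sub_zero] at this

end Sys

end Crest.Agent.R176
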