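import Crest.Agent.R176.Alg

/-! # R176: matrices over the augmentation ideal are nilpotent; statement S0266 for a system -/

noncomputable section

namespace Crest.Agent.R176

set_option linter.unusedSectionVars false

namespace Sys

variable {X : Type} [Fintype X] (S : Sys X)

/-- the words of length `n` -/
def AlgNilA_W (X : Type) [Fintype X] (n : ℕ) : Finset (List X) :=
  (List.finite_length_eq X n).toFinset

theorem AlgNilA_mem_W {n : ℕ} {w : List X} : w ∈ AlgNilA_W X n ↔ w.length = n := by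
  simp [AlgNilA_W]

theorem AlgNilA_sum_W_succ {A : Type*} [AddCommMonoid A] (n : ℕ) (f : List X → A) :
    ∑ w ∈ AlgNilA_W X (n + 1), f w = ∑ x, ∑ w ∈ AlgNilA_W X n, f (x :: w) := by
  rw [← Finset.sum_product']
  symm
  refine Finset.sum_bij (fun p _ => p.1 :: p.2) ?_ ?_ ?_ ?_
  · intro p hp
    have := AlgNilA_mem_W.1 (Finset.mem_product.1 hp).2
    rw [AlgNilA_mem_W, List.length_cons, this]
  · intro p _ q _ h
    exact Prod.ext (List.cons.inj h).1 (List.cons.inj h).2
  · intro w hw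
    rw [AlgNilA_mem_W] at hw
    cases w with
    | nil => simp at hw
    | cons x w =>
      exact ⟨(x, w), Finset.mem_product.2 ⟨Finset.mem_univ _,
        AlgNilA_mem_W.2 (by simpa using hw)⟩, rfl⟩
  · intro p _
    rfl

theorem AlgNilA_comm (p : Polynomial (ZMod 2)) (q : Polynomial S.R) :
    p.map (algebraMap (ZMod 2) S.R) * q = q * p.map (algebraMap (ZMod 2) S.R) := by
  induction p using Polynomial.induction_on' with
  | add p p' hp hp' => rw [Polynomial.map_add, add_mul, mul_add, hp, hp']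
  | monomial n a =>
    induction q using Polynomial.induction_on' with
    | add q q' hq hq' => rw [add_mul, mul_add, hq, hq']
    | monomial m b =>
      rw [Polynomial.map_monomial, Polynomial.monomial_mul_monomial,
        Polynomial.monomial_mul_monomial, add_comm, Algebra.commutes]

theorem AlgNilA_smul_mul {ι : Type} [Fintype ι] [DecidableEq ι] (a b : Polynomial S.R)
    (A B : Matrix ι ι (Polynomial (ZMod 2))) :
    (a • (Polynomial.mapRingHom (algebraMap (ZMod 2) S.R)).mapMatrix A) *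
      (b • (Polynomial.mapRingHom (algebraMap (ZMod 2) S.R)).mapMatrix B) =
      (a * b) • (Polynomial.mapRingHom (algebraMap (ZMod 2) S.R)).mapMatrix (A * B) := by
  rw [map_mul]
  ext1 i j
  simp only [Matrix.mul_apply, Matrix.smul_apply, smul_eq_mul, RingHom.mapMatrix_apply,
    Matrix.map_apply, Polynomial.coe_mapRingHom, Finset.mul_sum]
  refine Finset.sum_congr rfl fun k _ => ?_
  rw [mul_assoc, ← mul_assoc _ b, AlgNilA_comm, mul_assoc, mul_assoc]

/-- the generic linear matrix of an automaton is nilpotent: `M ^ n = ∑_{|w| = n} wd w • μ w`,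
group the words by classes -/
theorem lin_nil (h : ∀ L, S.Nil (Polynomial (ZMod 2)) L) {ι : Type} [Fintype ι] [DecidableEq ι]
    (μ : X → Matrix ι ι (Polynomial (ZMod 2))) :
    IsNilpotent (Matrix.of fun i j => ∑ x, Polynomial.C (S.wd [x]) *
      (μ x i j).map (algebraMap (ZMod 2) S.R) : Matrix ι ι (Polynomial S.R)) := by
  classical
  set Φ := (Polynomial.mapRingHom (algebraMap (ZMod 2) S.R)).mapMatrix (m := ι) with hΦ
  have e : (Matrix.of fun i j => ∑ x, Polynomial.C (S.wd [x]) *
      (μ x i j).map (algebraMap (ZMod 2) S.R) : Matrix ι ι (Polynomial S.R)) =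
      ∑ x, Polynomial.C (S.wd [x]) • Φ (μ x) := by
    ext1 i j
    simp [Matrix.sum_apply, hΦ]
  rw [e]
  have hpow : ∀ n, (∑ x, Polynomial.C (S.wd [x]) • Φ (μ x)) ^ n =
      ∑ w ∈ AlgNilA_W X n, Polynomial.C (S.wd w) • Φ (w.map μ).prod := by
    intro n
    induction n with
    | zero =>
      have : AlgNilA_W X 0 = {[]} := by
        ext w
        simp [AlgNilA_mem_W]
      simp [this]
    | succ n ih =>
      rw [pow_succ', ih, AlgNilA_sum_W_succ, Finset.sum_mul_sum]
      refine Finset.sum_congr rfl fun x _ => Finset.sum_congr rfl fun w _ => ?_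
      rw [hΦ, AlgNilA_smul_mul, ← Polynomial.C_mul, ← wd_append, List.map_cons, List.prod_cons]
      rfl
  obtain ⟨n0, hn0⟩ := h (Fintype.card ι) ι le_rfl μ
  refine ⟨n0, ?_⟩
  rw [hpow]
  refine Finset.sum_cancels_of_partition_cancels
    ⟨S.Eqv, ⟨Eqv.refl, Eqv.symm, Eqv.trans⟩⟩ fun w0 hw0 => ?_
  rw [AlgNilA_mem_W] at hw0
  have e2 : ∀ (D : DecidablePred fun a => S.Eqv a w0),
      @Finset.filter _ (fun a => S.Eqv a w0) D (AlgNilA_W X n0) = S.cls w0 := by
    intro D
    ext w
    rw [Finset.mem_filter, mem_cls, AlgNilA_mem_W]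
    exact ⟨fun h => h.2, fun h => ⟨h.length.trans hw0, h⟩⟩
  refine (Finset.sum_congr (g := fun w => Polynomial.C (S.wd w0) • Φ (w.map μ).prod) (e2 _)
    fun w hw => by rw [S.wd_eqv (S.mem_cls.1 hw)]).trans ?_
  rw [← Finset.smul_sum, ← map_sum]
  by_cases hz : S.Zero w0
  · rw [S.wd_zero hz, map_zero, zero_smul]
  · rw [hn0 w0 hw0.ge hz, map_zero, smul_zero]

/-- the span of the words of length `n` -/
def AlgNilA_A (n : ℕ) : Submodule (ZMod 2) S.R :=
  Submodule.span (ZMod 2) {a | ∃ w : List X, w.length = n ∧ a = S.wd w}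

theorem AlgNilA_wd_mem {n : ℕ} {w : List X} (h : w.length = n) : S.wd w ∈ S.AlgNilA_A n :=
  Submodule.subset_span ⟨w, h, rfl⟩

theorem AlgNilA_mul_mem {p q : ℕ} {a b : S.R} (ha : a ∈ S.AlgNilA_A p) (hb : b ∈ S.AlgNilA_A q) :
    a * b ∈ S.AlgNilA_A (p + q) := by
  induction ha using Submodule.span_induction with
  | zero => rw [zero_mul]; exact zero_mem _
  | add a a' _ _ h h' => rw [add_mul]; exact add_mem h h'
  | smul c a _ h => rw [smul_mul_assoc]; exact Submodule.smul_mem _ c h
  | mem a ha =>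
    obtain ⟨u, hu, rfl⟩ := ha
    induction hb using Submodule.span_induction with
    | zero => rw [mul_zero]; exact zero_mem _
    | add b b' _ _ h h' => rw [mul_add]; exact add_mem h h'
    | smul c b _ h => rw [mul_smul_comm]; exact Submodule.smul_mem _ c h
    | mem b hb =>
      obtain ⟨v, hv, rfl⟩ := hb
      rw [← wd_append]
      exact S.AlgNilA_wd_mem (by rw [List.length_append, hu, hv])

theorem AlgNilA_one_mem : (1 : S.R) ∈ S.AlgNilA_A 0 := by
  rw [← S.wd_nil]
  exact S.AlgNilA_wd_mem rfl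

theorem AlgNilA_mem_one {a : S.R} (ha : a ∈ S.AlgNilA_A 1) :
    ∃ c : X → ZMod 2, ∑ x, c x • S.wd [x] = a := by
  rw [← Submodule.mem_span_range_iff_exists_fun]
  refine Submodule.span_mono ?_ ha
  rintro _ ⟨w, hw, rfl⟩
  obtain ⟨x, rfl⟩ := List.length_eq_one_iff.1 hw
  exact ⟨x, rfl⟩

theorem AlgNilA_mat_mul {p q : ℕ} {α β γ : Type} [Fintype β] {A : Matrix α β S.R}
    {B : Matrix β γ S.R} (hA : ∀ i j, A i j ∈ S.AlgNilA_A p) (hB : ∀ i j, B i j ∈ S.AlgNilA_A q)
    (i : α) (j : γ) : (A * B) i j ∈ S.AlgNilA_A (p + q) := by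
  rw [Matrix.mul_apply]
  exact Submodule.sum_mem _ fun k _ => S.AlgNilA_mul_mem (hA i k) (hB k j)

/-- linear representations -/
def AlgNilA_Rep {ι : Type} (M : Matrix ι ι S.R) : Prop :=
  ∃ (σ : Type) (_ : Fintype σ) (P : Matrix ι σ S.R) (N : Matrix σ σ S.R) (Q Z : Matrix σ ι S.R),
    (∀ i j, P i j ∈ S.AlgNilA_A 0) ∧ (∀ i j, N i j ∈ S.AlgNilA_A 1) ∧
      (∀ i j, Q i j ∈ S.AlgNilA_A 1) ∧ Z = Q + N * Z ∧ M = P * Z

theorem AlgNilA_one_apply_mem {ι : Type} [DecidableEq ι] (i j : ι) :
    (1 : Matrix ι ι S.R) i j ∈ S.AlgNilA_A 0 := by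
  rw [Matrix.one_apply]
  split_ifs
  · exact S.AlgNilA_one_mem
  · exact zero_mem _

theorem AlgNilA_rep_lin {ι : Type} [Fintype ι] [DecidableEq ι] {M : Matrix ι ι S.R}
    (hM : ∀ i j, M i j ∈ S.AlgNilA_A 1) : S.AlgNilA_Rep M :=
  ⟨ι, inferInstance, 1, 0, M, M, S.AlgNilA_one_apply_mem, fun _ _ => zero_mem _, hM, by simp,
    by simp⟩

theorem AlgNilA_rep_add {ι : Type} {M M' : Matrix ι ι S.R} (h : S.AlgNilA_Rep M)
    (h' : S.AlgNilA_Rep M') : S.AlgNilA_Rep (M + M') := by
  obtain ⟨σ, _, P, N, Q, Z, hP, hN, hQ, hZ, hM⟩ := h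
  obtain ⟨σ', _, P', N', Q', Z', hP', hN', hQ', hZ', hM'⟩ := h'
  refine ⟨σ ⊕ σ', inferInstance, Matrix.fromCols P P', Matrix.fromBlocks N 0 0 N',
    Matrix.fromRows Q Q', Matrix.fromRows Z Z', ?_, ?_, ?_, ?_, ?_⟩
  · rintro i (j | j)
    · exact hP i j
    · exact hP' i j
  · rintro (i | i) (j | j)
    · exact hN i j
    · exact zero_mem _
    · exact zero_mem _
    · exact hN' i j
  · rintro (i | i) j
    · exact hQ i j
    · exact hQ' i j
  · rw [Matrix.fromBlocks_mul_fromRows, Matrix.zero_mul, Matrix.zero_mul, add_zero, zero_add]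
    ext (i | i) j
    · exact congrFun (congrFun hZ i) j
    · exact congrFun (congrFun hZ' i) j
  · rw [Matrix.fromCols_mul_fromRows, hM, hM']

theorem AlgNilA_rep_smul {ι : Type} {M : Matrix ι ι S.R} (c : ZMod 2) (h : S.AlgNilA_Rep M) :
    S.AlgNilA_Rep (c • M) := by
  obtain ⟨σ, _, P, N, Q, Z, hP, hN, hQ, hZ, hM⟩ := h
  exact ⟨σ, inferInstance, c • P, N, Q, Z, fun i j => Submodule.smul_mem _ c (hP i j), hN, hQ, hZ,
    by rw [hM, Matrix.smul_mul]⟩

theorem AlgNilA_rep_mul {ι : Type} [Fintype ι] [DecidableEq ι] {D M : Matrix ι ι S.R}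
    (hD : ∀ i j, D i j ∈ S.AlgNilA_A 1) (h : S.AlgNilA_Rep M) : S.AlgNilA_Rep (D * M) := by
  obtain ⟨σ, _, P, N, Q, Z, hP, hN, hQ, hZ, hM⟩ := h
  refine ⟨ι ⊕ σ, inferInstance, Matrix.fromCols 1 0, Matrix.fromBlocks 0 (D * P) 0 N,
    Matrix.fromRows 0 Q, Matrix.fromRows (D * M) Z, ?_, ?_, ?_, ?_, ?_⟩
  · rintro i (j | j)
    · exact S.AlgNilA_one_apply_mem i j
    · exact zero_mem _
  · rintro (i | i) (j | j)
    · exact zero_mem _
    · exact S.AlgNilA_mat_mul hD hP i j
    · exact zero_mem _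
    · exact hN i j
  · rintro (i | i) j
    · exact zero_mem _
    · exact hQ i j
  · rw [Matrix.fromBlocks_mul_fromRows, Matrix.zero_mul, Matrix.zero_mul, zero_add, zero_add,
      Matrix.mul_assoc, ← hM]
    ext (i | i) j
    · exact (zero_add _).symm
    · exact congrFun (congrFun hZ i) j
  · rw [Matrix.fromCols_mul_fromRows, Matrix.one_mul, Matrix.zero_mul, add_zero]

theorem AlgNilA_single_mem {ι : Type} [DecidableEq ι] (i j : ι) (x : X) (a b : ι) :
    Matrix.single i j (S.wd [x]) a b ∈ S.AlgNilA_A 1 := by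
  rw [Matrix.single_apply]
  split_ifs
  · exact S.AlgNilA_wd_mem rfl
  · exact zero_mem _

theorem AlgNilA_rep {ι : Type} [Fintype ι] [DecidableEq ι] (M : Matrix ι ι S.R)
    (hM : ∀ i j, M i j ∈ S.I 1) : S.AlgNilA_Rep M := by
  have h0 : S.AlgNilA_Rep (0 : Matrix ι ι S.R) := S.AlgNilA_rep_lin fun _ _ => zero_mem _
  have hw : ∀ (i j : ι) (x : X) (w : List X),
      S.AlgNilA_Rep (Matrix.single i j (S.wd (x :: w))) := by
    intro i j x w
    induction w generalizing x with
    | nil => exact S.AlgNilA_rep_lin (S.AlgNilA_single_mem i j x)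
    | cons y w ih =>
      have := S.AlgNilA_rep_mul (S.AlgNilA_single_mem i i x) (ih y)
      rwa [Matrix.single_mul_single_same, ← wd_append] at this
  have hs : ∀ (i j : ι), ∀ r ∈ S.I 1, S.AlgNilA_Rep (Matrix.single i j r) := by
    intro i j r hr
    induction hr using Submodule.span_induction with
    | zero => rw [Matrix.single_zero]; exact h0
    | add a a' _ _ h h' => rw [Matrix.single_add]; exact S.AlgNilA_rep_add h h'
    | smul c a _ h => rw [← Matrix.smul_single]; exact S.AlgNilA_rep_smul c h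
    | mem a ha =>
      obtain ⟨w, hw1, rfl⟩ := ha
      cases w with
      | nil => simp at hw1
      | cons x w => exact hw i j x w
  rw [Matrix.matrix_eq_sum_single M]
  exact Finset.sum_induction _ _ (fun _ _ => S.AlgNilA_rep_add) h0 fun i _ =>
    Finset.sum_induction _ _ (fun _ _ => S.AlgNilA_rep_add) h0 fun j _ => hs i j _ (hM i j)

theorem AlgNilA_generic {R ι σ : Type} [Ring R] [Fintype ι] [DecidableEq ι] [Fintype σ]
    [DecidableEq σ] (P : Matrix ι σ R) (N : Matrix σ σ R) (Q Z : Matrix σ ι R) (M : Matrix ι ι R)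
    (hZ : Z = Q + N * Z) (hM : M = P * Z)
    (hnil : IsNilpotent (N.map Polynomial.C +
      (Polynomial.X : Polynomial R) • (Q * P).map Polynomial.C)) : IsNilpotent M := by
  set c : R →+* Polynomial R := Polynomial.C with hc
  obtain ⟨V, hV⟩ := (IsNilpotent.isUnit_one_sub (R := Matrix σ σ (Polynomial R))
    hnil).exists_left_inv
  have hZc : Z.map c = Q.map c + N.map c * Z.map c := by
    rw [← Matrix.map_mul, ← Matrix.map_add _ (map_add c), ← hZ]
  have hMc : M.map c = P.map c * Z.map c := by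
    rw [← Matrix.map_mul, ← hM]
  have h1 : (1 - (N.map c + (Polynomial.X : Polynomial R) • (Q * P).map c)) * Z.map c =
      Q.map c - (Polynomial.X : Polynomial R) • (Q.map c * M.map c) := by
    rw [Matrix.sub_mul, Matrix.add_mul, Matrix.one_mul, Matrix.smul_mul, Matrix.map_mul,
      Matrix.mul_assoc, ← hMc]
    conv_lhs => enter [1]; rw [hZc]
    abel
  have hX : ∀ {α β γ : Type} [Fintype β] (A : Matrix α β (Polynomial R))
      (B : Matrix β γ (Polynomial R)),
      A * ((Polynomial.X : Polynomial R) • B) = (Polynomial.X : Polynomial R) • (A * B) := by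
    intro α β γ _ A B
    ext1 i j
    simp only [Matrix.mul_apply, Matrix.smul_apply, smul_eq_mul, Finset.mul_sum]
    refine Finset.sum_congr rfl fun k _ => ?_
    rw [← mul_assoc, ← Polynomial.X_mul, mul_assoc]
  obtain ⟨B, hB⟩ : ∃ B, B = P.map c * (V * Q.map c) := ⟨_, rfl⟩
  have h2 : B = M.map c + (Polynomial.X : Polynomial R) • (B * M.map c) := by
    have h3 : Z.map c = V * Q.map c -
        (Polynomial.X : Polynomial R) • (V * Q.map c * M.map c) := by
      rw [Matrix.mul_assoc, ← hX, ← Matrix.mul_sub, ← h1, ← Matrix.mul_assoc, hV, Matrix.one_mul]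
    have h5 : P.map c * Z.map c = B - (Polynomial.X : Polynomial R) • (B * M.map c) := by
      rw [h3, Matrix.mul_sub, hX, ← Matrix.mul_assoc (P.map c) (V * Q.map c), ← hB]
    rw [← hMc] at h5
    exact (sub_eq_iff_eq_add.1 h5.symm)
  have h4 : ∀ n i j, (B i j).coeff n = (M ^ (n + 1)) i j := by
    intro n
    induction n with
    | zero =>
      intro i j
      rw [congrFun (congrFun h2 i) j]
      simp [hc]
    | succ n ih =>
      intro i j
      rw [congrFun (congrFun h2 i) j, pow_succ M (n + 1), Matrix.mul_apply]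
      simp only [Matrix.add_apply, Matrix.map_apply, Matrix.smul_apply, smul_eq_mul, hc,
        Polynomial.coeff_add, Polynomial.coeff_C_succ, zero_add, Polynomial.coeff_X_mul,
        Matrix.mul_apply (M := B), Polynomial.finsetSum_coeff, Polynomial.coeff_mul_C, ih]
  refine ⟨(Finset.univ.sup fun p : ι × ι => (B p.1 p.2).natDegree) + 1 + 1, ?_⟩
  ext i j
  rw [← h4, Matrix.zero_apply]
  exact Polynomial.coeff_eq_zero_of_natDegree_lt (Nat.lt_succ_of_le
    (Finset.le_sup (f := fun p : ι × ι => (B p.1 p.2).natDegree) (Finset.mem_univ (i, j))))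

/-- Recipe (Higman linearisation).  Write `M i j = ∑_{1 ≤ |w| ≤ d} c i j w • wd w`.  States
`(i, u)`, `|u| < d`; the letter `x` leads from `(i,u)` to `(i, u ++ [x])` with weight `1` (if
`|u| + 1 < d`) and to `(j, [])` with weight `t * c i j (u ++ [x])`.  Let `N` be the matrix of
`lin_nil` and `Vm = (1 - N)⁻¹`; `Vm = 1 + N * Vm`; downward induction on `|u|` shows that the block
`B` of `Vm` on the states `(i, [])` satisfies `B = 1 + t M B`; so the coefficient of `t^n` in `B`
is `M ^ n`, which vanishes for large `n`. -/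
theorem nil_matrix (h : ∀ L, S.Nil (Polynomial (ZMod 2)) L) {ι : Type} [Fintype ι]
    [DecidableEq ι] (M : Matrix ι ι S.R) (hM : ∀ i j, M i j ∈ S.I 1) : IsNilpotent M := by
  classical
  obtain ⟨σ, _, P, N, Q, Z, hP, hN, hQ, hZ, hM'⟩ := S.AlgNilA_rep M hM
  choose a ha using fun i j => S.AlgNilA_mem_one (hN i j)
  choose b hb using fun i j => S.AlgNilA_mem_one (S.AlgNilA_mat_mul hQ hP i j)
  have hnil := S.lin_nil h (ι := σ)
    (fun x => Matrix.of fun i j => Polynomial.C (a i j x) + Polynomial.X * Polynomial.C (b i j x))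
  set c : S.R →+* Polynomial S.R := Polynomial.C with hc
  have e : (Matrix.of fun i j => ∑ x, c (S.wd [x]) *
      ((Matrix.of fun i j => Polynomial.C (a i j x) + Polynomial.X * Polynomial.C (b i j x) :
        Matrix σ σ (Polynomial (ZMod 2))) i j).map (algebraMap (ZMod 2) S.R) :
        Matrix σ σ (Polynomial S.R)) =
      N.map c + (Polynomial.X : Polynomial S.R) • (Q * P).map c := by
    ext1 i j
    simp only [Matrix.of_apply, Matrix.add_apply, Matrix.map_apply, Matrix.smul_apply,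
      smul_eq_mul, ← ha, ← hb, map_sum, Finset.mul_sum, ← Finset.sum_add_distrib,
      Polynomial.map_add, Polynomial.map_mul, Polynomial.map_C, Polynomial.map_X]
    refine Finset.sum_congr rfl fun x _ => ?_
    rw [Algebra.smul_def, Algebra.smul_def, Algebra.commutes, Algebra.commutes, map_mul, map_mul,
      mul_add, ← mul_assoc, ← mul_assoc, hc, ← Polynomial.X_mul_C]
  rw [e] at hnil
  exact AlgNilA_generic P N Q Z M hZ hM' hnil

end Sys

end Crest.Agent.R176
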