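import Mathlib

/-! # R176: the Capelli identity in characteristic two -/

namespace Crest.Agent.R176

/-- Recipe: the left side is an alternating multilinear map of `v : F → V` (multilinear: the
product of a list of linear maps and constants; it vanishes when `v i = v j`, `i ≠ j`, by the
involution `σ ↦ swap i j * σ`, `Finset.sum_involution`); `Module.Basis.ext_alternating`: there is
no injection `F → κ`. -/
theorem capelli {𝕜 A V κ : Type} [CommRing 𝕜] [CharP 𝕜 2] [Ring A] [Algebra 𝕜 A]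
    [AddCommGroup V] [Module 𝕜 V] [Fintype κ] (bV : Module.Basis κ 𝕜 V) {T : ℕ}
    (F : Finset (Fin T)) (hF : Fintype.card κ < F.card) (g : Fin T → V →ₗ[𝕜] A) (c : Fin T → A)
    (v : F → V) :
    ∑ σ : Equiv.Perm F,
      (List.ofFn fun j => if h : j ∈ F then g j (v (σ ⟨j, h⟩)) else c j).prod = 0 := by
  classical
  let m : MultilinearMap 𝕜 (fun _ : F => V) A :=
    ((MultilinearMap.mkPiAlgebraFin 𝕜 T A).domDomRestrict (fun j => j ∈ F)
      (fun j => c j)).compLinearMap fun j => g j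
  have h0 : MultilinearMap.alternatization m = 0 := by
    refine bV.ext_alternating fun w hw => ?_
    have := Fintype.card_le_of_injective w hw
    rw [Fintype.card_coe] at this
    omega
  have h2 : ∀ x : A, -x = x := fun x => by
    have h : (2 : 𝕜) = 0 := CharTwo.two_eq_zero
    rw [neg_eq_iff_add_eq_zero, ← two_smul 𝕜 x, h, zero_smul]
  have h1 := congrArg (fun f => f v) h0
  simp only [MultilinearMap.alternatization_apply, AlternatingMap.zero_apply] at h1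
  rw [← h1]
  refine Finset.sum_congr rfl fun σ _ => ?_
  have h3 : ∀ x : A, Equiv.Perm.sign σ • x = x := fun x => by
    rcases Int.units_eq_one_or (Equiv.Perm.sign σ) with h | h <;> rw [h]
    · exact one_smul _ _
    · rw [Units.neg_smul, one_smul, h2]
  rw [h3]
  rfl

theorem sum_eq_zero_of_orbits {α M : Type*} [AddCommMonoid M] (s : Finset α) (f : α → M)
    (O : α → Finset α) (h1 : ∀ w ∈ s, w ∈ O w) (h2 : ∀ w ∈ s, O w ⊆ s)
    (h3 : ∀ w ∈ s, ∀ w' ∈ O w, O w' = O w) (h4 : ∀ w ∈ s, ∑ w' ∈ O w, f w' = 0) :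
    ∑ w ∈ s, f w = 0 := by
  classical
  rw [← Finset.sum_fiberwise_of_maps_to (g := O) (t := s.image O)
    fun w hw => Finset.mem_image_of_mem O hw]
  refine Finset.sum_eq_zero fun t ht => ?_
  obtain ⟨w, hw, rfl⟩ := Finset.mem_image.1 ht
  rw [← h4 w hw]
  refine Finset.sum_congr ?_ fun _ _ => rfl
  ext w'
  rw [Finset.mem_filter]
  exact ⟨fun h => h.2 ▸ h1 w' h.1, fun h => ⟨h2 w hw h, h3 w hw w' h⟩⟩

theorem Alt_big (M b : ℕ) (hb : M + 6 ≤ b) : M * 2 ^ (7 * b) + 2 < 2 ^ 2 ^ b := by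
  have h1 : ∀ n, 8 * (n + 6) ≤ 2 ^ (n + 6) := fun n => by
    induction n with
    | zero => norm_num
    | succ n ih => rw [show n + 1 + 6 = n + 6 + 1 by ring, pow_succ]; omega
  have h2 : 8 * b ≤ 2 ^ b := by
    have := h1 (b - 6)
    rwa [show b - 6 + 6 = b by omega] at this
  have h3 : b < 2 ^ b := Nat.lt_two_pow_self
  have h4 : 1 ≤ 2 ^ (7 * b) := Nat.one_le_two_pow
  calc M * 2 ^ (7 * b) + 2 ≤ (M + 2) * 2 ^ (7 * b) := by nlinarith
    _ < 2 ^ b * 2 ^ (7 * b) := Nat.mul_lt_mul_of_pos_right (by omega) h4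
    _ = 2 ^ (8 * b) := by ring
    _ ≤ 2 ^ 2 ^ b := Nat.pow_le_pow_right (by norm_num) h2

/-- the numerical input: along the tower `b ↦ 2 ^ b` the Capelli condition is eventually met -/
theorem tower (P : ℕ → ℕ → Prop) (c : ℕ)
    (hstep : ∀ b L, 1 ≤ b → P (2 ^ b) (L * (c * 2 ^ 2 ^ b * 2 ^ 2 ^ b)) → P b L)
    (hkill : ∀ b L, 1 ≤ b → L ^ 2 * (c * 2 ^ b) + 2 < 2 ^ 2 ^ b → P b L) :
    ∃ b, 1 ≤ b ∧ ∀ L, P b L := by
  refine ⟨c + 6, by omega, fun N => ?_⟩
  have key : ∀ m b, c + 6 ≤ b → N ^ 2 * c + 6 ≤ b + m → ∀ L ≤ N * 2 ^ (3 * b), P b L := by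
    intro m
    induction m with
    | zero =>
      intro b hb hm L hL
      refine hkill b L (by omega) (lt_of_le_of_lt ?_ (Alt_big (N ^ 2 * c) b hm))
      have h1 : L ^ 2 * (c * 2 ^ b) ≤ (N * 2 ^ (3 * b)) ^ 2 * (c * 2 ^ b) :=
        Nat.mul_le_mul_right _ (Nat.pow_le_pow_left hL 2)
      have h2 : (N * 2 ^ (3 * b)) ^ 2 * (c * 2 ^ b) = N ^ 2 * c * 2 ^ (7 * b) := by ring
      omega
    | succ m ih =>
      intro b hb hm L hL
      have h1 : b < 2 ^ b := Nat.lt_two_pow_self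
      refine hstep b L (by omega) (ih _ (by omega) (by omega) _ ?_)
      have h2 := Alt_big c b hb
      have h3 : c * 2 ^ (3 * b) ≤ c * 2 ^ (7 * b) :=
        Nat.mul_le_mul_left _ (Nat.pow_le_pow_right (by norm_num) (by omega))
      calc L * (c * 2 ^ 2 ^ b * 2 ^ 2 ^ b)
          ≤ N * 2 ^ (3 * b) * (c * 2 ^ 2 ^ b * 2 ^ 2 ^ b) := Nat.mul_le_mul_right _ hL
        _ = N * (c * 2 ^ (3 * b)) * (2 ^ 2 ^ b * 2 ^ 2 ^ b) := by ring
        _ ≤ N * 2 ^ 2 ^ b * (2 ^ 2 ^ b * 2 ^ 2 ^ b) :=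
          Nat.mul_le_mul_right _ (Nat.mul_le_mul_left _ (by omega))
        _ = N * 2 ^ (3 * 2 ^ b) := by rw [mul_comm 3, pow_mul]; ring
  exact key (N ^ 2 * c + 6) _ le_rfl (by omega) N
    (Nat.le_mul_of_pos_right _ (by positivity))

end Crest.Agent.R176
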