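import Crest.Agent.R176.LocalA

/-! # R176: locality — elements of `K₂` die in large cyclic covers -/

noncomputable section

namespace Crest.Agent.R176

open scoped commutatorElement

set_option linter.unusedSectionVars false

namespace Sys

open St

variable {X : Type} (S : Sys X) {V : Type} [Fintype V] [DecidableEq V]

section aux
variable {R : Type} [Ring R]

theorem Local_split {G : Type*} [Monoid G] (f g : ℕ → G) (D : ℕ)
    (h : ∀ k l, k < l → l < D → Commute (g k) (f l)) :
    ((List.range D).map fun k => f k * g k).prod =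
      ((List.range D).map f).prod * ((List.range D).map g).prod := by
  induction D with
  | zero => simp
  | succ D ih =>
    have hc : Commute ((List.range D).map g).prod (f D) := by
      refine Commute.list_prod_left _ _ ?_
      intro y hy
      obtain ⟨k, hk, rfl⟩ := List.mem_map.1 hy
      exact h k D (List.mem_range.1 hk) (Nat.lt_succ_self _)
    simp only [List.range_succ, List.map_append, List.prod_append, List.map_cons, List.map_nil,
      List.prod_cons, List.prod_nil, mul_one]
    rw [ih fun k l hk hl => h k l hk (Nat.lt_succ_of_lt hl)]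
    calc _ = ((List.range D).map f).prod * (((List.range D).map g).prod * f D) * g D := by
          simp only [mul_assoc]
      _ = _ := by rw [hc.eq]; simp only [mul_assoc]

theorem Local_mem_rk {W : Type} (i j : V) (h : i ≠ j) {y : St (V × W) R}
    (hy : y ∈ Ug R (fun p q : V × W => p.1 = i ∧ q.1 = j)) :
    y ∈ Ug R (fun p q : V × W =>
      (if q.1 = i then (1 : ℕ) else 0) < (if p.1 = i then (1 : ℕ) else 0)) := by
  refine Ug_mono (fun a b hab => ?_) hy
  rw [hab.1, hab.2]
  simp [h.symm]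

theorem Local_relabel_blkX {W W' : Type} [Fintype W] [DecidableEq W] [Fintype W'] [DecidableEq W']
    (e : W ↪ W') (i j : V) (h : i ≠ j) (M : Matrix W W R) (M' : Matrix W' W' R)
    (h1 : ∀ a b, M' (e a) (e b) = M a b)
    (h2 : ∀ a b, a ∉ Set.range e ∨ b ∉ Set.range e → M' a b = 0) :
    relabel ((Function.Embedding.refl V).prodMap e) (blkX i j M) = blkX i j M' := by
  refine Ug_ext (fun p : V × W' => if p.1 = i then (1 : ℕ) else 0)
    (Local_mem_rk i j h (relabel_mem_Ug _ (fun a b hab => hab) (blkX_mem_Ug i j M)))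
    (Local_mem_rk i j h (blkX_mem_Ug i j M')) ?_
  ext p q
  by_cases hp : p.2 ∈ Set.range e
  · by_cases hq : q.2 ∈ Set.range e
    · obtain ⟨a, ha⟩ := hp
      obtain ⟨b, hb⟩ := hq
      have hp' : p = ((Function.Embedding.refl V).prodMap e) (p.1, a) := Prod.ext rfl ha.symm
      have hq' : q = ((Function.Embedding.refl V).prodMap e) (q.1, b) := Prod.ext rfl hb.symm
      rw [pm_blkX i j h, ← ha, ← hb, h1]
      conv_lhs => rw [hp', hq']
      rw [pm_relabel_apply, pm_blkX i j h]
      congr 1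
      have : ((p.1, a) = (q.1, b)) ↔ p = q := by
        rw [hp', hq']
        exact (((Function.Embedding.refl V).prodMap e).injective.eq_iff).symm
      simp only [this]
    · rw [pm_relabel_out, pm_blkX i j h, h2 _ _ (Or.inr hq)]
      · simp
      · right
        rintro ⟨c, rfl⟩
        exact hq ⟨c.2, rfl⟩
  · rw [pm_relabel_out, pm_blkX i j h, h2 _ _ (Or.inl hp)]
    · simp
    · left
      rintro ⟨c, rfl⟩
      exact hp ⟨c.2, rfl⟩

open Classical in
/-- masked shift matrix -/
def Local_E (N : ℕ) (A : ℕ → Prop) (d : ℕ) (r : R) : Matrix (ZMod N) (ZMod N) R :=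
  fun a b => if A a.val ∧ b = a + (d : ZMod N) then r else 0

theorem Local_E_mem (N : ℕ) [NeZero N] (A : ℕ → Prop) (d : ℕ) (r : R) (i j : V) (h : i ≠ j) :
    blkX i j (Local_E N A d r) ∈
      Ug R (fun p q : V × ZMod N => A p.2.val ∧ q.2 = p.2 + (d : ZMod N)) := by
  rw [blkX, dif_neg h]
  refine rect_mem _ _ _ _ _ fun a b => ?_
  unfold Local_E
  split_ifs with hab
  · exact x_mem_Ug (by exact hab) _
  · simp

theorem Local_E_add (N : ℕ) (A B C : ℕ → Prop) (d : ℕ) (r : R)
    (h : ∀ n, n < N → (A n ↔ B n ∨ C n)) (h' : ∀ n, n < N → B n → ¬ C n) [NeZero N] :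
    Local_E N A d r = Local_E N B d r + Local_E N C d r := by
  ext a b
  have h1 := h _ (ZMod.val_lt a)
  have h2 := h' _ (ZMod.val_lt a)
  simp only [Local_E, Matrix.add_apply]
  by_cases hb : b = a + (d : ZMod N) <;> by_cases hB : B a.val <;> by_cases hC : C a.val <;>
    simp_all

theorem Local_val_add (N : ℕ) [NeZero N] (a : ZMod N) (d : ℕ) (hd : d ≤ N) :
    (a + (d : ZMod N)).val = if a.val + d < N then a.val + d else a.val + d - N := by
  have ha := ZMod.val_lt a
  have : a + (d : ZMod N) = ((a.val + d : ℕ) : ZMod N) := by simp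
  rw [this, ZMod.val_natCast]
  split_ifs with h
  · exact Nat.mod_eq_of_lt h
  · rw [Nat.mod_eq_sub_mod (by omega), Nat.mod_eq_of_lt (by omega)]

/-- the product over a family of masks -/
def Local_Y (N : ℕ) [NeZero N] (D : ℕ) (i j : ℕ → V) (d : ℕ → ℕ) (r : ℕ → R)
    (A : ℕ → ℕ → Prop) : St (V × ZMod N) R :=
  ((List.range D).map fun k => blkX (i k) (j k) (Local_E N (A k) (d k) (r k))).prod

theorem Local_Y_split (N : ℕ) [NeZero N] (D : ℕ) (i j : ℕ → V) (d : ℕ → ℕ) (r : ℕ → R)
    (hij : ∀ k, k < D → i k ≠ j k) (hd : ∀ k, k < D → d k ≤ N) (A B C : ℕ → ℕ → Prop)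
    (h : ∀ k, k < D → ∀ n, n < N → (A k n ↔ B k n ∨ C k n))
    (h' : ∀ k, k < D → ∀ n, n < N → B k n → ¬ C k n)
    (hc : ∀ k l, k < l → l < D → ∀ m n, m < N → n < N → C k m → B l n →
      (if m + d k < N then m + d k else m + d k - N) ≠ n ∧
        m ≠ (if n + d l < N then n + d l else n + d l - N)) :
    Local_Y N D i j d r A = Local_Y N D i j d r B * Local_Y N D i j d r C := by
  unfold Local_Y
  rw [← Local_split]
  · congr 1
    refine List.map_congr_left fun k hk => ?_
    have hk := List.mem_range.1 hk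
    rw [Local_E_add N (A k) (B k) (C k) _ _ (h k hk) (h' k hk), blkX_add _ _ _ _ (hij k hk)]
  · intro k l hkl hl
    refine Ug_commute ?_ (Local_E_mem N _ _ _ _ _ (hij k (hkl.trans hl)))
      (Local_E_mem N _ _ _ _ _ (hij l hl))
    rintro a b c e ⟨h1, h2⟩ ⟨h3, h4⟩
    obtain ⟨h5, h6⟩ := hc k l hkl hl _ _ (ZMod.val_lt a.2) (ZMod.val_lt c.2) h1 h3
    rw [← Local_val_add N _ _ (hd k (hkl.trans hl)), ← h2] at h5
    rw [← Local_val_add N _ _ (hd l hl), ← h4] at h6
    exact ⟨fun hh => h5 (by rw [hh]), fun hh => h6 (by rw [hh])⟩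

theorem Local_Y_congr (N : ℕ) [NeZero N] (D : ℕ) (i j : ℕ → V) (d : ℕ → ℕ) (r : ℕ → R)
    (A B : ℕ → ℕ → Prop) (h : ∀ k, k < D → ∀ n, n < N → (A k n ↔ B k n)) :
    Local_Y N D i j d r A = Local_Y N D i j d r B := by
  unfold Local_Y
  congr 1
  refine List.map_congr_left fun k hk => ?_
  have hk := List.mem_range.1 hk
  congr 1
  have h1 : ∀ a : ZMod N, A k a.val ↔ B k a.val := fun a => h k hk _ (ZMod.val_lt a)
  ext a b
  unfold Local_E
  by_cases hb : b = a + (d k : ZMod N) <;> by_cases hB : B k a.val <;> simp [h1, hb, hB]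

/-- the window embedding -/
def Local_win (N : ℕ) [NeZero N] (a M : ℕ) (hM : M ≤ N) : Fin M ↪ ZMod N :=
  ⟨fun t => ((a + t.val : ℕ) : ZMod N), fun s t hst => by
    have h1 : ((s.val : ℕ) : ZMod N) = ((t.val : ℕ) : ZMod N) := by
      simpa using hst
    have := congrArg ZMod.val h1
    rw [ZMod.val_natCast_of_lt (by omega), ZMod.val_natCast_of_lt (by omega)] at this
    exact Fin.ext this⟩

theorem Local_win_val (N : ℕ) [NeZero N] (a M : ℕ) (hM : M ≤ N) (ha : a ≤ N) (t : Fin M) :
    (Local_win N a M hM t).val = if a + t.val < N then a + t.val else a + t.val - N := by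
  have := t.2
  show (((a + t.val : ℕ) : ZMod N)).val = _
  rw [ZMod.val_natCast]
  split_ifs with h
  · exact Nat.mod_eq_of_lt h
  · rw [Nat.mod_eq_sub_mod (by omega), Nat.mod_eq_of_lt (by omega)]

theorem Local_win_range (N : ℕ) [NeZero N] (a M : ℕ) (hM : M ≤ N) (ha : a ≤ N) (b : ZMod N)
    (hb : (a ≤ b.val ∧ b.val - a < M) ∨ (b.val < a ∧ b.val + N - a < M)) :
    b ∈ Set.range (Local_win N a M hM) := by
  have hb' := ZMod.val_lt b
  rcases hb with ⟨h1, h2⟩ | ⟨h1, h2⟩
  · refine ⟨⟨b.val - a, h2⟩, ZMod.val_injective _ ?_⟩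
    rw [Local_win_val N a M hM ha]
    dsimp only
    split_ifs <;> omega
  · refine ⟨⟨b.val + N - a, h2⟩, ZMod.val_injective _ ?_⟩
    rw [Local_win_val N a M hM ha]
    dsimp only
    split_ifs <;> omega

theorem Local_shf_pow (M d : ℕ) (hd : d ≤ 1) (s t : Fin M) :
    (shf M ^ d) s t = if t.val = s.val + d then 1 else 0 := by
  obtain rfl | rfl : d = 0 ∨ d = 1 := by omega
  · simp only [pow_zero, Matrix.one_apply, add_zero, Fin.ext_iff, eq_comm]
  · simp [shf]

theorem Local_cyc_pow (N d : ℕ) [NeZero N] (hd : d ≤ 1) (s t : ZMod N) :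
    (cyc N ^ d) s t = if t = s + (d : ZMod N) then 1 else 0 := by
  obtain rfl | rfl : d = 0 ∨ d = 1 := by omega
  · simp only [pow_zero, Matrix.one_apply, Nat.cast_zero, add_zero, eq_comm]
  · simp [cyc]

end aux

theorem Local_FN (N : ℕ) [NeZero N] (D : ℕ) (i j : ℕ → V) (w : ℕ → List X)
    (hw : ∀ k, k < D → (w k).length ≤ 1) :
    S.FN N ((List.range D).map fun k => x (i k) (j k) (S.wd (w k))).prod =
      Local_Y N D i j (fun k => (w k).length) (fun k => S.wd (w k)) (fun _ _ => True) := by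
  rw [map_list_prod, List.map_map, Local_Y]
  congr 1
  refine List.map_congr_left fun k hk => ?_
  have hk := List.mem_range.1 hk
  simp only [Function.comp, FN, MonoidHom.comp_apply, map_x, blk_x]
  congr 1
  ext a b
  refine (S.tw_wd _ _ a b).trans ?_
  rw [Local_cyc_pow N _ (hw k hk), Local_E]
  split_ifs <;> simp_all

theorem Local_TH (N : ℕ) [NeZero N] (D : ℕ) (i j : ℕ → V) (w : ℕ → List X)
    (hij : ∀ k, k < D → i k ≠ j k) (hw : ∀ k, k < D → (w k).length ≤ 1)
    (a M : ℕ) (hM : M ≤ N) (ha : a ≤ N) :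
    relabel ((Function.Embedding.refl V).prodMap (Local_win N a M hM))
      (S.TH M ((List.range D).map fun k => x (i k) (j k) (S.wd (w k))).prod) =
      Local_Y N D i j (fun k => (w k).length) (fun k => S.wd (w k))
        (fun k n => (a ≤ n ∧ n - a + (w k).length < M) ∨ (n < a ∧ n + N - a + (w k).length < M)) := by
  rw [map_list_prod, map_list_prod, List.map_map, List.map_map, Local_Y]
  congr 1
  refine List.map_congr_left fun k hk => ?_
  have hk := List.mem_range.1 hk
  have hwk := hw k hk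
  have hN : 1 ≤ N := Nat.one_le_iff_ne_zero.2 (NeZero.ne N)
  simp only [Function.comp, TH, MonoidHom.comp_apply, map_x, blk_x]
  refine Local_relabel_blkX _ _ _ (hij k hk) _ _ (fun s t => ?_) (fun s t hst => ?_)
  · refine Eq.trans ?_ (S.tw_wd _ _ s t).symm
    rw [Local_shf_pow M _ hwk, Local_E]
    have hs := s.2
    have ht := t.2
    have key : (((a ≤ (Local_win N a M hM s).val ∧
        (Local_win N a M hM s).val - a + (w k).length < M) ∨
        ((Local_win N a M hM s).val < a ∧
          (Local_win N a M hM s).val + N - a + (w k).length < M)) ∧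
        Local_win N a M hM t = Local_win N a M hM s + ((w k).length : ZMod N)) ↔
        t.val = s.val + (w k).length := by
      rw [← (ZMod.val_injective N).eq_iff, Local_val_add N _ _ (by omega),
        Local_win_val N a M hM ha, Local_win_val N a M hM ha]
      split_ifs <;> omega
    simp only [key]
    split_ifs <;> simp
  · rw [Local_E, if_neg]
    rintro ⟨h1, h2⟩
    have hs := ZMod.val_lt s
    rcases hst with hst | hst
    · exact hst (Local_win_range N a M hM ha s (by omega))
    · refine hst (Local_win_range N a M hM ha t ?_)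
      rw [h2, Local_val_add N _ _ (by omega)]
      split_ifs <;> omega

/-- **Locality.**  Recipe.  Write `z = g_0 ⋯ g_(D-1)`, `g_k = x i_k j_k (wd w_k)`, `d_k = |w_k| ≤ 1`;
`y k α = x (i_k, α) (j_k, α + d_k) (wd w_k)`; for a family `A k` of finsets of `ZMod N` put
`Y A = ∏_k ∏_{α ∈ A k} y k α`.  `FN N z = Y univ`; for a window `[a, a+M)`, `M ≤ N`,
`Y (k ↦ [a, a+M-d_k)) = relabel _ (TH M z) = 1`.  Splitting lemma: `Y (A ⊔ B) = Y A * Y B` if
`y k α` commutes with `y l β` for `k < l`, `α ∈ B k`, `β ∈ A l`.  Let `C k = [-k-1, k)` (cone) and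
let `A⁰` be `A` without the edges `α = -1`, `d_k = 1`.  If `C ⊆ A` then `Y A = Y (A \ C) * Y C` and
`Y A⁰ = Y (A \ C) * Y C⁰`.  For the window `[-D-1, D+1)`, `A⁰` splits into the windows
`[-D-1, 0)`, `[0, D+1)`, so `Y C = Y C⁰`; for `A = univ`, `A⁰` is the window `[0, N)`. -/
theorem locality (hV : 3 ≤ Fintype.card V) {z : St V S.R} (h1 : map S.aug.toRingHom z = 1)
    (h2 : pm z = 1) : ∃ N0, ∀ (N : ℕ) [NeZero N], N0 ≤ N → S.FN N z = 1 := by
  obtain ⟨l, hl, hz⟩ := S.exists_word hV z
  obtain ⟨v⟩ : Nonempty V := Fintype.card_pos_iff.1 (by omega)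
  set D := l.length with hD
  let p : ℕ → V × V × List X := fun k => l.getD k (v, v, [])
  have hp : ∀ k, k < D → p k ∈ l := fun k hk => by
    simp only [p, List.getD_eq_getElem _ _ hk]
    exact List.getElem_mem _
  have hz' : z = ((List.range D).map fun k => x (p k).1 (p k).2.1 (S.wd (p k).2.2)).prod := by
    rw [hz]
    congr 1
    refine List.ext_getElem (by simp [hD]) fun k h1 h2 => ?_
    have hk : k < l.length := by simpa using h1
    simp only [List.getElem_map, List.getElem_range, p, List.getD_eq_getElem _ _ hk]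
  have hij : ∀ k, k < D → (p k).1 ≠ (p k).2.1 := fun k hk => (hl _ (hp k hk)).1
  have hw : ∀ k, k < D → (p k).2.2.length ≤ 1 := fun k hk => (hl _ (hp k hk)).2
  refine ⟨2 * D + 2, fun N _ hN => ?_⟩
  set Y := Local_Y N D (fun k => (p k).1) (fun k => (p k).2.1) (fun k => (p k).2.2.length)
    (fun k => S.wd (p k).2.2) with hY
  set d : ℕ → ℕ := fun k => (p k).2.2.length with hd
  have hwin : ∀ a M, M ≤ N → a ≤ N →
      Y (fun k n => (a ≤ n ∧ n - a + d k < M) ∨ (n < a ∧ n + N - a + d k < M)) = 1 := by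
    intro a M hM ha
    have := S.Local_TH N D (fun k => (p k).1) (fun k => (p k).2.1) (fun k => (p k).2.2) hij hw
      a M hM ha
    rw [← hz', S.TH_eq_one M h1 h2, map_one] at this
    exact this.symm
  have hd1 : ∀ k, k < D → d k ≤ 1 := hw
  have hsplit : ∀ A B C : ℕ → ℕ → Prop,
      (∀ k, k < D → ∀ n, n < N → (A k n ↔ B k n ∨ C k n)) →
      (∀ k, k < D → ∀ n, n < N → B k n → ¬ C k n) →
      (∀ k l, k < l → l < D → ∀ m n, m < N → n < N → C k m → B l n →
        (if m + d k < N then m + d k else m + d k - N) ≠ n ∧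
          m ≠ (if n + d l < N then n + d l else n + d l - N)) → Y A = Y B * Y C :=
    fun A B C => Local_Y_split N D _ _ _ _ hij (fun k hk => by have := hd1 k hk; omega) A B C
  let C : ℕ → ℕ → Prop := fun k n => D ≤ n + k ∧ n ≤ D + k
  let C0 : ℕ → ℕ → Prop := fun k n => (D ≤ n + k ∧ n ≤ D + k) ∧ ¬ (n = D ∧ d k = 1)
  have hC : ∀ A : ℕ → ℕ → Prop, (∀ k, k < D → ∀ n, n < N → C k n → A k n) →
      Y A = Y (fun k n => A k n ∧ ¬ C k n) * Y C ∧
      Y (fun k n => A k n ∧ ¬ (n = D ∧ d k = 1)) = Y (fun k n => A k n ∧ ¬ C k n) * Y C0 := by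
    intro A hA
    constructor
    · refine hsplit _ _ _ (fun k hk n hn => ?_) (fun k hk n hn h => h.2) ?_
      · have := hA k hk n hn
        tauto
      · rintro k l hkl hl m n hm hn hCm ⟨-, hCn⟩
        have := hd1 k (hkl.trans hl)
        have := hd1 l hl
        simp only [C] at hCm hCn
        constructor <;> split_ifs <;> omega
    · refine hsplit _ _ _ (fun k hk n hn => ?_) (fun k hk n hn h h' => h.2 h'.1) ?_
      · have h3 := hA k hk n hn
        have h4 : n = D → C k n := fun h => by simp only [C]; omega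
        simp only [C0]
        simp only [C] at h3 h4 ⊢
        tauto
      · rintro k l hkl hl m n hm hn ⟨hCm, -⟩ ⟨-, hCn⟩
        have := hd1 k (hkl.trans hl)
        have := hd1 l hl
        simp only [C] at hCm hCn
        constructor <;> split_ifs <;> omega
  have hCC : Y C = Y C0 := by
    obtain ⟨e1, e2⟩ := hC (fun k n => (0 ≤ n ∧ n - 0 + d k < 2 * D + 2) ∨
      (n < 0 ∧ n + N - 0 + d k < 2 * D + 2)) (fun k hk n hn h => by
        have := hd1 k hk
        simp only [C] at h
        omega)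
    rw [hwin 0 (2 * D + 2) hN (Nat.zero_le _)] at e1
    have e3 := hsplit (fun k n => ((0 ≤ n ∧ n - 0 + d k < 2 * D + 2) ∨
      (n < 0 ∧ n + N - 0 + d k < 2 * D + 2)) ∧ ¬ (n = D ∧ d k = 1))
      (fun k n => (0 ≤ n ∧ n - 0 + d k < D + 1) ∨ (n < 0 ∧ n + N - 0 + d k < D + 1))
      (fun k n => (D + 1 ≤ n ∧ n - (D + 1) + d k < D + 1) ∨
        (n < D + 1 ∧ n + N - (D + 1) + d k < D + 1))
      (fun k hk n hn => by have := hd1 k hk; omega)
      (fun k hk n hn => by have := hd1 k hk; omega)
      (fun k l hkl hl m n hm hn h3 h4 => by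
        have := hd1 k (hkl.trans hl)
        have := hd1 l hl
        constructor <;> split_ifs <;> omega)
    rw [hwin 0 (D + 1) (by omega) (Nat.zero_le _), hwin (D + 1) (D + 1) (by omega) (by omega),
      one_mul] at e3
    rw [e3] at e2
    exact mul_left_cancel (e1.symm.trans e2)
  obtain ⟨e1, e2⟩ := hC (fun _ _ => True) (fun _ _ _ _ _ => trivial)
  have e4 := S.Local_FN N D (fun k => (p k).1) (fun k => (p k).2.1) (fun k => (p k).2.2) hw
  rw [← hz'] at e4
  rw [e4]
  show Y _ = 1
  rw [e1, hCC, ← e2, ← hwin (D + 1) N le_rfl (by omega)]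
  refine Local_Y_congr N D _ _ _ _ _ _ fun k hk n hn => ?_
  have := hd1 k hk
  simp only [true_and]
  omega

end Sys

end Crest.Agent.R176
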