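import Crest.Agent.R176.StabB

/-! # R176: injective stability -/

noncomputable section

namespace Crest.Agent.R176

open scoped commutatorElement

set_option linter.unusedSectionVars false

namespace St

variable {V R : Type} [Ring R] [Algebra (ZMod 2) R] [Fintype V] [DecidableEq V] {L : Loc R}

/-- **Injective stability** on `K₂`. -/
theorem stab (e : V5 ↪ V) {z : St V5 R} (hz : z ∈ KK V5 L) (h : relabel e z = 1) : z = 1 := by
  obtain ⟨z', hz', rfl⟩ := surj_stab hz
  rw [io, relabel_relabel] at h
  exact stab_step _ hz' h

end St

end Crest.Agent.R176
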