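import Crest.Agent.R176.Deep
import Crest.Agent.R176.Local
import Crest.Agent.R176.Stab

/-! # R176: the cyclic cover of a deep element is its `N`-th power -/

noncomputable section

namespace Crest.Agent.R176

open scoped commutatorElement

set_option linter.unusedSectionVars false

namespace Sys

open St

variable {X : Type} [Fintype X] [DecidableEq X] (S : Sys X)
  {V : Type} [Fintype V] [DecidableEq V]

/-- `r` is homogeneous of degree `c` modulo `N` -/
def Gr (N : ℕ) [NeZero N] (c : ZMod N) (r : S.R) : Prop :=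
  ∀ a b, S.tw (cyc N) r a b = if b = a + c then r else 0

theorem Gr_zero (N : ℕ) [NeZero N] (c : ZMod N) : S.Gr N c 0 := fun a b => by simp

variable {S} in
theorem Gr.add {N : ℕ} [NeZero N] {c : ZMod N} {r r' : S.R} (h : S.Gr N c r) (h' : S.Gr N c r') :
    S.Gr N c (r + r') := fun a b => by
  rw [map_add, Matrix.add_apply, h, h']
  split_ifs <;> simp

variable {S} in
theorem Gr.mul {N : ℕ} [NeZero N] {c c' : ZMod N} {r r' : S.R} (h : S.Gr N c r)
    (h' : S.Gr N c' r') : S.Gr N (c + c') (r * r') := fun a b => by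
  rw [map_mul, Matrix.mul_apply, Finset.sum_eq_single (a + c), h, h', if_pos rfl, add_assoc]
  · split_ifs <;> simp
  · intro k _ hk
    rw [h, if_neg hk, zero_mul]
  · simp

theorem Gr_sum {N : ℕ} [NeZero N] {c : ZMod N} {ι : Type*} (s : Finset ι) (f : ι → S.R)
    (h : ∀ i ∈ s, S.Gr N c (f i)) : S.Gr N c (∑ i ∈ s, f i) :=
  Finset.sum_induction f _ (fun _ _ => Gr.add) (S.Gr_zero N c) h

theorem Gr_algebraMap (N : ℕ) [NeZero N] (k : ZMod 2) :
    S.Gr N 0 (algebraMap (ZMod 2) S.R k) := fun a b => by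
  rw [AlgHom.commutes, Matrix.algebraMap_matrix_apply, add_zero]
  simp only [eq_comm]

theorem Gr_letter (N : ℕ) [NeZero N] {w : List X} (hw : w.length = 1) : S.Gr N 1 (S.wd w) :=
  fun a b => by
    rw [tw_wd, hw, pow_one, cyc]
    split_ifs <;> simp

/-- the matrices of `sig` are graded by the positions (true for letters by `hα`; such matrices
form a subalgebra) -/
theorem gr_sig (N : ℕ) [NeZero N] (m : ℕ) (α : List X → ZMod N)
    (hα : ∀ a u c : List X, ¬ S.Zero (a ++ u ++ c) → m ≤ u.length →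
      α u = α (a ++ u ++ c) + (a.length : ZMod N)) (b : FA X) (w w' : Wd X m) :
    S.Gr N (α w'.toList - α w.toList) (S.sig m b w w') := by
  induction b using FreeAlgebra.induction generalizing w w' with
  | grade0 k =>
    rw [AlgHom.commutes, Matrix.algebraMap_matrix_apply]
    split_ifs with h
    · subst h
      rw [sub_self]
      exact S.Gr_algebraMap N k
    · exact S.Gr_zero N _
  | grade1 x =>
    rw [sig, FreeAlgebra.lift_ι_apply, Matrix.of_apply, colW]
    split_ifs with h
    · obtain ⟨h1, h2⟩ := h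
      have hz : ¬ S.Zero (x :: w'.toList) := h1 [] _ [] (by simp) (by simp)
      have e1 := hα [x] w'.toList [] (by simpa using hz) (by simp)
      have e2 := hα [] w.toList ((x :: w'.toList).drop m)
        (by rwa [List.nil_append, ← h2, List.take_append_drop]) (by simp)
      rw [List.nil_append, ← h2, List.take_append_drop, h2] at e2
      simp only [List.append_nil, List.singleton_append, List.length_singleton, Nat.cast_one,
        List.length_nil, Nat.cast_zero, add_zero] at e1 e2
      rw [e1, e2, add_sub_cancel_left]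
      exact S.Gr_letter N (by simp)
    · exact S.Gr_zero N _
  | mul a b ha hb =>
    rw [map_mul, Matrix.mul_apply]
    refine S.Gr_sum _ _ fun k _ => ?_
    have := (ha w k).mul (hb k w')
    rwa [sub_add_sub_cancel'] at this
  | add a b ha hb =>
    rw [map_add, Matrix.add_apply]
    exact (ha w w').add (hb w w')

/-- the sheet `γ` -/
def sheet {W : Type} {N : ℕ} (α : W → ZMod N) (γ : ZMod N) : V × W ↪ (V × W) × ZMod N :=
  ⟨fun p => (p, α p.2 + γ), fun _ _ h => congrArg Prod.fst h⟩

theorem Cover_prod {G M ι : Type*} [Monoid G] [Ring M] (φ : G →* M) (s : Finset ι) (f : ι → G)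
    (hc : (s : Set ι).Pairwise (Function.onFun Commute f)) (E : ι → M)
    (h1 : ∀ i, φ (f i) = 1 + E i) (h2 : ∀ i j, E i * E j = 0) :
    φ (s.noncommProd f hc) = 1 + ∑ i ∈ s, E i := by
  classical
  induction s using Finset.induction_on with
  | empty => simp
  | insert a s ha ih =>
    rw [Finset.noncommProd_insert_of_notMem _ _ _ _ ha, map_mul, ih, h1, Finset.sum_insert ha,
      add_mul, one_mul, mul_add, mul_one, Finset.mul_sum, Finset.sum_eq_zero fun j _ => h2 a j]
    abel

theorem Cover_FN_mem (N : ℕ) [NeZero N] {Ψ : V → V → Prop} {y : St V S.R} (hy : y ∈ Ug S.R Ψ) :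
    S.FN N y ∈ Ug S.R (fun p q : V × ZMod N => Ψ p.1 q.1) := by
  refine UnipA_Ug_le (H := (Ug S.R _).comap (S.FN N)) (fun a b r _ hab => ?_) hy
  rw [Subgroup.mem_comap, FN, MonoidHom.comp_apply, map_x, blk_x]
  refine Ug_mono (fun p q h => ?_) (blkX_mem_Ug a b _)
  rw [h.1, h.2]
  exact hab

/-- the nilpotent part of the matrix of a generator on the sheet `γ` -/
def Cover_E {W R : Type} [Ring R] {N : ℕ} (α : W → ZMod N) (i j : V) (M : Matrix W W R)
    (γ : ZMod N) : Matrix ((V × W) × ZMod N) ((V × W) × ZMod N) R := Matrix.of fun p q =>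
  if (p.1.1 = i ∧ q.1.1 = j) ∧ p.2 = α p.1.2 + γ ∧ q.2 = α q.1.2 + γ then M p.1.2 q.1.2 else 0

section gen

variable {W R : Type} [Ring R] [Fintype W] [DecidableEq W] {N : ℕ} [NeZero N] (α : W → ZMod N)
  {i j : V} (hij : i ≠ j) (M : Matrix W W R)

include hij

theorem Cover_pm_sheet (γ : ZMod N) :
    pm (relabel (sheet α γ) (blkX i j M)) = 1 + Cover_E α i j M γ := by
  have hr : ∀ (p : (V × W) × ZMod N), p.2 = α p.1.2 + γ → p = sheet α γ p.1 :=
    fun p hp => Prod.ext rfl hp
  ext p q
  rw [Matrix.add_apply, Cover_E, Matrix.of_apply]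
  by_cases hpq : p.2 = α p.1.2 + γ ∧ q.2 = α q.1.2 + γ
  · have e1 := pm_relabel_apply (sheet α γ) (blkX i j M) p.1 q.1
    rw [← hr p hpq.1, ← hr q hpq.2] at e1
    have e2 : p.1 = q.1 ↔ p = q := ⟨fun e => by rw [hr p hpq.1, hr q hpq.2, e], fun e => by rw [e]⟩
    rw [e1, pm_blkX _ _ hij, Matrix.one_apply]
    simp only [e2, ← hpq.1, ← hpq.2, and_true]
  · rw [pm_relabel_out, if_neg (fun h' : _ ∧ _ => hpq h'.2), add_zero, Matrix.one_apply]
    by_contra hcon
    push Not at hcon
    obtain ⟨⟨a, rfl⟩, ⟨b, rfl⟩⟩ := hcon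
    exact hpq ⟨rfl, rfl⟩

theorem Cover_E_mul (γ γ' : ZMod N) : Cover_E α i j M γ * Cover_E α i j M γ' = 0 := by
  ext p q
  rw [Matrix.mul_apply, Matrix.zero_apply]
  refine Finset.sum_eq_zero fun k _ => ?_
  simp only [Cover_E, Matrix.of_apply]
  by_cases hk : k.1.1 = i
  · rw [if_neg fun h' : (_ ∧ _) ∧ _ => hij (hk.symm.trans h'.1.2), zero_mul]
  · rw [if_neg fun h' : (_ ∧ _) ∧ _ => hk h'.1.1, mul_zero]

omit hij in
theorem Cover_E_sum (p q : (V × W) × ZMod N) : ∑ γ, Cover_E α i j M γ p q =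
    if p.1.1 = i ∧ q.1.1 = j then
      (if q.2 = p.2 + (α q.1.2 - α p.1.2) then M p.1.2 q.1.2 else 0) else 0 := by
  simp only [Cover_E, Matrix.of_apply]
  by_cases hpq : p.1.1 = i ∧ q.1.1 = j
  · rw [if_pos hpq, Finset.sum_eq_single (p.2 - α p.1.2)]
    · have : p.2 + (α q.1.2 - α p.1.2) = α q.1.2 + (p.2 - α p.1.2) := by ring
      simp only [hpq, true_and, add_sub_cancel, this]
    · intro γ _ hγ
      refine if_neg fun h' => hγ ?_
      rw [h'.2.1, add_sub_cancel_left]
    · simp
  · rw [if_neg hpq, Finset.sum_eq_zero]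
    intro γ _
    exact if_neg fun h' => hpq h'.1

end gen

theorem Cover_pm_FN (N : ℕ) [NeZero N] (y : St V S.R) (p q : V × ZMod N) :
    pm (S.FN N y) p q = S.tw (cyc N) (pm y p.1 q.1) p.2 q.2 := by
  rw [FN, MonoidHom.comp_apply, pm_blk, pm_map, Matrix.map_apply]
  rfl

theorem Cover_pm_gen {W : Type} [Fintype W] [DecidableEq W] (N : ℕ) [NeZero N] (α : W → ZMod N)
    {i j : V} (hij : i ≠ j) (M : Matrix W W S.R) (h : ∀ w w', S.Gr N (α w' - α w) (M w w')) :
    pm (S.FN N (blkX i j M)) = 1 + ∑ γ, Cover_E α i j M γ := by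
  refine Matrix.ext fun p q => ?_
  rw [Cover_pm_FN, pm_blkX _ _ hij, Matrix.add_apply, Matrix.sum_apply, map_add, Matrix.add_apply,
    Cover_E_sum]
  refine congrArg₂ (· + ·) ?_ ?_
  · obtain ⟨p, s⟩ := p
    obtain ⟨q, t⟩ := q
    by_cases hpq : p = q
    · subst hpq
      simp [Matrix.one_apply]
    · simp [hpq]
  · by_cases hpq : p.1.1 = i ∧ q.1.1 = j
    · rw [if_pos hpq, if_pos hpq]
      exact h _ _ _ _
    · rw [if_neg hpq, if_neg hpq, map_zero, Matrix.zero_apply]

theorem Cover_ext {W R : Type} [Ring R] [Fintype W] [DecidableEq W] {N : ℕ} [NeZero N]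
    (α : W → ZMod N) {i j : V} (hij : i ≠ j) (M : Matrix W W R)
    (hc : ((Finset.univ : Finset (ZMod N)) : Set (ZMod N)).Pairwise (Function.onFun Commute
      fun γ => relabel (sheet α γ) (blkX i j M))) {g : St ((V × W) × ZMod N) R}
    (hg : g ∈ Ug R fun p q => p.1.1 = i ∧ q.1.1 = j) (h : pm g = 1 + ∑ γ, Cover_E α i j M γ) :
    g = (Finset.univ : Finset (ZMod N)).noncommProd
      (fun γ => relabel (sheet α γ) (blkX i j M)) hc := by
  let rk : (V × W) × ZMod N → ℕ := fun p => if p.1.1 = i then 1 else 0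
  have hrk : ∀ p q : (V × W) × ZMod N, p.1.1 = i ∧ q.1.1 = j → rk q < rk p := by
    rintro p q ⟨hp, hq⟩
    simp only [rk, hp, hq, if_neg hij.symm, if_true]
    exact Nat.zero_lt_one
  refine Ug_ext rk (Ug_mono hrk hg) (Subgroup.noncommProd_mem _ _ fun γ _ => ?_) (h.trans
    (Cover_prod pm _ _ hc _ (Cover_pm_sheet α hij M) (Cover_E_mul α hij M)).symm)
  exact relabel_mem_Ug _ (fun a b hab => hrk (sheet α γ a) (sheet α γ b) hab) (blkX_mem_Ug i j M)

theorem Cover_gen {W : Type} [Fintype W] [DecidableEq W] (N : ℕ) [NeZero N] (α : W → ZMod N)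
    {i j : V} (hij : i ≠ j) (M : Matrix W W S.R) (h : ∀ w w', S.Gr N (α w' - α w) (M w w'))
    (hc : ((Finset.univ : Finset (ZMod N)) : Set (ZMod N)).Pairwise (Function.onFun Commute
      fun γ => relabel (sheet α γ) (blkX i j M))) :
    S.FN N (blkX i j M) = (Finset.univ : Finset (ZMod N)).noncommProd
      (fun γ => relabel (sheet α γ) (blkX i j M)) hc :=
  Cover_ext α hij M hc (S.Cover_FN_mem N (Ψ := fun p q : V × W => p.1 = i ∧ q.1 = j)
    (blkX_mem_Ug i j M)) (S.Cover_pm_gen N α hij M h)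

/-- Recipe: the sheets are disjoint, so the factors commute (`relabel_commute`) and the right side
is multiplicative in `y` (`Finset.noncommProd_mul_distrib`); on generators both sides lie in a
`Ug` and have the same matrix. -/
theorem FN_graded {A W : Type} [Ring A] [Fintype W] [DecidableEq W] (N : ℕ) [NeZero N]
    (σ : A →+* Matrix W W S.R) (α : W → ZMod N)
    (h : ∀ b w w', S.Gr N (α w' - α w) (σ b w w')) (y : St V A) :
    S.FN N (blk (map σ y)) = (Finset.univ : Finset (ZMod N)).noncommProd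
      (fun γ => relabel (sheet α γ) (blk (map σ y)))
      (fun γ _ γ' _ hne => relabel_commute _ _ (fun a b e => hne (by
        have h1 : a = b := congrArg Prod.fst e
        have h2 : α a.2 + γ = α b.2 + γ' := congrArg Prod.snd e
        rw [h1] at h2
        exact add_left_cancel h2)) _ _) := by
  have hne : ∀ {γ γ' : ZMod N}, γ ≠ γ' → ∀ a b : V × W, sheet α γ a ≠ sheet α γ' b :=
    fun hne a b e => hne (by
      have h1 : a = b := congrArg Prod.fst e
      have h2 : α a.2 + _ = α b.2 + _ := congrArg Prod.snd e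
      rw [h1] at h2
      exact add_left_cancel h2)
  induction y using induction_on with
  | h1 =>
    refine Eq.trans ?_ (Finset.noncommProd_eq_pow_card _ _ _ 1 fun _ _ => by simp).symm
    simp
  | hx i j r y hij ih =>
    have := Finset.noncommProd_mul_distrib (s := (Finset.univ : Finset (ZMod N)))
      (fun γ => relabel (sheet α γ) (blkX i j (σ r)))
      (fun γ => relabel (sheet α γ) (blk (map σ y)))
      (fun γ _ γ' _ h => relabel_commute _ _ (hne h) _ _)
      (fun γ _ γ' _ h => relabel_commute _ _ (hne h) _ _)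
      (fun γ _ γ' _ h => relabel_commute _ _ (hne h) _ _)
    simp only [map_mul, map_x, blk_x]
    exact (congrArg₂ (· * ·) (S.Cover_gen N α hij (σ r) (h r) _) ih).trans this.symm

/-- Recipe: `exists_lift`, `compare`; apply `FN N` to the equation of `compare` (`FN_relabel`);
by `FN_graded` and `relabel_indep` the left side is `(relabel e z) ^ N` for an embedding
`e : V5 ↪ (V5 × Option W) × ZMod N`; the right side is `1`; `stab`. -/
theorem deep_pow (L : Loc S.R) (hL : L.ε = S.aug.toRingHom) (N : ℕ) [NeZero N] (hP : S.Pos N) :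
    ∃ m, ∀ z ∈ KK V5 L, z ∈ NI V5 (S.I m : Set S.R) → S.FN N z = 1 → z ^ N = 1 := by
  obtain ⟨m0, α, hα⟩ := hP
  refine ⟨6 * (m0 + 1) + 2, fun z hz hd hF => ?_⟩
  obtain ⟨y, hy, rfl, hp⟩ := S.exists_lift (m0 + 1) (by simp) (mem_KK.1 hz).2 hd
  obtain ⟨hc, he⟩ := S.compare (m0 + 1) L hL (by omega) (by simp) hy hp
  have h0 := congrArg (S.FN N) he
  rw [FN_relabel, FN_relabel, hF, map_one,
    S.FN_graded N (S.sig (m0 + 1)).toRingHom (fun w => α w.toList) (fun b w w' =>
      S.gr_sig N (m0 + 1) α (fun a u c h hu => hα a u c h (by omega)) b w w')] at h0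
  have h1 := (Finset.map_noncommProd _ _ _ _).symm.trans h0
  let e3 := Function.Embedding.sectL (V5 × Option (Wd X (m0 + 1))) (0 : ZMod N)
  have hcard : 3 ≤ Fintype.card ((V5 × Option (Wd X (m0 + 1))) × ZMod N) := by
    refine le_trans ?_ (Fintype.card_le_of_embedding
      ((Function.Embedding.sectL V5 none).trans e3))
    simp
  have h2 := (Finset.noncommProd_eq_pow_card _ _ _
    (relabel ((Function.Embedding.sectL V5 none).trans e3) (map S.mk'.toRingHom y))
    fun γ _ => by
      rw [← relabel_relabel _ e3, ← he, relabel_relabel, relabel_relabel]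
      exact relabel_indep L hcard _ _ hc).symm.trans h1
  rw [Finset.card_univ, ZMod.card, ← map_pow] at h2
  exact stab _ (pow_mem hz N) h2

end Sys

end Crest.Agent.R176
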