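import Crest.Agent.R176.CoxA

/-! # R176: the Coxeter presentation of the symmetric group; bubble sort -/

namespace Crest.Agent.R176

/-- Bubble sort: from the order `rk` one reaches the order `rk'` by adjacent transpositions of
pairs which are inverted with respect to `rk'`.  (Induction on the number of inversions; with no
adjacent inversion `rk' ∘ ρ.symm` is strictly monotone, hence the identity.) -/
theorem bubble {V : Type*} {n : ℕ} (rk rk' : V ≃ Fin (n + 1)) (P : (V ≃ Fin (n + 1)) → Prop)
    (h0 : P rk)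
    (hs : ∀ (ρ : V ≃ Fin (n + 1)) (a : Fin n), P ρ →
      rk' (ρ.symm a.succ) < rk' (ρ.symm a.castSucc) →
      P (ρ.trans (Equiv.swap a.castSucc a.succ))) : P rk' := by
  have _ : Finite V := Finite.of_equiv _ rk.symm
  obtain ⟨ρ, hρ, hmax⟩ := Set.exists_max_image {ρ : V ≃ Fin (n + 1) | P ρ}
    (fun ρ => ∑ p : Fin (n + 1), (p.val : ℤ) * ((rk' (ρ.symm p)).val : ℤ)) (Set.toFinite _)
    ⟨rk, h0⟩
  have hmono : StrictMono fun p => rk' (ρ.symm p) := by
    rw [Fin.strictMono_iff_lt_succ]
    intro a
    have hne : a.castSucc ≠ a.succ := a.castSucc_lt_succ.ne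
    refine lt_of_le_of_ne (not_lt.1 fun hlt => ?_) fun h => hne (ρ.symm.injective (rk'.injective h))
    have h1 := hmax _ (hs ρ a hρ hlt)
    have h2 : ∑ p : Fin (n + 1), (p.val : ℤ) *
        ((rk' ((ρ.trans (Equiv.swap a.castSucc a.succ)).symm p)).val : ℤ) =
        ∑ p : Fin (n + 1), ((Equiv.swap a.castSucc a.succ p).val : ℤ) *
          ((rk' (ρ.symm p)).val : ℤ) := by
      rw [← Equiv.sum_comp (Equiv.swap a.castSucc a.succ)]
      simp
    rw [h2, ← sub_nonpos, ← Finset.sum_sub_distrib,
      Fintype.sum_eq_add a.castSucc a.succ hne (fun x hx => by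
        rw [Equiv.swap_apply_of_ne_of_ne hx.1 hx.2, sub_self])] at h1
    simp only [Equiv.swap_apply_left, Equiv.swap_apply_right, Fin.val_succ, Fin.val_castSucc] at h1
    have h3 : ((rk' (ρ.symm a.succ)).val : ℤ) < (rk' (ρ.symm a.castSucc)).val := by
      exact_mod_cast hlt
    push_cast at h1
    linarith
  have hid : (fun p => rk' (ρ.symm p)) = id :=
    hmono.eq_id
  have e : ρ = rk' := Equiv.ext fun v => by simpa using (congrFun hid (ρ v)).symm
  exact e ▸ hρ

/-- A strict partial order on a finite type extends to a linear order, read backwards: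
`Ψ a b` forces `rk b < rk a`.  (`extend_partialOrder`, `monoEquivOfFin`.) -/
theorem exists_rank {V : Type*} [Fintype V] {n : ℕ} (hn : Fintype.card V = n + 1)
    (Ψ : V → V → Prop) (hirr : ∀ a, ¬ Ψ a a) (htr : ∀ a b c, Ψ a b → Ψ b c → Ψ a c) :
    ∃ rk : V ≃ Fin (n + 1), ∀ a b, Ψ a b → rk b < rk a := by
  classical
  let h : V → ℕ := fun a => (Finset.univ.filter (Ψ a)).card
  have hlt : ∀ a b, Ψ a b → h b < h a := fun a b hab =>
    Finset.card_lt_card ⟨fun c hc => by
      simp only [Finset.mem_filter, Finset.mem_univ, true_and] at hc ⊢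
      exact htr a b c hab hc, fun hc => hirr b (Finset.mem_filter.1
        (hc (Finset.mem_filter.2 ⟨Finset.mem_univ b, hab⟩))).2⟩
  let e : V ≃ Fin (n + 1) := Fintype.equivFinOfCardEq hn
  refine ⟨e.trans (Tuple.sort (h ∘ e.symm)).symm, fun a b hab => not_le.1 fun hle => ?_⟩
  have h1 := Tuple.monotone_sort (h ∘ e.symm) hle
  simp only [Function.comp_apply, Equiv.trans_apply, Equiv.apply_symm_apply,
    Equiv.symm_apply_apply] at h1
  exact absurd (hlt a b hab) (not_lt.2 h1)

end Crest.Agent.R176
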