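import Mathlib

/-! # R176: the Coxeter presentation of the symmetric group; bubble sort -/

namespace Crest.Agent.R176

/-- `τ (k-1) * τ (k-2) * … * τ j` -/
def CoxA_c {H : Type*} [Group H] (τ : ℕ → H) : ℕ → ℕ → H
  | 0, _ => 1
  | k + 1, j => if j ≤ k then τ k * CoxA_c τ k j else 1

section aux
variable {H : Type*} [Group H] (τ : ℕ → H) (n : ℕ)

theorem CoxA_c_ge {k j : ℕ} (h : k ≤ j) : CoxA_c τ k j = 1 := by
  cases k with
  | zero => rfl
  | succ k => rw [CoxA_c, if_neg (by omega)]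

theorem CoxA_c_succ {k j : ℕ} (h : j ≤ k) : CoxA_c τ (k + 1) j = τ k * CoxA_c τ k j := by
  rw [CoxA_c, if_pos h]

theorem CoxA_c_step {k j : ℕ} (h : j < k) : CoxA_c τ k j = CoxA_c τ k (j + 1) * τ j := by
  induction k with
  | zero => omega
  | succ k ih =>
    rw [CoxA_c_succ τ (by omega)]
    rcases Nat.lt_succ_iff_lt_or_eq.1 h with h' | rfl
    · rw [ih h', CoxA_c_succ τ (by omega), mul_assoc]
    · rw [CoxA_c_ge τ le_rfl, CoxA_c_ge τ le_rfl, mul_one, one_mul]

theorem CoxA_c_comm (g : H) {k j : ℕ} (h : ∀ i, j ≤ i → i < k → Commute g (τ i)) :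
    Commute g (CoxA_c τ k j) := by
  induction k with
  | zero => exact Commute.one_right g
  | succ k ih =>
    by_cases hj : j ≤ k
    · rw [CoxA_c_succ τ hj]
      exact (h k hj (by omega)).mul_right (ih fun i h1 h2 => h i h1 (by omega))
    · rw [CoxA_c_ge τ (by omega)]
      exact Commute.one_right g

theorem CoxA_c_shift (h2 : ∀ a b, a + 1 < b → b < n → Commute (τ a) (τ b))
    (h3 : ∀ a, a + 1 < n → τ a * τ (a + 1) * τ a = τ (a + 1) * τ a * τ (a + 1))
    {k j a : ℕ} (hj : j ≤ a) (hk : a + 1 < k) (hn : k ≤ n) :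
    CoxA_c τ k j * τ (a + 1) = τ a * CoxA_c τ k j := by
  induction k with
  | zero => omega
  | succ k ih =>
    rw [CoxA_c_succ τ (by omega)]
    rcases Nat.lt_succ_iff_lt_or_eq.1 hk with h' | rfl
    · rw [mul_assoc, ih h' (by omega), ← mul_assoc, ← (h2 a k h' (by omega)).eq, mul_assoc]
    · have hc : Commute (τ (a + 1)) (CoxA_c τ a j) :=
        CoxA_c_comm τ _ fun i _ hi => (h2 i (a + 1) (by omega) (by omega)).symm
      rw [CoxA_c_succ τ hj, mul_assoc, mul_assoc, ← hc.eq, ← mul_assoc, ← mul_assoc,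
        ← h3 a (by omega)]
      simp only [mul_assoc]

theorem CoxA_decomp (h1 : ∀ a, a < n → τ a * τ a = 1)
    (h2 : ∀ a b, a + 1 < b → b < n → Commute (τ a) (τ b))
    (h3 : ∀ a, a + 1 < n → τ a * τ (a + 1) * τ a = τ (a + 1) * τ a * τ (a + 1))
    {k : ℕ} (hk : k + 1 ≤ n) {g : H} (hg : g ∈ Subgroup.closure (τ '' Set.Iio (k + 1))) :
    ∃ γ ∈ Subgroup.closure (τ '' Set.Iio k), ∃ j, j ≤ k + 1 ∧ g = γ * CoxA_c τ (k + 1) j := by
  have key : ∀ (x : H) (a : ℕ), a < k + 1 →
      (∃ γ ∈ Subgroup.closure (τ '' Set.Iio k), ∃ j, j ≤ k + 1 ∧ x = γ * CoxA_c τ (k + 1) j) →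
      ∃ γ ∈ Subgroup.closure (τ '' Set.Iio k), ∃ j, j ≤ k + 1 ∧
        x * τ a = γ * CoxA_c τ (k + 1) j := by
    rintro _ a ha ⟨γ, hγ, j, hj, rfl⟩
    rcases lt_trichotomy (a + 1) j with h | rfl | h
    · refine ⟨γ * τ a, Subgroup.mul_mem _ hγ
        (Subgroup.subset_closure ⟨a, show a < k by omega, rfl⟩), j, hj, ?_⟩
      rw [mul_assoc, mul_assoc,
        (CoxA_c_comm τ (τ a) fun i h1 h2' => h2 a i (by omega) (by omega)).eq]
    · exact ⟨γ, hγ, a, by omega, by rw [CoxA_c_step τ ha, mul_assoc]⟩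
    · rcases Nat.lt_succ_iff_lt_or_eq.1 h with h' | rfl
      · obtain ⟨b, rfl⟩ : ∃ b, a = b + 1 := ⟨a - 1, by omega⟩
        refine ⟨γ * τ b, Subgroup.mul_mem _ hγ
          (Subgroup.subset_closure ⟨b, show b < k by omega, rfl⟩), j, hj, ?_⟩
        rw [mul_assoc, mul_assoc, CoxA_c_shift τ n h2 h3 (by omega) ha hk]
      · refine ⟨γ, hγ, j + 1, by omega, ?_⟩
        rw [CoxA_c_step τ ha, mul_assoc, mul_assoc, h1 j (by omega), mul_one]
  induction hg using Subgroup.closure_induction_right with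
  | one => exact ⟨1, Subgroup.one_mem _, k + 1, le_rfl, by rw [CoxA_c_ge τ le_rfl, mul_one]⟩
  | mul_right x _ y hy ih =>
    obtain ⟨a, ha, rfl⟩ := hy
    exact key x a ha ih
  | mul_inv_cancel x _ y hy ih =>
    obtain ⟨a, ha, rfl⟩ := hy
    have ha' : a < k + 1 := ha
    rw [inv_eq_of_mul_eq_one_right (h1 a (by omega))]
    exact key x a ha ih

end aux

theorem CoxA_swap_val {n : ℕ} (a : Fin n) (x : Fin (n + 1)) :
    (Equiv.swap a.castSucc a.succ x).val =
      if x.val = a.val then a.val + 1 else if x.val = a.val + 1 then a.val else x.val := by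
  rw [Equiv.swap_apply_def]
  simp only [Fin.ext_iff, Fin.val_castSucc, Fin.val_succ]
  split_ifs <;> rfl

/-- Coxeter presentation.  Recipe: work in `G × Perm (Fin (n+1))` with the generators
`τ a = (σ a, swap a.castSucc a.succ)` (they satisfy the same relations).  Let `Γ k` be the subgroup
generated by the `τ a`, `a < k`, and `c k j = τ (k-1) * τ (k-2) * … * τ j` (`j ≤ k`).
Every element of `Γ (k+1)` is `γ * c (k+1) j` with `γ ∈ Γ k` (closed under right multiplication by
generators, by the relations), elements of `Γ k` fix `k+1` and `c (k+1) j` does not unless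
`j = k+1`; so the second projection is injective on `Γ n`; it is onto
(`Equiv.Perm.mclosure_swap_castSucc_succ`); invert it. -/
theorem coxeter {G : Type*} [Group G] (n : ℕ) (σ : Fin n → G) (h1 : ∀ a, σ a * σ a = 1)
    (h2 : ∀ a b : Fin n, a.val + 1 < b.val → Commute (σ a) (σ b))
    (h3 : ∀ a b : Fin n, a.val + 1 = b.val → σ a * σ b * σ a = σ b * σ a * σ b) :
    ∃ φ : Equiv.Perm (Fin (n + 1)) →* G, ∀ a : Fin n, φ (Equiv.swap a.castSucc a.succ) = σ a := by
  let τ : ℕ → G × Equiv.Perm (Fin (n + 1)) := fun a =>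
    if h : a < n then (σ ⟨a, h⟩, Equiv.swap (Fin.castSucc ⟨a, h⟩) (Fin.succ ⟨a, h⟩)) else 1
  have hτ : ∀ a : Fin n, τ a = (σ a, Equiv.swap a.castSucc a.succ) := fun a => dif_pos a.2
  have hv : ∀ a, a < n → ∀ x : Fin (n + 1), ((τ a).2 x).val =
      if x.val = a then a + 1 else if x.val = a + 1 then a else x.val := fun a ha x => by
    rw [hτ ⟨a, ha⟩]
    exact CoxA_swap_val _ x
  have t1 : ∀ a, a < n → τ a * τ a = 1 := fun a ha => by
    rw [hτ ⟨a, ha⟩]
    exact Prod.ext (h1 _) (Equiv.swap_mul_self _ _)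
  have t2 : ∀ a b, a + 1 < b → b < n → Commute (τ a) (τ b) := fun a b hab hb => by
    have ha : a < n := by omega
    refine Prod.ext ?_ (Equiv.ext fun x => Fin.ext ?_)
    · rw [hτ ⟨a, ha⟩, hτ ⟨b, hb⟩]
      exact h2 ⟨a, ha⟩ ⟨b, hb⟩ hab
    · simp only [Prod.snd_mul, Equiv.Perm.mul_apply, hv a ha, hv b hb]
      split_ifs <;> omega
  have t3 : ∀ a, a + 1 < n → τ a * τ (a + 1) * τ a = τ (a + 1) * τ a * τ (a + 1) :=
    fun a hb => by
    have ha : a < n := by omega
    refine Prod.ext ?_ (Equiv.ext fun x => Fin.ext ?_)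
    · rw [hτ ⟨a, ha⟩, hτ ⟨a + 1, hb⟩]
      exact h3 ⟨a, ha⟩ ⟨a + 1, hb⟩ rfl
    · simp only [Prod.snd_mul, Equiv.Perm.mul_apply, hv a ha, hv (a + 1) hb]
      split_ifs <;> omega
  have hfix : ∀ k, k ≤ n → ∀ g ∈ Subgroup.closure (τ '' Set.Iio k), ∀ x : Fin (n + 1),
      k < x.val → g.2 x = x := by
    intro k hk g hg x hx
    have : Subgroup.closure (τ '' Set.Iio k) ≤
        (MulAction.stabilizer (Equiv.Perm (Fin (n + 1))) x).comap (MonoidHom.snd _ _) := by
      rw [Subgroup.closure_le]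
      rintro _ ⟨a, ha, rfl⟩
      have ha' : a < k := ha
      refine Fin.ext ((hv a (by omega) x).trans ?_)
      split_ifs <;> omega
    exact this hg
  have hc : ∀ (k : ℕ) (x : Fin (n + 1)), x.val ≤ k → k ≤ n → ((CoxA_c τ k x.val).2 x).val = k := by
    intro k x
    induction k with
    | zero => exact fun h _ => Nat.le_zero.1 h
    | succ k ih =>
      intro hx hk
      rcases Nat.lt_or_eq_of_le hx with h | h
      · rw [CoxA_c_succ τ (by omega), Prod.snd_mul, Equiv.Perm.mul_apply, hv k (by omega),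
          ih (by omega) (by omega), if_pos rfl]
      · rw [CoxA_c_ge τ h.ge]
        exact h
  have hinj : ∀ k, k ≤ n → ∀ g ∈ Subgroup.closure (τ '' Set.Iio k), g.2 = 1 → g = 1 := by
    intro k
    induction k with
    | zero =>
      intro _ g hg _
      simpa using hg
    | succ k ih =>
      intro hk g hg hg2
      obtain ⟨γ, hγ, j, hj, rfl⟩ := CoxA_decomp τ n t1 t2 t3 hk hg
      have e1 := hc (k + 1) ⟨j, by omega⟩ hj hk
      have e2 := hfix k (by omega) γ hγ _ (by rw [e1]; omega)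
      have e3 : γ.2 ((CoxA_c τ (k + 1) j).2 ⟨j, by omega⟩) = ⟨j, by omega⟩ :=
        congrArg (fun e : Equiv.Perm (Fin (n + 1)) => e ⟨j, by omega⟩) hg2
      have e4 : k + 1 = j := by
        rw [← e1]
        exact congrArg Fin.val (e2.symm.trans e3)
      rw [CoxA_c_ge τ e4.le, mul_one] at hg2 ⊢
      exact ih (by omega) γ hγ hg2
  let Γ := Subgroup.closure (τ '' Set.Iio n)
  let f : Γ →* Equiv.Perm (Fin (n + 1)) := (MonoidHom.snd _ _).comp Γ.subtype
  have hmem : ∀ a : Fin n, τ a ∈ Γ := fun a => Subgroup.subset_closure ⟨a, a.2, rfl⟩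
  have hf : ∀ a : Fin n, f ⟨τ a, hmem a⟩ = Equiv.swap a.castSucc a.succ := fun a =>
    congrArg Prod.snd (hτ a)
  have hbij : Function.Bijective f := by
    refine ⟨(injective_iff_map_eq_one f).2 fun g hg => Subtype.ext (hinj n le_rfl g g.2 hg),
      fun e => ?_⟩
    have h : Submonoid.closure (Set.range fun a : Fin n => Equiv.swap a.castSucc a.succ) ≤
        MonoidHom.mrange f := by
      rw [Submonoid.closure_le]
      rintro _ ⟨a, rfl⟩
      exact ⟨_, hf a⟩
    rw [Equiv.Perm.mclosure_swap_castSucc_succ] at h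
    exact h trivial
  refine ⟨((MonoidHom.fst _ _).comp Γ.subtype).comp
    (MulEquiv.ofBijective f hbij).symm.toMonoidHom, fun a => ?_⟩
  have e : (MulEquiv.ofBijective f hbij).symm (Equiv.swap a.castSucc a.succ) = ⟨τ a, hmem a⟩ :=
    (MulEquiv.symm_apply_eq _).2 (hf a).symm
  exact (congrArg (fun g : Γ => g.1.1) e).trans (congrArg Prod.fst (hτ a))

end Crest.Agent.R176
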