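import Crest.Agent.R176.Unip

/-! # R176: block triangular matrices over `Option W` in the Steinberg group (for `Deep`) -/

noncomputable section

namespace Crest.Agent.R176

set_option linter.unusedSectionVars false

namespace St

variable {V W R D : Type} [Ring R] [Ring D] [Fintype V] [DecidableEq V] [Fintype W] [DecidableEq W]

/-- the block matrix `[[A, v], [0, r]]` -/
def Deep_bm (A : Matrix W W R) (v : W → R) (r : R) : Matrix (Option W) (Option W) R :=
  Matrix.of fun a b => match a, b with
    | some a, some b => A a b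
    | some a, none => v a
    | none, some _ => 0
    | none, none => r

@[simp] theorem Deep_bm_ss (A : Matrix W W R) (v : W → R) (r : R) (a b : W) :
    Deep_bm A v r (some a) (some b) = A a b := rfl
@[simp] theorem Deep_bm_sn (A : Matrix W W R) (v : W → R) (r : R) (a : W) :
    Deep_bm A v r (some a) none = v a := rfl
@[simp] theorem Deep_bm_ns (A : Matrix W W R) (v : W → R) (r : R) (b : W) :
    Deep_bm A v r none (some b) = 0 := rfl
@[simp] theorem Deep_bm_nn (A : Matrix W W R) (v : W → R) (r : R) :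
    Deep_bm A v r none none = r := rfl

theorem Deep_bm_add (A A' : Matrix W W R) (v v' : W → R) (r r' : R) :
    Deep_bm (A + A') (v + v') (r + r') = Deep_bm A v r + Deep_bm A' v' r' := by
  ext (_ | a) (_ | b) <;> simp

theorem Deep_bm_zero : Deep_bm (0 : Matrix W W R) 0 0 = 0 := by
  ext (_ | a) (_ | b) <;> simp

theorem Deep_bm_one : Deep_bm (1 : Matrix W W R) 0 1 = 1 := by
  ext (_ | a) (_ | b) <;> simp [Matrix.one_apply]

theorem Deep_bm_mul (A A' : Matrix W W R) (v v' : W → R) (r r' : R) :
    Deep_bm (A * A') (A.mulVec v' + fun w => v w * r') (r * r') =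
      Deep_bm A v r * Deep_bm A' v' r' := by
  ext (_ | a) (_ | b) <;>
    simp [Matrix.mul_apply, Fintype.sum_option, Matrix.mulVec, dotProduct, add_comm]

/-- a block triangular representation -/
def Deep_th (σ : D →+* Matrix W W R) (p : D →+ (W → R)) (ρ : D →+* R) (h1 : p 1 = 0)
    (hm : ∀ d d', p (d * d') = (σ d).mulVec (p d') + fun w => p d w * ρ d') :
    D →+* Matrix (Option W) (Option W) R where
  toFun d := Deep_bm (σ d) (p d) (ρ d)
  map_one' := by rw [map_one σ, map_one ρ, h1, Deep_bm_one]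
  map_mul' d d' := by rw [map_mul σ, map_mul ρ, hm, Deep_bm_mul]
  map_zero' := by rw [map_zero, map_zero, map_zero, Deep_bm_zero]
  map_add' d d' := by rw [map_add, map_add, map_add, Deep_bm_add]

/-- its diagonal part -/
def Deep_th0 (σ : D →+* Matrix W W R) (ρ : D →+* R) : D →+* Matrix (Option W) (Option W) R :=
  Deep_th σ 0 ρ rfl fun d d' => by ext w; simp

theorem Deep_norm {Ψ : V → V → Prop} (a b : V) (r : R)
    (hop : ¬ Ψ b a) (h1 : ∀ d, Ψ b d → d ≠ a → Ψ a d) (h2 : ∀ c, Ψ c a → c ≠ b → Ψ c b) :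
    x a b r ∈ Subgroup.normalizer (Ug R Ψ : Set (St V R)) := by
  refine Subgroup.mem_normalizer_iff.2 fun y => ⟨Ug_conj a b r hop h1 h2, fun hy => ?_⟩
  have := Ug_conj a b (-r) hop h1 h2 hy
  rw [x_neg] at this
  simpa [mul_assoc] using this

theorem Deep_blkX_mem (i j : V) (M : Matrix W W R) (H : Subgroup (St (V × W) R))
    (h : ∀ a b, x (i, a) (j, b) (M a b) ∈ H) : blkX i j M ∈ H := by
  unfold blkX
  split_ifs with hij
  · exact H.one_mem
  · exact rect_mem _ _ _ _ H h

theorem Deep_ext {i j : V} (hij : i ≠ j) {y y' : St (V × W) R}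
    (hy : y ∈ Ug R (fun p q : V × W => p.1 = i ∧ q.1 = j))
    (hy' : y' ∈ Ug R (fun p q : V × W => p.1 = i ∧ q.1 = j)) (h : pm y = pm y') : y = y' := by
  have hle : ∀ p q : V × W, p.1 = i ∧ q.1 = j →
      (if q.1 = i then 1 else 0 : ℕ) < (if p.1 = i then 1 else 0 : ℕ) := by
    rintro p q ⟨h1, h2⟩
    rw [if_pos h1, if_neg (by rw [h2]; exact hij.symm)]
    exact zero_lt_one
  exact Ug_ext (fun p : V × W => (if p.1 = i then 1 else 0 : ℕ)) (Ug_mono hle hy)
    (Ug_mono hle hy') h

theorem Deep_pm_one (Φ : D →+* Matrix W W R) (κ : St V D) (h : ∀ i j, Φ ((pm κ - 1) i j) = 0) :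
    pm (blk (map Φ κ)) = 1 := by
  ext p q
  have h1 := h p.1 q.1
  rw [Matrix.sub_apply, map_sub, sub_eq_zero] at h1
  rw [pm_blk, pm_map, Matrix.map_apply, h1]
  by_cases hpq : p.1 = q.1
  · rw [hpq, Matrix.one_apply_eq, map_one, Matrix.one_apply, Matrix.one_apply]
    simp [Prod.ext_iff, hpq]
  · rw [Matrix.one_apply_ne hpq, map_zero, Matrix.one_apply_ne fun e => hpq (by rw [e])]
    rfl

theorem Deep_tri (σ : D →+* Matrix W W R) (p : D →+ (W → R)) (ρ : D →+* R) (h1 hm)
    (κ : St V D) (h : pm (blk (map (Deep_th σ p ρ h1 hm) κ)) = pm (blk (map (Deep_th0 σ ρ) κ))) :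
    blk (map (Deep_th σ p ρ h1 hm) κ) = blk (map (Deep_th0 σ ρ) κ) := by
  have key := hom_mod (blk.comp (map (Deep_th σ p ρ h1 hm))) (blk.comp (map (Deep_th0 σ ρ)))
    (Ug R (fun p q : V × Option W => p.2 ≠ none ∧ q.2 = none)) ?_ ?_ κ
  · have hle : ∀ p q : V × Option W, p.2 ≠ none ∧ q.2 = none →
        (if q.2 = none then 0 else 1 : ℕ) < (if p.2 = none then 0 else 1 : ℕ) := by
      rintro p q ⟨h1, h2⟩
      rw [if_pos h2, if_neg h1]
      exact zero_lt_one
    have h2 := Ug_inj (fun p : V × Option W => (if p.2 = none then 0 else 1 : ℕ))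
      (Ug_mono hle key) (by
        rw [map_mul, MonoidHom.comp_apply, h, ← map_mul, MonoidHom.comp_apply, mul_inv_cancel,
          map_one])
    exact mul_inv_eq_one.1 h2
  · intro i j d _ g hg
    refine (Subgroup.mem_normalizer_iff.1 ?_ g).1 hg
    rw [MonoidHom.comp_apply, map_x, blk_x]
    refine Deep_blkX_mem _ _ _ _ ?_
    rintro (_ | a) (_ | b)
    · exact Deep_norm _ _ _ (by simp) (by simp) (by simp +contextual)
    · change x _ _ (0 : R) ∈ _
      rw [x_zero]; exact one_mem _
    · change x _ _ (0 : R) ∈ _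
      rw [x_zero]; exact one_mem _
    · exact Deep_norm _ _ _ (by simp) (by simp +contextual) (by simp)
  · intro i j d hij
    have e : Deep_th σ p ρ h1 hm d = Deep_bm 0 (p d) 0 + Deep_th0 σ ρ d := by
      change Deep_bm _ _ _ = _ + Deep_bm _ _ _
      rw [← Deep_bm_add]
      simp
    rw [MonoidHom.comp_apply, MonoidHom.comp_apply, map_x, map_x, blk_x, blk_x, e,
      blkX_add _ _ _ _ hij, mul_inv_cancel_right]
    refine Deep_blkX_mem _ _ _ _ ?_
    rintro (_ | a) (_ | b)
    · simp
    · simp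
    · exact x_mem_Ug (by simp) _
    · simp

theorem Deep_blkX_some {i j : V} (hij : i ≠ j) (A : Matrix W W R) :
    blkX i j (Deep_bm A 0 0) =
      relabel ((Function.Embedding.refl V).prodMap Function.Embedding.some) (blkX i j A) := by
  refine Deep_ext hij (blkX_mem_Ug _ _ _) (relabel_mem_Ug _ (fun a b h => h) (blkX_mem_Ug i j A)) ?_
  ext ⟨i', a⟩ ⟨j', b⟩
  rw [pm_blkX _ _ hij]
  rcases a with _ | a
  · rw [pm_relabel_out _ _ _ _ (Or.inl (by rintro ⟨⟨u, v⟩, h⟩; simp [Prod.ext_iff] at h))]
    rcases b with _ | b <;> simp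
  · rcases b with _ | b
    · rw [pm_relabel_out _ _ _ _ (Or.inr (by rintro ⟨⟨u, v⟩, h⟩; simp [Prod.ext_iff] at h))]
      simp
    · have := pm_relabel_apply ((Function.Embedding.refl V).prodMap Function.Embedding.some)
        (blkX i j A) (i', a) (j', b)
      refine Eq.trans ?_ this.symm
      rw [pm_blkX _ _ hij]
      simp

theorem Deep_blkX_none {i j : V} (hij : i ≠ j) (r : R) :
    blkX i j (Deep_bm (0 : Matrix W W R) 0 r) = x (i, none) (j, none) r := by
  refine Deep_ext hij (blkX_mem_Ug _ _ _) (x_mem_Ug ⟨rfl, rfl⟩ _) ?_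
  ext ⟨i', a⟩ ⟨j', b⟩
  rw [pm_blkX _ _ hij, pm_x_of_ne (by simp [hij]), Matrix.add_apply, Matrix.one_apply,
    Matrix.single_apply]
  rcases a with _ | a <;> rcases b with _ | b <;> simp [eq_comm]

theorem Deep_split (σ : D →+* Matrix W W R) (ρ : D →+* R) (κ : St V D) :
    blk (map (Deep_th0 σ ρ) κ) =
      relabel ((Function.Embedding.refl V).prodMap Function.Embedding.some) (blk (map σ κ)) *
        relabel (Function.Embedding.sectL V (none : Option W)) (map ρ κ) := by
  induction κ using induction_on with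
  | h1 => simp
  | hx i j d κ hij ih =>
    have e : Deep_th0 σ ρ d = Deep_bm (σ d) 0 0 + Deep_bm 0 0 (ρ d) := by
      change Deep_bm _ _ _ = _
      rw [← Deep_bm_add]
      simp
    have hc := relabel_commute ((Function.Embedding.refl V).prodMap Function.Embedding.some)
      (Function.Embedding.sectL V (none : Option W)) (fun a b h => by
        have := congrArg Prod.snd h
        simp at this) (blk (map σ κ)) (x i j (ρ d))
    simp only [map_mul, map_x, blk_x]
    rw [ih, e, blkX_add _ _ _ _ hij, Deep_blkX_some hij, Deep_blkX_none hij, mul_assoc, mul_assoc,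
      ← mul_assoc (relabel _ (blk _)), hc.eq, mul_assoc, relabel_x]
    rfl

/-- the matrix `[[1, 0], [h, 1]]` -/
def Deep_U (h : W → R) : Matrix (Option W) (Option W) R :=
  1 + Matrix.of fun a b => match a, b with
    | none, some b => h b
    | _, _ => 0

theorem Deep_U_mul (h : W → R) (A A' : Matrix W W R) (v : W → R) (r r' : R)
    (h1 : ∀ a b, A a b = A' a b + v a * h b) (h2 : ∀ b, ∑ a, h a * A a b = r' * h b)
    (h3 : ∑ a, h a * v a + r = r') :
    Deep_U h * Deep_bm A v r = Deep_bm A' v r' * Deep_U h := by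
  rw [Deep_U, add_mul, mul_add, one_mul, mul_one]
  ext (_ | a) (_ | b)
  · simp [Matrix.mul_apply, Fintype.sum_option, ← h3, add_comm]
  · simp [Matrix.mul_apply, Fintype.sum_option, h2]
  · simp [Matrix.mul_apply]
  · simp [Matrix.mul_apply, Fintype.sum_option, h1]

theorem Deep_conj (h : W → R) : ∃ u : St (V × Option W) R,
    ∀ (Θ Θ' : D →+* Matrix (Option W) (Option W) R), (∀ d, Deep_U h * Θ d = Θ' d * Deep_U h) →
      ∀ κ : St V D, u * blk (map Θ κ) * u⁻¹ = blk (map Θ' κ) := by
  let u : St (V × Option W) R := rect (fun i : V => (i, none))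
    (fun q : V × W => (q.1, some q.2)) (fun a b e => by simp at e)
    (fun i q => if i = q.1 then h q.2 else 0)
  have hu : pm u = Matrix.compRingEquiv V (Option W) R (Matrix.diagonal fun _ => Deep_U h) := by
    ext ⟨i, a⟩ ⟨j, b⟩
    rw [pm_rect, Matrix.compRingEquiv_apply, Matrix.comp_apply, Matrix.add_apply, Matrix.one_apply,
      Matrix.diagonal_apply]
    simp only [Matrix.sum_apply, Matrix.single_apply, Fintype.sum_prod_type, Deep_U]
    rcases a with _ | a <;> rcases b with _ | b <;> by_cases hij : i = j <;>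
      simp [hij, Matrix.one_apply, ite_and]
  refine ⟨u, fun Θ Θ' hΘ κ => ?_⟩
  have key : ((MulAut.conj u).toMonoidHom.comp (blk.comp (map Θ)) : St V D →* _) =
      blk.comp (map Θ') := by
    refine hom_ext fun i j d hij => ?_
    simp only [MonoidHom.comp_apply, map_x, blk_x, MulEquiv.coe_toMonoidHom, MulAut.conj_apply]
    have hn : u ∈ Subgroup.normalizer
        (Ug R (fun p q : V × Option W => p.1 = i ∧ q.1 = j) : Set (St (V × Option W) R)) := by
      refine rect_mem _ _ _ _ _ fun a q => ?_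
      by_cases haq : a = q.1
      · subst haq
        exact Deep_norm _ _ _ (fun hh => hij (hh.1.symm.trans hh.2)) (fun _ hh _ => hh)
          (fun _ hh _ => hh)
      · rw [if_neg haq, x_zero]; exact one_mem _
    refine Deep_ext hij ((Subgroup.mem_normalizer_iff.1 hn _).1 (blkX_mem_Ug _ _ _))
      (blkX_mem_Ug _ _ _) ?_
    have hb : ∀ M : Matrix (Option W) (Option W) R, pm (blkX i j M) =
        Matrix.compRingEquiv V (Option W) R (1 + Matrix.single i j M) := fun M => by
      ext p q
      rw [← blk_x, pm_blk, pm_x_of_ne hij]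
      rfl
    have h1 : pm (u * blkX i j (Θ d)) = pm (blkX i j (Θ' d) * u) := by
      rw [map_mul, map_mul, hu, hb, hb, ← map_mul, ← map_mul]
      congr 1
      ext1 a b
      rw [Matrix.diagonal_mul, Matrix.mul_diagonal, Matrix.add_apply, Matrix.add_apply,
        Matrix.single_apply, Matrix.single_apply, Matrix.one_apply]
      split_ifs <;> simp [mul_add, add_mul, hΘ]
    rw [map_mul, h1, ← map_mul, mul_inv_cancel_right]
  exact DFunLike.congr_fun key κ

end St

end Crest.Agent.R176
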