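import Crest.Agent.R176.DeepA
import Crest.Agent.R176.DeepAux

/-! # R176: deep elements of `K₂` come from the shift register -/

noncomputable section

namespace Crest.Agent.R176

open scoped commutatorElement

set_option linter.unusedSectionVars false

namespace Sys

open St

variable {X : Type} [Fintype X] [DecidableEq X] (S : Sys X) (m : ℕ)
  {V : Type} [Fintype V] [DecidableEq V]

/-- first projection of the double -/
abbrev Deep_f1 (X : Type) [Fintype X] [DecidableEq X] (m : ℕ) : Dbl (X := X) m →+* FA X :=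
  (RingHom.fst _ _).comp (Dbl (X := X) m).subtype

/-- second projection of the double -/
abbrev Deep_f2 (X : Type) [Fintype X] [DecidableEq X] (m : ℕ) : Dbl (X := X) m →+* FA X :=
  (RingHom.snd _ _).comp (Dbl (X := X) m).subtype

theorem Deep_mem (d : Dbl (X := X) m) : Deep_f2 X m d - Deep_f1 X m d ∈ IA X (2 * m) := d.2

/-- the off-diagonal column -/
def Deep_p : Dbl (X := X) m →+ (Wd X m → S.R) :=
  (S.pcol m).toAddMonoidHom.comp ((Deep_f2 X m).toAddMonoidHom - (Deep_f1 X m).toAddMonoidHom)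

theorem Deep_p_apply (d : Dbl (X := X) m) :
    Deep_p S m d = S.pcol m (Deep_f2 X m d - Deep_f1 X m d) := rfl

theorem Deep_p_one : Deep_p S m 1 = 0 := by
  rw [Deep_p_apply, map_one, map_one, sub_self, map_zero]

theorem Deep_p_mul (d d' : Dbl (X := X) m) :
    Deep_p S m (d * d') = (((S.sig m).toRingHom.comp (Deep_f2 X m)) d).mulVec (Deep_p S m d') +
      fun w => Deep_p S m d w * (S.mk'.toRingHom.comp (Deep_f1 X m)) d' := by
  have e : Deep_f2 X m (d * d') - Deep_f1 X m (d * d') =
      Deep_f2 X m d * (Deep_f2 X m d' - Deep_f1 X m d') +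
        (Deep_f2 X m d - Deep_f1 X m d) * Deep_f1 X m d' := by
    rw [map_mul, map_mul]; noncomm_ring
  rw [Deep_p_apply, e, map_add, ← S.sig_mulVec m _ (IA_anti (by omega) (Deep_mem m d'))]
  congr 1
  funext w
  exact S.pcol_mul m (Deep_mem m d) _ w

theorem Deep_p_mul' (d d' : Dbl (X := X) m) :
    Deep_p S m (d * d') = (((S.sig m).toRingHom.comp (Deep_f1 X m)) d).mulVec (Deep_p S m d') +
      fun w => Deep_p S m d w * (S.mk'.toRingHom.comp (Deep_f2 X m)) d' := by
  have e : Deep_f2 X m (d * d') - Deep_f1 X m (d * d') =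
      Deep_f1 X m d * (Deep_f2 X m d' - Deep_f1 X m d') +
        (Deep_f2 X m d - Deep_f1 X m d) * Deep_f2 X m d' := by
    rw [map_mul, map_mul]; noncomm_ring
  rw [Deep_p_apply, e, map_add, ← S.sig_mulVec m _ (IA_anti (by omega) (Deep_mem m d'))]
  congr 1
  funext w
  exact S.pcol_mul m (Deep_mem m d) _ w

theorem Deep_intertwine (d : Dbl (X := X) m) :
    Deep_U (S.hrow m) * Deep_th _ _ _ (Deep_p_one S m) (Deep_p_mul S m) d =
      Deep_th _ _ _ (Deep_p_one S m) (Deep_p_mul' S m) d * Deep_U (S.hrow m) := by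
  refine Deep_U_mul _ _ _ _ _ _ (fun a b => ?_) (fun b => S.hrow_sig m _ b) ?_
  · have h := S.sig_deep m (Deep_mem m d) a b
    rw [map_sub, Matrix.sub_apply, sub_eq_iff_eq_add'] at h
    exact h
  · have h := S.hrow_pcol m (IA_anti (by omega : m ≤ 2 * m) (Deep_mem m d))
    rw [map_sub S.mk', eq_sub_iff_add_eq] at h
    exact h

/-- **Comparison with the shift register.**  Recipe.  Index set `Option (Wd X m)`.
`Θ (b, b') = [[sig b', pcol (b' - b)], [0, mk' b]]` is a ring homomorphism on `Dbl`, and with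
`U = [[1, 0], [hrow, 1]]`, `Θ' = U Θ U⁻¹ = [[sig b, pcol (b' - b)], [0, mk' b']]`.
Let `κ` be as in `exists_dbl`, `c = blk (map Θ κ)`, `c' = blk (map Θ' κ)`.  `pm c = 1` (entries of
`pm y - 1` are killed by `pcol` and `sig`), `c ∈ G1` (modulo the maximal ideal `Θ (b,b')` is the
scalar `aug b`; note `1 ≤ m`), so `c` is central (`KK_central`), and `c' = û c û⁻¹` for the lift
`û = ∏_i rect` of `U` (check on generators with `Ug_ext`, or with `blk` of a bigger group).
`hom_mod` with `N = Ug (p.2 ≠ none ∧ q.2 = none)` and `f0` the product of the two commuting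
diagonal homomorphisms, and `Ug_inj`, give `c = relabel _ (blk (map sig y))`,
`c' = relabel _ (map mk' y)`. -/
theorem compare (L : Loc S.R) (hL : L.ε = S.aug.toRingHom) (hm : 1 ≤ m)
    (hV : 3 ≤ Fintype.card V) {y : St V (FA X)} (hy : y ∈ NI V (IA X (2 * m) : Set (FA X)))
    (hp : ∀ i j, (pm y - 1) i j ∈ IA X (2 * m) ∧ S.pcol m ((pm y - 1) i j) = 0) :
    blk (map (S.sig m).toRingHom y) ∈ KK (V × Wd X m) L ∧
    relabel ((Function.Embedding.refl V).prodMap Function.Embedding.some)
        (blk (map (S.sig m).toRingHom y)) =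
      relabel (Function.Embedding.sectL V (none : Option (Wd X m))) (map S.mk'.toRingHom y) := by
  obtain ⟨κ, h1, h2⟩ := exists_dbl m hy
  change map (Deep_f1 X m) κ = 1 at h1
  change map (Deep_f2 X m) κ = y at h2
  have e1 : ∀ i j, Deep_f1 X m ((pm κ - 1) i j) = 0 := fun i j => by
    have h := congrFun (congrFun (pm_map (Deep_f1 X m) κ) i) j
    rw [h1, map_one, Matrix.map_apply] at h
    rw [Matrix.sub_apply, map_sub, ← h, Matrix.one_apply, Matrix.one_apply]
    split_ifs <;> simp
  have e2 : ∀ i j, Deep_f2 X m ((pm κ - 1) i j) = (pm y - 1) i j := fun i j => by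
    have h := congrFun (congrFun (pm_map (Deep_f2 X m) κ) i) j
    rw [h2, Matrix.map_apply] at h
    rw [Matrix.sub_apply, map_sub, ← h, Matrix.sub_apply, Matrix.one_apply, Matrix.one_apply]
    split_ifs <;> simp
  have s1 : ∀ i j, ((S.sig m).toRingHom.comp (Deep_f1 X m)) ((pm κ - 1) i j) = 0 := fun i j => by
    rw [RingHom.comp_apply, e1, map_zero]
  have s2 : ∀ i j, ((S.sig m).toRingHom.comp (Deep_f2 X m)) ((pm κ - 1) i j) = 0 := fun i j => by
    rw [RingHom.comp_apply, e2]
    ext w w'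
    have h := S.sig_deep m (hp i j).1 w w'
    rw [(hp i j).2] at h
    simpa using h
  have r1 : ∀ i j, (S.mk'.toRingHom.comp (Deep_f1 X m)) ((pm κ - 1) i j) = 0 := fun i j => by
    rw [RingHom.comp_apply, e1, map_zero]
  have r2 : ∀ i j, (S.mk'.toRingHom.comp (Deep_f2 X m)) ((pm κ - 1) i j) = 0 := fun i j => by
    rw [RingHom.comp_apply, e2]
    have h := S.hrow_pcol m (IA_anti (by omega : m ≤ 2 * m) (hp i j).1)
    rw [(hp i j).2, dotProduct_zero] at h
    exact h.symm
  have p0 : ∀ i j, Deep_p S m ((pm κ - 1) i j) = 0 := fun i j => by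
    rw [Deep_p_apply, e1, e2, sub_zero, (hp i j).2]
  have hK : blk (map (S.sig m).toRingHom y) ∈ KK (V × Wd X m) L := by
    rw [← h2, map_map]
    refine mem_KK.2 ⟨?_, Deep_pm_one _ _ s2⟩
    have e : L.ε.mapMatrix.comp ((S.sig m).toRingHom.comp (Deep_f2 X m)) =
        ((Matrix.scalar (Wd X m)).comp (S.aug.toRingHom.comp S.mk'.toRingHom)).comp
          (Deep_f1 X m) := by
      refine RingHom.ext fun d => ?_
      ext w w'
      have h0 : S.aug (S.mk' (Deep_f2 X m d - Deep_f1 X m d)) = 0 :=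
        (S.aug_eq_zero _).2 (S.mem_I_iff.2 ⟨_, IA_anti (by omega) (Deep_mem m d), rfl⟩)
      rw [map_sub, map_sub, sub_eq_zero] at h0
      have h3 := S.aug_sig m (Deep_f2 X m d) w w'
      rw [h0] at h3
      rw [hL]
      simpa [Matrix.diagonal_apply] using h3
    rw [map_blk, map_map, e, ← map_map, h1, map_one, map_one]
  refine ⟨hK, ?_⟩
  have z : ∀ (σ : Dbl (X := X) m →+* Matrix (Wd X m) (Wd X m) S.R) (ρ : Dbl (X := X) m →+* S.R)
      (hm' : ∀ d d', Deep_p S m (d * d') =
        (σ d).mulVec (Deep_p S m d') + fun w => Deep_p S m d w * ρ d'),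
      (∀ i j, σ ((pm κ - 1) i j) = 0) → (∀ i j, ρ ((pm κ - 1) i j) = 0) →
      blk (map (Deep_th σ (Deep_p S m) ρ (Deep_p_one S m) hm') κ) =
        relabel ((Function.Embedding.refl V).prodMap Function.Embedding.some) (blk (map σ κ)) *
          relabel (Function.Embedding.sectL V (none : Option (Wd X m))) (map ρ κ) := by
    intro σ ρ hm' hσ hρ
    rw [← Deep_split]
    refine Deep_tri _ _ _ _ _ _ ?_
    rw [Deep_pm_one, Deep_pm_one]
    · intro i j
      change Deep_bm _ 0 _ = 0
      rw [hσ, hρ, Deep_bm_zero]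
    · intro i j
      change Deep_bm _ _ _ = 0
      rw [hσ, hρ, p0, Deep_bm_zero]
  have c1 := z _ _ (Deep_p_mul S m) s2 r1
  have c2 := z _ _ (Deep_p_mul' S m) s1 r2
  rw [← map_map (Deep_f2 X m), ← map_map (Deep_f1 X m), h1, h2, map_one, map_one, mul_one] at c1
  rw [← map_map (Deep_f1 X m), ← map_map (Deep_f2 X m), h1, h2, map_one, map_one, map_one,
    one_mul] at c2
  obtain ⟨u, hu⟩ := Deep_conj (V := V) (D := Dbl (X := X) m) (S.hrow m)
  have c3 := hu _ _ (Deep_intertwine S m) κ
  have hc := KK_central L (V := V × Option (Wd X m)) (by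
    rw [Fintype.card_prod, Fintype.card_option]
    nlinarith) (relabel_mem_KK ((Function.Embedding.refl V).prodMap Function.Embedding.some) hK) u
  rw [c1, c2, ← hc.eq, mul_inv_cancel_right] at c3
  exact c3

end Sys

end Crest.Agent.R176
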