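import Crest.Agent.R176.RS

/-! # R176: finite presentability passes to quotients of the ring and to finite-index subgroups -/

noncomputable section

namespace Crest.Agent.R176

open scoped commutatorElement

set_option linter.unusedSectionVars false

namespace St

variable {V A R : Type} [Ring A] [Ring R]

theorem FPsub_mk_congr (f : A →+* R) (i j : V) {a b : A} (h : f a = f b) :
    (QuotientGroup.mk' (NI V {a | f a = 0})) (x i j a) =
      (QuotientGroup.mk' (NI V {a | f a = 0})) (x i j b) := by
  rw [QuotientGroup.mk'_apply, QuotientGroup.mk'_apply, QuotientGroup.eq, ← x_neg, ← x_add]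
  refine x_mem_NI _ _ ?_
  show f _ = 0
  rw [map_add, map_neg, h, neg_add_cancel]

/-- the inverse map `St V R → St V A ⧸ NI` -/
def FPsub_inv (f : A →+* R) (hf : Function.Surjective f) :
    St V R →* St V A ⧸ NI V {a | f a = 0} :=
  lift (fun i j r => (QuotientGroup.mk' (NI V {a | f a = 0})) (x i j (Function.surjInv hf r)))
    (fun i r => by rw [x_self, map_one])
    (fun i j r s _ => by
      rw [← map_mul, ← x_add]
      refine FPsub_mk_congr f i j ?_
      simp only [map_add, Function.surjInv_eq])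
    (fun _ _ _ _ _ _ _ _ h1 h2 => (x_commute h1 h2 _ _).map _)
    (fun i j k r s h1 h2 h3 => by
      rw [← map_commutatorElement, x_comm_mul h1 h2 h3]
      refine FPsub_mk_congr f i k ?_
      simp only [map_mul, Function.surjInv_eq])

theorem FPsub_inv_map (f : A →+* R) (hf : Function.Surjective f) (y : St V A) :
    FPsub_inv f hf (map f y) = (QuotientGroup.mk' (NI V {a | f a = 0})) y := by
  have : (FPsub_inv f hf).comp (map f : St V A →* St V R) =
      QuotientGroup.mk' (NI V {a | f a = 0}) :=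
    hom_ext fun i j r _ => by
      rw [MonoidHom.comp_apply, map_x, FPsub_inv, lift_x]
      exact FPsub_mk_congr f i j (Function.surjInv_eq hf _)
  exact DFunLike.congr_fun this y

/-- the kernel of `St V A → St V (A / I)` (construct the inverse map to `St V A ⧸ NI` by `lift`) -/
theorem ker_map (f : A →+* R) (hf : Function.Surjective f) :
    (map f : St V A →* St V R).ker = NI V {a | f a = 0} := by
  refine le_antisymm (fun y hy => ?_) (Subgroup.normalClosure_le_normal ?_)
  · have h := FPsub_inv_map f hf y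
    rw [MonoidHom.mem_ker.1 hy, map_one, QuotientGroup.mk'_apply] at h
    exact (QuotientGroup.eq_one_iff y).1 h.symm
  · rintro _ ⟨i, j, r, hr, rfl⟩
    show map f (x i j r) = 1
    rw [map_x, show f r = 0 from hr, x_zero]

theorem map_NI (f : A →+* R) (hf : Function.Surjective f) (I : Set A) :
    (NI V I).map (map f : St V A →* St V R) = NI V (f '' I) := by
  unfold NI
  rw [Subgroup.map_normalClosure _ _ (map_surjective f hf)]
  congr 1
  ext y
  constructor
  · rintro ⟨_, ⟨i, j, r, hr, rfl⟩, rfl⟩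
    exact ⟨i, j, f r, ⟨r, hr, rfl⟩, map_x _ _ _ _⟩
  · rintro ⟨i, j, _, ⟨r, hr, rfl⟩, rfl⟩
    exact ⟨x i j r, ⟨i, j, r, hr, rfl⟩, map_x _ _ _ _⟩

theorem FPsub_third [Fintype V] (hV : 3 ≤ Fintype.card V) (i j : V) : ∃ k, k ≠ i ∧ k ≠ j := by
  classical
  have h : ({i, j} : Finset V).card < (Finset.univ : Finset V).card :=
    lt_of_le_of_lt Finset.card_le_two (by rw [Finset.card_univ]; omega)
  obtain ⟨k, _, hk⟩ := Finset.exists_mem_notMem_of_card_lt_card h
  rw [Finset.mem_insert, Finset.mem_singleton, not_or] at hk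
  exact ⟨k, hk⟩

theorem FPsub_left [Fintype V] (hV : 3 ≤ Fintype.card V) (N : Subgroup (St V A)) [hN : N.Normal]
    {a : A} (ha : ∀ i j, x i j a ∈ N) (u : A) (i j : V) : x i j (u * a) ∈ N := by
  by_cases hij : i = j
  · subst hij
    rw [x_self]
    exact N.one_mem
  obtain ⟨k, hki, hkj⟩ := FPsub_third hV i j
  rw [← x_comm_mul hki.symm hkj hij, commutatorElement_def]
  exact N.mul_mem (hN.conj_mem _ (ha k j) _) (N.inv_mem (ha k j))

theorem FPsub_right [Fintype V] (hV : 3 ≤ Fintype.card V) (N : Subgroup (St V A)) [hN : N.Normal]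
    {a : A} (ha : ∀ i j, x i j a ∈ N) (v : A) (i j : V) : x i j (a * v) ∈ N := by
  by_cases hij : i = j
  · subst hij
    rw [x_self]
    exact N.one_mem
  obtain ⟨k, hki, hkj⟩ := FPsub_third hV i j
  rw [← x_comm_mul hki.symm hkj hij, commutatorElement_def, mul_assoc, mul_assoc,
    ← mul_assoc (x k j v)]
  exact N.mul_mem (ha i k) (hN.conj_mem _ (N.inv_mem (ha i k)) _)

/-- if the ideal is generated by `T` -/
theorem NI_span [Fintype V] (hV : 3 ≤ Fintype.card V) (T : Set A) :
    NI V (AddSubgroup.closure {a | ∃ u v, ∃ ρ ∈ T, a = u * ρ * v} : Set A) = NI V T := by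
  refine le_antisymm (Subgroup.normalClosure_le_normal ?_)
    (NI_mono fun ρ hρ => AddSubgroup.subset_closure ⟨1, 1, ρ, hρ, by simp⟩)
  rintro _ ⟨i, j, r, hr, rfl⟩
  show x i j r ∈ NI V T
  induction hr using AddSubgroup.closure_induction with
  | mem a ha =>
    obtain ⟨u, v, ρ, hρ, rfl⟩ := ha
    exact FPsub_right hV _ (FPsub_left hV _ (fun i j => x_mem_NI i j hρ) u) v i j
  | zero => rw [x_zero]; exact Subgroup.one_mem _
  | add a b _ _ ha hb => rw [x_add]; exact Subgroup.mul_mem _ ha hb
  | neg a _ ha => rw [x_neg]; exact Subgroup.inv_mem _ ha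

theorem fp_quot [Fintype V] (hV : 3 ≤ Fintype.card V) [Group.IsFinitelyPresented (St V A)]
    (f : A →+* R) (hf : Function.Surjective f) (T : Set A) (hT : T.Finite)
    (hker : ∀ a, f a = 0 ↔ a ∈ AddSubgroup.closure {a | ∃ u v, ∃ ρ ∈ T, a = u * ρ * v}) :
    Group.IsFinitelyPresented (St V R) := by
  refine Group.IsFinitelyPresented.of_surjective (map f : St V A →* St V R) (map_surjective f hf) ?_
  have e : {a | f a = 0} =
      (AddSubgroup.closure {a | ∃ u v, ∃ ρ ∈ T, a = u * ρ * v} : Set A) := Set.ext hker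
  rw [ker_map f hf, e, NI_span hV T]
  refine ⟨_, ?_, rfl⟩
  refine (((Set.finite_univ (α := V × V)).prod hT).image fun p => x p.1.1 p.1.2 p.2).subset ?_
  rintro _ ⟨i, j, r, hr, rfl⟩
  exact ⟨((i, j), r), ⟨Set.mem_univ _, hr⟩, rfl⟩

end St

end Crest.Agent.R176
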