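import Crest.Agent.R176.Shift
import Crest.Agent.R176.Gauss
import Crest.Agent.R176.FPsub

/-! # R176: deep elements of `K₂` come from the shift register -/

noncomputable section

namespace Crest.Agent.R176

open scoped commutatorElement

set_option linter.unusedSectionVars false

namespace Sys

open St

variable {X : Type} [Fintype X] [DecidableEq X] (S : Sys X) (m : ℕ)
  {V : Type} [Fintype V] [DecidableEq V]

theorem DeepA_IA_left {p : ℕ} (b : FA X) {a : FA X} (ha : a ∈ IA X p) : b * a ∈ IA X p := by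
  simpa using IA_mul (mem_IA_zero b) ha

theorem DeepA_IA_right {p : ℕ} (b : FA X) {a : FA X} (ha : a ∈ IA X p) : a * b ∈ IA X p := by
  simpa using IA_mul ha (mem_IA_zero b)

/-- `IA p` as a two-sided ideal -/
def DeepA_ia (X : Type) [Fintype X] [DecidableEq X] (p : ℕ) : TwoSidedIdeal (FA X) :=
  TwoSidedIdeal.mk' (IA X p : Set (FA X)) (zero_mem _) (fun ha hb => add_mem ha hb)
    (fun ha => neg_mem ha) (fun hb => DeepA_IA_left _ hb) (fun ha => DeepA_IA_right _ ha)

/-- the ideal `𝔨` -/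
def DeepA_kk : TwoSidedIdeal (FA X) :=
  TwoSidedIdeal.mk' {k | k ∈ IA X (2 * m) ∧ S.pcol m k = 0} ⟨zero_mem _, map_zero _⟩
    (fun ha hb => ⟨add_mem ha.1 hb.1, by rw [map_add, ha.2, hb.2, add_zero]⟩)
    (fun ha => ⟨neg_mem ha.1, by rw [map_neg, ha.2, neg_zero]⟩)
    (fun {b _} ha => ⟨DeepA_IA_left _ ha.1, by
      rw [← S.sig_mulVec m b (IA_anti (by omega) ha.1), ha.2, Matrix.mulVec_zero]⟩)
    (fun {_ b} ha => ⟨DeepA_IA_right _ ha.1, by
      funext w
      rw [S.pcol_mul m ha.1, ha.2]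
      simp⟩)

theorem DeepA_mk_eq_zero {A : Type} [Ring A] (I : TwoSidedIdeal A) (a : A) :
    I.ringCon.mk' a = 0 ↔ a ∈ I := by
  rw [← map_zero I.ringCon.mk']
  exact (RingCon.eq I.ringCon).trans Iff.rfl

theorem DeepA_map_eq_one {A B : Type} [Ring A] [Ring B] (f : A →+* B) {M : Matrix V V A}
    (h : f.mapMatrix M = 1) (i j : V) : f ((M - 1) i j) = 0 := by
  have : f.mapMatrix (M - 1) = 0 := by rw [map_sub, map_one, h, sub_self]
  exact congrFun (congrFun this i) j

theorem DeepA_pm_NI {A : Type} [Ring A] (I : TwoSidedIdeal A) {T : Set A} (hT : ∀ a ∈ T, a ∈ I)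
    {y : St V A} (hy : y ∈ NI V T) (i j : V) : (pm y - 1) i j ∈ I := by
  have h1 : NI V T ≤ (map I.ringCon.mk' : St V A →* St V _).ker := by
    refine Subgroup.normalClosure_le_normal ?_
    rintro _ ⟨i, j, r, hr, rfl⟩
    show map I.ringCon.mk' (x i j r) = 1
    rw [map_x, (DeepA_mk_eq_zero I r).2 (hT r hr), x_zero]
  have h2 : map I.ringCon.mk' y = 1 := h1 hy
  rw [← DeepA_mk_eq_zero]
  refine DeepA_map_eq_one _ ?_ i j
  rw [RingHom.mapMatrix_apply, ← pm_map, h2, map_one]

theorem DeepA_map_single {A B : Type} [Ring A] [Ring B] (f : A →+* B) (i j : V) (a : A) :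
    f.mapMatrix (Matrix.single i j a) = Matrix.single i j (f a) := by
  ext p q
  simp only [RingHom.mapMatrix_apply, Matrix.map_apply, Matrix.single_apply]
  split_ifs <;> simp

/-- the correctable matrices -/
def DeepA_H {A B : Type} [Ring A] [Algebra (ZMod 2) A] [Ring B] (f : A →+* B) (q : AddSubgroup A)
    (hq : ∀ a ∈ q, ∀ b ∈ q, f (a * b) = 0) : AddSubgroup (Matrix V V A) where
  carrier := {Y | (∀ i j, Y i j ∈ q) ∧
    ∃ ν ∈ NI V (q : Set A), f.mapMatrix (pm ν) = 1 + f.mapMatrix Y}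
  zero_mem' := ⟨fun _ _ => zero_mem q, 1, one_mem _, by simp⟩
  add_mem' := by
    rintro Y Y' ⟨h, ν, hν, e⟩ ⟨h', ν', hν', e'⟩
    refine ⟨fun i j => add_mem (h i j) (h' i j), ν * ν', mul_mem hν hν', ?_⟩
    have : f.mapMatrix Y * f.mapMatrix Y' = 0 := by
      rw [← map_mul]
      ext i j
      simp only [RingHom.mapMatrix_apply, Matrix.map_apply, Matrix.mul_apply, map_sum,
        Matrix.zero_apply]
      exact Finset.sum_eq_zero fun k _ => hq _ (h i k) _ (h' k j)
    rw [map_mul, map_mul, e, e', map_add, add_mul, mul_add, mul_add, this]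
    simp [add_comm, add_left_comm]
  neg_mem' := by
    intro Y h
    have : -Y = Y := by
      ext i j
      exact neg_eq_self' A _
    rwa [this]

theorem DeepA_H_diag {A B : Type} [Ring A] [Algebra (ZMod 2) A] [Ring B] (f : A →+* B)
    (q : AddSubgroup A) (hq : ∀ a ∈ q, ∀ b ∈ q, f (a * b) = 0) {i j : V} (hij : i ≠ j) {k u : A}
    (hk : k ∈ q) (hku : k * u ∈ q) (huk : f (u * k) = 0) :
    Matrix.single i i (k * u) ∈ DeepA_H (V := V) f q hq := by
  refine ⟨fun a b => ?_, x j i u * x i j k * (x j i u)⁻¹ * (x i j k)⁻¹, ?_, ?_⟩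
  · rw [Matrix.single_apply]
    split_ifs
    · exact hku
    · exact zero_mem q
  · exact mul_mem ((inferInstance : (NI V (q : Set A)).Normal).conj_mem _ (x_mem_NI _ _ hk) _)
      (inv_mem (x_mem_NI _ _ hk))
  · rw [← x_neg, ← x_neg]
    simp only [map_mul, pm_x_of_ne hij, pm_x_of_ne hij.symm, map_add, map_one, DeepA_map_single,
      map_neg]
    have hab : Matrix.single j i (f u) * Matrix.single i j (f k) = (0 : Matrix V V B) := by
      rw [Matrix.single_mul_single_same, ← map_mul, huk, Matrix.single_zero]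
    have haa : Matrix.single j i (f u) * Matrix.single j i (f u) = (0 : Matrix V V B) :=
      Matrix.single_mul_single_of_ne _ _ _ _ hij _
    have hbb : Matrix.single i j (f k) * Matrix.single i j (f k) = (0 : Matrix V V B) :=
      Matrix.single_mul_single_of_ne _ _ _ _ hij.symm _
    have hba : Matrix.single i i (f k * f u) =
        -(Matrix.single i j (f k) * Matrix.single j i (f u) : Matrix V V B) := by
      rw [Matrix.single_mul_single_same, Matrix.single_neg, ← map_mul, ← map_neg, neg_eq_self']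
    rw [hba, ← Matrix.single_neg, ← Matrix.single_neg]
    generalize Matrix.single j i (f u) = a at *
    generalize Matrix.single i j (f k) = b at *
    have e1 : (1 + a) * (1 + b) = 1 + a + b := by
      rw [add_mul, mul_add, mul_add, hab]; simp [add_comm, add_left_comm]
    have e2 : (1 + a + b) * (1 + -a) = 1 + b - b * a := by
      simp only [add_mul, mul_add, mul_neg, haa, one_mul, mul_one]; abel
    have e3 : (1 + b - b * a) * (1 + -b) = 1 + -(b * a) := by
      simp only [add_mul, sub_mul, mul_add, mul_neg, hbb, one_mul, mul_one, mul_assoc, hab,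
        mul_zero]
      abel
    rw [e1, e2, e3]

/-- Correction.  Recipe: `𝔨 = {k ∈ IA (2m) | pcol k = 0}` is a two-sided ideal, `𝔮 = 𝔯 ∩ IA (2m)`,
`IA (2m) * 𝔮 ⊆ 𝔨`.  The matrices `Y` with entries in `𝔮` such that `pm ν - 1 - Y` has entries in `𝔨`
for some `ν ∈ NI 𝔮` form an additive subgroup; it contains `single i j k` (`i ≠ j`, `k ∈ 𝔮`),
the matrices over `𝔨`, and `single i i (k * u)` (`ν = x j i u * x i j k * (x j i u)⁻¹ * (x i j k)⁻¹`).
Lift `z` with `map_NI`; `pm - 1` has entries in `𝔯 ∩ IA (6m+2)`; `deep_rel`; `ker_map`. -/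
theorem exists_lift (hV : 2 ≤ Fintype.card V) {z : St V S.R} (hz : pm z = 1)
    (hd : z ∈ NI V (S.I (6 * m + 2) : Set S.R)) :
    ∃ y : St V (FA X), y ∈ NI V (IA X (2 * m) : Set (FA X)) ∧ map S.mk'.toRingHom y = z ∧
      ∀ i j, (pm y - 1) i j ∈ IA X (2 * m) ∧ S.pcol m ((pm y - 1) i j) = 0 := by
  have himg : (S.I (6 * m + 2) : Set S.R) =
      S.mk'.toRingHom '' (IA X (6 * m + 2) : Set (FA X)) := by
    ext r
    exact S.mem_I_iff
  rw [himg, ← map_NI S.mk'.toRingHom S.mk'_surjective] at hd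
  obtain ⟨y₀, hy₀, hz₀⟩ := hd
  let f := (S.DeepA_kk m).ringCon.mk'
  have hf : ∀ a, f a = 0 ↔ a ∈ IA X (2 * m) ∧ S.pcol m a = 0 := fun a => by
    rw [DeepA_mk_eq_zero, DeepA_kk, TwoSidedIdeal.mem_mk']
    rfl
  let q : AddSubgroup (FA X) :=
    { carrier := {k | k ∈ IA X (2 * m) ∧ S.mk' k = 0}
      zero_mem' := ⟨zero_mem _, map_zero _⟩
      add_mem' := fun ha hb => ⟨add_mem ha.1 hb.1, by rw [map_add, ha.2, hb.2, add_zero]⟩
      neg_mem' := fun ha => ⟨neg_mem ha.1, by rw [map_neg, ha.2, neg_zero]⟩ }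
  have huk : ∀ u ∈ IA X (2 * m), ∀ k, S.mk' k = 0 → f (u * k) = 0 := fun u hu k hk => by
    refine (hf _).2 ⟨DeepA_IA_right _ hu, ?_⟩
    funext w
    rw [S.pcol_mul m hu, hk]
    simp
  have hq : ∀ a ∈ q, ∀ b ∈ q, f (a * b) = 0 := fun a ha b hb => huk a ha.1 b hb.2
  have hD : ∀ i j, (pm y₀ - 1) i j ∈ IA X (6 * m + 2) := fun i j => by
    have := DeepA_pm_NI (DeepA_ia X (6 * m + 2)) (fun a ha => by
      rw [DeepA_ia, TwoSidedIdeal.mem_mk']; exact ha) hy₀ i j
    rwa [DeepA_ia, TwoSidedIdeal.mem_mk'] at this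
  have hD0 : ∀ i j, S.mk' ((pm y₀ - 1) i j) = 0 := fun i j =>
    DeepA_map_eq_one S.mk'.toRingHom (by rw [RingHom.mapMatrix_apply, ← pm_map, hz₀, hz]) i j
  have hsingle : ∀ (i j : V) {a : FA X}, a ∈ q → ∀ p r, Matrix.single i j a p r ∈ q := by
    intro i j a ha p r
    rw [Matrix.single_apply]
    split_ifs
    · exact ha
    · exact zero_mem q
  have hH : pm y₀ - 1 ∈ DeepA_H (V := V) f q hq := by
    rw [Matrix.matrix_eq_sum_single (pm y₀ - 1)]
    refine sum_mem fun i _ => sum_mem fun j _ => ?_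
    by_cases hij : i = j
    · subst hij
      obtain ⟨j, hj⟩ := Fintype.exists_ne_of_one_lt_card (by omega : 1 < Fintype.card V) i
      refine AddSubgroup.closure_induction (p := fun a _ => Matrix.single i i a ∈ DeepA_H f q hq)
        ?_ ?_ ?_ ?_ (S.deep_rel m (hD0 i i) (hD i i))
      · rintro a (ha | ⟨k, u, hk, hk0, hu, rfl⟩)
        · refine ⟨hsingle i i ⟨ha.1, ?_⟩, 1, one_mem _, ?_⟩
          · rw [← S.hrow_pcol m (IA_anti (by omega) ha.1), ha.2, dotProduct_zero]
          · rw [DeepA_map_single, (hf a).2 ha]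
            simp
        · exact DeepA_H_diag f q hq hj.symm ⟨hk, hk0⟩
            ⟨DeepA_IA_right _ hk, by rw [map_mul, hk0, zero_mul]⟩ (huk u hu k hk0)
      · rw [Matrix.single_zero]
        exact zero_mem _
      · intro a b _ _ ha hb
        rw [Matrix.single_add]
        exact add_mem ha hb
      · intro a _ ha
        rw [← Matrix.single_neg]
        exact neg_mem ha
    · have hq' : (pm y₀ - 1) i j ∈ q := ⟨IA_anti (by omega) (hD i j), hD0 i j⟩
      exact ⟨hsingle i j hq', x i j _, x_mem_NI _ _ hq', by rw [pm_x_of_ne hij, map_add, map_one]⟩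
  obtain ⟨-, ν, hν, e⟩ := hH
  refine ⟨ν⁻¹ * y₀, mul_mem (inv_mem (NI_mono (fun a ha => ha.1) hν))
    (NI_mono (fun a ha => IA_anti (by omega) ha) hy₀), ?_, fun i j => ?_⟩
  · have : ν ∈ (map S.mk'.toRingHom : St V (FA X) →* St V S.R).ker := by
      rw [ker_map _ S.mk'_surjective]
      exact NI_mono (fun a ha => ha.2) hν
    rw [map_mul, map_inv, MonoidHom.mem_ker.1 this, inv_one, one_mul, hz₀]
  · refine (hf _).1 (DeepA_map_eq_one f ?_ i j)
    have e' : f.mapMatrix (pm y₀) = f.mapMatrix (pm ν) := by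
      rw [e, map_sub, map_one, add_sub_cancel]
    rw [map_mul, map_mul, e', ← map_mul, ← map_mul, inv_mul_cancel, map_one, map_one]

/-- the double of the free algebra along `IA (2m)` -/
def Dbl : Subring (FA X × FA X) where
  carrier := {p | p.2 - p.1 ∈ IA X (2 * m)}
  mul_mem' := fun {a b} ha hb => by
    have e : (a * b).2 - (a * b).1 = (a.2 - a.1) * b.2 + a.1 * (b.2 - b.1) := by
      simp only [Prod.snd_mul, Prod.fst_mul]; noncomm_ring
    show (a * b).2 - (a * b).1 ∈ IA X (2 * m)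
    rw [e]
    exact add_mem (DeepA_IA_right _ ha) (DeepA_IA_left _ hb)
  one_mem' := by simp
  add_mem' := fun {a b} ha hb => by
    have e : (a + b).2 - (a + b).1 = (a.2 - a.1) + (b.2 - b.1) := by
      simp only [Prod.snd_add, Prod.fst_add]; abel
    show (a + b).2 - (a + b).1 ∈ IA X (2 * m)
    rw [e]
    exact add_mem ha hb
  zero_mem' := by simp
  neg_mem' := fun {a} ha => by
    have e : (-a).2 - (-a).1 = -(a.2 - a.1) := by
      simp only [Prod.snd_neg, Prod.fst_neg]; abel
    show (-a).2 - (-a).1 ∈ IA X (2 * m)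
    rw [e]
    exact neg_mem ha

/-- closure induction, using the diagonal `FA X → Dbl` -/
theorem exists_dbl {y : St V (FA X)} (hy : y ∈ NI V (IA X (2 * m) : Set (FA X))) :
    ∃ κ : St V (Dbl (X := X) m),
      map ((RingHom.fst _ _).comp (Dbl (X := X) m).subtype) κ = 1 ∧
      map ((RingHom.snd _ _).comp (Dbl (X := X) m).subtype) κ = y := by
  have hs : Function.Surjective ((RingHom.snd (FA X) (FA X)).comp (Dbl (X := X) m).subtype) :=
    fun a => ⟨⟨(a, a), by show a - a ∈ IA X (2 * m); simp⟩, rfl⟩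
  have hN := (MonoidHom.normal_ker (map (V := V)
    ((RingHom.fst (FA X) (FA X)).comp (Dbl (X := X) m).subtype))).map _ (map_surjective _ hs)
  have hle : NI V (IA X (2 * m) : Set (FA X)) ≤ (map (V := V)
      ((RingHom.fst (FA X) (FA X)).comp (Dbl (X := X) m).subtype)).ker.map
      (map ((RingHom.snd (FA X) (FA X)).comp (Dbl (X := X) m).subtype)) := by
    refine Subgroup.normalClosure_le_normal ?_
    rintro _ ⟨i, j, r, hr, rfl⟩
    refine ⟨x i j ⟨(0, r), by show r - 0 ∈ IA X (2 * m); simpa using hr⟩, ?_, ?_⟩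
    · show map _ _ = 1
      rw [map_x]
      exact x_zero _ _
    · rw [map_x]
      rfl
  obtain ⟨κ, h1, h2⟩ := hle hy
  exact ⟨κ, h1, h2⟩

end Sys

end Crest.Agent.R176
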