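import Crest.Agent.R176.EpsA

/-! # R176: the cocycle of the change of order, with values in `St (Option (Fin 4)) R` -/

noncomputable section

namespace Crest.Agent.R176

open scoped commutatorElement

set_option linter.unusedSectionVars false

namespace St

variable {V R : Type} [Ring R] [Algebra (ZMod 2) R] [Fintype V] [DecidableEq V] {n : ℕ}
  {L : Loc R}

theorem Eps_cj_one (y : St V5 R) : cj 1 y = y := by
  have : (d0 (1 : Rˣ)) = 1 := by
    funext a
    simp [d0]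
  rw [cj, this, dg_one]

theorem Eps_cj_inj (u : Rˣ) : Function.Injective (cj u : St V5 R → St V5 R) := fun y y' e => by
  have := congrArg (cj u⁻¹) e
  rwa [cj_cj, cj_cj, inv_mul_cancel, Eps_cj_one, Eps_cj_one] at this

theorem Eps_good_swap {T : Tri V R n} (h : T.Good L) (a : Fin n) : (T.swap a).Good L := by
  obtain ⟨Ψ, h1, h2⟩ := h
  exact ⟨Ψ, h1, h2.swap h1 a⟩

theorem Eps_pre_zero (T : Tri V R n) : T.pre 0 = 1 := by simp [Tri.pre]

theorem Eps_pre {T : Tri V R n} {T' : Tri (Fin 4) R 3} {a r : ℕ} (h : T.Agree a T' 0 r) (s : ℕ)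
    (hs : s ≤ r) (h1 : a + s ≤ n + 1) (h2 : s ≤ 4) : T.pre (a + s) = T.pre a * T'.pre s := by
  induction s with
  | zero => rw [Eps_pre_zero, mul_one, add_zero]
  | succ s ih =>
    have e1 := T.pre_succ ⟨a + s, by omega⟩
    have e2 := T'.pre_succ ⟨s, by omega⟩
    have e3 := (h ⟨a + s, by omega⟩ ⟨a + s, by omega⟩ ⟨s, by omega⟩ ⟨s, by omega⟩ s s (by omega)
      (by omega) rfl rfl (by simp) (by simp)).2.2
    simp only at e1 e2
    rw [← add_assoc, e1, e2, ih (by omega) (by omega) (by omega), e3, mul_assoc]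

theorem Eps_E {T : Tri V R n} {T' : Tri (Fin 4) R 3} {a r : ℕ} (h : T.Agree a T' 0 r) (c : Fin n)
    (c' : Fin 3) (hs : c'.val + 1 < r) (hc : c.val = a + c'.val) :
    T.E c = cj (T.pre a) (T'.E c') := by
  have := c.2
  have := c'.2
  rw [Tri.E, Tri.E, cj_cj, h.loc2 c c' c'.val hs hc (zero_add _).symm, hc,
    Eps_pre h _ (by omega) (by omega) (by omega)]

/-- a Gauss decomposition of `g` with toral part `t` -/
def Eps_D (L : Loc R) (T : Tri (Fin 4) R 3) (t : St V5 R) (u : Rˣ) (g : St V5 R) : Prop :=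
  T.Good L ∧ (∃ d', IsTor t d' ∧ (∀ v, d' (some v) = T.d v) ∧ d' none = u) ∧
    io T.l * t * io T.u = g

theorem Eps_D.exists {T : Tri (Fin 4) R 3} (h : T.Good L) : ∃ t u g, Eps_D L T t u g := by
  obtain ⟨t, d', h1, h2⟩ := exists_tor T.d
  exact ⟨t, _, _, h, ⟨d', h1, h2, rfl⟩, rfl⟩

theorem Eps_D.unique {T : Tri (Fin 4) R 3} {t t' g : St V5 R} {u u' : Rˣ} (h : Eps_D L T t u g)
    (h' : Eps_D L T t' u' g) : t = t' :=
  mul_left_cancel (mul_right_cancel (h.2.2.trans h'.2.2.symm))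

theorem Eps_D.phi {T : Tri (Fin 4) R 3} {t g : St V5 R} {u : Rˣ} (h : Eps_D L T t u g) (a : Fin 3) :
    (T.swap a).phi (t * io (T.tau a)) = cj u (T.E a) * T.phi t := by
  obtain ⟨h1, ⟨d', h2, h3, rfl⟩, -⟩ := h
  exact Tri.phi_swap h1 h2 h3 a

theorem Eps_D.swap {T : Tri (Fin 4) R 3} {t g : St V5 R} {u : Rˣ} (h : Eps_D L T t u g)
    (a : Fin 3) : Eps_D L (T.swap a) (t * io (T.tau a)) u g := by
  obtain ⟨h1, ⟨d', h2, h3, rfl⟩, rfl⟩ := h
  refine ⟨Eps_good_swap h1 a, ?_, (T.swap_St a Function.Embedding.some h2 h3).symm⟩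
  obtain ⟨Ψ, hΨ, hT⟩ := h1
  have h4 := hT.eps_ab hΨ a
  have h5 := isTor_ds (V := V5) (by simp) (i := some (T.vi a)) (j := some (T.vj a))
    (by simpa using T.vi_ne_vj a) (L.isUnit_one_add h4)
    (L.isUnit_one_add ((L.ε_mul_comm _ _).trans h4))
  have h6 : io (T.tau a) = ds (some (T.vi a)) (some (T.vj a)) (T.at' a) (T.be a) :=
    relabel_ds _ _ _ _ _
  rw [h6]
  refine ⟨_, h2.mul h5, fun v => ?_, ?_⟩
  · simp [Tri.swap, d2, h3]
  · simp [d2]

/-- Recipe for the three identities: `E_comm` is the Peiffer identity (`epsAt_isTor`,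
`IsTor.dg`, `loc2_swap_far`, `pre_swap_le`, `pre_swap_ge`).  For `E_invol`, `E_braid` take a model
`T'` (`exists_model`, window of length 2 resp. 3 at `a`), a toral `t` (`exists_tor`), run the same
exchanges on `(T', t)`: by `swap_St` and `swap_swap` / `swap_braid` the resulting toral elements
agree (cancel `io l`, `io u`), so `phi_swap` gives the identity for `T'` up to `cj (d' none)`;
transport it with `Agree.swap`, `Agree.loc2`, `pre_succ`, `pre_swap_le` and `cj (T.pre a)`. -/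
theorem Tri.E_invol {T : Tri V R n} (h : T.Good L) (a : Fin n) :
    (T.swap a).E a * T.E a = 1 := by
  obtain ⟨T', hT', hA⟩ := Tri.exists_model h a.val 2 (by norm_num) (by omega)
  have hA' := hA.swap a 0 0 (by norm_num) rfl rfl
  rw [Eps_E hA a 0 (by norm_num) rfl, Eps_E hA' a 0 (by norm_num) rfl, T.pre_swap_le a _ le_rfl,
    ← map_mul]
  obtain ⟨t, u, g, hD⟩ := Eps_D.exists hT'
  have p1 := hD.phi 0
  have p2 := (hD.swap 0).phi 0
  have hD' := (hD.swap 0).swap 0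
  obtain ⟨Ψ, hΨ, hOK⟩ := hT'
  rw [hOK.swap_swap hΨ] at hD' p2
  rw [hD'.unique hD, p1, ← mul_assoc, ← map_mul, right_eq_mul] at p2
  rw [Eps_cj_inj u (p2.trans (map_one _).symm), map_one]

theorem Tri.E_comm {T : Tri V R n} (h : T.Good L) (a b : Fin n) (hab : a.val + 1 < b.val) :
    (T.swap a).E b * T.E a = (T.swap b).E a * T.E b := by
  have e1 : (T.swap b).E a = T.E a := by
    rw [Tri.E, Tri.E, T.loc2_swap_far a b (Or.inl hab), T.pre_swap_le b _ (by omega)]
  have h1 : IsTor (T.E a) _ :=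
    (epsAt_isTor L (i := 0) (j := 1) (by decide) _ (h.eps_loc2 a)).dg (d0 (T.pre a.val))
  rw [e1, ← eq_mul_inv_iff_mul_eq, h1.1, Tri.E, Tri.E, T.loc2_swap_far b a (Or.inr hab), cj, cj,
    dg_dg]
  obtain ⟨c, h2, h3⟩ := T.pre_swap_ge a b.val (by omega)
  have h4 : (T.swap a).d (T.vj a) = nq (T.loc2 a) := by
    simp [Tri.swap, d2, (T.vi_ne_vj a).symm, nq, Tri.loc2, Tri.at']
  have h5 : (T.swap a).d (T.vi a) = np (T.loc2 a) := by
    simp [Tri.swap, d2, np, Tri.loc2, Tri.at']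
  rw [h2, h3, h4, h5]
  congr 2
  funext v
  simp only [d0, Pi.mul_apply, Pi.inv_apply]
  split_ifs
  · simp only [Tri.loc2]
    group
  · simp

theorem Tri.E_braid {T : Tri V R n} (h : T.Good L) (a b : Fin n) (hab : a.val + 1 = b.val) :
    ((T.swap a).swap b).E a * (T.swap a).E b * T.E a =
      ((T.swap b).swap a).E b * (T.swap b).E a * T.E b := by
  obtain ⟨T', hT', hA⟩ := Tri.exists_model h a.val 3 (by norm_num) (by omega)
  have hb : b.val = a.val + (1 : Fin 3).val := hab.symm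
  have hA0 := hA.swap a 0 0 (by norm_num) rfl rfl
  have hA1 := hA.swap b 1 1 (by norm_num) hab.symm rfl
  have hA01 := hA0.swap b 1 1 (by norm_num) hab.symm rfl
  have hA10 := hA1.swap a 0 0 (by norm_num) rfl rfl
  rw [Eps_E hA a 0 (by norm_num) rfl, Eps_E hA b 1 (by norm_num) hb,
    Eps_E hA0 b 1 (by norm_num) hb, Eps_E hA1 a 0 (by norm_num) rfl,
    Eps_E hA01 a 0 (by norm_num) rfl, Eps_E hA10 b 1 (by norm_num) hb,
    (T.swap a).pre_swap_le b _ (by omega), (T.swap b).pre_swap_le a _ le_rfl,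
    T.pre_swap_le a _ le_rfl, T.pre_swap_le b _ (by omega), ← map_mul, ← map_mul, ← map_mul,
    ← map_mul]
  obtain ⟨t, u, g, hD⟩ := Eps_D.exists hT'
  have p := ((hD.swap 0).swap 1).phi 0
  have q := ((hD.swap 1).swap 0).phi 1
  have hp := ((hD.swap 0).swap 1).swap 0
  have hq := ((hD.swap 1).swap 0).swap 1
  obtain ⟨Ψ, hΨ, hOK⟩ := hT'
  rw [hOK.swap_braid hΨ 0 1 rfl] at hp p
  rw [hp.unique hq, q, (hD.swap 0).phi, (hD.swap 1).phi, hD.phi, hD.phi, ← mul_assoc, ← mul_assoc,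
    ← mul_assoc, ← mul_assoc, mul_left_inj, ← map_mul, ← map_mul, ← map_mul, ← map_mul] at p
  rw [Eps_cj_inj u p]

end St

end Crest.Agent.R176
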