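import Crest.Agent.R176.Tri

/-! # R176: the cocycle of the change of order, with values in `St (Option (Fin 4)) R` -/

noncomputable section

namespace Crest.Agent.R176

open scoped commutatorElement

set_option linter.unusedSectionVars false

namespace St

variable {V R : Type} [Ring R] [Algebra (ZMod 2) R] [Fintype V] [DecidableEq V] {n : ℕ}

/-- the five-element index set -/
abbrev V5 := Option (Fin 4)

/-- the inclusion of `St (Fin 4)` -/
def io : St (Fin 4) R →* St V5 R := relabel Function.Embedding.some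

def HH (i : Fin 4) (u : Rˣ) : St V5 R := h none (some i) u

/-- the unit `u` in the position `none` -/
def d0 (u : Rˣ) : V5 → Rˣ := fun a => if a = none then u else 1

/-- action of the units on the elements of `St V5 R` sitting over the position `none` -/
def cj (u : Rˣ) : St V5 R →* St V5 R := dg (d0 u)

/-- new pivots after an exchange -/
def np (c : Rˣ × Rˣ × R × R) : Rˣ :=
  c.1 * (un (1 + c.2.2.2 * (((c.2.1)⁻¹ : Rˣ) * c.2.2.1 * c.1)))⁻¹
def nq (c : Rˣ × Rˣ × R × R) : Rˣ :=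
  c.2.1 * un (1 + (((c.2.1)⁻¹ : Rˣ) * c.2.2.1 * c.1) * c.2.2.2)

def epsAt (i j : Fin 4) (c : Rˣ × Rˣ × R × R) : St V5 R :=
  io (ds i j (((c.2.1)⁻¹ : Rˣ) * c.2.2.1 * c.1) c.2.2.2) * HH j (nq c) * HH i (np c) *
    (HH i c.1 * HH j c.2.1)⁻¹

def eps (c : Rˣ × Rˣ × R × R) : St V5 R := epsAt 0 1 c

/-- the cocycle attached to the exchange at `a` -/
def Tri.E (T : Tri V R n) (a : Fin n) : St V5 R := cj (T.pre a.val) (eps (T.loc2 a))

/-- all pivots moved to the position `none`, in the order of `T` -/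
def Tri.phi (T : Tri (Fin 4) R 3) (t : St V5 R) : St V5 R :=
  t * ((List.finRange 4).map (fun s => HH (T.rk.symm s) (T.d (T.rk.symm s)))).prod

variable {L : Loc R}

theorem cj_cj (u v : Rˣ) (y : St V5 R) : cj u (cj v y) = cj (u * v) y := by
  have : d0 u * d0 v = d0 (u * v) := by
    funext a
    cases a <;> simp [d0]
  simp only [cj, dg_dg, this]

theorem EpsA_card : 3 ≤ Fintype.card V5 := by simp

theorem EpsA_isTor_HH (i : Fin 4) (u : Rˣ) : IsTor (HH i u) (d2 none (some i) u u⁻¹) :=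
  isTor_h EpsA_card (by simp) u

theorem EpsA_io_ds (i j : Fin 4) (a b : R) : io (ds i j a b) = ds (some i) (some j) a b :=
  relabel_ds _ _ _ _ _

theorem EpsA_h_mem (i j : V) (u : Rˣ) :
    h i j u ∈ Ug R (fun a b => a ∈ ({i, j} : Set V) ∧ b ∈ ({i, j} : Set V)) :=
  mul_mem (w_mem_Ug i j u) (inv_mem (w_mem_Ug i j 1))

theorem EpsA_eps (L : Loc R) (p q : Rˣ) (a b : R) :
    L.ε ((((q⁻¹ : Rˣ) : R) * a * p) * b) = L.ε (a * b) := by
  simp only [map_mul, L.ε_unit, one_mul, mul_one]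

theorem epsAt_isTor (L : Loc R) {i j : Fin 4} (hij : i ≠ j) (c : Rˣ × Rˣ × R × R)
    (hc : L.ε (c.2.2.1 * c.2.2.2) = 0) :
    IsTor (epsAt i j c) (d0 (nq c * np c * (c.1 * c.2.1)⁻¹)) := by
  have h1 := (EpsA_eps L c.1 c.2.1 c.2.2.1 c.2.2.2).trans hc
  have h2 := (L.ε_mul_comm _ _).trans h1
  have hij' : (some i : V5) ≠ some j := by simpa using hij
  have h3 := (((isTor_ds EpsA_card hij' (L.isUnit_one_add h1) (L.isUnit_one_add h2)).mul
    (EpsA_isTor_HH j (nq c))).mul (EpsA_isTor_HH i (np c))).mul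
    ((EpsA_isTor_HH i c.1).mul (EpsA_isTor_HH j c.2.1)).inv
  rw [← EpsA_io_ds] at h3
  unfold epsAt
  convert h3 using 1
  funext a
  cases a with
  | none => simp [d0, d2]
  | some k =>
    by_cases hi : k = i
    · subst hi
      simp [d0, d2, hij, np]
    · by_cases hj : k = j
      · subst hj
        simp [d0, d2, hi, nq]
      · simp [d0, d2, hi, hj]

theorem EpsA_commute {t : St V5 R} {u : Rˣ} (ht : IsTor t (d0 u)) {g : St V5 R}
    (hg : g ∈ Ug R (fun a b => a ∈ {a : V5 | a ≠ none} ∧ b ∈ {a : V5 | a ≠ none})) :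
    Commute g t := by
  have h1 := ht.1 g
  rw [dg_eq_self (d0 u) (fun a b h => ⟨if_neg h.1, if_neg h.2⟩) hg, mul_inv_eq_iff_eq_mul] at h1
  exact h1.symm

/-- Recipe: `epsAt i j c = relabel σ (epsAt 0 1 c)` for a permutation `σ` fixing `none`, and an
element `t` with `IsTor t (d0 u)` commutes with everything supported away from `none`
(`dg_eq_self`); `relabel_perm_eq`. -/
theorem epsAt_eq (L : Loc R) {i j : Fin 4} (hij : i ≠ j) (c : Rˣ × Rˣ × R × R)
    (hc : L.ε (c.2.2.1 * c.2.2.2) = 0) : epsAt i j c = eps c := by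
  obtain ⟨σ, h0, h1⟩ : ∃ σ : Equiv.Perm (Fin 4), σ 0 = i ∧ σ 1 = j := by
    revert i j
    decide
  have h2 := relabel_perm_eq EpsA_card {a : V5 | a ≠ none} (Equiv.optionCongr σ)
    (fun a ha => by
      have : a = none := by simpa using ha
      subst this
      rfl)
    (z := eps c) fun g hg => EpsA_commute (epsAt_isTor L (by decide) c hc) hg
  rw [← h2]
  simp only [eps, epsAt, EpsA_io_ds, HH, map_mul, map_inv, relabel_ds, relabel_h,
    Equiv.coe_toEmbedding, Equiv.optionCongr_apply, Option.map_some, Option.map_none, h0, h1]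

/-- only the `none` component of `d` acts on `eps c`.  Recipe: for `i ≠ k` conjugation by
`h (some i) (some k) v` is trivial on `eps c`, so `dg` of `v` at `some i` and at `some k` agree on
it; at `some 2` or `some 3` it is trivial (`dg_eq_self`, the support is `{none, 0, 1}`). -/
theorem dg_eps (L : Loc R) (d : V5 → Rˣ) (c : Rˣ × Rˣ × R × R)
    (hc : L.ε (c.2.2.1 * c.2.2.2) = 0) : dg d (eps c) = cj (d none) (eps c) := by
  have he := epsAt_isTor L (show (0 : Fin 4) ≠ 1 by decide) c hc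
  have t1 := isTor_h (R := R) EpsA_card (show (some 0 : V5) ≠ some 2 by decide) (d (some 0))
  have t2 := isTor_h (R := R) EpsA_card (show (some 1 : V5) ≠ some 3 by decide) (d (some 1))
  have c1 : Commute (h (some 0) (some 2) (d (some 0))) (eps c) :=
    EpsA_commute he (Ug_mono (by
      rintro a b ⟨rfl | rfl, rfl | rfl⟩ <;> simp) (EpsA_h_mem _ _ _))
  have c2 : Commute (h (some 1) (some 3) (d (some 1))) (eps c) :=
    EpsA_commute he (Ug_mono (by
      rintro a b ⟨rfl | rfl, rfl | rfl⟩ <;> simp) (EpsA_h_mem _ _ _))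
  have e1 := (t1.mul t2).1 (eps c)
  rw [(c1.mul_left c2).eq, mul_inv_cancel_right] at e1
  let S : Set V5 := {none, some 0, some 1}
  have hS : eps c ∈ Ug R (fun a b => a ∈ S ∧ b ∈ S) := by
    have m0 : ∀ u : Rˣ, HH 0 u ∈ Ug R (fun a b => a ∈ S ∧ b ∈ S) := fun u =>
      Ug_mono (by rintro a b ⟨rfl | rfl, rfl | rfl⟩ <;> simp [S]) (EpsA_h_mem _ _ _)
    have m1 : ∀ u : Rˣ, HH 1 u ∈ Ug R (fun a b => a ∈ S ∧ b ∈ S) := fun u =>
      Ug_mono (by rintro a b ⟨rfl | rfl, rfl | rfl⟩ <;> simp [S]) (EpsA_h_mem _ _ _)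
    refine mul_mem (mul_mem (mul_mem ?_ (m1 _)) (m0 _)) (inv_mem (mul_mem (m0 _) (m1 _)))
    rw [EpsA_io_ds]
    exact Ug_mono (by rintro a b ⟨rfl | rfl, rfl | rfl⟩ <;> simp [S]) (ds_mem_Ug _ _ _ _)
  let d3 : V5 → Rˣ := d2 (some 2) (some 3) (d (some 0) * d (some 2)) (d (some 1) * d (some 3))
  have e2 : dg d3 (eps c) = eps c := by
    refine dg_eq_self d3 ?_ hS
    rintro a b ⟨rfl | rfl | rfl, rfl | rfl | rfl⟩ <;> simp [d3, d2]
  have e3 : d = d0 (d none) * (d2 (some 0) (some 2) (d (some 0)) (d (some 0))⁻¹ *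
      d2 (some 1) (some 3) (d (some 1)) (d (some 1))⁻¹ * d3) := by
    funext a
    rcases a with _ | k
    · simp [d0, d2, d3]
    · fin_cases k <;> simp [d0, d2, d3]
  conv_lhs => rw [e3, ← dg_dg, ← dg_dg, e2, ← e1]
  rfl

theorem Tri.Good.eps_loc2 {T : Tri V R n} (h : T.Good L) (a : Fin n) :
    L.ε ((T.loc2 a).2.2.1 * (T.loc2 a).2.2.2) = 0 := by
  obtain ⟨Ψ, h1, h2⟩ := h
  exact (EpsA_eps L _ _ _ _).symm.trans (h2.eps_ab h1 a)

theorem EpsA_prod_tor (P : List (Fin 4)) (f : Fin 4 → Rˣ) :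
    ∃ d : V5 → Rˣ, IsTor (P.map fun k => HH k (f k)).prod d ∧ d none = (P.map f).prod := by
  induction P with
  | nil => exact ⟨1, IsTor.one, rfl⟩
  | cons k P ih =>
    obtain ⟨d, h1, h2⟩ := ih
    exact ⟨_, (EpsA_isTor_HH k (f k)).mul h1, by simp [d2, h2]⟩

theorem EpsA_key (L : Loc R) {t : St V5 R} {d' : V5 → Rˣ} (ht : IsTor t d') {i j : Fin 4}
    (hij : i ≠ j) (P : List (Fin 4)) (hP : ∀ k ∈ P, k ≠ i ∧ k ≠ j) (f : Fin 4 → Rˣ)
    (c : Rˣ × Rˣ × R × R) (hc : L.ε (c.2.2.1 * c.2.2.2) = 0) (Q : St V5 R) :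
    t * io (ds i j (((c.2.1)⁻¹ : Rˣ) * c.2.2.1 * c.1) c.2.2.2) *
        ((P.map fun k => HH k (f k)).prod * (HH j (nq c) * (HH i (np c) * Q))) =
      cj (d' none) (cj (P.map f).prod (eps c)) *
        (t * ((P.map fun k => HH k (f k)).prod * (HH i c.1 * (HH j c.2.1 * Q)))) := by
  obtain ⟨d, h1, h2⟩ := EpsA_prod_tor P f
  have hcomm : Commute (io (ds i j (((c.2.1)⁻¹ : Rˣ) * c.2.2.1 * c.1) c.2.2.2))
      (P.map fun k => HH k (f k)).prod := by
    refine Commute.list_prod_right _ _ fun y hy => ?_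
    obtain ⟨k, hk, rfl⟩ := List.mem_map.1 hy
    rw [EpsA_io_ds]
    refine Ug_commute ?_ (ds_mem_Ug _ _ _ _) (EpsA_h_mem _ _ _)
    have h3 := (hP k hk).1.symm
    have h4 := (hP k hk).2.symm
    rintro a b a' b' ⟨rfl | rfl, rfl | rfl⟩ ⟨rfl | rfl, rfl | rfl⟩ <;> simp [h3, h4]
  have h3 := (ht.mul h1).1 (eps c)
  rw [dg_eps L _ c hc, Pi.mul_apply, h2, ← cj_cj] at h3
  rw [← h3, ← epsAt_eq L hij c hc, epsAt, mul_assoc t, ← mul_assoc (io _), hcomm.eq]
  group

/-- Recipe: write the list of positions as `pre ++ [a, a+1] ++ post`; `io (tau)` commutes with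
`HH k _` for `k ∉ {i, j}`; `A = t * ∏_{pre} HH` is toral, so conjugation by `A` is `dg`; `dg_eps`,
`epsAt_eq`. -/
theorem Tri.phi_swap {T : Tri (Fin 4) R 3} (h : T.Good L) {t : St V5 R} {d' : V5 → Rˣ}
    (ht : IsTor t d') (hd : ∀ v, d' (some v) = T.d v) (a : Fin 3) :
    (T.swap a).phi (t * io (T.tau a)) = cj (d' none) (T.E a) * T.phi t := by
  have hc := h.eps_loc2 a
  have hl : List.finRange 4 = [0, 1, 2, 3] := by decide
  have hinj : ∀ s s' : Fin 4, T.rk.symm s = T.rk.symm s' ↔ s = s' := fun s s' =>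
    T.rk.symm.injective.eq_iff
  have hi : (T.swap a).d (T.vi a) = np (T.loc2 a) := by
    simp [Tri.swap, d2, np, Tri.loc2, Tri.at']
  have hj : (T.swap a).d (T.vj a) = nq (T.loc2 a) := by
    simp [Tri.swap, d2, nq, Tri.loc2, Tri.at', (T.vi_ne_vj a).symm]
  have hk : ∀ s, s ≠ a.castSucc → s ≠ a.succ →
      (T.swap a).d (T.rk.symm s) = T.d (T.rk.symm s) := fun s h1 h2 => by
    simp [Tri.swap, d2, Tri.vi, Tri.vj, h1, h2]
  have hr : ∀ s, (T.swap a).rk.symm s = T.rk.symm (Equiv.swap a.castSucc a.succ s) := fun s => rfl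
  simp only [Tri.phi, Tri.E, Tri.pre, hl, List.map_cons, List.map_nil, List.prod_cons,
    List.prod_nil, hr]
  have key := fun P hP Q => EpsA_key L ht (T.vi_ne_vj a) P hP T.d (T.loc2 a) hc Q
  rw [← hi, ← hj] at key
  fin_cases a
  · have k2 := hk 2 (by decide) (by decide)
    have k3 := hk 3 (by decide) (by decide)
    have := key [] (by simp) (HH (T.rk.symm 2) (T.d (T.rk.symm 2)) *
      (HH (T.rk.symm 3) (T.d (T.rk.symm 3)) * 1))
    rw [← k2, ← k3] at this
    conv_rhs => rw [← k2, ← k3]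
    simp only [List.map_nil, List.prod_nil, one_mul] at this
    exact this
  · have k2 := hk 0 (by decide) (by decide)
    have k3 := hk 3 (by decide) (by decide)
    have := key [T.rk.symm 0] (by simp [Tri.vi, Tri.vj])
      (HH (T.rk.symm 3) (T.d (T.rk.symm 3)) * 1)
    simp only [List.take_succ_cons, List.take_zero, List.map_cons, List.map_nil, List.prod_cons,
      List.prod_nil, mul_one] at this ⊢
    conv_lhs at this => rw [← k2, ← k3]
    exact this
  · have k2 := hk 0 (by decide) (by decide)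
    have k3 := hk 1 (by decide) (by decide)
    have := key [T.rk.symm 0, T.rk.symm 1] (by simp [Tri.vi, Tri.vj]) 1
    simp only [List.take_succ_cons, List.take_zero, List.map_cons, List.map_nil, List.prod_cons,
      List.prod_nil, mul_one, mul_assoc (HH _ _)] at this ⊢
    conv_lhs at this => rw [← k2, ← k3]
    exact this

/-- a toral element with prescribed entries (`∏ (HH i (d i))⁻¹`) -/
theorem exists_tor (d : Fin 4 → Rˣ) : ∃ (t : St V5 R) (d' : V5 → Rˣ), IsTor t d' ∧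
    ∀ v, d' (some v) = d v := by
  refine ⟨_, _, (((EpsA_isTor_HH 0 (d 0)⁻¹).mul (EpsA_isTor_HH 1 (d 1)⁻¹)).mul
    (EpsA_isTor_HH 2 (d 2)⁻¹)).mul (EpsA_isTor_HH 3 (d 3)⁻¹), fun v => ?_⟩
  fin_cases v <;> simp [d2]

end St

end Crest.Agent.R176
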