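import Crest.Agent.R176.St

/-! # R176: the Steinberg group of a free algebra is finitely presented -/

noncomputable section

namespace Crest.Agent.R176

open scoped commutatorElement

set_option linter.unusedSectionVars false

section FP_abstract
variable {G : Type*} [Group G]

theorem FP_hw {a b c s t : G} (hs : ⁅a, b⁆ = s) (ht : ⁅b, c⁆ = t) (hac : Commute a c)
    (hst : Commute s t) (htc : Commute t c) : ⁅a, t⁆ = ⁅s, c⁆ := by
  have e1 : a * b * a⁻¹ = s * b := by rw [← hs, commutatorElement_def]; group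
  have e2 : b * c * b⁻¹ = t * c := by rw [← ht, commutatorElement_def]; group
  have e3 : a * c * a⁻¹ = c := by rw [hac.eq]; group
  have e4 : a * t * a⁻¹ = s * (b * c * b⁻¹) * s⁻¹ * c⁻¹ := by
    calc a * t * a⁻¹ = (a * b * a⁻¹) * (a * c * a⁻¹) * (a * b * a⁻¹)⁻¹ * (a * c * a⁻¹)⁻¹ := by
          rw [← ht, commutatorElement_def]; group
      _ = _ := by rw [e1, e3]; group
  have e5 : Commute t ⁅s, c⁆ :=
    ((hst.symm.mul_right htc).mul_right hst.symm.inv_right).mul_right htc.inv_right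
  calc ⁅a, t⁆ = (s * t) * c * s⁻¹ * c⁻¹ * t⁻¹ := by rw [commutatorElement_def, e4, e2]; group
    _ = t * ⁅s, c⁆ * t⁻¹ := by rw [hst.eq, commutatorElement_def]; group
    _ = _ := by rw [e5.eq]; group

theorem FP_comm_right {a b c : G} (hb : Commute a b) (hc : Commute a c) : Commute a ⁅b, c⁆ :=
  ((hb.mul_right hc).mul_right hb.inv_right).mul_right hc.inv_right

theorem FP_mul_left {a a' b : G} (h : Commute a ⁅a', b⁆) : ⁅a * a', b⁆ = ⁅a', b⁆ * ⁅a, b⁆ := by
  calc ⁅a * a', b⁆ = (a * ⁅a', b⁆) * a⁻¹ * ⁅a, b⁆ := by simp only [commutatorElement_def]; group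
    _ = _ := by rw [h.eq]; group

theorem FP_mul_right {a b b' : G} (h : Commute b ⁅a, b'⁆) : ⁅a, b * b'⁆ = ⁅a, b⁆ * ⁅a, b'⁆ := by
  calc ⁅a, b * b'⁆ = ⁅a, b⁆ * ((b * ⁅a, b'⁆) * b⁻¹) := by simp only [commutatorElement_def]; group
    _ = _ := by rw [h.eq]; group

open scoped IsMulCommutative in
/-- additive extension of a family of commuting involutions -/
theorem FP_ext {ι M : Type*} [AddCommGroup M] [Module (ZMod 2) M] (B : Module.Basis ι (ZMod 2) M)
    (g : ι → G) (hc : ∀ u v, Commute (g u) (g v)) (h2 : ∀ u, g u * g u = 1) :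
    ∃ f : M → G, (∀ r s, f (r + s) = f r * f s) ∧ ∀ w, f (B w) = g w := by
  have := Subgroup.isMulCommutative_closure (k := Set.range g)
    (by rintro _ ⟨u, rfl⟩ _ ⟨v, rfl⟩; exact hc u v)
  let g' : ι → Additive (Subgroup.closure (Set.range g)) :=
    fun w => Additive.ofMul ⟨g w, Subgroup.subset_closure ⟨w, rfl⟩⟩
  have hg' : ∀ w, zmultiplesHom _ (g' w) ((2 : ℕ) : ℤ) = 0 := fun w => by
    rw [zmultiplesHom_apply, natCast_zsmul, two_nsmul]
    exact Subtype.ext (h2 w)
  let F := (Finsupp.liftAddHom fun w => ZMod.lift 2 ⟨_, hg' w⟩).comp B.repr.toLinearMap.toAddMonoidHom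
  refine ⟨fun r => (F r).toMul.1, fun r s => by simp only [map_add]; rfl, fun w => ?_⟩
  have : F (B w) = g' w := by
    have h := ZMod.lift_coe 2 ⟨_, hg' w⟩ 1
    simpa [F] using h
  simp only [this, g', toMul_ofMul]

theorem FP_ind {ι M : Type*} [AddCommGroup M] [Module (ZMod 2) M] (B : Module.Basis ι (ZMod 2) M)
    {P : M → Prop} (h0 : P 0) (hB : ∀ w, P (B w)) (hadd : ∀ r s, P r → P s → P (r + s)) (r : M) :
    P r := by
  have hr : r ∈ Submodule.span (ZMod 2) (Set.range B) := B.span_eq ▸ Submodule.mem_top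
  induction hr using Submodule.span_induction with
  | mem _ h => obtain ⟨w, rfl⟩ := h; exact hB w
  | zero => exact h0
  | add r s _ _ a b => exact hadd r s a b
  | smul c r _ a =>
    rcases (by revert c; decide : c = 0 ∨ c = 1) with rfl | rfl
    · rwa [zero_smul]
    · rwa [one_smul]

variable {V X : Type}

/-- the finitely many relations -/
structure FP_Rel (Y : V → V → Option X → G) : Prop where
  spare : ∀ i j k l : V, ∃ p, p ≠ i ∧ p ≠ j ∧ p ≠ k ∧ p ≠ l
  sq : ∀ i j a, Y i j a * Y i j a = 1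
  comm : ∀ {i j k l}, j ≠ k → i ≠ l → ∀ a b, Commute (Y i j a) (Y k l b)
  ml : ∀ {i j k}, i ≠ j → j ≠ k → i ≠ k → ∀ a, ⁅Y i j none, Y j k a⁆ = Y i k a
  mr : ∀ {i j k}, i ≠ j → j ≠ k → i ≠ k → ∀ a, ⁅Y i j a, Y j k none⁆ = Y i k a

/-- the elements belonging to words -/
def FP_y (Y : V → V → Option X → G) (p : V → V → V) : List X → V → V → G
  | [], i, j => Y i j none
  | a :: w, i, j => ⁅Y i (p i j) (some a), FP_y Y p w (p i j) j⁆

/-- independence of the auxiliary index, up to length `d` -/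
def FP_P (Y : V → V → Option X → G) (p : V → V → V) (d : ℕ) : Prop :=
  ∀ (a : X) (w : List X), w.length < d → ∀ i q j, i ≠ q → q ≠ j → i ≠ j →
    ⁅Y i q (some a), FP_y Y p w q j⁆ = FP_y Y p (a :: w) i j

variable {Y : V → V → Option X → G} {p : V → V → V} {d : ℕ}

theorem FP_Rel.comm1 (h : FP_Rel Y) (hP : FP_P Y p d) (a : Option X) {i j : V} :
    ∀ v : List X, v.length ≤ d → ∀ k l, k ≠ l → j ≠ k → i ≠ l → Commute (Y i j a) (FP_y Y p v k l)
  | [], _, _, _, _, h2, h3 => h.comm h2 h3 _ _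
  | b :: v, hv, k, l, h1, h2, h3 => by
    obtain ⟨q, q1, q2, q3, q4⟩ := h.spare i j k l
    rw [← hP b v hv k q l q3.symm q4 h1]
    exact FP_comm_right (h.comm h2 q1.symm _ _)
      (h.comm1 hP a v (Nat.le_of_succ_le hv) q l q4 q2.symm h3)

theorem FP_Rel.comm2 (h : FP_Rel Y) (hP : FP_P Y p d) {v : List X} (hv : v.length ≤ d) {k l : V}
    (hkl : k ≠ l) : ∀ u : List X, u.length ≤ d → ∀ i j, i ≠ j → j ≠ k → i ≠ l →
      Commute (FP_y Y p u i j) (FP_y Y p v k l)
  | [], _, _, _, _, h2, h3 => h.comm1 hP none v hv k l hkl h2 h3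
  | a :: u, hu, i, j, h1, h2, h3 => by
    obtain ⟨q, q1, q2, q3, q4⟩ := h.spare i j k l
    rw [← hP a u hu i q j q1.symm q2 h1]
    exact (FP_comm_right (h.comm1 hP _ v hv k l hkl q3 h3).symm
      (h.comm2 hP hv hkl u (Nat.le_of_succ_le hu) q j q2 h2 q4).symm).symm

theorem FP_Rel.unit_left (h : FP_Rel Y) (hP : FP_P Y p d) {i j k : V} (h1 : i ≠ j) (h2 : j ≠ k)
    (h3 : i ≠ k) : ∀ w : List X, w.length ≤ d → ⁅Y i j none, FP_y Y p w j k⁆ = FP_y Y p w i k
  | [], _ => h.ml h1 h2 h3 none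
  | b :: w, hw => by
    obtain ⟨q, q1, q2, q3, -⟩ := h.spare i j k k
    have hw' := Nat.le_of_succ_le hw
    rw [FP_hw (h.ml h1 q2.symm q1.symm (some b)) (hP b w hw j q k q2.symm q3 h2)
      (h.comm1 hP _ w hw' q k q3 q2.symm h3) (h.comm1 hP _ _ hw j k h2 q2 h3)
      (h.comm2 hP hw' q3 _ hw j k h2 q3.symm h2)]
    exact hP b w hw i q k q1.symm q3 h3

theorem FP_Rel.P (h : FP_Rel Y) (hp : ∀ i j, p i j ≠ i ∧ p i j ≠ j) : ∀ d, FP_P Y p d
  | 0 => fun _ _ hw => absurd hw (Nat.not_lt_zero _)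
  | d + 1 => fun a w hw i q j h1 h2 h3 => by
    have hP := h.P hp d
    have hw' := Nat.le_of_lt_succ hw
    by_cases hq : q = p i j
    · subst hq; rfl
    obtain ⟨p1, p2⟩ := hp i j
    rw [FP_hw (h.mr h1 hq p1.symm (some a))
      (h.unit_left hP hq p2 h2 w hw') (h.comm1 hP _ w hw' _ j p2 hq h3)
      (h.comm1 hP _ w hw' q j h2 (Ne.symm hq) h3) (h.comm2 hP hw' p2 w hw' q j h2 p2.symm h2)]
    rfl

theorem FP_Rel.ycomm (h : FP_Rel Y) (hp : ∀ i j, p i j ≠ i ∧ p i j ≠ j) {i j k l : V} (h1 : i ≠ j)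
    (h2 : k ≠ l) (h3 : j ≠ k) (h4 : i ≠ l) (u v : List X) :
    Commute (FP_y Y p u i j) (FP_y Y p v k l) :=
  h.comm2 (h.P hp (max u.length v.length)) (le_max_right _ _) h2 u (le_max_left _ _) i j h1 h3 h4

theorem FP_Rel.ymul (h : FP_Rel Y) (hp : ∀ i j, p i j ≠ i ∧ p i j ≠ j) (v : List X) {j k : V}
    (h2 : j ≠ k) : ∀ (u : List X) (i : V), i ≠ j → i ≠ k →
      ⁅FP_y Y p u i j, FP_y Y p v j k⁆ = FP_y Y p (u ++ v) i k
  | [], _, h1, h3 => h.unit_left (h.P hp _) h1 h2 h3 v le_rfl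
  | a :: u, i, h1, h3 => by
    obtain ⟨q, q1, q2, q3, -⟩ := h.spare i j k k
    rw [← FP_hw (h.P hp _ a u (Nat.lt_succ_self _) i q j q1.symm q2 h1) (h.ymul hp v h2 u q q2 q3)
      (h.comm1 (h.P hp _) _ v le_rfl j k h2 q2 h3) (h.ycomm hp h1 q3 q2.symm h3 _ _)
      (h.ycomm hp q3 h2 h2.symm q3 _ _)]
    exact h.P hp _ a _ (Nat.lt_succ_self _) i q k q1.symm q3 h3

theorem FP_Rel.ysq (h : FP_Rel Y) (hp : ∀ i j, p i j ≠ i ∧ p i j ≠ j) {i j : V} (h1 : i ≠ j) :
    ∀ w : List X, FP_y Y p w i j * FP_y Y p w i j = 1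
  | [] => h.sq _ _ _
  | a :: w => by
    have := FP_mul_left (a := Y i (p i j) (some a)) (a' := Y i (p i j) (some a))
      (b := FP_y Y p w (p i j) j) (h.comm1 (h.P hp _) _ (a :: w) le_rfl i j h1 (hp i j).1 h1)
    rw [h.sq, commutatorElement_one_left] at this
    exact this.symm

end FP_abstract

/-- the relators of the finite presentation -/
inductive FP_R (V X : Type) : FreeGroup (V × V × Option X) → Prop
  | diag (i : V) (a : Option X) : FP_R V X (.of (i, i, a))
  | sq (i j : V) (a : Option X) : FP_R V X (.of (i, j, a) * .of (i, j, a))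
  | comm (i j k l : V) (a b : Option X) (h1 : j ≠ k) (h2 : i ≠ l) :
      FP_R V X ⁅FreeGroup.of (i, j, a), FreeGroup.of (k, l, b)⁆
  | ml (i j k : V) (a : Option X) (h1 : i ≠ j) (h2 : j ≠ k) (h3 : i ≠ k) :
      FP_R V X (⁅FreeGroup.of (i, j, (none : Option X)), FreeGroup.of (j, k, a)⁆ *
        (FreeGroup.of (i, k, a))⁻¹)
  | mr (i j k : V) (a : Option X) (h1 : i ≠ j) (h2 : j ≠ k) (h3 : i ≠ k) :
      FP_R V X (⁅FreeGroup.of (i, j, a), FreeGroup.of (j, k, (none : Option X))⁆ *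
        (FreeGroup.of (i, k, a))⁻¹)

theorem FP_R_finite (V X : Type) [Finite V] [Finite X] : {w | FP_R V X w}.Finite := by
  let o : V × V × Option X → FreeGroup (V × V × Option X) := FreeGroup.of
  refine ((((Set.finite_range o).union (Set.finite_range fun s => o s * o s)).union
    (Set.finite_range fun s : _ × _ => ⁅o s.1, o s.2⁆)).union
    (Set.finite_range fun s : _ × _ × _ => ⁅o s.1, o s.2.1⁆ * (o s.2.2)⁻¹)).subset ?_
  rintro _ (⟨i, a⟩ | ⟨i, j, a⟩ | ⟨i, j, k, l, a, b, -, -⟩ | ⟨i, j, k, a, -, -, -⟩ | ⟨i, j, k, a, -, -, -⟩)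
  · exact .inl (.inl (.inl ⟨_, rfl⟩))
  · exact .inl (.inl (.inr ⟨_, rfl⟩))
  · exact .inl (.inr ⟨(_, _), rfl⟩)
  · exact .inr ⟨(_, _, _), rfl⟩
  · exact .inr ⟨(_, _, _), rfl⟩

theorem FP_spare {V : Type} [Fintype V] [DecidableEq V] (hV : 5 ≤ Fintype.card V) (i j k l : V) :
    ∃ p, p ≠ i ∧ p ≠ j ∧ p ≠ k ∧ p ≠ l := by
  obtain ⟨p, -, hp⟩ := Finset.exists_mem_notMem_of_card_lt_card
    (s := {i, j, k, l}) (t := Finset.univ) (Finset.card_le_four.trans_lt hV)
  exact ⟨p, by simpa [not_or] using hp⟩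

theorem FP_main (V X A : Type) [Fintype V] [DecidableEq V] [Finite X] (hV : 5 ≤ Fintype.card V)
    [Ring A] [Algebra (ZMod 2) A] (B : Module.Basis (List X) (ZMod 2) A)
    (hB : ∀ u v, B (u ++ v) = B u * B v) : Group.IsFinitelyPresented (St V A) := by
  have : Finite {w | FP_R V X w} := FP_R_finite V X
  let G := PresentedGroup {w | FP_R V X w}
  let Y : V → V → Option X → G := fun i j a => PresentedGroup.of (i, j, a)
  have one : ∀ {w}, FP_R V X w → (PresentedGroup.mk {w | FP_R V X w} w : G) = 1 :=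
    fun h => PresentedGroup.one_of_mem (rels := {w | FP_R V X w}) h
  have h : FP_Rel Y := ⟨FP_spare hV, fun i j a => one (.sq i j a),
    fun h1 h2 a b => commutatorElement_eq_one_iff_commute.1 (one (.comm _ _ _ _ a b h1 h2)),
    fun h1 h2 h3 a => mul_inv_eq_one.1 (one (.ml _ _ _ a h1 h2 h3)),
    fun h1 h2 h3 a => mul_inv_eq_one.1 (one (.mr _ _ _ a h1 h2 h3))⟩
  choose p hp using fun i j : V => (FP_spare hV i j i j).imp fun _ h => And.intro h.1 h.2.1
  choose! f hf1 hf2 using fun (i j : V) (hij : i ≠ j) => FP_ext B (fun w => FP_y Y p w i j)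
    (h.ycomm hp hij hij hij.symm hij) (h.ysq hp hij)
  have hf0 : ∀ i j, i ≠ j → f i j 0 = 1 := fun i j hij =>
    mul_eq_left.1 ((hf1 i j hij 0 0).symm.trans (by rw [add_zero]))
  have hc : ∀ i j k l r s, i ≠ j → k ≠ l → j ≠ k → i ≠ l → Commute (f i j r) (f k l s) := by
    intro i j k l r s h1 h2 h3 h4
    refine FP_ind B (P := fun r => Commute (f i j r) (f k l s)) (by simp [hf0 _ _ h1]) (fun u => ?_)
      (fun r r' a b => by rw [hf1 _ _ h1]; exact a.mul_left b) r
    refine FP_ind B (P := fun s => Commute (f i j (B u)) (f k l s)) (by simp [hf0 _ _ h2])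
      (fun v => ?_) (fun s s' a b => by rw [hf1 _ _ h2]; exact a.mul_right b) s
    rw [hf2 _ _ h1, hf2 _ _ h2]
    exact h.ycomm hp h1 h2 h3 h4 u v
  have hm : ∀ i j k r s, i ≠ j → j ≠ k → i ≠ k → ⁅f i j r, f j k s⁆ = f i k (r * s) := by
    intro i j k r s h1 h2 h3
    refine FP_ind B (P := fun r => ⁅f i j r, f j k s⁆ = f i k (r * s))
      (by simp [hf0 _ _ h1, hf0 _ _ h3]) (fun u => ?_) (fun r r' a b => ?_) r
    · refine FP_ind B (P := fun s => ⁅f i j (B u), f j k s⁆ = f i k (B u * s))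
        (by simp [hf0 _ _ h2, hf0 _ _ h3]) (fun v => ?_) (fun s s' a b => ?_) s
      · rw [← hB, hf2 _ _ h1, hf2 _ _ h2, hf2 _ _ h3]
        exact h.ymul hp v h2 u i h1 h3
      · rw [hf1 _ _ h2, FP_mul_right (b ▸ hc _ _ _ _ _ _ h2 h3 h3.symm h2), a, b, mul_add, hf1 _ _ h3]
    · rw [hf1 _ _ h1, FP_mul_left (b ▸ hc _ _ _ _ _ _ h1 h3 h1.symm h3), a, b, add_mul, add_comm,
        hf1 _ _ h3]
  let φ : St V A →* G := St.lift (fun i j r => if i = j then 1 else f i j r) (by simp)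
    (fun i j r s h1 => by simp only [if_neg h1, hf1 _ _ h1])
    (fun i j k l r s h1 h2 h3 h4 => by simpa only [if_neg h1, if_neg h2] using hc _ _ _ _ r s h1 h2 h3 h4)
    (fun i j k r s h1 h2 h3 => by simp only [if_neg h1, if_neg h2, if_neg h3, hm _ _ _ r s h1 h2 h3])
  let ψ : G →* St V A := PresentedGroup.toGroup (rels := {w | FP_R V X w})
    (f := fun s => St.x s.1 s.2.1 (B s.2.2.toList)) (by
      rintro _ (⟨i, a⟩ | ⟨i, j, a⟩ | ⟨i, j, k, l, a, b, h1, h2⟩ | ⟨i, j, k, a, h1, h2, h3⟩ |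
        ⟨i, j, k, a, h1, h2, h3⟩)
      · simp
      · simp [← St.x_add, two_eq_zero']
      · rw [map_commutatorElement, commutatorElement_eq_one_iff_commute]
        simpa using St.x_commute h1 h2 _ _
      · rw [map_mul, map_inv, map_commutatorElement]
        simp [St.x_comm_mul h1 h2 h3, ← hB]
      · rw [map_mul, map_inv, map_commutatorElement]
        simp [St.x_comm_mul h1 h2 h3, ← hB])
  have hψ : ∀ i j a, ψ (Y i j a) = St.x i j (B a.toList) := fun i j a => PresentedGroup.toGroup.of _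
  have hψy : ∀ (w : List X) i j, i ≠ j → ψ (FP_y Y p w i j) = St.x i j (B w) := by
    intro w
    induction w with
    | nil => exact fun i j _ => hψ i j none
    | cons a w ih =>
      intro i j hij
      rw [FP_y, map_commutatorElement, hψ, ih _ _ (hp i j).2,
        St.x_comm_mul (hp i j).1.symm (hp i j).2 hij, ← hB]
      rfl
  refine .equiv (G := G) (MonoidHom.toMulEquiv ψ φ (PresentedGroup.ext fun ⟨i, j, a⟩ => ?_)
    (St.hom_ext fun i j r hij => ?_))
  · change φ (ψ (Y i j a)) = Y i j a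
    rw [hψ, St.lift_x]
    split_ifs with hij
    · subst hij
      exact (one (.diag i a)).symm
    · rw [hf2 _ _ hij]
      rcases a with _ | a
      · rfl
      · exact h.mr (hp i j).1.symm (hp i j).2 hij _
  · change ψ (φ (St.x i j r)) = St.x i j r
    rw [St.lift_x, if_neg hij]
    exact FP_ind B (P := fun r => ψ (f i j r) = St.x i j r) (by simp [hf0 _ _ hij])
      (fun w => by rw [hf2 _ _ hij, hψy w i j hij])
      (fun r s a b => by rw [hf1 _ _ hij, map_mul, a, b, St.x_add]) r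

namespace St

/-- Recipe.  Let `G` be presented by the generators `X i j a`, `a : Option X` (`none` is the empty
word) and the finitely many relators: `X i i a`, `(X i j a)^2`, `⁅X i j a, X k l b⁆` (`j ≠ k`,
`i ≠ l`), `⁅X i j none, X j k a⁆ = X i k a = ⁅X i j a, X j k none⁆` (`i, j, k` distinct).
Define `y i j w` for words `w` by recursion on the length, `y i j (a :: w) = ⁅X i p a, y p j w⁆`
for `w ≠ []` and a chosen `p ∉ {i, j}`.  Induction on `d`: (R1) `⁅y i j u, y j k v⁆ = y i k (u ++ v)`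
for `|u| + |v| ≤ d`; it implies (R2) `y i j u` and `y k l v` commute for `j ≠ k`, `i ≠ l`,
`|u|, |v| ≤ d` (split the longer word through a spare index).  Step: if `a, c` commute and
`s = ⁅a, b⁆` commutes with `t = ⁅b, c⁆` then `⁅a, t⁆ = ⁅s, c⁆`; this gives independence of
`⁅y i p u, y p j v⁆` of `p` and of the splitting of the word `u ++ v` (middle word of length `0` or
`1`), and the cases `u = []`, `v = []`.  `(y i j w)^2 = 1`.  Extend `y i j` additively to the free
algebra (basis `FreeAlgebra.basisFreeMonoid`, products of commuting involutions), `St.lift`, and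
check that the two homomorphisms are mutually inverse. -/
theorem fp_free (V X : Type) [Fintype V] [DecidableEq V] [Finite X] (hV : 5 ≤ Fintype.card V) :
    Group.IsFinitelyPresented (St V (FreeAlgebra (ZMod 2) X)) := by
  refine FP_main V X _ hV ((FreeAlgebra.basisFreeMonoid (ZMod 2) X).reindex FreeMonoid.toList)
    fun u v => ?_
  have h : ∀ w, FreeAlgebra.basisFreeMonoid (ZMod 2) X w =
      FreeAlgebra.equivMonoidAlgebraFreeMonoid.symm (MonoidAlgebra.of (ZMod 2) _ w) := fun w => by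
    simp [FreeAlgebra.basisFreeMonoid]
  simp only [Module.Basis.reindex_apply, h, ← map_mul]
  rfl

end St

end Crest.Agent.R176
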