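import Crest.Agent.R176.FiltA

/-! # R176: the finite `2`-quotients of the congruence subgroup -/

noncomputable section

namespace Crest.Agent.R176

open scoped commutatorElement

set_option linter.unusedSectionVars false

namespace St

variable {V R : Type} [Ring R] [Algebra (ZMod 2) R] [Fintype V] [DecidableEq V]
  {L : Loc R} {I : ℕ → AddSubgroup R}

theorem HF_sq (h : Fil L I) (hV : 3 ≤ Fintype.card V) {q : ℕ} (hq : 1 ≤ q) {y : St V R}
    (hy : y ∈ HF V I q) : y ^ 2 ∈ HF V I (q + 1) := by
  have hle : HF V I q ≤ G1 V L := (HF_anti h hq).trans (HF_one h).le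
  let S : Subgroup (St V R) :=
    { carrier := {y | y ∈ HF V I q ∧ y ^ 2 ∈ HF V I (q + 1)}
      one_mem' := ⟨one_mem _, by simp⟩
      mul_mem' := fun {a b} ha hb => ⟨mul_mem ha.1 hb.1, by
        have h1 := (inferInstance : (HF V I (q + 1)).Normal).conj_mem _
          (HF_comm h hV hq (hle hb.1) ha.1) a
        have h2 := mul_mem (mul_mem h1 ha.2) hb.2
        convert h2 using 1
        rw [commutatorElement_def, pow_two, pow_two, pow_two]; group⟩
      inv_mem' := fun {a} ha => ⟨inv_mem ha.1, by rw [inv_pow]; exact inv_mem ha.2⟩ }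
  have hS : S.Normal := ⟨fun a ha g => ⟨(inferInstance : (HF V I q).Normal).conj_mem _ ha.1 g, by
    rw [conj_pow]; exact (inferInstance : (HF V I (q + 1)).Normal).conj_mem _ ha.2 g⟩⟩
  have key : HF V I q ≤ S := by
    refine Subgroup.normalClosure_le_normal fun ξ hξ => ⟨Subgroup.subset_normalClosure hξ, ?_⟩
    have hξ' : ξ ∈ HF V I q := Subgroup.subset_normalClosure hξ
    rcases hξ with ⟨i, j, a, _, rfl⟩ | ⟨i, j, p, p', a, b, hp, _, _, ha, _, rfl⟩
    · rw [pow_two, ← x_add, two_eq_zero', x_zero]; exact one_mem _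
    · have hu : x i j a ∈ G1 V L := by
        rw [mem_G1, map_x, (h.one a).1 (h.anti 1 p hp ha), x_zero]
      have h1 := inv_mem (HF_comm h hV hq hu hξ')
      have h2 : x i j a * x i j a = (1 : St V R) := by rw [← x_add, two_eq_zero', x_zero]
      convert h1 using 1
      generalize x i j a = u at h2
      generalize x j i b = v
      have h3 : u⁻¹ = u := inv_eq_of_mul_eq_one_right h2
      rw [eq_inv_iff_mul_eq_one, mul_eq_one_comm, pow_two]
      calc ⁅u, ⁅u, v⁆⁆ * (⁅u, v⁆ * ⁅u, v⁆) = (u * u) * v * (u * u)⁻¹ * v⁻¹ := by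
            simp only [commutatorElement_def]; group
        _ = 1 := by rw [h2]; group
  exact (key hy).2

theorem pow_mem_HF (h : Fil L I) (hV : 3 ≤ Fintype.card V) (q : ℕ) {g : St V R}
    (hg : g ∈ G1 V L) : g ^ (2 ^ q) ∈ HF V I (q + 1) := by
  induction q with
  | zero => rw [pow_zero, pow_one, zero_add, HF_one h]; exact hg
  | succ q ih => rw [pow_succ, pow_mul]; exact HF_sq h hV (Nat.le_add_left 1 q) ih

/-- Recipe: induction; `HF q` has finite index in the finitely generated group `St V R`, so it is
finitely generated (`Subgroup.fg_of_index_ne_zero`), and `HF q / HF (q+1)` is a finitely generated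
commutative torsion group (`CommGroup.finite_of_fg_isMulTorsion`). -/
theorem HF_finiteIndex (h : Fil L I) (hV : 3 ≤ Fintype.card V) [Group.FG (St V R)]
    [(G1 V L).FiniteIndex] (q : ℕ) : (HF V I (q + 1)).FiniteIndex := by
  induction q with
  | zero => rw [zero_add, HF_one h]; infer_instance
  | succ q ih =>
    have hq : 1 ≤ q + 1 := Nat.le_add_left 1 q
    have hle : HF V I (q + 1) ≤ G1 V L := (HF_anti h hq).trans (HF_one h).le
    let Q := HF V I (q + 1) ⧸ (HF V I (q + 1 + 1)).subgroupOf (HF V I (q + 1))
    letI : CommGroup Q :=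
      { (inferInstance : Group Q) with
        mul_comm := fun a b => by
          obtain ⟨a, rfl⟩ := QuotientGroup.mk_surjective a
          obtain ⟨b, rfl⟩ := QuotientGroup.mk_surjective b
          rw [← QuotientGroup.mk_mul, ← QuotientGroup.mk_mul, QuotientGroup.eq,
            Subgroup.mem_subgroupOf]
          have := HF_comm h hV hq (hle (inv_mem b.2)) (inv_mem a.2)
          convert this using 1
          rw [commutatorElement_def]; push_cast; group }
    have hfin : Finite Q := CommGroup.finite_of_fg_isMulTorsion Q fun a => by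
      obtain ⟨a, rfl⟩ := QuotientGroup.mk_surjective a
      refine isOfFinOrder_iff_pow_eq_one.2 ⟨2, two_pos, ?_⟩
      rw [← QuotientGroup.mk_pow, QuotientGroup.eq_one_iff, Subgroup.mem_subgroupOf]
      exact HF_sq h hV hq a.2
    refine ⟨?_⟩
    rw [← Subgroup.relIndex_mul_index (HF_anti h (Nat.le_succ (q + 1)))]
    exact mul_ne_zero (Subgroup.index_ne_zero_of_finite) ih.index_ne_zero

end St

end Crest.Agent.R176
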