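import Crest.Agent.R176.Gauss

/-! # R176: the finite `2`-quotients of the congruence subgroup -/

noncomputable section

namespace Crest.Agent.R176

open scoped commutatorElement

set_option linter.unusedSectionVars false

namespace St

variable {V R : Type} [Ring R] [Algebra (ZMod 2) R] [Fintype V] [DecidableEq V]

/-- the filtration of the congruence subgroup -/
def HF (V : Type) (I : ℕ → AddSubgroup R) (q : ℕ) : Subgroup (St V R) :=
  Subgroup.normalClosure ({y | ∃ i j a, a ∈ I q ∧ y = x i j a} ∪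
    {y | ∃ i j p p' a b, 1 ≤ p ∧ 1 ≤ p' ∧ q ≤ p + p' ∧ a ∈ I p ∧ b ∈ I p' ∧
      y = ⁅x i j a, x j i b⁆})

instance (I : ℕ → AddSubgroup R) (q : ℕ) : (HF V I q).Normal := Subgroup.normalClosure_normal

/-- hypotheses on the filtration of the ring -/
structure Fil (L : Loc R) (I : ℕ → AddSubgroup R) : Prop where
  zero : ∀ r, r ∈ I 0
  one : ∀ r, r ∈ I 1 ↔ L.ε r = 0
  anti : ∀ p q, p ≤ q → I q ≤ I p
  mul : ∀ p q a b, a ∈ I p → b ∈ I q → a * b ∈ I (p + q)

variable {L : Loc R} {I : ℕ → AddSubgroup R}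

theorem FiltA_x_mem {q : ℕ} (i j : V) {a : R} (ha : a ∈ I q) : x i j a ∈ HF V I q :=
  Subgroup.subset_normalClosure (Or.inl ⟨i, j, a, ha, rfl⟩)

theorem FiltA_c_mem {q p p' : ℕ} (i j : V) {a b : R} (hp : 1 ≤ p) (hp' : 1 ≤ p') (hq : q ≤ p + p')
    (ha : a ∈ I p) (hb : b ∈ I p') : ⁅x i j a, x j i b⁆ ∈ HF V I q :=
  Subgroup.subset_normalClosure (Or.inr ⟨i, j, p, p', a, b, hp, hp', hq, ha, hb, rfl⟩)

theorem FiltA_comm_left {G : Type*} [Group G] (H : Subgroup G) [hH : H.Normal] {a : G} (ha : a ∈ H)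
    (b : G) : ⁅a, b⁆ ∈ H := by
  have := H.mul_mem ha (hH.conj_mem _ (H.inv_mem ha) b)
  rw [commutatorElement_def]
  convert this using 1
  group

theorem FiltA_comm_right {G : Type*} [Group G] (H : Subgroup G) [hH : H.Normal] (a : G) {b : G}
    (hb : b ∈ H) : ⁅a, b⁆ ∈ H :=
  H.mul_mem (hH.conj_mem _ hb a) (H.inv_mem hb)

theorem HF_one (h : Fil L I) : HF V I 1 = G1 V L := by
  rw [G1_eq_NI]
  refine le_antisymm (Subgroup.normalClosure_le_normal ?_) (Subgroup.normalClosure_le_normal ?_)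
  · rintro _ (⟨i, j, a, ha, rfl⟩ | ⟨i, j, p, p', a, b, hp, -, -, ha, -, rfl⟩)
    · exact x_mem_NI i j ((h.one a).1 ha)
    · exact FiltA_comm_left (NI V {r | L.ε r = 0})
        (x_mem_NI (I := {r | L.ε r = 0}) i j ((h.one a).1 (h.anti 1 p hp ha))) _
  · rintro _ ⟨i, j, r, hr, rfl⟩
    exact FiltA_x_mem i j ((h.one r).2 hr)

theorem HF_anti (h : Fil L I) {p q : ℕ} (hpq : p ≤ q) : HF V I q ≤ HF V I p := by
  refine Subgroup.normalClosure_le_normal ?_
  rintro _ (⟨i, j, a, ha, rfl⟩ | ⟨i, j, p₁, p₂, a, b, hp, hp', hq, ha, hb, rfl⟩)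
  · exact FiltA_x_mem i j (h.anti p q hpq ha)
  · exact FiltA_c_mem i j hp hp' (hpq.trans hq) ha hb

theorem HF_le_NI (h : Fil L I) (m : ℕ) : HF V I (2 * m) ≤ NI V (I m : Set R) := by
  refine Subgroup.normalClosure_le_normal ?_
  rintro _ (⟨i, j, a, ha, rfl⟩ | ⟨i, j, p, p', a, b, -, -, hq, ha, hb, rfl⟩)
  · exact x_mem_NI i j (h.anti m (2 * m) (by omega) ha)
  · rcases le_total m p with hm | hm
    · exact FiltA_comm_left _ (x_mem_NI i j (h.anti m p hm ha)) _
    · exact FiltA_comm_right _ _ (x_mem_NI j i (h.anti m p' (by omega) hb))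

theorem Fil.mul_right (h : Fil L I) {p : ℕ} {a : R} (ha : a ∈ I p) (r : R) : a * r ∈ I p :=
  h.mul p 0 a r ha (h.zero r)

theorem Fil.mul_left (h : Fil L I) {p : ℕ} {a : R} (r : R) (ha : a ∈ I p) : r * a ∈ I p := by
  simpa using h.mul 0 p r a (h.zero r) ha

theorem Fil.mul_le (h : Fil L I) {p q m : ℕ} {a b : R} (ha : a ∈ I p) (hb : b ∈ I q)
    (hm : m ≤ p + q) : a * b ∈ I m :=
  h.anti m (p + q) hm (h.mul p q a b ha hb)

/-- conjugation by a diagonal matrix changes an entry only in the next step of the filtration -/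
theorem Fil.dg_sub (h : Fil L I) {p : ℕ} {a : R} (ha : a ∈ I p) (u v : Rˣ) :
    (u : R) * a * v - a ∈ I (p + 1) := by
  have h1 : ∀ w : Rˣ, (w : R) - 1 ∈ I 1 := fun w => (h.one _).2 (by
    rw [map_sub, L.ε_unit, map_one, sub_self])
  have e : (u : R) * a * v - a = ((u : R) - 1) * a * v + a * ((v : R) - 1) := by noncomm_ring
  rw [e]
  exact add_mem (h.mul_right (h.mul_le (h1 u) ha (by omega)) _) (h.mul_le ha (h1 v) le_rfl)

section mod
variable {G : Type*} [Group G] (H : Subgroup G) [H.Normal]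

theorem FiltA_commute_iff {a b : G} :
    Commute (QuotientGroup.mk' H a) (QuotientGroup.mk' H b) ↔ ⁅a, b⁆ ∈ H := by
  rw [← commutatorElement_eq_one_iff_commute, ← map_commutatorElement, QuotientGroup.mk'_apply,
    QuotientGroup.eq_one_iff]

theorem FiltA_one {a : G} (ha : a ∈ H) : QuotientGroup.mk' H a = 1 :=
  (QuotientGroup.eq_one_iff a).2 ha

end mod

theorem FiltA_commute_of_conj {G : Type*} [Group G] {a b : G} (e : a * b * a⁻¹ = b) :
    Commute a b := by
  rw [mul_inv_eq_iff_eq_mul] at e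
  exact e

theorem FiltA_c_left {G : Type*} [Group G] {a a' b : G} (e : Commute a' b) :
    ⁅a * a', b⁆ = ⁅a, b⁆ := by
  have : ⁅a * a', b⁆ = a * ⁅a', b⁆ * a⁻¹ * ⁅a, b⁆ := by
    simp only [commutatorElement_def]; group
  rw [this, commutatorElement_eq_one_iff_commute.2 e]
  group

theorem FiltA_c_right {G : Type*} [Group G] {a b b' : G} (e : Commute a b') :
    ⁅a, b * b'⁆ = ⁅a, b⁆ := by
  have : ⁅a, b * b'⁆ = ⁅a, b⁆ * b * ⁅a, b'⁆ * b⁻¹ := by
    simp only [commutatorElement_def]; group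
  rw [this, commutatorElement_eq_one_iff_commute.2 e]
  group

/-- root element against root element -/
theorem FiltA_xx (h : Fil L I) {q : ℕ} (hq : 1 ≤ q) (k l i j : V) {r a : R} (hr : r ∈ I 1)
    (ha : a ∈ I q) : ⁅x k l r, x i j a⁆ ∈ HF V I (q + 1) := by
  by_cases hkl : k = l
  · subst hkl; simp
  by_cases hij : i = j
  · subst hij; simp
  by_cases h1 : l = i
  · subst h1
    by_cases h2 : k = j
    · subst h2
      exact FiltA_c_mem _ _ le_rfl hq (by omega) hr ha
    · rw [x_comm_mul hkl hij h2]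
      exact FiltA_x_mem _ _ (h.mul_le hr ha (by omega))
  · by_cases h2 : k = j
    · subst h2
      rw [← commutatorElement_inv, x_comm_mul hij hkl (Ne.symm h1)]
      exact inv_mem (FiltA_x_mem _ _ (h.mul_le ha hr le_rfl))
    · rw [commutatorElement_eq_one_iff_commute.2 (x_commute h1 h2 r a)]
      exact one_mem _

/-- toral element against root element -/
theorem FiltA_tx (h : Fil L I) {q : ℕ} {t : St V R} {d : V → Rˣ} (ht : IsTor t d) (i j : V) {a : R}
    (ha : a ∈ I q) : ⁅t, x i j a⁆ ∈ HF V I (q + 1) := by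
  rw [commutatorElement_def, ht.1, dg_x, ← x_neg, ← x_add, ← sub_eq_add_neg]
  exact FiltA_x_mem _ _ (h.dg_sub ha _ _)

/-- toral element against commutator -/
theorem FiltA_tc (h : Fil L I) {q p p' : ℕ} {t : St V R} {d : V → Rˣ} (ht : IsTor t d) (i j : V)
    {a b : R} (hp : 1 ≤ p) (hp' : 1 ≤ p') (hq : q ≤ p + p') (ha : a ∈ I p) (hb : b ∈ I p') :
    ⁅t, ⁅x i j a, x j i b⁆⁆ ∈ HF V I (q + 1) := by
  rw [← FiltA_commute_iff]
  refine FiltA_commute_of_conj ?_
  rw [← map_inv, ← map_mul, ← map_mul, ht.1, map_commutatorElement, dg_x, dg_x]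
  have h1 := h.dg_sub ha (d i) (d j)⁻¹
  have h2 := h.dg_sub hb (d j) (d i)⁻¹
  have h3 : (d j : R) * b * ((d i)⁻¹ : Rˣ) ∈ I p' := h.mul_right (h.mul_left _ hb) _
  rw [← add_sub_cancel a ((d i : R) * a * ((d j)⁻¹ : Rˣ)), add_sub_assoc', add_sub_assoc a, x_add,
    map_commutatorElement, map_mul,
    FiltA_c_left ((FiltA_commute_iff _).2 (FiltA_c_mem i j (by omega) hp' (by omega) h1 h3)),
    ← add_sub_cancel b ((d j : R) * b * ((d i)⁻¹ : Rˣ)), add_sub_assoc', add_sub_assoc b, x_add,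
    map_mul,
    FiltA_c_right ((FiltA_commute_iff _).2 (FiltA_c_mem i j hp (by omega) (by omega) ha h2)),
    map_commutatorElement]

section three
variable {i j k : V} (hij : i ≠ j) (hik : i ≠ k) (hjk : j ≠ k)
include hij hik hjk

theorem FiltA_colA (a s t : R) :
    x i j a * (x i k s * x j k t) * (x i j a)⁻¹ = x i k (s + a * t) * x j k t := by
  rw [← mul_assoc, (x_commute hij.symm hik a s).eq, mul_assoc (x i k s), mul_assoc (x i k s),
    conj_left hij hjk hik, x_add, mul_assoc]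

theorem FiltA_colB (b s t : R) :
    x j i b * (x i k s * x j k t) * (x j i b)⁻¹ = x i k s * x j k (t + b * s) := by
  rw [(x_commute hjk.symm hik s t).eq, FiltA_colA hij.symm hjk hik, (x_commute hik.symm hjk _ _).eq]

theorem FiltA_rowA (a s t : R) :
    x i j a * (x k i s * x k j t) * (x i j a)⁻¹ = x k i s * x k j (t - s * a) := by
  have e : x i j a * (x k i s * x k j t) * (x i j a)⁻¹ =
      x i j a * x k i s * (x i j a)⁻¹ * (x i j a * x k j t * (x i j a)⁻¹) := by group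
  rw [e, conj_right hik.symm hij hjk.symm, (x_commute hjk hij a t).eq, mul_inv_cancel_right,
    (x_commute hjk hik.symm _ _).eq, mul_assoc, ← x_add, neg_add_eq_sub]

theorem FiltA_rowB (b s t : R) :
    x j i b * (x k i s * x k j t) * (x j i b)⁻¹ = x k i (s - t * b) * x k j t := by
  rw [(x_commute hik hjk.symm s t).eq, FiltA_rowA hij.symm hjk hik, (x_commute hjk hik.symm _ _).eq]

omit hij hik hjk in
theorem FiltA_conj (a b : R) (y : St V R) : ⁅x i j a, x j i b⁆ * y * ⁅x i j a, x j i b⁆⁻¹ =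
    x i j a * (x j i b * (x i j (-a) * (x j i (-b) * y * (x j i (-b))⁻¹) * (x i j (-a))⁻¹) *
      (x j i b)⁻¹) * (x i j a)⁻¹ := by
  rw [x_neg, x_neg, commutatorElement_def]
  group

theorem FiltA_col (a b s t : R) :
    ⁅x i j a, x j i b⁆ * (x i k s * x j k t) * ⁅x i j a, x j i b⁆⁻¹ = x i k s * x j k t *
      (x i k (a * b * (s - a * t + a * (b * s))) * x j k (b * a * (b * s - t))) := by
  rw [FiltA_conj, FiltA_colB hij hik hjk, FiltA_colA hij hik hjk, FiltA_colB hij hik hjk,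
    FiltA_colA hij hik hjk, mul_assoc, ← mul_assoc (x j k t), (x_commute hik.symm hjk _ _).eq,
    mul_assoc, ← x_add, ← mul_assoc, ← x_add]
  congr 2 <;> noncomm_ring

theorem FiltA_row (a b s t : R) :
    ⁅x i j a, x j i b⁆ * (x k i s * x k j t) * ⁅x i j a, x j i b⁆⁻¹ = x k i s * x k j t *
      (x k i ((-(s + t * b)) * (a * b)) * x k j ((t + (s + t * b) * a) * (b * a))) := by
  rw [FiltA_conj, FiltA_rowB hij hik hjk, FiltA_rowA hij hik hjk, FiltA_rowB hij hik hjk,
    FiltA_rowA hij hik hjk, mul_assoc, ← mul_assoc (x k j t), (x_commute hjk hik.symm _ _).eq,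
    mul_assoc, ← x_add, ← mul_assoc, ← x_add]
  congr 2 <;> noncomm_ring

theorem FiltA_col' (h : Fil L I) {q p p' m : ℕ} {a b r : R} (hq : q ≤ p + p') (ha : a ∈ I p)
    (hb : b ∈ I p') (hr : r ∈ I m) {l : V} (hl : l = i ∨ l = j) : ∃ u ∈ I (q + m), ∃ v ∈ I (q + m),
      ⁅x i j a, x j i b⁆ * x l k r * ⁅x i j a, x j i b⁆⁻¹ = x l k r * (x i k u * x j k v) := by
  obtain ⟨s, hs, t, ht, e⟩ : ∃ s ∈ I m, ∃ t ∈ I m, x l k r = x i k s * x j k t := by
    rcases hl with rfl | rfl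
    · exact ⟨r, hr, 0, zero_mem _, by simp⟩
    · exact ⟨0, zero_mem _, r, hr, by simp⟩
  refine ⟨_, ?_, _, ?_, by rw [e]; exact FiltA_col hij hik hjk a b s t⟩
  · exact h.mul_le (h.mul_le ha hb hq)
      (add_mem (sub_mem hs (h.mul_left _ ht)) (h.mul_left _ (h.mul_left _ hs))) le_rfl
  · exact h.mul_le (h.mul_le hb ha (by omega : q ≤ p' + p)) (sub_mem (h.mul_left _ hs) ht) le_rfl

theorem FiltA_row' (h : Fil L I) {q p p' m : ℕ} {a b r : R} (hq : q ≤ p + p') (ha : a ∈ I p)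
    (hb : b ∈ I p') (hr : r ∈ I m) {l : V} (hl : l = i ∨ l = j) : ∃ u ∈ I (q + m), ∃ v ∈ I (q + m),
      ⁅x i j a, x j i b⁆ * x k l r * ⁅x i j a, x j i b⁆⁻¹ = x k l r * (x k i u * x k j v) := by
  obtain ⟨s, hs, t, ht, e⟩ : ∃ s ∈ I m, ∃ t ∈ I m, x k l r = x k i s * x k j t := by
    rcases hl with rfl | rfl
    · exact ⟨r, hr, 0, zero_mem _, by simp⟩
    · exact ⟨0, zero_mem _, r, hr, by simp⟩
  have h1 : s + t * b ∈ I m := add_mem hs (h.mul_right ht _)
  refine ⟨_, ?_, _, ?_, by rw [e]; exact FiltA_row hij hik hjk a b s t⟩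
  · exact h.mul_le (neg_mem h1) (h.mul_le ha hb hq) (by omega)
  · exact h.mul_le (add_mem ht (h.mul_right h1 _)) (h.mul_le hb ha (by omega : q ≤ p' + p))
      (by omega)

end three

theorem FiltA_third (hV : 3 ≤ Fintype.card V) (i j : V) : ∃ k, i ≠ k ∧ j ≠ k := by
  by_contra hcon
  have h1 : (Finset.univ : Finset V) ⊆ {i, j} := fun k _ => by
    by_contra hk
    simp only [Finset.mem_insert, Finset.mem_singleton, not_or] at hk
    exact hcon ⟨k, Ne.symm hk.1, Ne.symm hk.2⟩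
  have h2 := (Finset.card_le_card h1).trans Finset.card_le_two
  rw [Finset.card_univ] at h2
  omega

/-- root element against commutator -/
theorem FiltA_xc (h : Fil L I) (hV : 3 ≤ Fintype.card V) {q p p' : ℕ} (hq1 : 1 ≤ q) (k l i j : V)
    {r a b : R} (hr : r ∈ I 1) (hq : q ≤ p + p') (ha : a ∈ I p) (hb : b ∈ I p') :
    ⁅x k l r, ⁅x i j a, x j i b⁆⁆ ∈ HF V I (q + 1) := by
  by_cases hij : i = j
  · subst hij; simp
  by_cases hkl : k = l
  · subst hkl; simp
  rw [← FiltA_commute_iff]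
  refine (FiltA_commute_of_conj ?_).symm
  rw [← map_inv, ← map_mul, ← map_mul]
  have hcol : ∀ k l : V, (k = i ∨ k = j) → i ≠ l → j ≠ l →
      QuotientGroup.mk' (HF V I (q + 1)) (⁅x i j a, x j i b⁆ * x k l r * ⁅x i j a, x j i b⁆⁻¹) =
        QuotientGroup.mk' (HF V I (q + 1)) (x k l r) := by
    intro k l hk h1 h2
    obtain ⟨u, hu, v, hv, e⟩ := FiltA_col' hij h1 h2 h hq ha hb hr hk
    rw [e, map_mul, FiltA_one _ (mul_mem (FiltA_x_mem _ _ hu) (FiltA_x_mem _ _ hv)), mul_one]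
  by_cases hk : k = i ∨ k = j
  · by_cases hl : l = i ∨ l = j
    · obtain ⟨m, h1, h2⟩ := FiltA_third hV i j
      have hkm : k ≠ m := by rcases hk with rfl | rfl <;> assumption
      have hlm : l ≠ m := by rcases hl with rfl | rfl <;> assumption
      obtain ⟨u, hu, v, hv, e⟩ := FiltA_row' hij h1 h2 h hq ha hb (h.zero 1) hl
      have e1 : x k l r = ⁅x k m r, x m l 1⁆ := by rw [x_comm_mul hkm hlm.symm hkl, mul_one]
      rw [e1, conjugate_commutatorElement, map_commutatorElement, hcol k m hk h1 h2, e, map_mul,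
        FiltA_c_right, map_commutatorElement]
      rw [map_mul]
      exact ((FiltA_commute_iff _).2 (FiltA_xx h hq1 _ _ _ _ hr hu)).mul_right
        ((FiltA_commute_iff _).2 (FiltA_xx h hq1 _ _ _ _ hr hv))
    · rw [not_or] at hl
      exact hcol k l hk (Ne.symm hl.1) (Ne.symm hl.2)
  · rw [not_or] at hk
    by_cases hl : l = i ∨ l = j
    · obtain ⟨u, hu, v, hv, e⟩ := FiltA_row' hij (Ne.symm hk.1) (Ne.symm hk.2) h hq ha hb hr hl
      rw [e, map_mul, FiltA_one _ (mul_mem (FiltA_x_mem _ _ hu) (FiltA_x_mem _ _ hv)), mul_one]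
    · rw [not_or] at hl
      have c1 := x_commute (Ne.symm hk.2) (Ne.symm hl.1) a r
      have c2 := x_commute (Ne.symm hk.1) (Ne.symm hl.2) b r
      have c3 : Commute ⁅x i j a, x j i b⁆ (x k l r) :=
        ((c1.mul_left c2).mul_left c1.inv_left).mul_left c2.inv_left
      rw [c3.eq, mul_inv_cancel_right]

/-- the congruence subgroup is generated by root elements and toral elements -/
theorem FiltA_gen (hV : 3 ≤ Fintype.card V) (C : Subgroup (St V R))
    (hx : ∀ k l r, L.ε r = 0 → x k l r ∈ C) (ht : ∀ t d, IsTor t d → t ∈ C) : G1 V L ≤ C := by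
  intro g hg
  obtain ⟨T, t, -, hT, -, htT, rfl⟩ := gauss L hV
    (Fintype.equivFinOfCardEq (show Fintype.card V = (Fintype.card V - 1) + 1 by omega)) hg
  have hle : Subgroup.closure {g : St V R | ∃ a b r, L.ε r = 0 ∧ g = x a b r} ≤ C := by
    rw [Subgroup.closure_le]
    rintro _ ⟨a, b, r, hr, rfl⟩
    exact hx a b r hr
  exact mul_mem (mul_mem (hle (Ug_mem_closure_J L T.rk hT.hl hT.pl)) (ht t _ htT))
    (hle (Ug_mem_closure_J L (fun a => OrderDual.toDual (T.rk a)) hT.hu hT.pu))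

/-- Recipe: work modulo `H = HF (q+1)`.  The `g ∈ G1` are products of `x k l r` (`ε r = 0`) and of
toral elements (`gauss`, `Ug_mem_closure_J`), and it suffices to treat the normal generators `ξ` of
`HF q`.  For `ξ = x i j a`: Steinberg relations; `dg d ξ = x i j (d_i a d_j⁻¹)`, `d ≡ 1`.
For `ξ = ⁅x i j a, x j i b⁆`: for `k ∉ {i,j}` compute `ξ x i k r ξ⁻¹` etc. with `conj_left`,
`conj_right` (they are `x i k r` times elements `x _ _ (I q * r)`); `x i j r = ⁅x i k r, x k j 1⁆`;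
for toral elements use `⁅g g', y⁆ = g ⁅g', y⁆ g⁻¹ ⁅g, y⁆`. -/
theorem HF_comm (h : Fil L I) (hV : 3 ≤ Fintype.card V) {q : ℕ} (hq : 1 ≤ q) {g y : St V R}
    (hg : g ∈ G1 V L) (hy : y ∈ HF V I q) : ⁅g, y⁆ ∈ HF V I (q + 1) := by
  let π := QuotientGroup.mk' (HF V I (q + 1))
  let C : St V R → Subgroup (St V R) := fun ξ => (Subgroup.centralizer {π ξ}).comap π
  have hC : ∀ ξ g, g ∈ C ξ ↔ ⁅g, ξ⁆ ∈ HF V I (q + 1) := fun ξ g => by
    rw [← FiltA_commute_iff, Subgroup.mem_comap, Subgroup.mem_centralizer_singleton_iff]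
    exact Iff.rfl
  have : ((G1 V L).map π).Normal := Subgroup.Normal.map inferInstance π
    (QuotientGroup.mk'_surjective _)
  have key : HF V I q ≤ (Subgroup.centralizer ((G1 V L).map π : Set _)).comap π := by
    refine Subgroup.normalClosure_le_normal fun ξ hξ => ?_
    have h1 : G1 V L ≤ C ξ := by
      rcases hξ with ⟨i, j, a, ha, rfl⟩ | ⟨i, j, p, p', a, b, hp, hp', hq', ha, hb, rfl⟩
      · exact FiltA_gen hV _ (fun k l r hr => (hC _ _).2 (FiltA_xx h hq k l i j ((h.one r).2 hr) ha))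
          fun t d ht => (hC _ _).2 (FiltA_tx h ht i j ha)
      · exact FiltA_gen hV _
          (fun k l r hr => (hC _ _).2 (FiltA_xc h hV hq k l i j ((h.one r).2 hr) hq' ha hb))
          fun t d ht => (hC _ _).2 (FiltA_tc h ht i j hp hp' hq' ha hb)
    rintro _ ⟨g, hg, rfl⟩
    exact (FiltA_commute_iff _).2 ((hC _ _).1 (h1 hg))
  exact (FiltA_commute_iff _).1 (key hy (π g) ⟨g, hg, rfl⟩)

end St

end Crest.Agent.R176
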