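import Crest.Agent.R176.Torus

/-! # R176: the Steinberg group of `𝔽₂` is finite -/

noncomputable section

namespace Crest.Agent.R176

open scoped commutatorElement

set_option linter.unusedSectionVars false

namespace St

section aux
variable {V R : Type} [Ring R]

theorem FinF2_ind {Ψ : V → V → Prop} {P : St V R → Prop} (h1 : P 1)
    (hx : ∀ a b r y, Ψ a b → P y → P (y * x a b r)) {y : St V R} (hy : y ∈ Ug R Ψ) : P y := by
  induction hy using Subgroup.closure_induction_right with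
  | one => exact h1
  | mul_right y _ z hz ih =>
    obtain ⟨a, b, r, h, rfl⟩ := hz
    exact hx a b r y h ih
  | mul_inv_cancel y _ z hz ih =>
    obtain ⟨a, b, r, h, rfl⟩ := hz
    rw [← x_neg]
    exact hx a b _ y h ih

theorem FinF2_norm {Ψ₁ Ψ₂ : V → V → Prop}
    (hn : ∀ a b r, Ψ₁ a b → ∀ y ∈ Ug R Ψ₂, x a b r * y * (x a b r)⁻¹ ∈ Ug R Ψ₂)
    {g : St V R} (hg : g ∈ Ug R Ψ₁) : ∀ y ∈ Ug R Ψ₂, g * y * g⁻¹ ∈ Ug R Ψ₂ := by
  refine FinF2_ind (P := fun g => ∀ y ∈ Ug R Ψ₂, g * y * g⁻¹ ∈ Ug R Ψ₂) (by simp) ?_ hg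
  intro a b r g h ih y hy
  have := ih _ (hn a b r h y hy)
  simpa [mul_assoc] using this

/-- semidirect splitting of `Ug` -/
theorem FinF2_split {Ψ Ψ₁ Ψ₂ : V → V → Prop} (h : ∀ a b, Ψ a b → a ≠ b → Ψ₁ a b ∨ Ψ₂ a b)
    (hn : ∀ a b r, Ψ₁ a b → ∀ y ∈ Ug R Ψ₂, x a b r * y * (x a b r)⁻¹ ∈ Ug R Ψ₂)
    {y : St V R} (hy : y ∈ Ug R Ψ) : ∃ y₁ ∈ Ug R Ψ₁, ∃ y₂ ∈ Ug R Ψ₂, y = y₁ * y₂ := by
  refine FinF2_ind (P := fun y => ∃ y₁ ∈ Ug R Ψ₁, ∃ y₂ ∈ Ug R Ψ₂, y = y₁ * y₂)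
    ⟨1, one_mem _, 1, one_mem _, by simp⟩ ?_ hy
  rintro a b r y hab ⟨y₁, h₁, y₂, h₂, rfl⟩
  by_cases e : a = b
  · subst e
    exact ⟨y₁, h₁, y₂, h₂, by simp⟩
  rcases h a b hab e with h' | h'
  · refine ⟨y₁ * x a b r, mul_mem h₁ (x_mem_Ug h' r), (x a b r)⁻¹ * y₂ * ((x a b r)⁻¹)⁻¹,
      FinF2_norm hn (inv_mem (x_mem_Ug h' r)) y₂ h₂, by group⟩
  · exact ⟨y₁, h₁, y₂ * x a b r, mul_mem h₂ (x_mem_Ug h' r), by group⟩

theorem FinF2_root {j k : V} {y : St V R} (hy : y ∈ Ug R (fun a b => a = j ∧ b = k)) :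
    ∃ c, y = x j k c := by
  refine FinF2_ind (P := fun y => ∃ c, y = x j k c) ⟨0, by simp⟩ ?_ hy
  rintro a b r y ⟨rfl, rfl⟩ ⟨c, rfl⟩
  exact ⟨c + r, (x_add _ _ _ _).symm⟩

end aux

variable {V : Type} [Fintype V] [DecidableEq V]

theorem FinF2_rank (rk : V → ℕ) :
    (Ug (ZMod 2) (fun a b => rk b < rk a) : Set (St V (ZMod 2))).Finite :=
  Set.Finite.of_injOn (f := fun y => pm y) (t := Set.univ) (fun _ _ => Set.mem_univ _)
    (fun _ hy _ hy' h => Ug_ext rk hy hy' h) Set.finite_univ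

theorem FinF2_xx (i j : V) : x i j (1 : ZMod 2) * x i j 1 = 1 := by
  rw [← x_add, two_eq_zero', x_zero]

theorem FinF2_w (i j : V) : (w i j 1 : St V (ZMod 2)) = x i j 1 * x j i 1 * x i j 1 := by
  simp only [w, inv_one, Units.val_one, neg_eq_self']

theorem FinF2_w_self (i : V) : (w i i 1 : St V (ZMod 2)) = 1 := by
  simp [FinF2_w]

theorem FinF2_ww (hV : 3 ≤ Fintype.card V) {i j : V} (hij : i ≠ j) :
    (w i j 1 : St V (ZMod 2)) * w j i 1 = 1 := by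
  have h := w_conj (R := ZMod 2) hV hij (x i j 1)
  rw [relabel_x] at h
  simp only [Equiv.toEmbedding_apply, Equiv.swap_apply_left, Equiv.swap_apply_right] at h
  rw [FinF2_w] at h
  rw [FinF2_w, FinF2_w]
  have ha := FinF2_xx i j
  have hb := FinF2_xx j i
  generalize x i j (1 : ZMod 2) = a at *
  generalize x j i (1 : ZMod 2) = b at *
  have ha' : a⁻¹ = a := inv_eq_of_mul_eq_one_left ha
  have hb' : b⁻¹ = b := inv_eq_of_mul_eq_one_left hb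
  simp only [mul_inv_rev, ha', hb'] at h
  have h2 : a * b * a * b * a = b := by
    calc a * b * a * b * a = a * b * (a * a) * (a * (b * a)) := by rw [ha]; group
      _ = a * b * a * a * (a * (b * a)) := by group
      _ = b := h
  calc a * b * a * (b * a * b) = (a * b * a * b * a) * b := by group
    _ = 1 := by rw [h2, hb]

/-- the stabiliser of the `j`-th row -/
def FinF2_Q (S : Finset V) (j : V) : Subgroup (St V (ZMod 2)) :=
  Ug (ZMod 2) (fun a b => a ∈ S ∧ a ≠ j ∧ b ∈ S)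

/-- the `j`-th row group -/
def FinF2_Row (S : Finset V) (j : V) : Subgroup (St V (ZMod 2)) :=
  Ug (ZMod 2) (fun a b => a = j ∧ b ∈ S ∧ b ≠ j)

theorem FinF2_Row_finite (S : Finset V) (j : V) :
    (FinF2_Row S j : Set (St V (ZMod 2))).Finite := by
  refine (FinF2_rank (fun a => if a = j then 1 else 0)).subset (Ug_mono ?_)
  rintro a b ⟨rfl, -, hb⟩
  simp [hb]

theorem FinF2_Q_finite (S : Finset V) (j : V)
    (h : (Ug (ZMod 2) (fun a b => a ∈ S.erase j ∧ b ∈ S.erase j) : Set (St V (ZMod 2))).Finite) :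
    (FinF2_Q S j : Set (St V (ZMod 2))).Finite := by
  have hc : (Ug (ZMod 2) (fun a b => a ≠ j ∧ b = j) : Set (St V (ZMod 2))).Finite := by
    refine (FinF2_rank (fun a => if a = j then 0 else 1)).subset (Ug_mono ?_)
    rintro a b ⟨ha, rfl⟩
    simp [ha]
  refine (h.image2 (· * ·) hc).subset fun y hy => ?_
  obtain ⟨y₁, h₁, y₂, h₂, rfl⟩ := FinF2_split
    (Ψ₁ := fun a b => a ∈ S.erase j ∧ b ∈ S.erase j) (Ψ₂ := fun a b => a ≠ j ∧ b = j) (by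
      rintro a b ⟨ha, haj, hb⟩ -
      by_cases e : b = j
      · exact Or.inr ⟨haj, e⟩
      · exact Or.inl ⟨Finset.mem_erase.2 ⟨haj, ha⟩, Finset.mem_erase.2 ⟨e, hb⟩⟩) (by
      rintro a b r ⟨ha, hb⟩ y hy
      have ha' := (Finset.mem_erase.1 ha).1
      exact Ug_conj a b r (fun h => ha' h.2) (fun d hd _ => ⟨ha', hd.2⟩)
        (fun c hc _ => (ha' hc.2).elim) hy) hy
  exact ⟨y₁, h₁, y₂, h₂, rfl⟩

theorem FinF2_W (hV : 3 ≤ Fintype.card V) (S : Finset V) {m j k : V} (hm : m ∈ S) (hj : j ∈ S)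
    (hjk : j ≠ k) : ∃ q ∈ FinF2_Q S k, (w j m 1 : St V (ZMod 2)) * w k j 1 = w k m 1 * q := by
  by_cases h1 : k = m
  · subst h1
    exact ⟨1, one_mem _, by rw [FinF2_ww hV hjk, FinF2_w_self, mul_one]⟩
  by_cases h2 : j = m
  · subst h2
    exact ⟨1, one_mem _, by rw [FinF2_w_self, mul_one, one_mul]⟩
  refine ⟨w j m 1, Ug_mono ?_ (w_mem_Ug j m 1), ?_⟩
  · rintro a b ⟨ha, hb⟩
    refine ⟨?_, ?_, ?_⟩
    · rcases ha with rfl | rfl <;> assumption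
    · rcases ha with rfl | rfl
      · exact hjk
      · exact fun e => h1 e.symm
    · rcases hb with rfl | rfl <;> assumption
  · have h := w_conj (R := ZMod 2) hV h2 (w k j 1)
    rw [relabel_w] at h
    simp only [Equiv.toEmbedding_apply, Equiv.swap_apply_left,
      Equiv.swap_apply_of_ne_of_ne hjk.symm h1] at h
    rw [← h]; group

/-- splitting of the group of the rows `j`, `k` outside the columns `j`, `k` -/
theorem FinF2_two (S : Finset V) {j k : V} (hk : k ∈ S) (hjk : j ≠ k) {y : St V (ZMod 2)}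
    (hy : y ∈ Ug (ZMod 2) (fun a b => (a = j ∨ a = k) ∧ b ∈ S ∧ b ≠ j ∧ b ≠ k)) :
    ∃ q ∈ FinF2_Q S j, ∃ ρ ∈ FinF2_Row S j, y = q * ρ := by
  obtain ⟨y₁, h₁, y₂, h₂, rfl⟩ := FinF2_split
    (Ψ₁ := fun a b => a = k ∧ b ∈ S ∧ b ≠ j ∧ b ≠ k)
    (Ψ₂ := fun a b => a = j ∧ b ∈ S ∧ b ≠ j ∧ b ≠ k) (by
      rintro a b ⟨ha | ha, hb⟩ -
      · exact Or.inr ⟨ha, hb⟩
      · exact Or.inl ⟨ha, hb⟩) (by
      rintro a b r ⟨rfl, hb, hbj, hbk⟩ y hy
      exact Ug_conj a b r (fun h => hbj h.1) (fun d hd _ => (hbj hd.1).elim)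
        (fun c hc _ => (hc.2.2.2 rfl).elim) hy) hy
  refine ⟨y₁, Ug_mono ?_ h₁, y₂, Ug_mono ?_ h₂, rfl⟩
  · rintro a b ⟨rfl, hb, -⟩
    exact ⟨hk, hjk.symm, hb⟩
  · rintro a b ⟨rfl, hb, hbj, -⟩
    exact ⟨rfl, hb, hbj⟩

theorem FinF2_step (hV : 3 ≤ Fintype.card V) (S : Finset V) {m : V} (hm : m ∈ S)
    {y : St V (ZMod 2)} (hy : y ∈ Ug (ZMod 2) (fun a b => a ∈ S ∧ b ∈ S)) :
    ∃ j ∈ S, ∃ q ∈ FinF2_Q S j, ∃ ρ ∈ FinF2_Row S j, y = w j m 1 * q * ρ := by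
  refine FinF2_ind
    (P := fun y => ∃ j ∈ S, ∃ q ∈ FinF2_Q S j, ∃ ρ ∈ FinF2_Row S j, y = w j m 1 * q * ρ)
    ⟨m, hm, 1, one_mem _, 1, one_mem _, by simp [FinF2_w_self]⟩ ?_ hy
  rintro k l r y ⟨hk, hl⟩ ⟨j, hj, q, hq, ρ, hρ, rfl⟩
  by_cases hkl : k = l
  · subst hkl
    exact ⟨j, hj, q, hq, ρ, hρ, by simp⟩
  by_cases hkj : k = j
  · subst hkj
    exact ⟨k, hj, q, hq, ρ * x k l r, mul_mem hρ (x_mem_Ug ⟨rfl, hl, Ne.symm hkl⟩ r), by group⟩
  by_cases hlj : l = j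
  swap
  · refine ⟨j, hj, q * x k l r, mul_mem hq (x_mem_Ug ⟨hk, hkj, hl⟩ r),
      x k l (-r) * ρ * (x k l (-r))⁻¹, Ug_conj k l (-r) (fun h => hlj h.1)
        (fun d hd _ => (hlj hd.1).elim) (fun c hc _ => ⟨hc.1, hl, hlj⟩) hρ, ?_⟩
    rw [x_neg]; group
  subst hlj
  -- split off the `(l, k)` component
  obtain ⟨y₁, h₁, ρ', hρ', rfl⟩ := FinF2_split
    (Ψ₁ := fun a b => a = l ∧ b = k) (Ψ₂ := fun a b => a = l ∧ b ∈ S ∧ b ≠ l ∧ b ≠ k) (by
      rintro a b ⟨rfl, hb, hba⟩ -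
      by_cases e : b = k
      · exact Or.inl ⟨rfl, e⟩
      · exact Or.inr ⟨rfl, hb, hba, e⟩) (by
      rintro a b r ⟨rfl, rfl⟩ y hy
      exact Ug_conj a b r (fun h => hkl h.1) (fun d hd _ => (hkl hd.1).elim)
        (fun c hc _ => (hc.2.2.1 rfl).elim) hy) hρ
  obtain ⟨c, rfl⟩ := FinF2_root h₁
  have hA : x k l (-r) * ρ' * (x k l (-r))⁻¹ ∈
      Ug (ZMod 2) (fun a b => (a = l ∨ a = k) ∧ b ∈ S ∧ b ≠ l ∧ b ≠ k) :=
    Ug_conj k l (-r) (fun h => h.2.2.2 rfl) (fun d hd _ => ⟨Or.inr rfl, hd.2⟩)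
      (fun c hc _ => (hc.2.2.2 rfl).elim)
      (Ug_mono (fun a b h => ⟨Or.inl h.1, h.2⟩) hρ')
  have hx : x k l r ∈ FinF2_Q S l := x_mem_Ug ⟨hk, hkl, hl⟩ r
  have h01 : ∀ c : ZMod 2, c = 0 ∨ c = 1 := by decide
  rcases h01 r with rfl | rfl
  · exact ⟨l, hj, q, hq, x l k c * ρ', hρ, by simp⟩
  rcases h01 c with rfl | rfl
  · obtain ⟨q', hq', ρ'', hρ'', e⟩ := FinF2_two S hk (Ne.symm hkl) hA
    refine ⟨l, hj, q * x k l 1 * q', mul_mem (mul_mem hq hx) hq', ρ'', hρ'', ?_⟩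
    rw [x_neg] at e
    rw [x_zero, mul_assoc _ _ ρ'', mul_assoc _ q' ρ'', ← e]; group
  · obtain ⟨q', hq', ρ'', hρ'', e⟩ := FinF2_two S hl hkl
      (Ug_mono (fun a b h => ⟨h.1.symm, h.2.1, h.2.2.2, h.2.2.1⟩) hA)
    obtain ⟨q₀, hq₀, e₀⟩ := FinF2_W hV S hm hl (Ne.symm hkl)
    have hww := FinF2_ww hV (Ne.symm hkl)
    have hc : w l k 1 * (q * x k l 1) * (w l k 1)⁻¹ ∈ FinF2_Q S k := by
      rw [w_conj hV (Ne.symm hkl)]
      refine relabel_mem_Ug _ ?_ (mul_mem hq hx)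
      have hs : ∀ a ∈ S, Equiv.swap l k a ∈ S := by
        intro a ha
        rw [Equiv.swap_apply_def]
        split_ifs <;> assumption
      rintro a b ⟨ha, hal, hb⟩
      refine ⟨hs a ha, fun e => hal ?_, hs b hb⟩
      have e' : Equiv.swap l k a = Equiv.swap l k l := by
        rw [Equiv.swap_apply_left]; exact e
      exact (Equiv.swap l k).injective e'
    refine ⟨k, hk, q₀ * (w l k 1 * (q * x k l 1) * (w l k 1)⁻¹) * q',
      mul_mem (mul_mem hq₀ hc) hq', ρ'', hρ'', ?_⟩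
    rw [x_neg] at e
    have hw : (w l k 1 : St V (ZMod 2))⁻¹ = w k l 1 := inv_eq_of_mul_eq_one_right hww
    have e1 : x l k (1 : ZMod 2) * x k l 1 = x k l 1 * w k l 1 := by
      rw [FinF2_w, ← mul_assoc, ← mul_assoc, FinF2_xx, one_mul]
    calc w l m 1 * q * (x l k 1 * ρ') * x k l 1
        = w l m 1 * q * (x l k 1 * x k l 1) * ((x k l 1)⁻¹ * ρ' * (x k l 1)⁻¹⁻¹) := by group
      _ = w l m 1 * (w k l 1 * w l k 1) * q * (x k l 1 * w k l 1) * (q' * ρ'') := by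
        rw [e, e1, FinF2_ww hV hkl, mul_one]
      _ = (w l m 1 * w k l 1) * w l k 1 * q * (x k l 1 * w k l 1) * (q' * ρ'') := by group
      _ = _ := by rw [e₀, hw]; group

theorem FinF2_Gamma (hV : 3 ≤ Fintype.card V) (S : Finset V) :
    (Ug (ZMod 2) (fun a b => a ∈ S ∧ b ∈ S) : Set (St V (ZMod 2))).Finite := by
  induction S using Finset.strongInduction with
  | H S ih =>
    rcases S.eq_empty_or_nonempty with rfl | ⟨m, hm⟩
    · refine (Set.finite_singleton 1).subset fun y hy => ?_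
      exact FinF2_ind (P := fun y => y = 1) rfl (fun a b r y h _ => by simp at h) hy
    · have hfin : (⋃ j ∈ (S : Set V), (fun g => (w j m 1 : St V (ZMod 2)) * g) ''
          Set.image2 (· * ·) (FinF2_Q S j : Set (St V (ZMod 2))) (FinF2_Row S j)).Finite :=
        S.finite_toSet.biUnion fun j hj =>
          ((FinF2_Q_finite S j (ih _ (Finset.erase_ssubset hj))).image2 _
            (FinF2_Row_finite S j)).image _
      refine hfin.subset fun y hy => ?_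
      obtain ⟨j, hj, q, hq, ρ, hρ, rfl⟩ := FinF2_step hV S hm hy
      exact Set.mem_biUnion hj ⟨q * ρ, ⟨q, hq, ρ, hρ, rfl⟩, (mul_assoc _ _ _).symm⟩

/-- Recipe.  For a finset `S` let `Γ S = Ug (a ∈ S ∧ b ∈ S)`; show `Γ S` finite by induction on `S`
(`S = insert m S'`).  `P = Ug (a ∈ S' ∧ b ∈ S)` is the set of the `g * rect (column m)`,
`g ∈ Γ S'`, hence finite.  With `W j = w j m 1` (`W m = 1`) and `Row j = Ug (a = j ∧ b ∈ S)` (finite,
abelian), the finite set `⋃ j ∈ S, P * W j * Row j` contains `1` and is closed under right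
multiplication by `x k l 1`, `k ≠ l ∈ S`: for `l ≠ j` conjugate; for `l = j` split off the
`(j,k)` component `c` of the row element; if `c = 1` use `x j k 1 * x k j 1 = x k j 1 * w k j 1`,
`w j k 1 = w k j 1` and `w_conj`. -/
theorem finite_St_F2 (hV : 3 ≤ Fintype.card V) : Finite (St V (ZMod 2)) := by
  refine Set.finite_univ_iff.1 ((FinF2_Gamma hV Finset.univ).subset fun y _ => ?_)
  exact mem_of_x _ (fun i j r _ => x_mem_Ug ⟨Finset.mem_univ _, Finset.mem_univ _⟩ r) y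

end St

end Crest.Agent.R176
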