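import Crest.Agent.R176.Parse

/-! # R176: renormalisation of automata, of positions, and of nonzero words -/

noncomputable section

namespace Crest.Agent.R176

set_option linter.unusedSectionVars false

namespace Simul

variable {X X' : Type} {S : Sys X} {S' : Sys X'} {Q : ℕ}

section aux

open Classical

variable [Finite X] (M : Simul S S' Q)

/-- valid zones of one block -/
def NilOf_V1 (a : X') : Finset (List X) :=
  (List.finite_length_eq X Q).toFinset.filter fun B => M.valid B ∧ M.dec B = [a]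

/-- valid zones of two blocks -/
def NilOf_V2 (a b : X') : Finset (List X × List X) :=
  ((List.finite_length_eq X Q).toFinset ×ˢ (List.finite_length_eq X Q).toFinset).filter
    fun B => M.valid (B.1 ++ B.2) ∧ M.dec (B.1 ++ B.2) = [a, b]

theorem NilOf_mem_V1 {a : X'} {B : List X} : B ∈ M.NilOf_V1 a ↔ M.valid B ∧ M.dec B = [a] := by
  simp only [NilOf_V1, Finset.mem_filter, Set.Finite.mem_toFinset, Set.mem_ofPred_eq,
    and_iff_right_iff_imp]
  rintro ⟨h1, h2⟩
  simpa [h2] using (M.v_len B h1).2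

theorem NilOf_mem_V2 {a b : X'} {B : List X × List X} : B ∈ M.NilOf_V2 a b ↔
    (B.1.length = Q ∧ B.2.length = Q) ∧ M.valid (B.1 ++ B.2) ∧ M.dec (B.1 ++ B.2) = [a, b] := by
  simp only [NilOf_V2, Finset.mem_filter, Finset.mem_product, Set.Finite.mem_toFinset,
    Set.mem_ofPred_eq]

/-- all block lists with a given decoding -/
def NilOf_zb : List X' → Finset (List (List X))
  | [] => {[]}
  | [a] => (M.NilOf_V1 a).image fun B => [B]
  | a :: b :: W => (M.NilOf_V1 a ×ˢ NilOf_zb (b :: W)).image (fun x => x.1 :: x.2) ∪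
      (M.NilOf_V2 a b ×ˢ NilOf_zb W).image fun x => x.1.1 :: x.1.2 :: x.2

theorem NilOf_mem_zb : ∀ (W : List X') (Bs : List (List X)), Bs ∈ M.NilOf_zb W ↔ M.ZB Bs W
  | [], Bs => by
    simp only [NilOf_zb, Finset.mem_singleton]
    exact ⟨fun h => h ▸ ZB.nil, fun h => by cases h; rfl⟩
  | [a], Bs => by
    simp only [NilOf_zb, Finset.mem_image, NilOf_mem_V1]
    constructor
    · rintro ⟨B, h, rfl⟩
      exact ZB.one h.1 h.2 ZB.nil
    · intro h
      cases h with
      | one h1 h2 h3 => cases h3; exact ⟨_, ⟨h1, h2⟩, rfl⟩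
  | a :: b :: W, Bs => by
    simp only [NilOf_zb, Finset.mem_union, Finset.mem_image, Finset.mem_product, NilOf_mem_V1,
      NilOf_mem_V2, NilOf_mem_zb (b :: W), NilOf_mem_zb W]
    constructor
    · rintro (⟨x, h, rfl⟩ | ⟨x, h, rfl⟩)
      · exact ZB.one h.1.1 h.1.2 h.2
      · exact ZB.two h.1.1.1 h.1.1.2 h.1.2.1 h.1.2.2 h.2
    · intro h
      cases h with
      | one h1 h2 h3 => exact Or.inl ⟨(_, _), ⟨⟨h1, h2⟩, h3⟩, rfl⟩
      | two h1 h2 h3 h4 h5 => exact Or.inr ⟨((_, _), _), ⟨⟨⟨h1, h2⟩, h3, h4⟩, h5⟩, rfl⟩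

omit [Finite X] in
theorem NilOf_not {B0 B1 : List X} {Bs : List (List X)} {W : List X'} (h0 : M.valid B0)
    (l0 : B0.length = Q) (h1 : M.ZB (B1 :: Bs) W) : ¬ M.valid (B0 ++ B1) := fun hv => by
  have hQ := M.two_le
  have l1 := h1.len_mem B1 List.mem_cons_self
  obtain ⟨y, B1, rfl⟩ := List.exists_cons_of_length_pos (l := B1) (by omega)
  have hy : M.fr y := by
    cases h1 with
    | one k1 _ _ => exact M.v_head _ k1 y rfl
    | two _ _ k1 _ _ => exact M.v_head _ k1 y rfl
  have hne : B0 ≠ [] := List.ne_nil_of_length_pos (by omega)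
  have hx := List.getLast?_eq_some_getLast hne
  exact (List.isChain_append.mp (M.v_chain _ hv)).2.2 _ hx y rfl ⟨M.v_last _ h0 _ hx, hy⟩

variable {R : Type} [Ring R] (μ : X → R)

/-- the renormalised automaton -/
def NilOf_ν (b : X') : Matrix (Option X') (Option X') R := Matrix.of fun
  | none, none => ∑ B ∈ M.NilOf_V1 b, (B.map μ).prod
  | none, some a => if a = b then 1 else 0
  | some a, none => ∑ B ∈ M.NilOf_V2 a b, (B.1.map μ).prod * (B.2.map μ).prod
  | some _, some _ => 0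

theorem NilOf_prod [Fintype X'] : ∀ W : List X', (W.map (M.NilOf_ν μ)).prod none none =
    ∑ Bs ∈ M.NilOf_zb W, (Bs.flatten.map μ).prod
  | [] => by simp [NilOf_zb]
  | [a] => by
    rw [NilOf_zb, Finset.sum_image fun _ _ _ _ h => List.singleton_injective h]
    simp [NilOf_ν]
  | a :: b :: W => by
    have h1 := NilOf_prod (b :: W)
    have h2 := NilOf_prod W
    rw [NilOf_zb, Finset.sum_union, Finset.sum_image, Finset.sum_image, Finset.sum_product,
      Finset.sum_product]
    · simp only [List.flatten_cons, List.map_append, List.prod_append, ← mul_assoc,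
        ← Finset.mul_sum, ← Finset.sum_mul, ← h1, ← h2]
      rw [List.map_cons, List.prod_cons, Matrix.mul_apply, Fintype.sum_option]
      congr 1
      simp [NilOf_ν, Matrix.mul_apply, Fintype.sum_option]
    · rintro ⟨⟨_, _⟩, _⟩ _ ⟨⟨_, _⟩, _⟩ _ h
      simp_all
    · rintro ⟨_, _⟩ _ ⟨_, _⟩ _ h
      simp_all
    · rw [Finset.disjoint_left]
      simp only [Finset.mem_image, Finset.mem_product, NilOf_mem_V1, NilOf_mem_V2, NilOf_mem_zb]
      rintro _ ⟨x, hx, rfl⟩ ⟨y, hy, e⟩
      obtain ⟨e1, e2⟩ := List.cons.inj e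
      rw [← e1, ← e2] at hx
      exact M.NilOf_not hx.1.1 hy.1.1.1 hx.2 hy.1.2.1

end aux

/-- Recipe.  Given `μ` put `B a = ∑ μ z` over the valid `z` with `dec z = [a]`, `C a b = ∑ μ z`
over the valid `z` with `dec z = [a, b]`, and define `μ'` on `ι × Option X'`:
`μ' a (i,none) (j,none) = B a i j`, `μ' a (i,none) (j,some a) = δ i j`,
`μ' b (i,some a) (j,none) = C a b i j`, `0` otherwise.  By (two-step) induction on `W` the
`(none,none)` block of `μ' W` is `∑ μ Bs.flatten` over the finite set `{Bs | ZB Bs W}`.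
The class of `w0` is in bijection (`exists_parse`, `Parse.unique`) with the parses `(p, Bs, W, s)`
with `p ++ enc W ++ s ~ w0`; for fixed `p, s` the set of these `W` is a union of nonzero long
classes of `S'` (`enc_eqv`, `enc_zero`). -/
theorem nil_of [Fintype X] [Fintype X'] (M : Simul S S' Q) (𝕜 : Type) [CommRing 𝕜] (L : ℕ)
    (h : S'.Nil 𝕜 (L * (Fintype.card X' + 1))) : S.Nil 𝕜 L := by
  classical
  intro ι _ _ hι μ
  obtain ⟨n0, hn0⟩ := h (Option X' × ι) (by
    rw [Fintype.card_prod, Fintype.card_option, mul_comm]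
    exact Nat.mul_le_mul_right _ hι)
    fun a => Matrix.compRingEquiv (Option X') ι 𝕜 (M.NilOf_ν μ a)
  have key : ∀ W0 : List X', n0 ≤ W0.length → ¬ S'.Zero W0 →
      ∑ W ∈ S'.cls W0, ∑ Bs ∈ M.NilOf_zb W, (Bs.flatten.map μ).prod = 0 := fun W0 h1 h2 => by
    have e : Matrix.compRingEquiv (Option X') ι 𝕜
        (∑ W ∈ S'.cls W0, (W.map (M.NilOf_ν μ)).prod) = 0 := by
      rw [← hn0 W0 h1 h2, map_sum]
      refine Finset.sum_congr rfl fun W _ => ?_
      rw [map_list_prod, List.map_map]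
      rfl
    rw [map_eq_zero_iff _ (RingEquiv.injective _)] at e
    have e' := Matrix.ext_iff.mpr e none none
    rw [Matrix.sum_apply] at e'
    simpa only [NilOf_prod, Matrix.zero_apply] using e'
  have hQ := M.two_le
  refine ⟨4 * Q + Q * n0, fun w0 hl hz => ?_⟩
  have hnz : ∀ w ∈ S.cls w0, ¬ S.Zero w := fun w hw h =>
    hz (h.of_eqv (Sys.mem_cls _ |>.mp hw).symm)
  choose! p Bs W s hP using fun w (hw : w ∈ S.cls w0) =>
    exists_parse M (hnz w hw) (by rw [(Sys.mem_cls _ |>.mp hw).length]; omega)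
  rw [← Finset.sum_fiberwise_of_maps_to (g := fun w => (p w, s w, S'.cls (W w)))
    fun w hw => Finset.mem_image_of_mem _ hw]
  refine Finset.sum_eq_zero fun k hk => ?_
  obtain ⟨w1, hw1, rfl⟩ := Finset.mem_image.mp hk
  have h1 := hP w1 hw1
  have hW : n0 ≤ (W w1).length := by
    have e1 := h1.length
    have e2 := h1.len_le (hnz w1 hw1)
    rw [(Sys.mem_cls _ |>.mp hw1).length] at e1
    exact Nat.le_of_mul_le_mul_left (c := Q) (by omega) (by omega)
  have hp : ∀ x ∈ (S'.cls (W w1)).sigma fun V => M.NilOf_zb V,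
      M.Parse (p w1 ++ x.2.flatten ++ s w1) (p w1) x.2 x.1 (s w1) := fun x hx =>
    { h1 with eq := rfl, zb := (M.NilOf_mem_zb _ _).mp (Finset.mem_sigma.mp hx).2 }
  rw [← Finset.sum_bij (s := (S'.cls (W w1)).sigma fun V => M.NilOf_zb V)
    (f := fun x => ((p w1).map μ).prod * (x.2.flatten.map μ).prod * ((s w1).map μ).prod)
    (fun x _ => p w1 ++ x.2.flatten ++ s w1) (fun x hx => ?_) (fun x hx y hy e => ?_)
    (fun w hw => ?_) fun x _ => by simp only [List.map_append, List.prod_append]]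
  · rw [← Finset.sum_mul, ← Finset.mul_sum, Finset.sum_sigma, key _ hW (h1.nonzero (hnz w1 hw1)),
      mul_zero, zero_mul]
  · have e := (Sys.mem_cls _).mp (Finset.mem_sigma.mp hx).1
    have hm : p w1 ++ x.2.flatten ++ s w1 ∈ S.cls w0 := (Sys.mem_cls _).mpr ((hp x hx).eqv.trans
      (((M.enc_eqv e).ctx _ _).trans (h1.eqv.symm.trans ((Sys.mem_cls _).mp hw1))))
    obtain ⟨e1, -, e2, e3⟩ := (hP _ hm).unique (hp x hx)
    refine Finset.mem_filter.mpr ⟨hm, ?_⟩
    rw [e1, e2, e3]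
    congr 2
    ext V
    simp only [Sys.mem_cls]
    exact ⟨fun h => h.trans e, fun h => h.trans e.symm⟩
  · obtain ⟨-, e1, e2, -⟩ := (hp x hx).unique (e ▸ hp y hy)
    exact Sigma.ext e2 (heq_of_eq e1)
  · obtain ⟨hw, e⟩ := Finset.mem_filter.mp hw
    simp only [Prod.mk.injEq] at e
    refine ⟨⟨W w, Bs w⟩, Finset.mem_sigma.mpr ⟨?_, (M.NilOf_mem_zb _ _).mpr (hP w hw).zb⟩, ?_⟩
    · rw [← e.2.2]
      exact (Sys.mem_cls _).mpr (Sys.Eqv.refl _)
    · rw [← e.1, ← e.2.1]
      exact (hP w hw).eq.symm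

end Simul

end Crest.Agent.R176
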