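import Crest.Agent.R176.Parse

/-! # R176: renormalisation of automata, of positions, and of nonzero words -/

noncomputable section

namespace Crest.Agent.R176

set_option linter.unusedSectionVars false

namespace Simul

variable {X X' : Type} {S : Sys X} {S' : Sys X'} {Q : ℕ}

/-- Recipe: `α u = Q * α' W - |p|` for the parse `(p, Bs, W, s)` of `u` (`0` if there is none),
where `x ↦ Q * x` is the additive map `ZMod N → ZMod (Q * N)`; `Parse.factor`. -/
theorem pos_of (M : Simul S S' Q) {N : ℕ} (hN : 0 < N) (h : S'.Pos N) : S.Pos (Q * N) := by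
  classical
  obtain ⟨m, α, hα⟩ := h
  let φ : ZMod N →+ ZMod (Q * N) :=
    ZMod.lift N ⟨zmultiplesHom _ (Q : ZMod (Q * N)), by
      rw [zmultiplesHom_apply, natCast_zsmul, nsmul_eq_mul, ← Nat.cast_mul, mul_comm N Q,
        ZMod.natCast_self]⟩
  have hφ : ∀ k : ℕ, φ (k : ZMod N) = ((Q * k : ℕ) : ZMod (Q * N)) := fun k => by
    have := ZMod.lift_coe N ⟨zmultiplesHom _ (Q : ZMod (Q * N)), by
      rw [zmultiplesHom_apply, natCast_zsmul, nsmul_eq_mul, ← Nat.cast_mul, mul_comm N Q,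
        ZMod.natCast_self]⟩ (k : ℤ)
    rw [Int.cast_natCast] at this
    refine this.trans ?_
    simp [mul_comm]
  let β : List X → ZMod (Q * N) := fun u =>
    if hu : ∃ t : List X × List X', ∃ Bs s, M.Parse u t.1 Bs t.2 s then
      φ (α hu.choose.2) - (hu.choose.1.length : ZMod (Q * N)) else 0
  have hβ : ∀ u p Bs W s, M.Parse u p Bs W s → β u = φ (α W) - (p.length : ZMod (Q * N)) := by
    intro u p Bs W s hp
    have hu : ∃ t : List X × List X', ∃ Bs s, M.Parse u t.1 Bs t.2 s := ⟨(p, W), Bs, s, hp⟩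
    obtain ⟨Bs', s', hp'⟩ := hu.choose_spec
    obtain ⟨h1, -, h2, -⟩ := hp'.unique hp
    simp only [β, dif_pos hu, h1, h2]
  have hQ := M.two_le
  refine ⟨Q * m + 4 * Q + 1, β, fun a u c hw hl => ?_⟩
  have hu : ¬ S.Zero u := fun h => hw (h.ctx a c)
  obtain ⟨p, Bs, W, s, hp⟩ := M.exists_parse hu (by omega)
  obtain ⟨p', Bs', W', s', hp'⟩ := M.exists_parse hw (by
    simp only [List.length_append]; omega)
  obtain ⟨W1, W2, rfl, hlen⟩ := hp.factor hw hp'
  have h1 := hp.len_le hu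
  have h2 := hp.length
  have h3 : m ≤ W.length := by
    refine Nat.le_of_mul_le_mul_left (c := Q) ?_ (by omega)
    omega
  have h4 := congrArg (Nat.cast : ℕ → ZMod (Q * N)) hlen
  rw [hβ _ _ _ _ _ hp, hβ _ _ _ _ _ hp', hα W1 W W2 (hp'.nonzero hw) h3, map_add, hφ]
  rw [Nat.cast_add, Nat.cast_add] at h4
  linear_combination h4

end Simul

theorem Sys.pos_one {X : Type} (S : Sys X) : S.Pos 1 := by
  exact ⟨0, fun _ => 0, fun _ _ _ _ _ => Subsingleton.elim _ _⟩

theorem Sys.Pos.of_dvd {X : Type} {S : Sys X} {N N' : ℕ} (h : S.Pos N) (hd : N' ∣ N) :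
    S.Pos N' := by
  obtain ⟨m, α, hα⟩ := h
  refine ⟨m, fun u => ZMod.castHom hd (ZMod N') (α u), fun a u c hw hl => ?_⟩
  simp only [hα a u c hw hl, map_add, map_natCast]

end Crest.Agent.R176
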