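import Crest.Agent.R176.Cover
import Crest.Agent.R176.AlgNil
import Crest.Agent.R176.NilOf
import Crest.Agent.R176.PosOf
import Crest.Agent.R176.FinF2
import Crest.Agent.R176.FP
import Crest.Agent.R176.Filt

/-! # R176: statement S0265 for a system -/

noncomputable section

namespace Crest.Agent.R176

open scoped commutatorElement

set_option linter.unusedSectionVars false

namespace Sys

open St

variable {X : Type} [Fintype X] (S : Sys X)

theorem GMain_pm_NI {V R : Type} [Ring R] [Fintype V] [DecidableEq V] (I : AddSubgroup R)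
    (hl : ∀ a b, b ∈ I → a * b ∈ I) (hr : ∀ a b, a ∈ I → a * b ∈ I) {y : St V R}
    (hy : y ∈ NI V (I : Set R)) (i j : V) : (pm y - 1) i j ∈ I := by
  have h1 : ∀ P A : Matrix V V R, (∀ i j, A i j ∈ I) → ∀ i j, (P * A) i j ∈ I :=
    fun P A h i j => sum_mem fun k _ => hl _ _ (h k j)
  have h2 : ∀ A P : Matrix V V R, (∀ i j, A i j ∈ I) → ∀ i j, (A * P) i j ∈ I :=
    fun A P h i j => sum_mem fun k _ => hr _ _ (h i k)
  let H : Subgroup (St V R) :=
    { carrier := {y | ∀ i j, (pm y - 1) i j ∈ I}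
      one_mem' := fun i j => by simp
      mul_mem' := fun {a b} ha hb i j => by
        have : pm (a * b) - 1 = (pm a - 1) * pm b + (pm b - 1) := by
          rw [map_mul]; noncomm_ring
        rw [this]
        exact add_mem (h2 _ _ ha i j) (hb i j)
      inv_mem' := fun {a} ha i j => by
        have : pm a⁻¹ - 1 = -(pm a⁻¹ * (pm a - 1)) := by
          rw [mul_sub, ← map_mul, inv_mul_cancel, map_one]; noncomm_ring
        rw [this]
        exact neg_mem (h1 _ _ ha i j) }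
  have hN : H.Normal := ⟨fun a ha g i j => by
    have : pm (g * a * g⁻¹) - 1 = pm g * (pm a - 1) * pm g⁻¹ := by
      rw [mul_sub, sub_mul, mul_one, ← map_mul, ← map_mul, ← map_mul, mul_inv_cancel, map_one]
    rw [this]
    exact h2 _ _ (h1 _ _ ha) i j⟩
  have hle : NI V (I : Set R) ≤ H := ?_
  · exact hle hy i j
  refine Subgroup.normalClosure_le_normal (N := H) ?_
  rintro _ ⟨a, b, r, hr', rfl⟩ i j
  rw [pm_x, el]
  split_ifs
  · simp
  · rw [add_sub_cancel_left, Matrix.single_apply]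
    split_ifs
    exacts [hr', zero_mem _]

theorem GMain_frob {V R : Type} [Ring R] [Algebra (ZMod 2) R] [Fintype V] [DecidableEq V]
    (Y : Matrix V V R) (k : ℕ) : (1 + Y) ^ 2 ^ k = 1 + Y ^ 2 ^ k := by
  induction k with
  | zero => simp
  | succ k ih =>
    have h : Y ^ 2 ^ k + Y ^ 2 ^ k = 0 := Matrix.ext fun i j => two_eq_zero' R _
    rw [pow_succ, pow_mul, pow_mul, ih]
    calc (1 + Y ^ 2 ^ k) ^ 2 = 1 + (Y ^ 2 ^ k + Y ^ 2 ^ k) + (Y ^ 2 ^ k) ^ 2 := by noncomm_ring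
      _ = _ := by rw [h, add_zero]

theorem GMain_unit (hnil : ∀ L, S.Nil (Polynomial (ZMod 2)) L) (r : S.R) (h : S.aug r = 1) :
    IsUnit r := by
  have h1 : r - 1 ∈ S.I 1 := (S.aug_eq_zero _).1 (by simp [h])
  obtain ⟨k, hk⟩ := S.nil_matrix hnil (Matrix.scalar Unit (r - 1)) fun i j => by simpa using h1
  rw [← map_pow] at hk
  have h2 : IsNilpotent (r - 1) := ⟨k, by simpa using congrFun (congrFun hk ()) ()⟩
  simpa using h2.isUnit_one_add

/-- Recipe.  `L = ⟨aug, _⟩` (`1 + nilpotent` is a unit, `nil_matrix` for `1 × 1` matrices),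
`G = G1 V5 L`, of finite index (`finite_St_F2`), finitely presented (`fp_free`, `fp_quot`,
`fp_of_finiteIndex`); infinite (`x none (some 0) r`, `r ∈ I 1`, `infinite_I1`).
`2`-group: `pm g = 1 + Y`, `Y` nilpotent (`pm_map`, `nil_matrix`), `(1 + Y)^(2^k) = 1 + Y^(2^k)`;
for `z ∈ KK` take `N = 2^k ≥ N0` (`locality`), `m` from `deep_pow`, `z^(2^(2m)) ∈ NI (I m)`
(`pow_mem_HF`, `HF_le_NI`).  Residually finite: if `g ∈ HF q` for all `q` then `pm g = 1`
(`eq_zero_of_mem_I`; `pm y - 1` has entries in `I m` for `y ∈ NI (I m)`), and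
`g^(2^k) = 1 = g^(3^k)`. -/
theorem group_of (hnil : ∀ L, S.Nil (Polynomial (ZMod 2)) L) (hpos : ∀ k, S.Pos (6 ^ k))
    (hinf : S.Inf) :
    ∃ (G : Type) (_ : Group G),
      Infinite G ∧ Group.IsFinitelyPresented G ∧ Group.ResiduallyFinite G ∧ IsPGroup 2 G := by
  classical
  let L : Loc S.R := ⟨S.aug.toRingHom, S.GMain_unit hnil⟩
  have hV : 3 ≤ Fintype.card V5 := by simp
  have hfin : Finite (St V5 (ZMod 2)) := finite_St_F2 hV
  have hfi : (G1 V5 L).FiniteIndex := Subgroup.finiteIndex_ker _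
  have hfree : Group.IsFinitelyPresented (St V5 (FA X)) := fp_free V5 X (by simp)
  have hfp : Group.IsFinitelyPresented (St V5 S.R) :=
    fp_quot hV S.mk'.toRingHom S.mk'_surjective S.rels S.finite_rels S.mk'_eq_zero
  have hfg : Group.FG (St V5 S.R) := fg_of_fp
  let I : ℕ → AddSubgroup S.R := fun m => (S.I m).toAddSubgroup
  have hF : Fil L I := ⟨S.mem_I_zero, fun r => (S.aug_eq_zero r).symm, fun p q h => S.I_anti h,
    fun p q a b => S.I_mul⟩
  have hNI : ∀ m, ∀ y ∈ NI V5 (S.I m : Set S.R), ∀ i j, (pm y - 1) i j ∈ S.I m := fun m y hy =>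
    GMain_pm_NI (I m) (fun a b hb => hF.anti m (0 + m) (by simp) (hF.mul 0 m a b (hF.zero a) hb))
      (fun a b ha => hF.mul m 0 a b ha (hF.zero b)) hy
  have hG : Group.IsFinitelyPresented (G1 V5 L) := @fp_of_finiteIndex _ _ hfp (G1 V5 L) hfi
  suffices h : Infinite (G1 V5 L) ∧ Group.ResiduallyFinite (G1 V5 L) ∧ IsPGroup 2 (G1 V5 L) from
    ⟨G1 V5 L, inferInstance, h.1, hG, h.2⟩
  refine ⟨?_, ?_, ?_⟩
  · have : Infinite {r : S.R | r ∈ S.I 1} := (S.infinite_I1 hinf).to_subtype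
    have hm : ∀ r : {r : S.R | r ∈ S.I 1}, x none (some 0) r.1 ∈ G1 V5 L := by
      intro r
      rw [mem_G1, map_x]
      have : L.ε r.1 = 0 := (S.aug_eq_zero _).2 r.2
      rw [this, x_zero]
    have hinj : Function.Injective fun r : {r : S.R | r ∈ S.I 1} =>
        (⟨x none (some 0) r.1, hm r⟩ : G1 V5 L) := by
      intro r r' e
      have h1 := congrArg (fun g : G1 V5 L => pm g.1 none (some 0)) e
      simp only [pm_x_of_ne (show (none : V5) ≠ some 0 by simp), Matrix.add_apply,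
        Matrix.single_apply_same, add_right_inj] at h1
      exact Subtype.ext h1
    exact Infinite.of_injective _ hinj
  · rw [Group.residuallyFinite_iff_forall_finiteIndex]
    intro g hg
    have h1 : ∀ m, g.1 ∈ NI V5 (S.I m : Set S.R) := by
      intro m
      have := HF_finiteIndex hF hV (2 * m)
      exact HF_le_NI hF m (HF_anti hF (Nat.le_succ _)
        (Subgroup.mem_subgroupOf.1 (hg ((HF V5 I (2 * m + 1)).subgroupOf (G1 V5 L)))))
    have h2 : pm g.1 = 1 := by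
      rw [← sub_eq_zero]
      exact Matrix.ext fun i j => S.eq_zero_of_mem_I fun m => hNI m _ (h1 m) i j
    obtain ⟨N0, hN0⟩ := S.locality hV g.2 h2
    have h3 : ∀ p : ℕ, 1 < p → p ∣ 6 → g.1 ^ p ^ N0 = 1 := by
      intro p hp hp6
      have : NeZero (p ^ N0) := ⟨by positivity⟩
      obtain ⟨m, hm⟩ := S.deep_pow L rfl (p ^ N0) ((hpos N0).of_dvd (pow_dvd_pow_of_dvd hp6 _))
      exact hm _ ⟨g.2, h2⟩ (h1 m) (hN0 _ (Nat.lt_pow_self hp).le)
    have h4 := pow_gcd_eq_one.2 ⟨h3 2 (by norm_num) (by norm_num), h3 3 (by norm_num) (by norm_num)⟩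
    rw [Nat.Coprime.gcd_eq_one (Nat.Coprime.pow _ _ (by norm_num)), pow_one] at h4
    exact Subtype.ext h4
  · intro g
    have h1 : ∀ i j, (pm g.1 - 1) i j ∈ S.I 1 := by
      have h0 : g.1 ∈ NI V5 {r | L.ε r = 0} := (G1_eq_NI L).le g.2
      have h0' : {r | L.ε r = 0} ⊆ (S.I 1 : Set S.R) := fun r hr => (S.aug_eq_zero r).1 hr
      exact hNI 1 g.1 (NI_mono h0' h0)
    obtain ⟨k, hk⟩ := S.nil_matrix hnil _ h1
    have h2 : pm (g.1 ^ 2 ^ k) = 1 := by
      rw [map_pow, ← add_sub_cancel 1 (pm g.1), GMain_frob,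
        pow_eq_zero_of_le (Nat.lt_pow_self one_lt_two).le hk, add_zero]
    have h3 : g.1 ^ 2 ^ k ∈ G1 V5 L := pow_mem g.2 _
    obtain ⟨N0, hN0⟩ := S.locality hV h3 h2
    obtain ⟨m, hm⟩ := S.deep_pow L rfl (2 ^ N0)
      ((hpos N0).of_dvd (pow_dvd_pow_of_dvd (by norm_num) _))
    have h4 := hm ((g.1 ^ 2 ^ k) ^ 2 ^ (2 * m)) (pow_mem (show _ ∈ KK V5 L from ⟨h3, h2⟩) _)
      (HF_le_NI hF m (HF_anti hF (Nat.le_succ _) (pow_mem_HF hF hV _ h3)))
      (by rw [map_pow, hN0 _ (Nat.lt_pow_self one_lt_two).le, one_pow])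
    rw [← pow_mul, ← pow_mul, ← pow_add, ← pow_add] at h4
    exact ⟨_, Subtype.ext (by rw [Subgroup.coe_pow, Subgroup.coe_one]; exact h4)⟩

end Sys

end Crest.Agent.R176
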