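import Crest.Agent.R176.KillA

/-! # R176: the Capelli argument -/

noncomputable section

namespace Crest.Agent.R176

set_option linter.unusedSectionVars false

namespace IdStr

variable {X X' X'' : Type} {S : Sys X} {S' : Sys X'} {S'' : Sys X''} {Q Q' : ℕ}
  {M : Simul S S' Q} {M' : Simul S' S'' Q'} {n' : ℕ} {Pat : Type} (I : IdStr M M' n' Pat)

open Classical in
/-- the free positions of the window starting at `k` -/
def Kill_F (Bs : List (List X)) (k : ℕ) : Finset ℕ :=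
  (Finset.Ico k (k + n')).filter fun j => ∃ hj : j < Bs.length, I.fb Bs[j]

/-- the label at position `j` -/
def Kill_lab (y₀ : Fin n') (W : List X') (j : ℕ) : Fin n' :=
  if h : j < W.length then I.getId W[j] else y₀

def Kill_relB (F : Finset ℕ) (τ : ℕ → Fin n') (Bs : List (List X)) : List (List X) :=
  Bs.mapIdx fun j B => if j ∈ F then I.setB B (τ j) else B

def Kill_relW (F : Finset ℕ) (τ : ℕ → Fin n') (W : List X') : List X' :=
  W.mapIdx fun j a => if j ∈ F then I.setId a (τ j) else a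

/-- two-level parse, `k` is the start of the window of items -/
def Kill_Good (w p : List X) (Bs : List (List X)) (W : List X') (s : List X) (k : ℕ) : Prop :=
  M.Parse w p Bs W s ∧ ∃ p' Bs' W' s', M'.Parse W p' Bs' W' s' ∧ W' ≠ [] ∧ k = p'.length + I.o

variable {I}

theorem Kill_Good.unique {w p p₂ s s₂ : List X} {Bs Bs₂ : List (List X)} {W W₂ : List X'}
    {k k₂ : ℕ} (h : I.Kill_Good w p Bs W s k) (h₂ : I.Kill_Good w p₂ Bs₂ W₂ s₂ k₂) :
    p = p₂ ∧ Bs = Bs₂ ∧ W = W₂ ∧ s = s₂ ∧ k = k₂ := by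
  obtain ⟨h1, p', Bs', W', s', h2, -, rfl⟩ := h
  obtain ⟨h3, p₂', Bs₂', W₂', s₂', h4, -, rfl⟩ := h₂
  obtain ⟨rfl, rfl, rfl, rfl⟩ := h1.unique h3
  obtain ⟨rfl, -⟩ := h2.unique h4
  exact ⟨rfl, rfl, rfl, rfl, rfl⟩

theorem Kill_exists (I : IdStr M M' n' Pat) {w : List X} (hw : ¬ S.Zero w)
    (hl : 4 * Q + Q * (4 * Q' + 1) ≤ w.length) : ∃ p Bs W s k, I.Kill_Good w p Bs W s k := by
  have hQ := M.two_le
  have hQ' := M'.two_le
  obtain ⟨p, Bs, W, s, h⟩ := M.exists_parse hw (by omega)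
  have h1 := h.len_le hw
  have h2 := h.length
  have h3 : 4 * Q' + 1 ≤ W.length :=
    Nat.le_of_mul_le_mul_left (show Q * (4 * Q' + 1) ≤ Q * W.length by omega) (by omega)
  have hW := h.nonzero hw
  obtain ⟨p', Bs', W', s', h'⟩ := M'.exists_parse hW (by omega)
  have h4 := h'.len_le hW
  have h5 := h'.length
  refine ⟨p, Bs, W, s, _, h, p', Bs', W', s', h', ?_, rfl⟩
  rintro rfl
  simp only [List.length_nil, Nat.mul_zero] at h5
  omega

theorem Kill_first {Bs : List (List X')} {W : List X''} (h : M'.ZB Bs W) (hW : W ≠ []) :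
    ∃ z Bs₂ W₂, M'.valid z ∧ M'.ZB Bs₂ W₂ ∧ Bs.flatten = z ++ Bs₂.flatten ∧ W = M'.dec z ++ W₂ := by
  cases h with
  | nil => exact absurd rfl hW
  | one h1 h2 h3 => exact ⟨_, _, _, h1, h3, rfl, by rw [h2]; rfl⟩
  | two h1 h2 h3 h4 h5 => exact ⟨_, _, _, h3, h5, by simp, by rw [h4]; rfl⟩

theorem Kill_Good.zone {w p s : List X} {Bs : List (List X)} {W : List X'} {k : ℕ}
    (h : I.Kill_Good w p Bs W s k) :
    ∃ p' z r, W = p' ++ (z ++ r) ∧ M'.valid z ∧ k = p'.length + I.o ∧ I.o + n' ≤ z.length ∧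
      ∀ z₂, M'.valid z₂ → M'.dec z₂ = M'.dec z →
        ∃ Bs' W' s', M'.Parse (p' ++ (z₂ ++ r)) p' Bs' W' s' ∧ W' ≠ [] := by
  obtain ⟨-, p', Bs', W', s', h2, hW, rfl⟩ := h
  obtain ⟨z, Bs₂, W₂, hz, h3, h4, h5⟩ := Kill_first h2.zb hW
  refine ⟨p', z, Bs₂.flatten ++ s', ?_, hz, rfl, ?_, fun z₂ hz₂ hd => ?_⟩
  · rw [h2.eq, h4]
    simp only [List.append_assoc]
  · have h6 := M'.v_len z hz
    have h7 := I.o_le
    rcases h6.1 with h8 | h8 <;> rw [h8] at h6 <;> omega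
  · obtain ⟨Bz, h6, h7⟩ := Simul.ZB.of_valid hz₂
    refine ⟨Bz ++ Bs₂, W', s', ⟨?_, h2.p_ne, h2.s_ne, h2.p_chain, h2.s_chain, h2.p_last,
      h2.s_head, ?_⟩, hW⟩
    · rw [List.flatten_append, h7]
      simp only [List.append_assoc]
    · rw [h5, ← hd]
      exact h6.append h3

theorem Kill_get {α : Type} (p z r : List α) (i : ℕ) (hi : i < z.length)
    (h : p.length + i < (p ++ (z ++ r)).length) : (p ++ (z ++ r))[p.length + i] = z[i] := by
  rw [List.getElem_append_right (by omega), List.getElem_append_left (by omega)]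
  congr 1
  omega

theorem Kill_Good.item {w p s : List X} {Bs : List (List X)} {W : List X'} {k : ℕ}
    (h : I.Kill_Good w p Bs W s k) {j : ℕ} (hj : j ∈ Finset.Ico k (k + n')) :
    ∃ hj' : j < W.length, I.item W[j] := by
  obtain ⟨p', z, r, rfl, hz, rfl, hl, -⟩ := h.zone
  rw [Finset.mem_Ico] at hj
  obtain ⟨i, rfl⟩ : ∃ i, j = p'.length + i := ⟨j - p'.length, by omega⟩
  refine ⟨by simp only [List.length_append]; omega, ?_⟩
  rw [Kill_get p' z r i (by omega)]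
  exact I.v_item z hz i _ (by omega) (by omega)

theorem Kill_Good.inj {w p s : List X} {Bs : List (List X)} {W : List X'} {k : ℕ}
    (h : I.Kill_Good w p Bs W s k) (y₀ : Fin n') {i j : ℕ} (hi : i ∈ Finset.Ico k (k + n'))
    (hj : j ∈ Finset.Ico k (k + n')) (e : I.Kill_lab y₀ W i = I.Kill_lab y₀ W j) : i = j := by
  obtain ⟨hi', -⟩ := h.item hi
  obtain ⟨hj', -⟩ := h.item hj
  rw [Kill_lab, Kill_lab, dif_pos hi', dif_pos hj'] at e
  obtain ⟨p', z, r, rfl, hz, rfl, hl, -⟩ := h.zone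
  rw [Finset.mem_Ico] at hi hj
  obtain ⟨i, rfl⟩ : ∃ i', i = p'.length + i' := ⟨i - p'.length, by omega⟩
  obtain ⟨j, rfl⟩ : ∃ i, j = p'.length + i := ⟨j - p'.length, by omega⟩
  rw [Kill_get p' z r i (by omega), Kill_get p' z r j (by omega)] at e
  rw [I.v_inj z hz i j _ _ (by omega) (by omega) (by omega) (by omega) e]

theorem Kill_F_sub {Bs : List (List X)} {k j : ℕ} (hj : j ∈ I.Kill_F Bs k) :
    j ∈ Finset.Ico k (k + n') := by
  classical
  exact (Finset.mem_filter.1 hj).1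

theorem Kill_Good.free {w p s : List X} {Bs : List (List X)} {W : List X'} {k : ℕ}
    (h : I.Kill_Good w p Bs W s k) : ∀ j ∈ I.Kill_F Bs k,
    ∃ (hj : j < Bs.length) (hj' : j < W.length), I.item W[j] ∧ I.fb Bs[j] := by
  classical
  intro j hj
  obtain ⟨h1, h2⟩ := h.item (Kill_F_sub hj)
  obtain ⟨h3, h4⟩ := (Finset.mem_filter.1 hj).2
  exact ⟨h3, h1, h2, h4⟩

theorem Kill_Good.card {w p s : List X} {Bs : List (List X)} {W : List X'} {k : ℕ}
    (h : I.Kill_Good w p Bs W s k) : n' ≤ (I.Kill_F Bs k).card + 2 := by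
  classical
  have hzb := h.1.zb
  have hlen := hzb.length
  have key : ∃ i₀, ∀ j ∈ Finset.Ico k (k + n'), j ∉ I.Kill_F Bs k → j = i₀ ∨ j = i₀ + 1 := by
    have h1 : ∀ j ∈ Finset.Ico k (k + n'), j ∉ I.Kill_F Bs k →
        ∃ i, (∃ hi : i < W.length, I.hd W[i]) ∧ (j = i ∨ j = i + 1) := by
      intro j hj hF
      obtain ⟨hj', -⟩ := h.item hj
      rcases I.zb_not_free hzb j (by omega) hj'
        (fun hf => hF (Finset.mem_filter.2 ⟨hj, by omega, hf⟩)) with h2 | ⟨i, hi, h2, h3⟩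
      · exact ⟨j, ⟨hj', h2⟩, Or.inl rfl⟩
      · exact ⟨i, ⟨hi, h3⟩, Or.inr h2.symm⟩
    by_cases h2 : ∃ j ∈ Finset.Ico k (k + n'), j ∉ I.Kill_F Bs k
    · obtain ⟨j₀, hj₀, hF₀⟩ := h2
      obtain ⟨i₀, ⟨hi₀, hd₀⟩, e₀⟩ := h1 j₀ hj₀ hF₀
      refine ⟨i₀, fun j hj hF => ?_⟩
      obtain ⟨i, ⟨hi, hd⟩, e⟩ := h1 j hj hF
      obtain ⟨p', z, r, rfl, hz, rfl, hl, -⟩ := h.zone
      rw [Finset.mem_Ico] at hj hj₀
      have ho := I.o_pos
      obtain ⟨i, rfl⟩ : ∃ i', i = p'.length + i' := ⟨i - p'.length, by omega⟩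
      obtain ⟨i₀, rfl⟩ : ∃ i', i₀ = p'.length + i' := ⟨i₀ - p'.length, by omega⟩
      rw [Kill_get p' z r i (by omega)] at hd
      rw [Kill_get p' z r i₀ (by omega)] at hd₀
      rw [← I.v_hd z hz i i₀ _ _ hd hd₀]
      exact e
    · exact ⟨0, fun j hj hF => absurd ⟨j, hj, hF⟩ h2⟩
  obtain ⟨i₀, hi₀⟩ := key
  have h3 : Finset.Ico k (k + n') ⊆ I.Kill_F Bs k ∪ {i₀, i₀ + 1} := fun j hj => by
    by_cases hF : j ∈ I.Kill_F Bs k
    · exact Finset.mem_union_left _ hF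
    · exact Finset.mem_union_right _ (by simpa using hi₀ j hj hF)
  have h4 := (Finset.card_le_card h3).trans (Finset.card_union_le _ _)
  have h5 : ({i₀, i₀ + 1} : Finset ℕ).card ≤ 2 := Finset.card_le_two
  rw [Nat.card_Ico] at h4
  omega

theorem Kill_F_rel (F : Finset ℕ) (τ : ℕ → Fin n') (Bs : List (List X)) (k : ℕ) :
    I.Kill_F (I.Kill_relB F τ Bs) k = I.Kill_F Bs k := by
  classical
  unfold Kill_F
  refine Finset.filter_congr fun j _ => ?_
  simp only [Kill_relB, List.length_mapIdx, List.getElem_mapIdx]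
  refine exists_congr fun hj => ?_
  split_ifs
  · exact I.fb_set _ _
  · rfl

theorem Kill_relB_relB (F : Finset ℕ) (τ τ' : ℕ → Fin n') (Bs : List (List X)) :
    I.Kill_relB F τ' (I.Kill_relB F τ Bs) = I.Kill_relB F τ' Bs := by
  refine List.ext_getElem (by simp [Kill_relB]) fun j _ _ => ?_
  simp only [Kill_relB, List.getElem_mapIdx]
  split_ifs
  · exact I.setB_set _ _ _
  · rfl

theorem Kill_relB_congr (F : Finset ℕ) {τ τ' : ℕ → Fin n'} (h : ∀ j ∈ F, τ j = τ' j)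
    (Bs : List (List X)) : I.Kill_relB F τ Bs = I.Kill_relB F τ' Bs := by
  refine List.ext_getElem (by simp [Kill_relB]) fun j _ _ => ?_
  simp only [Kill_relB, List.getElem_mapIdx]
  split_ifs with hj
  · rw [h j hj]
  · rfl

theorem Kill_Good.relB_self {w p s : List X} {Bs : List (List X)} {W : List X'} {k : ℕ}
    (h : I.Kill_Good w p Bs W s k) (y₀ : Fin n') :
    I.Kill_relB (I.Kill_F Bs k) (I.Kill_lab y₀ W) Bs = Bs := by
  refine List.ext_getElem (by simp [Kill_relB]) fun j _ _ => ?_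
  simp only [Kill_relB, List.getElem_mapIdx]
  split_ifs with hj
  · obtain ⟨h1, h2, h3, h4⟩ := h.free j hj
    rw [Kill_lab, dif_pos h2]
    exact (I.zb_set h.1.zb j h1 h2 h3 h4).1
  · rfl

theorem Kill_Good.lab_rel {w p s : List X} {Bs : List (List X)} {W : List X'} {k : ℕ}
    (h : I.Kill_Good w p Bs W s k) (y₀ : Fin n') (τ : ℕ → Fin n') {j : ℕ}
    (hj : j ∈ I.Kill_F Bs k) : I.Kill_lab y₀ (I.Kill_relW (I.Kill_F Bs k) τ W) j = τ j := by
  obtain ⟨h1, h2, h3, h4⟩ := h.free j hj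
  rw [Kill_lab, dif_pos (by simpa [Kill_relW] using h2)]
  simp only [Kill_relW, List.getElem_mapIdx, if_pos hj]
  exact I.get_set _ _ h3

theorem Kill_Good.rel {w p s : List X} {Bs : List (List X)} {W : List X'} {k : ℕ}
    (h : I.Kill_Good w p Bs W s k) (y₀ : Fin n') {τ : ℕ → Fin n'}
    (h1 : ∀ i ∈ I.Kill_F Bs k, ∀ j ∈ I.Kill_F Bs k, τ i = τ j → i = j)
    (h2 : ∀ i ∈ I.Kill_F Bs k, ∃ j ∈ I.Kill_F Bs k, τ i = I.Kill_lab y₀ W j) :
    I.Kill_Good (p ++ (I.Kill_relB (I.Kill_F Bs k) τ Bs).flatten ++ s) p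
      (I.Kill_relB (I.Kill_F Bs k) τ Bs) (I.Kill_relW (I.Kill_F Bs k) τ W) s k ∧
    S.Eqv (p ++ (I.Kill_relB (I.Kill_F Bs k) τ Bs).flatten ++ s) w := by
  have hP : M.Parse (p ++ (I.Kill_relB (I.Kill_F Bs k) τ Bs).flatten ++ s) p
      (I.Kill_relB (I.Kill_F Bs k) τ Bs) (I.Kill_relW (I.Kill_F Bs k) τ W) s :=
    ⟨rfl, h.1.p_ne, h.1.s_ne, h.1.p_chain, h.1.s_chain, h.1.p_last, h.1.s_head,
      I.zb_relabel h.1.zb _ h.free τ⟩
  set F := I.Kill_F Bs k with hF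
  set τ' : ℕ → Fin n' := fun j => if j ∈ F then τ j else I.Kill_lab y₀ W j with hτ'
  have hinj : ∀ i ∈ Finset.Ico k (k + n'), ∀ j ∈ Finset.Ico k (k + n'), τ' i = τ' j → i = j := by
    intro i hi j hj e
    simp only [hτ'] at e
    split_ifs at e with h3 h4 h4
    · exact h1 i h3 j h4 e
    · obtain ⟨i', hi', e'⟩ := h2 i h3
      exact absurd (h.inj y₀ (Kill_F_sub hi') hj (e'.symm.trans e) ▸ hi') h4
    · obtain ⟨j', hj', e'⟩ := h2 j h4
      exact absurd (h.inj y₀ (Kill_F_sub hj') hi (e'.symm.trans e.symm) ▸ hj') h3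
    · exact h.inj y₀ hi hj e
  have hsub : ∀ j ∈ F, k ≤ j ∧ j < k + n' := fun j hj => Finset.mem_Ico.1 (Kill_F_sub hj)
  obtain ⟨p', z, r, hW, hz, hk, hl, hz₂⟩ := h.zone
  obtain ⟨h3, h4⟩ := I.v_perm z hz (fun i => τ' (p'.length + i)) (fun i hi j hj e => by
    have := hinj _ (Finset.mem_Ico.2 (by rw [Set.mem_Ico] at hi; omega)) _
      (Finset.mem_Ico.2 (by rw [Set.mem_Ico] at hj; omega)) e
    omega)
  set z₂ := z.mapIdx fun i a => if I.o ≤ i ∧ i < I.o + n' then I.setId a (τ' (p'.length + i)) else a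
    with hz₂'
  have hW₂ : I.Kill_relW F τ W = p' ++ (z₂ ++ r) := by
    rw [Kill_relW]
    conv_lhs => rw [hW]
    rw [List.mapIdx_append, List.mapIdx_append]
    congr 1
    · refine List.ext_getElem (by simp) fun j hj _ => ?_
      rw [List.length_mapIdx] at hj
      rw [List.getElem_mapIdx, if_neg fun hj' => by have := hsub j hj'; omega]
    congr 1
    · refine List.ext_getElem (by simp [hz₂']) fun j hj _ => ?_
      rw [List.length_mapIdx] at hj
      simp only [hz₂', List.getElem_mapIdx, hτ', Nat.add_comm j]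
      by_cases h5 : p'.length + j ∈ F
      · have := hsub _ h5
        rw [if_pos h5, if_pos h5, if_pos (by omega)]
      · rw [if_neg h5, if_neg h5]
        split_ifs
        · subst hW
          rw [Kill_lab, dif_pos (by simp only [List.length_append]; omega), Kill_get p' z r j hj,
            I.set_get]
        · rfl
    · refine List.ext_getElem (by simp) fun j hj _ => ?_
      rw [List.getElem_mapIdx, if_neg fun hj' => by have := hsub _ hj'; omega]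
  obtain ⟨Bs', W', s', h5, h6⟩ := hz₂ z₂ h3 h4
  refine ⟨⟨hP, p', Bs', W', s', hW₂ ▸ h5, h6, hk⟩, ?_⟩
  have h7 : S'.Eqv z₂ z := by
    have h8 := M'.roll z₂ h3
    rw [h4] at h8
    exact h8.trans (M'.roll z hz).symm
  have h8 : S'.Eqv (I.Kill_relW F τ W) W := by
    rw [hW₂]
    conv_rhs => rw [hW]
    exact (Sys.Eqv.refl _).append (h7.append (Sys.Eqv.refl _))
  exact hP.eqv.trans (((M.enc_eqv h8).ctx p s).trans h.1.eqv.symm)

/-- the orbit relation -/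
def Kill_R (I : IdStr M M' n' Pat) (y₀ : Fin n') (w w' : List X) : Prop :=
  ∃ p Bs W s k, ∃ τ : ℕ → Fin n', I.Kill_Good w p Bs W s k ∧
    (∀ i ∈ I.Kill_F Bs k, ∀ j ∈ I.Kill_F Bs k, τ i = τ j → i = j) ∧
    (I.Kill_F Bs k).image τ = (I.Kill_F Bs k).image (I.Kill_lab y₀ W) ∧
    w' = p ++ (I.Kill_relB (I.Kill_F Bs k) τ Bs).flatten ++ s

theorem Kill_img {F : Finset ℕ} {τ τ' : ℕ → Fin n'} (h : F.image τ = F.image τ') :
    ∀ i ∈ F, ∃ j ∈ F, τ i = τ' j := fun i hi => by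
  have h1 := Finset.mem_image_of_mem τ hi
  rw [h] at h1
  obtain ⟨j, hj, e⟩ := Finset.mem_image.1 h1
  exact ⟨j, hj, e.symm⟩

theorem Kill_R.eqv {y₀ : Fin n'} {w w' : List X} (h : I.Kill_R y₀ w w') : S.Eqv w' w := by
  obtain ⟨p, Bs, W, s, k, τ, h1, h2, h3, rfl⟩ := h
  exact (h1.rel y₀ h2 (Kill_img h3)).2

theorem Kill_R.iff {y₀ : Fin n'} {w w' : List X} (h : I.Kill_R y₀ w w') (w'' : List X) :
    I.Kill_R y₀ w' w'' ↔ I.Kill_R y₀ w w'' := by
  obtain ⟨p, Bs, W, s, k, τ, h1, h2, h3, rfl⟩ := h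
  have h4 := (h1.rel y₀ h2 (Kill_img h3)).1
  have h5 : (I.Kill_F Bs k).image (I.Kill_lab y₀ (I.Kill_relW (I.Kill_F Bs k) τ W)) =
      (I.Kill_F Bs k).image (I.Kill_lab y₀ W) := by
    rw [← h3]
    exact Finset.image_congr fun j hj => h1.lab_rel y₀ τ hj
  constructor
  · rintro ⟨p₂, Bs₂, W₂, s₂, k₂, τ₂, h6, h7, h8, rfl⟩
    obtain ⟨rfl, rfl, rfl, rfl, rfl⟩ := h4.unique h6
    rw [Kill_F_rel] at h7 h8
    rw [h5] at h8
    exact ⟨p, Bs, W, s, k, τ₂, h1, h7, h8, by rw [Kill_F_rel, Kill_relB_relB]⟩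
  · rintro ⟨p₂, Bs₂, W₂, s₂, k₂, τ₂, h6, h7, h8, rfl⟩
    obtain ⟨rfl, rfl, rfl, rfl, rfl⟩ := h1.unique h6
    refine ⟨p, _, _, s, k, τ₂, h4, ?_, ?_, ?_⟩
    · rw [Kill_F_rel]
      exact h7
    · rw [Kill_F_rel, h5, h8]
    · rw [Kill_F_rel, Kill_relB_relB]

theorem Kill_Good.sum_zero [Fintype Pat] {w p s : List X} {Bs : List (List X)} {W : List X'} {k : ℕ}
    (h : I.Kill_Good w p Bs W s k) (y₀ : Fin n') {𝕜 : Type} [CommRing 𝕜] [CharP 𝕜 2] {ι : Type}
    [Fintype ι] [DecidableEq ι] (hc : Fintype.card ι ^ 2 * Fintype.card Pat + 2 < n')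
    (μ : X → Matrix ι ι 𝕜) (O : Finset (List X)) (hO : ∀ w', w' ∈ O ↔ I.Kill_R y₀ w w') :
    ∑ w' ∈ O, (w'.map μ).prod = 0 := by
  classical
  set F := I.Kill_F Bs k with hF
  have hlt : ∀ j ∈ F, j < Bs.length := fun j hj => (h.free j hj).1
  set F' : Finset (Fin Bs.length) := Finset.univ.filter fun j => j.val ∈ F with hF'
  have hmem : ∀ j : Fin Bs.length, j ∈ F' ↔ j.val ∈ F := fun j => by simp [hF']
  have hcard : F'.card = F.card :=
    Finset.card_bij (fun j _ => j.val) (fun j hj => (hmem j).1 hj) (fun _ _ _ _ e => Fin.ext e)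
      fun j hj => ⟨⟨j, hlt j hj⟩, (hmem _).2 hj, rfl⟩
  let el : ∀ j ∈ F, F' := fun j hj => ⟨⟨j, hlt j hj⟩, (hmem _).2 hj⟩
  let τ : Equiv.Perm F' → ℕ → Fin n' := fun σ j =>
    if hj : j ∈ F then I.Kill_lab y₀ W (σ (el j hj)).1.1 else y₀
  have hinj : ∀ a b : F', I.Kill_lab y₀ W a.1.1 = I.Kill_lab y₀ W b.1.1 → a = b := fun a b e =>
    Subtype.ext (Fin.ext (h.inj y₀ (Kill_F_sub ((hmem _).1 a.2)) (Kill_F_sub ((hmem _).1 b.2)) e))
  have hτ : ∀ σ (a : F'), τ σ a.1.1 = I.Kill_lab y₀ W (σ a).1.1 := fun σ a =>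
    dif_pos ((hmem _).1 a.2)
  have hτ1 : ∀ σ, ∀ i ∈ F, ∀ j ∈ F, τ σ i = τ σ j → i = j := fun σ i hi j hj e => by
    have h1 := (hτ σ (el i hi)).symm.trans (e.trans (hτ σ (el j hj)))
    exact congrArg (fun a : F' => a.1.1) (σ.injective (hinj _ _ h1))
  have hτ2 : ∀ σ, F.image (τ σ) = F.image (I.Kill_lab y₀ W) := fun σ => by
    ext y
    simp only [Finset.mem_image]
    constructor
    · rintro ⟨j, hj, rfl⟩
      exact ⟨_, (hmem _).1 (σ (el j hj)).2, (hτ σ (el j hj)).symm⟩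
    · rintro ⟨j, hj, rfl⟩
      refine ⟨_, (hmem _).1 (σ.symm (el j hj)).2, ?_⟩
      rw [hτ, Equiv.apply_symm_apply]
  have hsum : ∑ w' ∈ O, (w'.map μ).prod = ∑ σ : Equiv.Perm F',
      ((p ++ (I.Kill_relB F (τ σ) Bs).flatten ++ s).map μ).prod := by
    symm
    refine Finset.sum_bij (fun σ _ => p ++ (I.Kill_relB F (τ σ) Bs).flatten ++ s)
      (fun σ _ => (hO _).2 ⟨p, Bs, W, s, k, τ σ, h, hτ1 σ, hτ2 σ, rfl⟩) ?_ ?_ (fun _ _ => rfl)
    · intro σ _ σ' _ e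
      have h1 := (h.rel y₀ (hτ1 σ) (Kill_img (hτ2 σ))).1
      have h2 := (h.rel y₀ (hτ1 σ') (Kill_img (hτ2 σ'))).1
      rw [← hF, e] at h1
      have h3 := (h1.unique h2).2.2.1
      ext1 a
      refine hinj _ _ ?_
      rw [← hτ, ← hτ, ← h.lab_rel y₀ (τ σ) ((hmem _).1 a.2), ← h.lab_rel y₀ (τ σ') ((hmem _).1 a.2),
        ← hF, h3]
    · intro w' hw'
      obtain ⟨p₂, Bs₂, W₂, s₂, k₂, τ₂, h6, h7, h8, rfl⟩ := (hO _).1 hw'
      obtain ⟨rfl, rfl, rfl, rfl, rfl⟩ := h.unique h6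
      have h9 : ∀ a : F', ∃ b : F', τ₂ a.1.1 = I.Kill_lab y₀ W b.1.1 := fun a => by
        obtain ⟨j, hj, e⟩ := Kill_img h8 _ ((hmem _).1 a.2)
        exact ⟨el j hj, e⟩
      choose f hf using h9
      have h10 : Function.Injective f := fun a b e => Subtype.ext (Fin.ext
        (h7 _ ((hmem _).1 a.2) _ ((hmem _).1 b.2) (by rw [hf, hf, e])))
      refine ⟨Equiv.ofBijective f (Finite.injective_iff_bijective.1 h10), Finset.mem_univ _, ?_⟩
      rw [Kill_relB_congr F (τ' := τ₂)]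
      exact fun j hj => (hτ _ (el j hj)).trans (hf (el j hj)).symm
  have hg : ∀ j : Fin Bs.length, ∃ g : (Pat → Matrix ι ι 𝕜) →ₗ[𝕜] Matrix ι ι 𝕜, j.val ∈ F →
      ∀ y, ((I.setB Bs[j.val] y).map μ).prod = g (fun ρ => ((I.seg ρ y).map μ).prod) := fun j => by
    by_cases hj : j.val ∈ F
    · obtain ⟨h1, h2, h3, h4⟩ := h.free j hj
      obtain ⟨u, v, ρ, e⟩ := (I.zb_set h.1.zb j h1 h2 h3 h4).2.1
      refine ⟨(LinearMap.mulRight 𝕜 (v.map μ).prod) ∘ₗ (LinearMap.mulLeft 𝕜 (u.map μ).prod) ∘ₗ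
        LinearMap.proj ρ, fun _ y => ?_⟩
      rw [e]
      simp [mul_assoc]
    · exact ⟨0, fun hj' => absurd hj' hj⟩
  choose g hg using hg
  have hcap := capelli (Pi.basis fun _ : Pat => Matrix.stdBasis 𝕜 ι ι) F' (by
      have h1 := h.card
      rw [hcard, Fintype.card_sigma, Finset.sum_const, Finset.card_univ, Fintype.card_prod,
        smul_eq_mul, mul_comm, ← sq]
      rw [← hF] at h1
      omega) g (fun j => (Bs[j.val].map μ).prod)
    (fun a ρ => ((I.seg ρ (I.Kill_lab y₀ W a.1.1)).map μ).prod)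
  have hprod : ∀ σ : Equiv.Perm F', (((I.Kill_relB F (τ σ) Bs).flatten).map μ).prod =
      (List.ofFn fun j => if hj : j ∈ F' then
        g j (fun ρ => ((I.seg ρ (I.Kill_lab y₀ W (σ ⟨j, hj⟩).1.1)).map μ).prod)
        else (Bs[j.val].map μ).prod).prod := fun σ => by
    rw [List.map_flatten, List.prod_flatten]
    congr 1
    refine List.ext_getElem (by simp [Kill_relB]) fun j h1 h2 => ?_
    rw [List.length_ofFn] at h2
    simp only [Kill_relB, List.getElem_map, List.getElem_mapIdx, List.getElem_ofFn]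
    by_cases hj : j ∈ F
    · rw [if_pos hj, dif_pos ((hmem ⟨j, h2⟩).2 hj), ← hg ⟨j, h2⟩ hj, ← hτ]
    · rw [if_neg hj, dif_neg fun h' => hj ((hmem ⟨j, h2⟩).1 h')]
  rw [hsum]
  simp only [List.map_append, List.prod_append, hprod]
  rw [← Finset.sum_mul, ← Finset.mul_sum, hcap, mul_zero, zero_mul]

/-- Recipe.  For `w` in the class of a long nonzero `w0` take the parse `(p, Bs, W, s)` for `M` and
the parse `(p', Bs', W', s')` of `W` for `M'` (`Bs' ≠ []`); let `z` be its first zone, `J` the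
positions `|p'| + o + [0, n')` in `W`, `F ⊆ J` the positions of the free blocks;
`n' ≤ |F| + 2` (`zb_not_free`, `v_hd`, `o_pos`).  `O w` is the set of the words
`p ++ (relabelled Bs).flatten ++ s` with `τ j = getId W[σ j]`, `σ` a permutation of `F`.  Each has
the parse `(p, relabelled Bs, relabelled W, s)`, the relabelled `W` has the parse with `z` replaced
by a valid zone with the same decoding (`v_perm`), so it is equivalent to `W` (`roll`) and has the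
same `p'`, `F`; `σ ↦ word` is injective (`Parse.unique`, `get_set`, `v_inj`).  `capelli` with
`V = Pat → Matrix ι ι 𝕜`, `v j = fun ρ => μ (seg ρ (getId W[j]))`, `g j φ = μ u * φ ρ * μ v`;
`sum_eq_zero_of_orbits`. -/
theorem kill [Fintype X] [Fintype Pat] (I : IdStr M M' n' Pat) (𝕜 : Type) [CommRing 𝕜]
    [CharP 𝕜 2] (L : ℕ) (h : L ^ 2 * Fintype.card Pat + 2 < n') : S.Nil 𝕜 L := by
  classical
  intro ι _ _ hι μ
  have y₀ : Fin n' := ⟨0, by omega⟩
  refine ⟨4 * Q + Q * (4 * Q' + 1), fun w0 hl hw0 => ?_⟩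
  have hex : ∀ w ∈ S.cls w0, ∃ p Bs W s k, I.Kill_Good w p Bs W s k := fun w hw => by
    rw [Sys.mem_cls] at hw
    exact I.Kill_exists (fun hz => hw0 (Sys.Zero.of_eqv hw.symm hz)) (by rw [hw.length]; exact hl)
  refine sum_eq_zero_of_orbits _ _ (fun w => (S.cls w0).filter (I.Kill_R y₀ w)) (fun w hw => ?_)
    (fun w _ => Finset.filter_subset _ _) (fun w _ w' hw' => ?_) (fun w hw => ?_)
  · obtain ⟨p, Bs, W, s, k, h1⟩ := hex w hw
    refine Finset.mem_filter.2 ⟨hw, p, Bs, W, s, k, I.Kill_lab y₀ W, h1,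
      fun i hi j hj => h1.inj y₀ (Kill_F_sub hi) (Kill_F_sub hj), rfl, ?_⟩
    rw [h1.relB_self]
    exact h1.1.eq
  · exact Finset.filter_congr fun w'' _ => (Finset.mem_filter.1 hw').2.iff w''
  · obtain ⟨p, Bs, W, s, k, h1⟩ := hex w hw
    refine h1.sum_zero y₀ (lt_of_le_of_lt ?_ h) μ _ fun w' => ?_
    · gcongr
    · rw [Finset.mem_filter, Sys.mem_cls]
      exact ⟨fun h2 => h2.2, fun h2 => ⟨h2.eqv.trans (S.mem_cls.1 hw), h2⟩⟩

end IdStr

end Crest.Agent.R176
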