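import Crest.Agent.R176.Parse
import Crest.Agent.R176.Alt

/-! # R176: the Capelli argument -/

noncomputable section

namespace Crest.Agent.R176

set_option linter.unusedSectionVars false

namespace IdStr

variable {X X' X'' : Type} {S : Sys X} {S' : Sys X'} {S'' : Sys X''} {Q Q' : ℕ}
  {M : Simul S S' Q} {M' : Simul S' S'' Q'} {n' : ℕ} {Pat : Type} (I : IdStr M M' n' Pat)

/-- changing the label stored in a free block (induction on `ZB`) -/
theorem zb_set {Bs : List (List X)} {W : List X'} (h : M.ZB Bs W) (j : ℕ) (hj : j < Bs.length)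
    (hj' : j < W.length) (hi : I.item W[j]) (hf : I.fb Bs[j]) :
    I.setB Bs[j] (I.getId W[j]) = Bs[j] ∧ (∃ u v ρ, ∀ y, I.setB Bs[j] y = u ++ I.seg ρ y ++ v) ∧
    ∀ y, M.ZB (Bs.set j (I.setB Bs[j] y)) (W.set j (I.setId W[j] y)) := by
  induction h generalizing j with
  | nil => simp at hj
  | @one B Bs a W hv hd hzb ih =>
    cases j with
    | zero =>
      obtain ⟨h1, h2, h3⟩ := (I.one B a hv hd).2 hi
      exact ⟨h1, h2, fun y => Simul.ZB.one (h3 y).1 (h3 y).2 hzb⟩
    | succ j =>
      obtain ⟨h1, h2, h3⟩ := ih j (by simpa using hj) (by simpa using hj') hi hf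
      exact ⟨h1, h2, fun y => Simul.ZB.one hv hd (h3 y)⟩
  | @two B0 B1 Bs a0 a1 W l0 l1 hv hd hzb ih =>
    match j with
    | 0 =>
      obtain ⟨h1, h2, h3⟩ := I.twoL B0 B1 a0 a1 l0 l1 hv hd hi hf
      exact ⟨h1, h2, fun y => Simul.ZB.two ((I.len_set _ _).trans l0) l1 (h3 y).1 (h3 y).2 hzb⟩
    | 1 =>
      obtain ⟨h1, h2, h3⟩ := I.twoR B0 B1 a0 a1 l0 l1 hv hd hi hf
      exact ⟨h1, h2, fun y => Simul.ZB.two l0 ((I.len_set _ _).trans l1) (h3 y).1 (h3 y).2 hzb⟩
    | j + 2 =>
      obtain ⟨h1, h2, h3⟩ := ih j (by simpa using hj) (by simpa using hj') hi hf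
      exact ⟨h1, h2, fun y => Simul.ZB.two l0 l1 hv hd (h3 y)⟩

theorem zb_not_free {Bs : List (List X)} {W : List X'} (h : M.ZB Bs W) (j : ℕ)
    (hj : j < Bs.length) (hj' : j < W.length) (hf : ¬ I.fb Bs[j]) :
    I.hd W[j] ∨ ∃ i, ∃ hi : i < W.length, i + 1 = j ∧ I.hd W[i] := by
  induction h generalizing j with
  | nil => simp at hj
  | @one B Bs a W hv hd hzb ih =>
    cases j with
    | zero => exact absurd (I.one B a hv hd).1 hf
    | succ j =>
      rcases ih j (by simpa using hj) (by simpa using hj') hf with h1 | ⟨i, hi, h1, h2⟩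
      · exact Or.inl h1
      · exact Or.inr ⟨i + 1, by simpa using hi, by omega, h2⟩
  | @two B0 B1 Bs a0 a1 W l0 l1 hv hd hzb ih =>
    match j with
    | 0 => exact Or.inl (I.act B0 B1 a0 a1 l0 l1 hv hd (Or.inl hf))
    | 1 => exact Or.inr ⟨0, by simp, rfl, I.act B0 B1 a0 a1 l0 l1 hv hd (Or.inr hf)⟩
    | j + 2 =>
      rcases ih j (by simpa using hj) (by simpa using hj') hf with h1 | ⟨i, hi, h1, h2⟩
      · exact Or.inl h1
      · exact Or.inr ⟨i + 2, by simpa using hi, by omega, h2⟩

theorem KillA_mapIdx_insert {α : Type} (L : List α) (F : Finset ℕ) (k : ℕ) (hk : k < L.length)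
    (g : ℕ → α → α) :
    (L.mapIdx fun j a => if j ∈ insert k F then g j a else a) =
      (L.mapIdx fun j a => if j ∈ F then g j a else a).set k (g k L[k]) := by
  apply List.ext_getElem
  · simp
  · intro i h1 h2
    rw [List.getElem_set]
    split_ifs with hki
    · subst hki; simp
    · simp [Ne.symm hki]

/-- simultaneous change on a set `F` of free item blocks (induction on `F`) -/
theorem zb_relabel {Bs : List (List X)} {W : List X'} (h : M.ZB Bs W) (F : Finset ℕ)
    (hF : ∀ j ∈ F, ∃ (hj : j < Bs.length) (hj' : j < W.length), I.item W[j] ∧ I.fb Bs[j])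
    (τ : ℕ → Fin n') :
    M.ZB (Bs.mapIdx fun j B => if j ∈ F then I.setB B (τ j) else B)
      (W.mapIdx fun j a => if j ∈ F then I.setId a (τ j) else a) := by
  induction F using Finset.induction_on with
  | empty =>
    have e : ∀ {α : Type} (L : List α), (L.mapIdx fun _ a => a) = L := fun L =>
      List.ext_getElem (by simp) fun i _ _ => by simp
    simpa [e] using h
  | insert k F hk ih =>
    obtain ⟨hj, hj', hi, hf⟩ := hF k (Finset.mem_insert_self k F)
    have h1 := ih fun j hj => hF j (Finset.mem_insert_of_mem hj)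
    have h2 := (I.zb_set h1 k (by simpa using hj) (by simpa using hj') (by simpa [hk] using hi)
      (by simpa [hk] using hf)).2.2 (τ k)
    rw [KillA_mapIdx_insert Bs F k hj fun j B => I.setB B (τ j),
      KillA_mapIdx_insert W F k hj' fun j a => I.setId a (τ j)]
    simpa [hk] using h2

end IdStr

end Crest.Agent.R176
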