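import Crest.Agent.R176.Unip
import Crest.Agent.R176.Alg

/-! # R176: locality — elements of `K₂` die in large cyclic covers -/

noncomputable section

namespace Crest.Agent.R176

open scoped commutatorElement

set_option linter.unusedSectionVars false

namespace Sys

open St

variable {X : Type} (S : Sys X) {V : Type} [Fintype V] [DecidableEq V]

/-- the cyclic permutation matrix -/
def cyc (N : ℕ) : Matrix (ZMod N) (ZMod N) (ZMod 2) := fun a b => if b = a + 1 then 1 else 0

/-- the nilpotent shift -/
def shf (M : ℕ) : Matrix (Fin M) (Fin M) (ZMod 2) := fun a b => if b.val = a.val + 1 then 1 else 0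

/-- the `N`-fold cyclic cover -/
def FN (N : ℕ) [NeZero N] : St V S.R →* St (V × ZMod N) S.R :=
  blk.comp (map (S.tw (cyc N)).toRingHom)

/-- the path of length `M` -/
def TH (M : ℕ) : St V S.R →* St (V × Fin M) S.R := blk.comp (map (S.tw (shf M)).toRingHom)

theorem FN_relabel {V' : Type} [Fintype V'] [DecidableEq V'] (N : ℕ) [NeZero N] (e : V ↪ V')
    (y : St V S.R) :
    S.FN N (relabel e y) = relabel (e.prodMap (Function.Embedding.refl _)) (S.FN N y) := by
  show blk (map (S.tw (cyc N)).toRingHom (relabel e y)) =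
    relabel (e.prodMap (Function.Embedding.refl _)) (blk (map (S.tw (cyc N)).toRingHom y))
  rw [map_relabel, blk_relabel]

theorem LocalA_shf_pow (M n : ℕ) (a b : Fin M) (h : b.val < a.val + n) : (shf M ^ n) a b = 0 := by
  induction n generalizing b with
  | zero =>
    rw [pow_zero, Matrix.one_apply_ne]
    rintro rfl
    omega
  | succ n ih =>
    rw [pow_succ, Matrix.mul_apply]
    refine Finset.sum_eq_zero fun c _ => ?_
    by_cases hc : c.val < a.val + n
    · rw [ih c hc, zero_mul]
    · have : shf M c b = 0 := if_neg (by omega)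
      rw [this, mul_zero]

theorem LocalA_tw_sub (M : ℕ) (r : S.R) (a b : Fin M) (h : ¬ a < b) :
    S.tw (shf M) r a b = algebraMap (ZMod 2) (Matrix (Fin M) (Fin M) S.R) (S.aug r) a b := by
  induction r using S.induction_wd with
  | h0 => simp
  | hw w =>
    rw [tw_wd, aug_wd]
    split_ifs with hw
    · subst hw
      rw [List.length_nil, pow_zero, map_one, wd_nil, Matrix.one_apply, Matrix.one_apply]
      split_ifs <;> simp
    · have : 0 < w.length := List.length_pos_iff.2 hw
      rw [LocalA_shf_pow M _ a b (by rw [Fin.lt_def] at h; omega), zero_smul, map_zero,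
        Matrix.zero_apply]
  | ha r s hr hs => rw [map_add, map_add, map_add, Matrix.add_apply, Matrix.add_apply, hr, hs]

theorem LocalA_blkX_mem {W R : Type} [Ring R] [Fintype W] [DecidableEq W] {i j : V} (hij : i ≠ j)
    (A : Matrix W W R) (H : Subgroup (St (V × W) R)) (hH : ∀ a b, x (i, a) (j, b) (A a b) ∈ H) :
    blkX i j A ∈ H := by
  unfold blkX
  rw [dif_neg hij]
  exact rect_mem _ _ _ _ H hH

/-- Recipe: `hom_mod` with `f = TH M`, `f0 = blk ∘ map (scalar ∘ algebraMap ∘ aug)` (it kills `z`)
and `N = Ug (p.2 < q.2)`; then `pm (TH M z) = 1` (`pm_blk`, `pm_map`) and `Ug_inj`. -/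
theorem TH_eq_one (M : ℕ) {z : St V S.R} (h1 : map S.aug.toRingHom z = 1) (h2 : pm z = 1) :
    S.TH M z = 1 := by
  let φ : S.R →+* Matrix (Fin M) (Fin M) S.R :=
    (algebraMap (ZMod 2) (Matrix (Fin M) (Fin M) S.R)).comp S.aug.toRingHom
  have key := hom_mod (S.TH M) (blk.comp (map φ))
    (Ug S.R fun p q : V × Fin M => p.2 < q.2) ?_ ?_ z
  · have h0 : (blk.comp (map φ)) z = 1 := by
      rw [MonoidHom.comp_apply, ← map_map, h1, map_one, map_one]
    rw [h0, inv_one, mul_one] at key
    refine Ug_inj (fun p : V × Fin M => OrderDual.toDual p.2) key ?_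
    ext p q
    show pm (blk (map (S.tw (shf M)).toRingHom z)) p q = _
    rw [pm_blk, pm_map, h2, Matrix.map_one _ (map_zero _) (map_one _)]
    obtain ⟨i, a⟩ := p
    obtain ⟨j, b⟩ := q
    by_cases hij : i = j
    · subst hij
      simp [Matrix.one_apply]
    · simp [hij]
  · intro i j r hij g hg
    have hmem : blkX i j (φ r) ∈
        Subgroup.normalizer ((Ug S.R fun p q : V × Fin M => p.2 < q.2 :
          Subgroup (St (V × Fin M) S.R)) : Set (St (V × Fin M) S.R)) := by
      refine LocalA_blkX_mem hij _ _ fun a b => ?_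
      by_cases hab : a = b
      · subst hab
        have hc : ∀ (s : S.R) (y : St (V × Fin M) S.R),
            y ∈ Ug S.R (fun p q : V × Fin M => p.2 < q.2) →
            x (i, a) (j, a) s * y * (x (i, a) (j, a) s)⁻¹ ∈
              Ug S.R (fun p q : V × Fin M => p.2 < q.2) := fun s y hy =>
          Ug_conj (i, a) (j, a) s (lt_irrefl _) (fun _ h _ => h) (fun _ h _ => h) hy
        rw [Subgroup.mem_normalizer_iff]
        refine fun y => ⟨hc _ y, fun hy => ?_⟩
        have := hc (-(φ r a a)) _ hy
        rw [x_neg] at this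
        simpa [mul_assoc] using this
      · have : φ r a b = 0 := by
          show algebraMap (ZMod 2) (Matrix (Fin M) (Fin M) S.R) (S.aug r) a b = 0
          rw [Matrix.algebraMap_matrix_apply, if_neg hab]
        rw [this, x_zero]
        exact Subgroup.one_mem _
    rw [MonoidHom.comp_apply, map_x, blk_x]
    exact (Subgroup.mem_normalizer_iff.1 hmem g).1 hg
  · intro i j r hij
    have e : S.TH M (x i j r) * ((blk.comp (map φ)) (x i j r))⁻¹ =
        blkX i j (S.tw (shf M) r - φ r) := by
      show blk (map (S.tw (shf M)).toRingHom (x i j r)) * (blk (map φ (x i j r)))⁻¹ = _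
      rw [map_x, map_x, ← map_inv, ← map_mul, ← x_neg, ← x_add, blk_x, sub_eq_add_neg]
      rfl
    rw [e]
    refine LocalA_blkX_mem hij _ _ fun a b => ?_
    by_cases hab : a < b
    · exact x_mem_Ug (Ψ := fun p q : V × Fin M => p.2 < q.2) hab _
    · have : (S.tw (shf M) r - φ r) a b = 0 := by
        rw [Matrix.sub_apply, S.LocalA_tw_sub M r a b hab]
        exact sub_self _
      rw [this, x_zero]
      exact Subgroup.one_mem _

/-- `St V R` is generated by the `x i j 1` and `x i j (letter)` -/
theorem exists_word (hV : 3 ≤ Fintype.card V) (z : St V S.R) :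
    ∃ l : List (V × V × List X), (∀ p ∈ l, p.1 ≠ p.2.1 ∧ p.2.2.length ≤ 1) ∧
      z = (l.map fun p => x p.1 p.2.1 (S.wd p.2.2)).prod := by
  let P : St V S.R → Prop := fun z =>
    ∃ l : List (V × V × List X), (∀ p ∈ l, p.1 ≠ p.2.1 ∧ p.2.2.length ≤ 1) ∧
      z = (l.map fun p => x p.1 p.2.1 (S.wd p.2.2)).prod
  have h1 : P 1 := ⟨[], by simp, rfl⟩
  have hmul : ∀ y y', P y → P y' → P (y * y') := by
    rintro _ _ ⟨l, hl, rfl⟩ ⟨l', hl', rfl⟩
    refine ⟨l ++ l', fun p hp => ?_, by rw [List.map_append, List.prod_append]⟩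
    rcases List.mem_append.1 hp with h | h
    · exact hl p h
    · exact hl' p h
  have hgen : ∀ i j (w : List X), i ≠ j → w.length ≤ 1 → P (x i j (S.wd w)) := fun i j w hij hw =>
    ⟨[(i, j, w)], by simpa using ⟨hij, hw⟩, by simp⟩
  have hwd : ∀ (w : List X) i j, i ≠ j → P (x i j (S.wd w)) := by
    intro w
    induction w with
    | nil => exact fun i j hij => hgen i j [] hij (by simp)
    | cons a w ih =>
      intro i j hij
      obtain ⟨k, hk⟩ : ∃ k, k ∉ ({i, j} : Finset V) := by
        by_contra h
        have h2 : (Finset.univ : Finset V) ⊆ {i, j} := fun k _ => by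
          by_contra hk
          exact h ⟨k, hk⟩
        have h3 := (Finset.card_le_card h2).trans Finset.card_le_two
        rw [Finset.card_univ] at h3
        omega
      rw [Finset.mem_insert, Finset.mem_singleton, not_or] at hk
      have e : S.wd (a :: w) = S.wd [a] * S.wd w := S.wd_append [a] w
      rw [e, ← x_comm_mul (Ne.symm hk.1) hk.2 hij, commutatorElement_def, x_inv, x_inv]
      have ha := hgen i k [a] (Ne.symm hk.1) le_rfl
      have hb := ih k j hk.2
      exact hmul _ _ (hmul _ _ (hmul _ _ ha hb) ha) hb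
  have hx : ∀ i j (r : S.R), i ≠ j → P (x i j r) := by
    intro i j r hij
    induction r using S.induction_wd with
    | h0 => rw [x_zero]; exact h1
    | hw w => exact hwd w i j hij
    | ha r s hr hs => rw [x_add]; exact hmul _ _ hr hs
  show P z
  induction z using St.induction_on with
  | h1 => exact h1
  | hx i j r y hij hy => exact hmul _ _ (hx i j r hij) hy

end Sys

end Crest.Agent.R176
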