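import Crest.Agent.R176.MBasicB

/-! # R176: elementary facts on the layout, the codes and the zones -/

noncomputable section

namespace Crest.Agent.R176

open Classical

set_option linter.unusedSectionVars false

variable {b : ℕ} {T : ℕ} {f f' : ℕ → Ce} {g g' : ℕ → Fin (2 ^ b)}

/-! ### decoding -/

theorem MBasic_addr {o o' : ℕ} (h : ∀ p < Q b, (f' (o' + p)).st = (f (o + p)).st) :
    addr b f' o' = addr b f o := by
  have key : (fun α : Fin (Q (2 ^ b)) => ∀ p < Q b, (f' (o' + p)).st = st b α p) =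
      fun α : Fin (Q (2 ^ b)) => ∀ p < Q b, (f (o + p)).st = st b α p :=
    funext fun α => propext (forall₂_congr fun p hp => by rw [h p hp])
  unfold addr
  by_cases h1 : ∃ α : Fin (Q (2 ^ b)), ∀ p < Q b, (f (o + p)).st = st b α p
  · have h2 : ∃ α : Fin (Q (2 ^ b)), ∀ p < Q b, (f' (o' + p)).st = st b α p := key ▸ h1
    rw [dif_pos h1, dif_pos h2]
    congr 1
  · have h2 : ¬∃ α : Fin (Q (2 ^ b)), ∀ p < Q b, (f' (o' + p)).st = st b α p := key ▸ h1
    rw [dif_neg h1, dif_neg h2]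

theorem ltr_congr {o o' : ℕ} {m m' : Bool} (h : ∀ p < Q b, (f' (o' + p)).st = (f (o + p)).st ∧
    root m' (f' (o' + p)) = root m (f (o + p))) : ltr b f' o' m' = ltr b f o m := by
  have h1 : addr b f' o' = addr b f o := MBasic_addr fun p hp => (h p hp).1
  have h2 : (fun j : Fin (2 ^ b) => root m' (f' (o' + (ell + 2 ^ b + j)))) =
      fun j : Fin (2 ^ b) => root m (f (o + (ell + 2 ^ b + j))) :=
    funext fun j => (h _ (by have := j.2; unfold Q; omega)).2
  refine Ltr.ext h1 (funext fun i => (h _ ?_).2) ?_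
  · have := i.2
    have := be_lt_ell
    unfold Q
    omega
  · simp only [ltr, h1, h2]

theorem decZ_one : decZ b (word b 1 f g) = [ltr b f 0 true] := by
  rw [decZ, if_pos (by simp)]
  congr 1
  exact ltr_congr fun p hp => by rw [fz_word (by omega)]; exact ⟨rfl, rfl⟩

theorem Inv2.marks {m : Bool} (h : Inv2 b f g m) : ∃ hp k sub, Marks2 b f hp m k sub := by
  obtain ⟨_, _, k, _, _, hp, sub, h, -⟩ := h
  exact ⟨hp, k, sub, h⟩

theorem decZ_two {m : Bool} {hp : ℕ} {k : Option Kind} {sub : Sub} (h : Marks2 b f hp m k sub) :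
    decZ b (word b 2 f g) = [ltr b f 0 m, ltr b f (Q b) m] := by
  have hQ := Q_pos b
  have hm : modeZ (word b 2 f g) = m := by
    rw [modeZ, length_word]
    cases m with
    | true =>
      refine decide_eq_true ⟨hp, h.1, decide (Q b ≤ hp), k, sub, ?_⟩
      rw [fz_word h.1, h.2 hp h.1, if_neg (lt_irrefl _), if_pos rfl]
    | false =>
      refine decide_eq_false ?_
      rintro ⟨i, hi, ρ, k', sub', h'⟩
      rw [fz_word hi, h.2 i hi] at h'
      split_ifs at h' <;> simp at h'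
  rw [decZ, if_neg (by rw [length_word]; omega), hm]
  congr 1
  · exact ltr_congr fun p hp => by rw [fz_word (by omega)]; exact ⟨rfl, rfl⟩
  · congr 1
    exact ltr_congr fun p hp => by rw [fz_word (by omega)]; exact ⟨rfl, rfl⟩

theorem SameRoot.ltr {m m' : Bool} (h : SameRoot b f m f' m') :
    ltr b f' 0 m' = ltr b f 0 m ∧ ltr b f' (Q b) m' = ltr b f (Q b) m :=
  ⟨ltr_congr fun p hp => h _ (by omega), ltr_congr fun p hp => h _ (by omega)⟩

theorem MBasic_blk {o α : ℕ} (h : Blk b f g o α)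
    (hf : ∀ p < Q b, (f' (o + p)).st = (f (o + p)).st ∧ (f' (o + p)).bit = (f (o + p)).bit) :
    Blk b f' g o α :=
  ⟨h.lt, fun p hp => (hf p hp).1.trans (h.st p hp), fun p hp => by
    unfold BitOK
    rw [(hf p hp).1, (hf p hp).2]
    exact h.bit p hp, h.inj⟩

/-- the tape only depends on the fields other than the mark -/
theorem Tape.congr {αL αR e t tL u : ℕ} {k : Option Kind} (h : Tape b f g αL αR k e t tL u)
    (hf : ∀ i < 2 * Q b, (f' i).st = (f i).st ∧ (f' i).bit = (f i).bit ∧ (f' i).dn = (f i).dn ∧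
      (f' i).ep = (f i).ep) (ht : t ≤ Q b) : Tape b f' g αL αR k e t tL u := by
  refine ⟨MBasic_blk h.blkL fun p hp => ⟨(hf _ (by omega)).1, (hf _ (by omega)).2.1⟩,
    MBasic_blk h.blkR fun p hp => ⟨(hf _ (by omega)).1, (hf _ (by omega)).2.1⟩,
    fun p hp => ?_, fun p hp => ?_, fun p hp => ?_, fun p hp => ?_, h.hk, fun s hs => ?_⟩
  · rw [(hf p (by omega)).2.2.1]; exact h.dnL p hp
  · rw [(hf _ (by omega)).2.2.1]; exact h.dnR p hp
  · rw [(hf p (by omega)).2.2.2]; exact h.epL p hp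
  · rw [(hf _ (by omega)).2.2.2]; exact h.epR p hp
  · obtain ⟨a1, a2, a3, -⟩ := hf s (by omega)
    obtain ⟨b1, b2, b3, -⟩ := hf (Q b + s) (by omega)
    obtain ⟨c1, c2, xL, xR, c3, c4⟩ := h.col s hs
    refine ⟨by rw [a1, b1, c1], by rw [a1, b1, c2], xL, xR, b3.trans c3, ?_⟩
    rw [b1, b2]
    exact ⟨a3.trans c4.dn, by rw [a1, a2]; exact c4.fld, by rw [a2]; exact c4.mid,
      by rw [a2]; exact c4.top⟩

theorem SubOK.tape {αL αR e t hp : ℕ} {k : Option Kind} {sub : Sub}
    (h : SubOK b f g αL αR k e t hp sub) : ∃ tL u, Tape b f g αL αR k e t tL u ∧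
      (tL = t ∨ tL = t + 1) ∧ tL ≤ ell + 2 * 2 ^ b ∧ u ≤ be ∧ hp + 1 < 2 * Q b := by
  have h1 := endc_le (b := b) k
  have h2 := be_lt_ell
  have h3 : Q b = ell + 3 * 2 ^ b := rfl
  have h4 : 0 < 2 ^ b := by positivity
  cases sub with
  | D => exact ⟨_, _, h.1, Or.inl rfl, by have := h.2; omega, min_le_left _ _,
      by have := h.2; omega⟩
  | A => exact ⟨_, _, h.1, Or.inl rfl, by have := h.2; omega, min_le_left _ _,
      by have := h.2; omega⟩
  | F => exact ⟨_, _, h.1, Or.inl rfl, by have := h.2.2; omega, min_le_left _ _,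
      by have := h.2.2; omega⟩
  | B x y s nt nx =>
    obtain ⟨a, a1, a2, a3, -⟩ := h
    exact ⟨_, _, a, Or.inr rfl, by omega, by omega, by omega⟩
  | C fl x y s nt nx =>
    obtain ⟨a, a1, a2, a3, -⟩ := h
    exact ⟨_, _, a, Or.inr rfl, by omega, min_le_left _ _, by omega⟩

end Crest.Agent.R176
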