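import Crest.Agent.R176.Mach

/-! # R176: elementary facts on the layout, the codes and the zones -/

noncomputable section

namespace Crest.Agent.R176

open Classical

set_option linter.unusedSectionVars false

theorem be_pos : 0 < be := by
  rw [be_eq]
  exact Nat.add_pos_left Fintype.card_pos _

theorem s0_le_be : s0 ≤ be := by
  rw [be_eq]
  exact Nat.le_add_left _ _

theorem base_lt {e s : ℕ} (he : e < nT) (hs : s ≤ be) : base e + s < ell := by
  have := Nat.mul_le_mul_right be (show e + 1 ≤ nT from he)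
  rw [ell_eq, base]
  nlinarith

theorem be_le_base (e : ℕ) : be ≤ base e := by
  exact Nat.le_add_right _ _

theorem be_lt_ell : be < ell := by
  rw [ell_eq]
  nlinarith

theorem six_dvd_Q {b : ℕ} (hb : 1 ≤ b) : 6 ∣ Q b := by
  obtain ⟨c, rfl⟩ := Nat.exists_eq_add_of_le' hb
  rw [Q, ell_eq, pow_succ]
  omega

theorem encC_injective : Function.Injective encC := by
  intro s s' h
  have hlt : (Fintype.equivFin Ce s).val < be := by
    rw [be_eq]
    exact Nat.lt_add_right _ (Fin.is_lt _)
  have e := congrFun h ⟨_, hlt⟩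
  simp only [encC, decide_true, Bool.true_eq, decide_eq_true_eq] at e
  exact (Fintype.equivFin Ce).injective (Fin.ext e.symm)

theorem decC_encC (s : Ce) : decC (encC s) = some s := by
  have h : ∃ s', encC s' = encC s := ⟨s, rfl⟩
  rw [decC, dif_pos h, encC_injective h.choose_spec]

theorem Sg.code_inj {σ σ' : Sg} (h : ∀ i < s0, σ.code i = σ'.code i) : σ = σ' := by
  have e := h (Fintype.equivFin Sg σ).val (by rw [s0_eq]; exact Fin.is_lt _)
  simp only [Sg.code, decide_true, Bool.true_eq, decide_eq_true_eq] at e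
  exact (Fintype.equivFin Sg).injective (Fin.ext e.symm)

theorem Sg.code_ge (σ : Sg) {i : ℕ} (h : s0 ≤ i) : σ.code i = false := by
  rw [s0_eq] at h
  exact decide_eq_false ((Fin.is_lt _).trans_le h).ne

theorem ent_tab {e : ℕ} (he : e < nT) : TabP (ent e) := by
  rw [nT_eq] at he
  rw [ent, dif_pos he]
  exact Subtype.prop _

theorem exists_ent {E : Ent} (h : TabP E) : ∃ e < nT, ent e = E := by
  refine ⟨(Fintype.equivFin {e : Ent // TabP e} ⟨E, h⟩).val, by rw [nT_eq]; exact Fin.is_lt _, ?_⟩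
  rw [ent, dif_pos (Fin.is_lt _), Fin.eta, Equiv.symm_apply_apply]

/-- the row of the entry `e` -/
theorem prog_base {e s : ℕ} (hs : s < be) :
    (prog (base e + s)).kind = (ent e).kind ∧
    (prog (base e + s)).sL = (ent e).σL.code s ∧ (prog (base e + s)).sR = (ent e).σR.code s ∧
    (prog (base e + s)).lo = cbit (ent e).cL s ∧ (prog (base e + s)).ln = cbit (ent e).cL' s ∧
    (prog (base e + s)).ro = cbit (ent e).cR s ∧ (prog (base e + s)).rn = cbit (ent e).cR' s := by
  have e0 : base e + s = s + be * (e + 1) := by rw [base]; ring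
  have e1 : (base e + s) / be - 1 = e := by
    rw [e0, Nat.add_mul_div_left _ _ be_pos, Nat.div_eq_of_lt hs]
    omega
  have e2 : (base e + s) % be = s := by rw [e0, Nat.add_mul_mod_self_left, Nat.mod_eq_of_lt hs]
  simp only [prog, e1, e2, and_self]

variable {b : ℕ}

theorem tag_eq_zero {p : ℕ} : tag b p = 0 ↔ p < ell := by
  have : 0 < 2 ^ b := by positivity
  unfold tag
  split_ifs <;> simp <;> omega

theorem tag_eq_one {p : ℕ} : tag b p = 1 ↔ ell ≤ p ∧ p < ell + 2 ^ b := by
  have : 0 < 2 ^ b := by positivity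
  unfold tag
  split_ifs <;> simp <;> omega

theorem tag_eq_two {p : ℕ} : tag b p = 2 ↔ ell + 2 ^ b ≤ p ∧ p < ell + 2 * 2 ^ b := by
  have : 0 < 2 ^ b := by positivity
  unfold tag
  split_ifs <;> simp <;> omega

theorem tag_eq_three {p : ℕ} : tag b p = 3 ↔ ell + 2 * 2 ^ b ≤ p := by
  have : 0 < 2 ^ b := by positivity
  unfold tag
  split_ifs <;> simp <;> omega

theorem sg_tag (p : ℕ) : (sg b p).tag = tag b p := rfl

theorem sg_pr {p : ℕ} (h : p < ell) : (sg b p).pr = prog p := by
  exact if_pos h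

theorem MBasicA_pr {p : ℕ} {P : Prog → Prop} :
    (sg b p).tag = 0 ∧ P (sg b p).pr ↔ p < ell ∧ P (prog p) := by
  rw [sg_tag, tag_eq_zero]
  exact and_congr_right fun h => by rw [sg_pr h]

theorem MBasicA_mx {p : ℕ} (j : ℕ) (h1 : ell + j * 2 ^ b ≤ p) (h2 : p < ell + (j + 1) * 2 ^ b) :
    (sg b p).mx = true ↔ p + 1 = ell + (j + 1) * 2 ^ b := by
  obtain ⟨r, rfl⟩ := Nat.exists_eq_add_of_le h1
  rw [add_mul, one_mul] at h2 ⊢
  have e : col b (ell + j * 2 ^ b + r) = r := by
    rw [col, if_neg (by omega), add_assoc, Nat.add_sub_cancel_left, Nat.mul_add_mod_self_right,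
      Nat.mod_eq_of_lt (by omega)]
  simp only [sg, e, decide_eq_true_eq]
  omega

theorem sg_first {p : ℕ} : (sg b p).first ↔ p = 0 := by
  rw [Sg.first, MBasicA_pr (P := fun q => q.first = true)]
  have := be_lt_ell
  simp only [prog, decide_eq_true_eq]
  omega

theorem sg_last {p : ℕ} (h : p < Q b) : (sg b p).last ↔ p + 1 = Q b := by
  rw [Sg.last, sg_tag, tag_eq_three]
  unfold Q at h ⊢
  constructor
  · exact fun k => (MBasicA_mx 2 k.1 h).mp k.2
  · intro k
    have : 0 < 2 ^ b := by positivity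
    exact ⟨by omega, (MBasicA_mx 2 (by omega) h).mpr k⟩

theorem sg_fld {p : ℕ} : (sg b p).fld ↔ p < be := by
  rw [Sg.fld, MBasicA_pr (P := fun q => q.fld = true)]
  have := be_lt_ell
  simp only [prog, decide_eq_true_eq]
  omega

theorem sg_est {p : ℕ} : (sg b p).est ↔ ∃ e < nT, p = base e := by
  rw [Sg.est, MBasicA_pr (P := fun q => q.est = true)]
  simp only [prog, decide_eq_true_eq]
  have h0 := be_pos
  constructor
  · rintro ⟨-, h1, h2, h3⟩
    obtain ⟨c, rfl⟩ := Nat.dvd_of_mod_eq_zero h3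
    have h4 := Nat.lt_of_mul_lt_mul_left h2
    obtain _ | c := c
    · omega
    · exact ⟨c, by omega, by rw [base]; ring⟩
  · rintro ⟨e, he, rfl⟩
    refine ⟨base_lt (s := 0) he (Nat.zero_le _), be_le_base e, ?_, ?_⟩
    · rw [base]
      nlinarith
    · rw [base, Nat.add_mul_mod_self_right, Nat.mod_self]

theorem sg_endC {p : ℕ} (k : Kind) : EndC (some k) (sg b p) ↔ p + 1 = endc b (some k) := by
  have h0 : 0 < 2 ^ b := by positivity
  have h2 : (sg b p).tag = 2 ∧ (sg b p).mx = true ↔ p + 1 = ell + 2 * 2 ^ b := by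
    rw [sg_tag, tag_eq_two]
    exact ⟨fun h => (MBasicA_mx 1 (by omega) h.1.2).mp h.2, fun h =>
      ⟨by omega, (MBasicA_mx 1 (by omega) (by omega)).mpr h⟩⟩
  cases k <;> simp only [EndC, endc, Option.some.injEq, reduceCtorEq, false_and, true_and, or_false,
    false_or, or_self, or_true, h2]
  · rw [sg_tag, tag_eq_one]
    exact ⟨fun h => by simpa using (MBasicA_mx 0 (by omega) (by omega)).mp h.2, fun h =>
      ⟨by omega, (MBasicA_mx 0 (by omega) (by omega)).mpr (by omega)⟩⟩
  · rw [MBasicA_pr (P := fun q => q.fend = true)]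
    have := be_lt_ell
    simp only [prog, decide_eq_true_eq]
    omega

theorem endc_le (k : Option Kind) : endc b k ≤ ell + 2 * 2 ^ b := by
  have := be_lt_ell
  rcases k with _ | _ | _ | _ | _ <;> simp only [endc] <;> omega

theorem be_le_endc (k : Kind) : be ≤ endc b (some k) := by
  have := be_lt_ell
  have : 0 < 2 ^ b := by positivity
  cases k <;> simp only [endc] <;> omega

theorem sgz_left {i : ℕ} (h : i < Q b) : sgz b i = sg b i := by
  rw [sgz, Nat.mod_eq_of_lt h]

theorem sgz_right {i : ℕ} (h : i < Q b) : sgz b (Q b + i) = sg b i := by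
  rw [sgz, Nat.add_mod_left, Nat.mod_eq_of_lt h]

theorem st_sb (α p : ℕ) : (st b α p).sb = (sg (2 ^ b) α).code p := by
  change (sg (2 ^ b) α).code (min p s0) = _
  rcases le_total p s0 with h | h
  · rw [min_eq_left h]
  · rw [min_eq_right h, Sg.code_ge _ h, Sg.code_ge _ le_rfl]

theorem card_Ltr (b : ℕ) : Fintype.card (Ltr b) ≤ Q b * Fintype.card Cw * 2 ^ b := by
  have h := Fintype.card_le_of_injective (fun a : Ltr b => (a.p, a.c, a.id)) fun a a' h => by
    simp only [Prod.mk.injEq] at h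
    exact Ltr.ext h.1 h.2.1 h.2.2
  rwa [Fintype.card_prod, Fintype.card_prod, Fintype.card_fin, Fintype.card_fin, ← mul_assoc] at h

end Crest.Agent.R176
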