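import Crest.Agent.R176.MBasicA

/-! # R176: elementary facts on the layout, the codes and the zones -/

noncomputable section

namespace Crest.Agent.R176

open Classical

set_option linter.unusedSectionVars false

variable {b : ℕ} {T : ℕ} {f f' : ℕ → Ce} {g g' : ℕ → Fin (2 ^ b)}

/-! ### words -/

@[simp] theorem length_word : (word b T f g).length = T * Q b := by simp [word]

theorem getElem_word {i : ℕ} (h : i < (word b T f g).length) :
    (word b T f g)[i] = mkL b i (f i) (g i) := by simp [word]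

theorem mkL_sg (i : ℕ) (s : Ce) (y : Fin (2 ^ b)) : (mkL b i s y).sg = sgz b i := rfl

theorem fz_word {i : ℕ} (h : i < T * Q b) : fz (word b T f g) i = f i := by
  simp [fz, word, h, mkL, decC_encC]

theorem MBasicB_mkL_congr {i j : ℕ} (h : i % Q b = j % Q b) (s : Ce) {y y' : Fin (2 ^ b)}
    (hy : tag b (i % Q b) = 3 → y = y') : mkL b i s y = mkL b j s y' := by
  refine Ltr.ext (Fin.ext h) rfl ?_
  simp only [mkL, ← h]
  split_ifs with h3
  · exact hy h3
  · rfl

theorem word_congr (hf : ∀ i < T * Q b, f i = f' i)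
    (hg : ∀ i < T * Q b, tag b (i % Q b) = 3 → g i = g' i) : word b T f g = word b T f' g' := by
  refine List.map_congr_left fun i hi => ?_
  rw [List.mem_range] at hi
  rw [hf i hi]
  exact MBasicB_mkL_congr rfl _ (hg i hi)

theorem word_join : word b 1 f g ++ word b 1 f' g' = word b 2 (join b f f') (join b g g') := by
  unfold word
  rw [two_mul, List.range_add, List.map_append, one_mul, List.map_map]
  congr 1
  · refine List.map_congr_left fun i hi => ?_
    rw [List.mem_range] at hi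
    simp [join, hi]
  · refine List.map_congr_left fun i _ => ?_
    simp only [join, Function.comp, add_lt_iff_neg_left, not_lt_zero, if_false,
      Nat.add_sub_cancel_left]
    exact MBasicB_mkL_congr (by simp) _ fun _ => rfl

theorem word_two : word b 2 f g = word b 1 f g ++ word b 1 (shiftQ b f) (shiftQ b g) := by
  rw [word_join]
  refine word_congr (fun i _ => ?_) (fun i _ _ => ?_) <;>
  · simp only [join, shiftQ]
    split_ifs with h
    · rfl
    · rw [Nat.add_sub_cancel' (not_lt.1 h)]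

theorem MBasicB_split {α : Type} {N : ℕ} {F : ℕ → α} {u v : List α} {x y : α}
    (h : (List.range N).map F = u ++ x :: y :: v) :
    u.length + 1 < N ∧ x = F u.length ∧ y = F (u.length + 1) ∧
      ∀ F' : ℕ → α, (∀ j, j ≠ u.length → j ≠ u.length + 1 → F' j = F j) →
        (List.range N).map F' = u ++ F' u.length :: F' (u.length + 1) :: v := by
  have hl : N = u.length + (v.length + 2) := by simpa using congrArg List.length h
  have hj : ∀ j, j < N → (u ++ x :: y :: v)[j]? = some (F j) := by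
    intro j hj; rw [← h]; simp [hj]
  refine ⟨by omega, by simpa using hj u.length (by omega),
    by simpa using hj (u.length + 1) (by omega), fun F' hF => ?_⟩
  refine List.ext_getElem? fun j => ?_
  by_cases hN : j < N
  · have h1 := hj j hN
    have h2 : ((List.range N).map F')[j]? = some (F' j) := by simp [hN]
    rw [h2]
    by_cases hu : j < u.length
    · rw [List.getElem?_append_left hu] at h1 ⊢
      rw [h1, hF j (by omega) (by omega)]
    · obtain ⟨k, rfl⟩ := Nat.exists_eq_add_of_le (not_lt.1 hu)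
      rw [List.getElem?_append_right (by omega), Nat.add_sub_cancel_left] at h1 ⊢
      rcases k with _ | _ | k
      · rfl
      · rfl
      · rw [hF _ (by omega) (by omega), ← h1]; rfl
  · rw [List.getElem?_eq_none (by simpa using hN), List.getElem?_eq_none (by simp; omega)]

/-- locating a pair in a zone -/
theorem word_split {u v : List (Ltr b)} {x y : Ltr b} (h : word b T f g = u ++ x :: y :: v) :
    u.length + 1 < T * Q b ∧ x = mkL b u.length (f u.length) (g u.length) ∧
      y = mkL b (u.length + 1) (f (u.length + 1)) (g (u.length + 1)) ∧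
      ∀ L R gL gR, word b T (upd f u.length L R) (upd g u.length gL gR) =
        u ++ mkL b u.length L gL :: mkL b (u.length + 1) R gR :: v := by
  obtain ⟨h1, h2, h3, h4⟩ := MBasicB_split h
  refine ⟨h1, h2, h3, fun L R gL gR => ?_⟩
  have := h4 (fun i => mkL b i (upd f u.length L R i) (upd g u.length gL gR i))
    (fun j a c => by simp [upd, a, c])
  simpa [upd, word] using this

theorem word_pair {i : ℕ} (h : i + 1 < T * Q b) : ∃ u v : List (Ltr b), u.length = i ∧
    word b T f g = u ++ mkL b i (f i) (g i) :: mkL b (i + 1) (f (i + 1)) (g (i + 1)) :: v := by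
  have hl : i + 1 < (word b T f g).length := by simpa using h
  refine ⟨(word b T f g).take i, (word b T f g).drop (i + 2), by simp; omega, ?_⟩
  rw [← getElem_word (T := T) hl, ← getElem_word (T := T) (show i < _ by omega),
    List.getElem_cons_drop, List.getElem_cons_drop, List.take_append_drop]

theorem upd_self {α : Type} (f : ℕ → α) (i : ℕ) : upd f i (f i) (f (i + 1)) = f := by
  funext j
  simp only [upd]
  split_ifs with h1 h2
  · rw [h1]
  · rw [h2]
  · rfl

theorem MBasicB_pos (i : ℕ) (L R : Ce) (gL gR : Fin (2 ^ b)) :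
    (mkL b (i + 1) R gR).p.val = ((mkL b i L gL).p.val + 1) % Q b := by
  simp [mkL]

/-- a step of kind `plain` inside a zone -/
theorem eqv_plain {i : ℕ} (h : i + 1 < T * Q b) {L R : Ce}
    (hs : Fwd (sgz b i) (f i) (f (i + 1)) L R ∨ Idl (sgz b i) (f i) (f (i + 1)) L R ∨
      Lnk (f i) (f (i + 1)) L R) :
    (sys b).Eqv (word b T f g) (word b T (upd f i L R) g) := by
  obtain ⟨u, v, rfl, e⟩ := word_pair (f := f) (g := g) h
  have e' := (word_split e).2.2.2 L R (g u.length) (g (u.length + 1))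
  rw [upd_self] at e'
  rw [e', e]
  exact Sys.Eqv.of_eqv u v ⟨MBasicB_pos _ _ _ _ _, rfl, rfl,
    Or.inl ⟨Or.inr ⟨_, _, _, _, rfl, rfl, rfl, rfl, hs⟩, rfl, rfl⟩⟩

theorem zero_of_badC {i : ℕ} (h : i + 1 < T * Q b)
    (hs : BadC (sgz b i) (sgz b (i + 1)) (f i) (f (i + 1))) : (sys b).Zero (word b T f g) := by
  obtain ⟨u, v, rfl, e⟩ := word_pair (f := f) (g := g) h
  rw [e]
  refine Sys.Zero.of_zer u v (Or.inr (Or.inl ⟨rfl, rfl, ?_⟩))
  rintro ⟨L, R, h1, h2, h3⟩
  obtain rfl := encC_injective h1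
  obtain rfl := encC_injective h2
  exact h3 hs

/-- the relations between two adjacent letters of a zone -/
theorem eqv_mkL {i : ℕ} {L R : Ce} {gL gR : Fin (2 ^ b)} {x' y' : Ltr b}
    (h : (sys b).eqv (mkL b i L gL) (mkL b (i + 1) R gR) x' y') :
    (x' = mkL b i L gL ∧ y' = mkL b (i + 1) R gR) ∨
    (∃ L' R', x' = mkL b i L' gL ∧ y' = mkL b (i + 1) R' gR ∧
      (Fwd (sgz b i) L R L' R' ∨ Idl (sgz b i) L R L' R' ∨ Lnk L R L' R')) ∨
    ((sgz b i).tag = 3 ∧ (sgz b (i + 1)).tag = 3 ∧ L.mk' = Mk.idle ∧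
      x' = mkL b i L gR ∧ y' = mkL b (i + 1) R gL) := by
  obtain ⟨-, h1, h2, ⟨ht, h3, h4⟩ | ⟨ht, h3, h4⟩⟩ := h
  · rcases ht with ⟨e1, e2⟩ | ⟨L0, R0, L', R', e1, e2, e3, e4, hs⟩
    · exact Or.inl ⟨Ltr.ext h1 e1 h3, Ltr.ext h2 e2 h4⟩
    · obtain rfl := encC_injective e1
      obtain rfl := encC_injective e2
      exact Or.inr (Or.inl ⟨L', R', Ltr.ext h1 e3 h3, Ltr.ext h2 e4 h4, hs⟩)
  · obtain ⟨e1, e2, t1, t2, L0, e3, e4⟩ := ht
    obtain rfl := encC_injective e3
    refine Or.inr (Or.inr ⟨t1, t2, e4, Ltr.ext h1 e1 (h3.trans ?_), Ltr.ext h2 e2 (h4.trans ?_)⟩)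
    · exact (if_pos t2).trans (if_pos t1).symm
    · exact (if_pos t1).trans (if_pos t2).symm

theorem eqv_mkL' {i : ℕ} {L R : Ce} {gL gR : Fin (2 ^ b)} {x' y' : Ltr b}
    (h : (sys b).eqv x' y' (mkL b i L gL) (mkL b (i + 1) R gR)) :
    (x' = mkL b i L gL ∧ y' = mkL b (i + 1) R gR) ∨
    (∃ L' R', x' = mkL b i L' gL ∧ y' = mkL b (i + 1) R' gR ∧
      (Fwd (sgz b i) L' R' L R ∨ Idl (sgz b i) L' R' L R ∨ Lnk L' R' L R)) ∨
    ((sgz b i).tag = 3 ∧ (sgz b (i + 1)).tag = 3 ∧ L.mk' = Mk.idle ∧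
      x' = mkL b i L gR ∧ y' = mkL b (i + 1) R gL) := by
  obtain ⟨-, h1, h2, h⟩ := h
  have g1 : x'.sg = sgz b i := by rw [Ltr.sg, ← h1]; rfl
  have g2 : y'.sg = sgz b (i + 1) := by rw [Ltr.sg, ← h2]; rfl
  rw [g1, g2] at h
  rcases h with ⟨ht, h3, h4⟩ | ⟨ht, h3, h4⟩
  · rcases ht with ⟨e1, e2⟩ | ⟨L', R', L0, R0, e1, e2, e3, e4, hs⟩
    · exact Or.inl ⟨Ltr.ext h1.symm e1.symm h3.symm, Ltr.ext h2.symm e2.symm h4.symm⟩
    · obtain rfl := encC_injective e3
      obtain rfl := encC_injective e4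
      exact Or.inr (Or.inl ⟨L', R', Ltr.ext h1.symm e1 h3.symm, Ltr.ext h2.symm e2 h4.symm, hs⟩)
  · obtain ⟨e1, e2, t1, t2, L0, e3, e4⟩ := ht
    obtain rfl := encC_injective (e1.trans e3)
    refine Or.inr (Or.inr ⟨t1, t2, e4, Ltr.ext h1.symm e1.symm (h4.symm.trans ?_),
      Ltr.ext h2.symm e2.symm (h3.symm.trans ?_)⟩)
    · exact (if_pos t2).trans (if_pos t1).symm
    · exact (if_pos t1).trans (if_pos t2).symm

theorem zer_mkL {i : ℕ} {L R : Ce} {gL gR : Fin (2 ^ b)}
    (h : (sys b).zer (mkL b i L gL) (mkL b (i + 1) R gR)) :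
    BadC (sgz b i) (sgz b (i + 1)) L R ∨
      ((sgz b i).tag = 3 ∧ (sgz b (i + 1)).tag = 3 ∧ L.mk' = Mk.idle ∧ gL = gR) := by
  rcases h with h | ⟨-, -, h⟩ | ⟨⟨-, -, t1, t2, L0, e3, e4⟩, h⟩
  · exact absurd (MBasicB_pos _ _ _ _ _) h
  · by_contra hc
    exact h ⟨L, R, rfl, rfl, fun hb => hc (Or.inl hb)⟩
  · obtain rfl := encC_injective e3
    exact Or.inr ⟨t1, t2, e4, (if_pos t1).symm.trans (h.trans (if_pos t2))⟩

end Crest.Agent.R176
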