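import Crest.Agent.R176.MRoll

/-! # R176: completeness — the relations of the next level are simulated -/

noncomputable section

namespace Crest.Agent.R176

open Classical

set_option linter.unusedSectionVars false

variable {b : ℕ}

/-- the configuration which rewrites `x y` into `x' y'`, after `t` columns -/
def cfg (b : ℕ) (x y x' y' : Ltr (2 ^ b)) (e t tL u hp : ℕ) (m : Bool) (k : Option Kind)
    (sub : Sub) : ℕ → Ce := fun i =>
  let mk := if i < hp then Mk.r (decide (Q b ≤ i))
    else if i = hp then Mk.run (decide (Q b ≤ i)) m k sub else Mk.l (decide (Q b ≤ i))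
  if i < Q b then
    ⟨mk, st b x.p i, if i < tL then bitE b x' i else bitE b x i,
      if i < tL then some (bitE b x i) else none, epv e u i⟩
  else
    ⟨mk, st b y.p (i - Q b), if i - Q b < t then bitE b y' (i - Q b) else bitE b y (i - Q b),
      if i - Q b < t then some (bitE b y (i - Q b)) else none, 0⟩

variable {x y x' y' : Ltr (2 ^ b)} {e t tL u hp : ℕ} {m : Bool} {k : Option Kind} {sub : Sub}

theorem MComplete_mk (i : ℕ) : (cfg b x y x' y' e t tL u hp m k sub i).mk' =
    if i < hp then Mk.r (decide (Q b ≤ i))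
    else if i = hp then Mk.run (decide (Q b ≤ i)) m k sub else Mk.l (decide (Q b ≤ i)) := by
  unfold cfg
  dsimp only
  by_cases h : i < Q b
  · rw [if_pos h]
  · rw [if_neg h]

theorem MComplete_left {i : ℕ} (h : i < Q b) : ∃ mk, cfg b x y x' y' e t tL u hp m k sub i =
    ⟨mk, st b x.p i, if i < tL then bitE b x' i else bitE b x i,
      if i < tL then some (bitE b x i) else none, epv e u i⟩ := ⟨_, if_pos h⟩

theorem MComplete_right (i : ℕ) : ∃ mk, cfg b x y x' y' e t tL u hp m k sub (Q b + i) =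
    ⟨mk, st b y.p i, if i < t then bitE b y' i else bitE b y i,
      if i < t then some (bitE b y i) else none, 0⟩ :=
  ⟨_, (if_neg (by omega)).trans (by rw [Nat.add_sub_cancel_left])⟩

theorem MComplete_bit (a : Ltr (2 ^ b)) {p : ℕ} (hp : p < Q b) (h : bitE b a p = true) :
    (sg b p).fld ∨ ((sg b p).tag = 2 ∧ tag (2 ^ b) a.p = 3) := by
  obtain ⟨_, _, hB, -⟩ := enc_inv1 a
  exact hB.bit p hp (by rw [Nat.zero_add]; exact h)

theorem MComplete_endc (k : Option Kind) : endc b k < Q b := (endc_le k).trans_lt (MPred_top_lt b)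

theorem MComplete_top {p : ℕ} {a a' : Ltr (2 ^ b)} (hp : be ≤ p) (h : a.id = a'.id) :
    bitE b a p = bitE b a' p := by
  unfold bitE
  rw [if_neg hp.not_gt, if_neg hp.not_gt, h]

theorem MComplete_false {p : ℕ} (a : Ltr (2 ^ b)) (hp : be ≤ p)
    (h : p < ell + 2 ^ b ∨ ell + 2 * 2 ^ b ≤ p) : bitE b a p = false := by
  unfold bitE
  rw [if_neg hp.not_gt, if_neg (by omega)]

theorem MComplete_marks (h : hp < 2 * Q b) :
    Marks2 b (cfg b x y x' y' e t tL u hp m k sub) hp m k sub := ⟨h, fun i _ => MComplete_mk i⟩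

theorem MComplete_link (hq : decide (Q b ≤ hp) = true) :
    cfg b x y x' y' e t tL u hp false k sub = upd (cfg b x y x' y' e t tL u hp true k sub) hp
      { cfg b x y x' y' e t tL u hp true k sub hp with mk' := Mk.run true false k sub }
      (cfg b x y x' y' e t tL u hp true k sub (hp + 1)) := by
  funext j
  unfold upd
  split_ifs with j1 j2
  · subst j1
    simp only [cfg, lt_irrefl, if_false, if_true, hq]
    split_ifs <;> rfl
  · subst j2
    simp only [cfg, if_neg j1]
  · simp only [cfg, if_neg j1]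

/-- compare with `encF` (`ltr_congr`, `ltr_encF`) -/
theorem ltr_cfg_true : ltr b (cfg b x y x' y' e t tL u hp m k sub) 0 true = x ∧
    ltr b (cfg b x y x' y' e t tL u hp m k sub) (Q b) true = y := by
  refine ⟨(ltr_congr fun p hp => ?_).trans (ltr_encF x), (ltr_congr fun p hp => ?_).trans (ltr_encF y)⟩
  · obtain ⟨mk, h⟩ := MComplete_left hp
    rw [Nat.zero_add, h]
    refine ⟨rfl, ?_⟩
    by_cases h' : p < tL <;> simp [root, encF, h']
  · obtain ⟨mk, h⟩ := MComplete_right p
    rw [Nat.zero_add, h]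
    refine ⟨rfl, ?_⟩
    by_cases h' : p < t <;> simp [root, encF, h']

theorem ltr_cfg_false (hx : x'.p = x.p) (hy : y'.p = y.p)
    (hL : ∀ p, tL ≤ p → bitE b x p = bitE b x' p) (hR : ∀ p, t ≤ p → bitE b y p = bitE b y' p) :
    ltr b (cfg b x y x' y' e t tL u hp m k sub) 0 false = x' ∧
    ltr b (cfg b x y x' y' e t tL u hp m k sub) (Q b) false = y' := by
  refine ⟨(ltr_congr fun p hp => ?_).trans (ltr_encF x'),
    (ltr_congr fun p hp => ?_).trans (ltr_encF y')⟩
  · obtain ⟨mk, h⟩ := MComplete_left hp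
    rw [Nat.zero_add, h]
    refine ⟨by simp [encF, hx], ?_⟩
    by_cases h' : p < tL
    · simp [root, encF, h']
    · simp [root, encF, h', hL p (not_lt.1 h')]
  · obtain ⟨mk, h⟩ := MComplete_right p
    rw [Nat.zero_add, h]
    refine ⟨by simp [encF, hy], ?_⟩
    by_cases h' : p < t
    · simp [root, encF, h']
    · simp [root, encF, h', hR p (not_lt.1 h')]

/-- the data of the column `s` (`prog_base`, `st_sb`) -/
theorem cfg_half {kd : Kind} (hE : ent e = ⟨x.sg, y.sg, x.c, y.c, x'.c, y'.c, kd⟩) {s : ℕ}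
    (hs : s < tL) (hsk : s < endc b (some kd))
    (hsw : kd = Kind.swap → x'.id = y.id ∧ y'.id = x.id)
    (heq : kd = Kind.eq → x'.id = x.id ∧ y.id = x.id ∧ y'.id = x.id) :
    Half b (some kd) e s (cfg b x y x' y' e t tL u hp m k sub s) (bitE b x s) (bitE b y s)
      (bitE b y' s) ((sg (2 ^ b) y.p).code s) := by
  obtain ⟨mk, h⟩ := MComplete_left (hsk.trans (MComplete_endc _))
  rw [h, if_pos hs, if_pos hs]
  refine ⟨rfl, fun h1 => ?_, fun h1 h2 => ?_, fun h1 => ?_⟩
  · obtain ⟨-, a1, a2, a3, a4, a5, a6⟩ := prog_base (e := e) h1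
    rw [a1, a2, a3, a4, a5, a6, hE]
    simp only [bitE, if_pos h1, st_sb]
    exact ⟨rfl, trivial, trivial, rfl, trivial, trivial⟩
  · simp only [MComplete_false _ h1 (.inl h2), and_self]
  · have h0 := be_lt_ell
    have h2 : be ≤ s := (h0.le.trans (Nat.le_add_right _ _)).trans h1
    cases kd with
    | plain => exact absurd hsk h1.not_gt
    | zero => exact absurd hsk h2.not_gt
    | swap =>
      exact .inl ⟨rfl, MComplete_top h2 (hsw rfl).1.symm, MComplete_top h2 (hsw rfl).2⟩
    | eq =>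
      exact .inr ⟨rfl, MComplete_top h2 (heq rfl).1.symm, MComplete_top h2 (heq rfl).2.1,
        MComplete_top h2 (heq rfl).2.2⟩

theorem cfg_tape {kd : Kind} (he : e < nT) (hE : ent e = ⟨x.sg, y.sg, x.c, y.c, x'.c, y'.c, kd⟩)
    (hx : x'.p = x.p) (hy : y'.p = y.p) (hu : 0 < u) (ht : t ≤ tL) (htk : t ≤ endc b (some kd))
    (hsw : kd = Kind.swap → x'.id = y.id ∧ y'.id = x.id)
    (heq : kd = Kind.eq → x'.id = x.id ∧ y.id = x.id ∧ y'.id = x.id)
    (hadr : ∀ s < t, (st b x.p s).nt = (st b y.p s).tg ∧ (st b x.p s).nx = (st b y.p s).cu) :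
    Tape b (cfg b x y x' y' e t tL u hp m k sub) (join b (encG b) (encG b)) x.p y.p (some kd)
      e t tL u := by
  refine ⟨⟨x.p.2, fun p hp => ?_, fun p hp => ?_, fun p q h1 h2 h3 h4 h => ?_⟩,
    ⟨y.p.2, fun p hp => ?_, fun p hp => ?_, fun p q h1 h2 h3 h4 h => ?_⟩, fun p hp => ?_,
    fun p hp => ?_, fun p hp => ?_, fun p hp => ?_, .inr ⟨hu, he, by rw [hE]⟩, fun s hs => ?_⟩
  · obtain ⟨mk, h⟩ := MComplete_left hp
    rw [Nat.zero_add, h]
  · obtain ⟨mk, h⟩ := MComplete_left hp
    rw [Nat.zero_add, h]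
    intro hb
    dsimp only at hb
    split_ifs at hb
    · have := MComplete_bit x' hp hb
      rwa [hx] at this
    · exact MComplete_bit x hp hb
  · simp only [Nat.zero_add, join, if_pos h2, if_pos h4] at h
    exact encG_inj h1 h2 h3 h4 h
  · obtain ⟨mk, h⟩ := MComplete_right p
    rw [h]
  · obtain ⟨mk, h⟩ := MComplete_right p
    rw [h]
    intro hb
    dsimp only at hb
    split_ifs at hb
    · have := MComplete_bit y' hp hb
      rwa [hy] at this
    · exact MComplete_bit y hp hb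
  · simp only [join, add_lt_iff_neg_left, Nat.not_lt_zero, if_false, Nat.add_sub_cancel_left] at h
    exact encG_inj h1 h2 h3 h4 h
  · obtain ⟨mk, h⟩ := MComplete_left hp
    rw [h]
    by_cases h' : p < tL <;> simp [h']
  · obtain ⟨mk, h⟩ := MComplete_right p
    rw [h]
    by_cases h' : p < t <;> simp [h']
  · obtain ⟨mk, h⟩ := MComplete_left hp
    rw [h]
  · obtain ⟨mk, h⟩ := MComplete_right p
    rw [h]
  · have hH := cfg_half (t := t) (u := u) (hp := hp) (m := m) (k := k) (sub := sub) hE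
      (hs.trans_le ht) (hs.trans_le htk) hsw heq
    obtain ⟨mk, h⟩ := MComplete_left ((hs.trans_le htk).trans (MComplete_endc _))
    obtain ⟨mk', h'⟩ := MComplete_right s
    rw [h] at hH
    rw [h, h', if_pos hs, if_pos hs]
    exact ⟨(hadr s hs).1, (hadr s hs).2, _, _, rfl, by simpa only [st_sb] using hH⟩

/-- the final configuration of a pass (`succ_iff`; on quarter `2` the address tracks vanish) -/
theorem cfg_final {kd : Kind} (he : e < nT) (hE : ent e = ⟨x.sg, y.sg, x.c, y.c, x'.c, y'.c, kd⟩)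
    (hx : x'.p = x.p) (hy : y'.p = y.p) (hxy : y.p.val = (x.p.val + 1) % Q (2 ^ b))
    (hsw : kd = Kind.swap → x'.id = y.id ∧ y'.id = x.id)
    (heq : kd = Kind.eq → x'.id = x.id ∧ y.id = x.id ∧ y'.id = x.id) :
    Inv2 b (cfg b x y x' y' e (endc b (some kd)) (endc b (some kd)) be
      (Q b + endc b (some kd) - 1) m (some kd) Sub.F) (join b (encG b) (encG b)) m := by
  have h1 := MComplete_endc (b := b) (some kd)
  have h2 := be_le_endc (b := b) kd
  have h3 := be_pos
  refine ⟨x.p, y.p, some kd, e, endc b (some kd), _, Sub.F, MComplete_marks (by omega), ?_,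
    by simp, rfl, by omega⟩
  rw [min_eq_left h2]
  exact cfg_tape he hE hx hy h3 le_rfl le_rfl hsw heq fun s _ =>
    ⟨congrArg (tag (2 ^ b)) hxy.symm, congrArg (cuF b · s) hxy.symm⟩

/-- Recipe: `exists_ent`, `cfg_final` in the mode `true`, `roll2`; the link at the head
(`eqv_plain`, `link_sound`), `roll2` in the mode `false`, `ltr_congr`, `ltr_cfg_false`. -/
theorem c_eqv (h : (sys (2 ^ b)).eqv x y x' y') :
    (sys b).Eqv (encZ b x ++ encZ b y) (encZ b x' ++ encZ b y') := by
  obtain ⟨hxy, hx, hy, h⟩ := h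
  obtain ⟨kd, hT, hkd, hsw, hL⟩ : ∃ kd, TabP ⟨x.sg, y.sg, x.c, y.c, x'.c, y'.c, kd⟩ ∧
      (kd = Kind.plain ∨ kd = Kind.swap) ∧ (kd = Kind.swap → x'.id = y.id ∧ y'.id = x.id) ∧
      ∀ p, endc b (some kd) ≤ p → bitE b x p = bitE b x' p ∧ bitE b y p = bitE b y' p := by
    rcases h with ⟨hT, h1, h2⟩ | ⟨hT, h1, h2⟩
    · exact ⟨_, hT, .inl rfl, nofun, fun p hp => ⟨MComplete_top ((be_le_endc _).trans hp) h1.symm,
        MComplete_top ((be_le_endc _).trans hp) h2.symm⟩⟩
    · exact ⟨_, hT, .inr rfl, fun _ => ⟨h1, h2⟩, fun p hp => by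
        simp only [MComplete_false _ ((be_le_endc _).trans hp) (.inr hp), and_self]⟩
  obtain ⟨e, he, hE⟩ := exists_ent hT
  have heq : kd = Kind.eq → x'.id = x.id ∧ y.id = x.id ∧ y'.id = x.id := by
    rcases hkd with rfl | rfl <;> nofun
  have r1 := roll2 (cfg_final (m := true) he hE hx hy hxy hsw heq)
  have r2 := roll2 (cfg_final (m := false) he hE hx hy hxy hsw heq)
  rw [ltr_cfg_true.1, ltr_cfg_true.2] at r1
  obtain ⟨a1, a2⟩ := ltr_cfg_false (e := e) (u := be) (hp := Q b + endc b (some kd) - 1) (m := false)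
    (k := some kd) (sub := Sub.F) hx hy (fun p hp => (hL p hp).1) (fun p hp => (hL p hp).2)
  rw [a1, a2] at r2
  have h1 := MComplete_endc (b := b) (some kd)
  have h2 := be_le_endc (b := b) kd
  have h3 := be_pos
  have hq : decide (Q b ≤ Q b + endc b (some kd) - 1) = true := decide_eq_true (by omega)
  refine r1.symm.trans (.trans ?_ r2)
  rw [MComplete_link hq]
  refine eqv_plain (by omega) (.inr (.inr ⟨kd, hkd, ?_, rfl, rfl⟩))
  rw [MComplete_mk, if_neg (lt_irrefl _), if_pos rfl, hq]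

/-- Recipe.  Wrong addresses: `s` the first column `< ell + 2 ^ b` where `succ_iff` fails, the
identity entry of kind `plain`, `cfg x y x y e s (s+1) (min be (s+1)) (Q+s) true (some plain)
(C (s < be) (bitE y s) (bitE y s) (code s) nt nx)` is valid and `Found` (`Sg.code_ge` for
`be ≤ s`).  Right addresses: `cfg_final` for the kinds `zero`, `eq` is `Found`.  Then
`zero_of_badC`, `roll2`, `ltr_cfg_true`. -/
theorem c_zer (h : (sys (2 ^ b)).zer x y) : (sys b).Zero (encZ b x ++ encZ b y) := by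
  have h3 := be_pos
  have key : ∀ (f : ℕ → Ce) (i : ℕ), Inv2 b f (join b (encG b) (encG b)) true → i + 1 < 2 * Q b →
      Found (f i) → ltr b f 0 true = x ∧ ltr b f (Q b) true = y →
      (sys b).Zero (encZ b x ++ encZ b y) := fun f i h1 h2 h3 h4 => by
    have r := roll2 h1
    rw [h4.1, h4.2] at r
    exact .of_eqv r.symm (zero_of_badC h2 (.inr (.inr (.inr h3))))
  by_cases hxy : y.p.val = (x.p.val + 1) % Q (2 ^ b)
  · obtain ⟨kd, hT, hkd, heq⟩ : ∃ kd, TabP ⟨x.sg, y.sg, x.c, y.c, x.c, y.c, kd⟩ ∧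
        (kd = Kind.eq ∨ kd = Kind.zero) ∧ (kd = Kind.eq → x.id = x.id ∧ y.id = x.id ∧ y.id = x.id) := by
      rcases h with h | hT | ⟨hT, h⟩
      · exact absurd hxy h
      · exact ⟨_, hT, .inr rfl, nofun⟩
      · exact ⟨_, hT, .inl rfl, fun _ => ⟨rfl, h.symm, h.symm⟩⟩
    obtain ⟨e, he, hE⟩ := exists_ent hT
    have h1 := MComplete_endc (b := b) (some kd)
    have h2 := be_le_endc (b := b) kd
    have hq : decide (Q b ≤ Q b + endc b (some kd) - 1) = true := decide_eq_true (by omega)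
    refine key _ (Q b + endc b (some kd) - 1) (cfg_final he hE rfl rfl hxy
      (by rcases hkd with rfl | rfl <;> nofun) heq) (by omega) (.inr ⟨true, ?_⟩) ltr_cfg_true
    rw [MComplete_mk, if_neg (lt_irrefl _), if_pos rfl, hq]
    rcases hkd with rfl | rfl
    · exact .inl rfl
    · exact .inr rfl
  · have hex : ∃ s, s < ell + 2 ^ b ∧
        ¬ ((st b x.p s).nt = (st b y.p s).tg ∧ (st b x.p s).nx = (st b y.p s).cu) := by
      by_contra hn
      exact hxy ((succ_iff y.p.2).2 fun p hp => by_contra fun h' => hn ⟨p, hp, h'⟩)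
    obtain ⟨hs, hbad⟩ := Nat.find_spec hex
    have hmin : ∀ s < Nat.find hex, (st b x.p s).nt = (st b y.p s).tg ∧
        (st b x.p s).nx = (st b y.p s).cu := fun s h =>
      by_contra fun h' => Nat.find_min hex h ⟨h.trans hs, h'⟩
    generalize Nat.find hex = s at hs hbad hmin
    obtain ⟨e, he, hE⟩ := exists_ent (E := ⟨x.sg, y.sg, x.c, y.c, x.c, y.c, Kind.plain⟩)
      (.inl ⟨rfl, rfl⟩)
    have h1 : ell + 2 ^ b < Q b := MComplete_endc (b := b) (some Kind.plain)
    have hq : decide (Q b ≤ Q b + s) = true := decide_eq_true (by omega)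
    obtain ⟨f, hf⟩ : ∃ f, f = cfg b x y x y e s (s + 1) (min be (s + 1)) (Q b + s) true
      (some Kind.plain) (Sub.C (decide (s < be)) (bitE b y s) (bitE b y s) ((sg (2 ^ b) y.p).code s)
        (st b x.p s).nt (st b x.p s).nx) := ⟨_, rfl⟩
    have hl : (f s).st = st b x.p s := by
      obtain ⟨mk, h⟩ := MComplete_left (hs.trans h1)
      rw [hf, h]
    have hr : (f (Q b + s)).st = st b y.p s ∧ (f (Q b + s)).dn = none := by
      obtain ⟨mk, h⟩ := MComplete_right s
      rw [hf, h]
      exact ⟨rfl, if_neg (lt_irrefl _)⟩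
    refine key f (Q b + s) ⟨x.p, y.p, some Kind.plain, e, s, Q b + s, Sub.C (decide (s < be))
      (bitE b y s) (bitE b y s) ((sg (2 ^ b) y.p).code s) (st b x.p s).nt (st b x.p s).nx,
      hf ▸ MComplete_marks (by omega), ?_, hs, by omega, le_rfl, rfl, fun h => ?_,
      fun h => Sg.code_ge _ (s0_le_be.trans h), by rw [hl], by rw [hl], _,
      hf ▸ cfg_half hE (Nat.lt_succ_self s) hs nofun nofun⟩ (by omega)
      (.inl ⟨true, _, _, _, _, _, _, _, by rw [hf, MComplete_mk, if_neg (lt_irrefl _), if_pos rfl, hq],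
        hr.2, by rwa [hr.1]⟩) (hf ▸ ltr_cfg_true)
    · exact hf ▸ cfg_tape he hE rfl rfl (by omega) (Nat.le_succ s) hs.le nofun nofun hmin
    · exact (base_lt he h.le).trans_le
        (((Nat.le_add_right _ _).trans h1.le).trans (Nat.le_add_right _ _))

end Crest.Agent.R176
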