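import Crest.Agent.R176.MSound
import Crest.Agent.R176.MComplete

/-! # R176: level `b` simulates level `2 ^ b` -/

noncomputable section

namespace Crest.Agent.R176

open Classical

variable {b : ℕ}

theorem two_le_Q (b : ℕ) : 2 ≤ Q b := by
  have : 0 < 2 ^ b := by positivity
  unfold Q; omega

theorem invalid_zone (w : List (Ltr b)) (hne : w ≠ [])
    (hc : w.IsChain (fun x y => ¬ (flL x ∧ frL y))) (hh : ∀ x ∈ w.head?, frL x)
    (hl : ∀ x ∈ w.getLast?, flL x) (hv : ¬ Valid b w) : (sys b).Zero w := by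
  by_contra hw
  rcases shape hw hne hc hh hl with ⟨f, g, hp, rfl, hm⟩ | ⟨f, g, hp, m, k, sub, rfl, hm⟩
  · rcases invalid1 (g := g) hm with h | h
    · exact hw h
    · exact hv (Or.inl ⟨f, g, rfl, h⟩)
  · rcases invalid2 (g := g) hm with h | ⟨m', h⟩
    · exact hw h
    · exact hv (Or.inr ⟨f, g, m', rfl, h⟩)

theorem roll_zone (z : List (Ltr b)) (h : Valid b z) :
    (sys b).Eqv z ((decZ b z).flatMap (encZ b)) := by
  rcases h with ⟨f, g, rfl, h⟩ | ⟨f, g, m, rfl, h⟩
  · rw [decZ_one]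
    simpa using roll1 h
  · obtain ⟨hp, k, sub, hm⟩ := h.marks
    rw [decZ_two hm]
    simpa using roll2 h

/-- **The simulation.** -/
def simul (b : ℕ) : Simul (sys b) (sys (2 ^ b)) (Q b) where
  fl := flL
  fr := frL
  valid := Valid b
  dec := decZ b
  enc := encZ b
  two_le := two_le_Q b
  short := short
  invalid := invalid_zone
  roll := roll_zone
  v_chain _ h := h.chain
  v_head _ h := h.head
  v_last _ h := h.last
  v_len _ h := h.len
  enc_valid a := Or.inl ⟨_, _, rfl, enc_inv1 a⟩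
  dec_enc a := by rw [encZ, decZ_one, ltr_encF]
  c_eqv _ _ _ _ h := c_eqv h
  c_zer _ _ h := c_zer h
  s_in := s_in
  s_bd := s_bd
  z_in := z_in
  z_bd := z_bd

end Crest.Agent.R176
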