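import Crest.Agent.R176.MIdA
import Crest.Agent.R176.MSimul

/-! # R176: labels — the lower level, and the structure `IdStr` -/

noncomputable section

namespace Crest.Agent.R176

open Classical

set_option linter.unusedSectionVars false

variable {b : ℕ}

section Aux

variable {f f' : ℕ → Ce} {g : ℕ → Fin (2 ^ b)}

theorem MId_setF_same (o : ℕ) (y : Fin (2 ^ 2 ^ b)) (i : ℕ) :
    (setF b f o y i).st = (f i).st ∧ (setF b f o y i).mk' = (f i).mk' ∧
      (setF b f o y i).dn = (f i).dn ∧ (setF b f o y i).ep = (f i).ep := by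
  unfold setF
  split_ifs <;> exact ⟨rfl, rfl, rfl, rfl⟩

theorem MId_setF_out {o : ℕ} (y : Fin (2 ^ 2 ^ b)) {i : ℕ} (h : ¬ (o ≤ i ∧ InQ2 b (i - o))) :
    setF b f o y i = f i := by
  unfold setF
  rw [if_neg h]

theorem MId_setF_dn {o : ℕ} (hd : ∀ j, InQ2 b j → (f (o + j)).dn = none) (y : Fin (2 ^ 2 ^ b))
    {i : ℕ} (h : (f i).dn ≠ none) : setF b f o y i = f i := by
  refine MId_setF_out y fun hi => h ?_
  have := hd _ hi.2
  rwa [Nat.add_sub_cancel' hi.1] at this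

theorem MId_InQ2_lt {j : ℕ} (h : InQ2 b j) : j < Q b := by
  have : 0 < 2 ^ b := by positivity
  have := h.2
  unfold Q
  omega

theorem MId_blk_same {o α : ℕ} {m : Bool} (h : Blk b f g o α) (hi : (ltr b f o m).item)
    (y : Fin (2 ^ 2 ^ b)) : Blk b (setF b f o y) g o α := by
  have h3 : tag (2 ^ b) α = 3 := by
    rw [← h.addr]
    exact hi
  refine ⟨h.lt, fun p hp => (MId_setF_same o y _).1.trans (h.st p hp), fun p hp => ?_, h.inj⟩
  by_cases hq : InQ2 b p
  · intro _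
    refine Or.inr ⟨tag_eq_two.2 hq, ?_⟩
    rw [(MId_setF_same o y _).1, h.st p hp]
    exact h3
  · rw [MId_setF_out y (by rw [Nat.add_sub_cancel_left]; exact fun k => hq k.2)]
    exact h.bit p hp

theorem MId_blk_other {o α : ℕ} (h : Blk b f g o α) (hf : ∀ p < Q b, f' (o + p) = f (o + p)) :
    Blk b f' g o α :=
  MBasic_blk h fun p hp => by rw [hf p hp]; exact ⟨rfl, rfl⟩

theorem MId_tape {αL αR e t tL u : ℕ} {k : Option Kind} (h : Tape b f g αL αR k e t tL u)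
    (h1 : ∀ i, (f' i).st = (f i).st ∧ (f' i).mk' = (f i).mk' ∧ (f' i).dn = (f i).dn ∧
      (f' i).ep = (f i).ep)
    (h2 : ∀ i, (f i).dn ≠ none → f' i = f i)
    (h3 : ∀ α, Blk b f g 0 α → Blk b f' g 0 α)
    (h4 : ∀ α, Blk b f g (Q b) α → Blk b f' g (Q b) α) : Tape b f' g αL αR k e t tL u := by
  refine ⟨h3 _ h.blkL, h4 _ h.blkR, fun p hp => ?_, fun p hp => ?_, fun p hp => ?_,
    fun p hp => ?_, h.hk, fun s hs => ?_⟩
  · rw [(h1 _).2.2.1]; exact h.dnL p hp
  · rw [(h1 _).2.2.1]; exact h.dnR p hp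
  · rw [(h1 _).2.2.2]; exact h.epL p hp
  · rw [(h1 _).2.2.2]; exact h.epR p hp
  · have hc := h.col s hs
    obtain ⟨-, -, xL, xR, a1, a2⟩ := id hc
    rw [h2 s (by rw [a2.dn]; simp), h2 (Q b + s) (by rw [a1]; simp)]
    exact hc

theorem MId_inv2 {m : Bool} (h : Inv2 b f g m)
    (h1 : ∀ i, (f' i).st = (f i).st ∧ (f' i).mk' = (f i).mk' ∧ (f' i).dn = (f i).dn ∧
      (f' i).ep = (f i).ep)
    (h2 : ∀ i, (f i).dn ≠ none → f' i = f i)
    (h3 : ∀ α, Blk b f g 0 α → Blk b f' g 0 α)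
    (h4 : ∀ α, Blk b f g (Q b) α → Blk b f' g (Q b) α) : Inv2 b f' g m := by
  obtain ⟨αL, αR, k, e, t, hp, sub, hM, hS⟩ := h
  refine ⟨αL, αR, k, e, t, hp, sub, ⟨hM.1, fun i hi => ?_⟩, ?_⟩
  · rw [(h1 i).2.1]; exact hM.2 i hi
  cases sub with
  | D => exact ⟨MId_tape hS.1 h1 h2 h3 h4, hS.2⟩
  | A => exact ⟨MId_tape hS.1 h1 h2 h3 h4, hS.2⟩
  | F => exact ⟨MId_tape hS.1 h1 h2 h3 h4, hS.2⟩
  | B x y s nt nx =>
    obtain ⟨a, a1, a2, a3, a4, a5, a6⟩ := hS
    have e1 : f' t = f t := h2 t (by rw [a5]; simp)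
    refine ⟨MId_tape a h1 h2 h3 h4, a1, a2, a3, a4, ?_⟩
    rw [e1]
    exact ⟨a5, a6⟩
  | C fl x y s nt nx =>
    obtain ⟨a, a1, a2, a3, a4, a5, a6, a7, a8, xL, a9⟩ := hS
    have e1 : f' t = f t := h2 t (by rw [a9.dn]; simp)
    refine ⟨MId_tape a h1 h2 h3 h4, a1, a2, a3, a4, a5, a6, ?_⟩
    rw [e1]
    exact ⟨a7, a8, xL, a9⟩

theorem MId_right (y : Fin (2 ^ 2 ^ b)) (p : ℕ) : setF b f 0 y (Q b + p) = f (Q b + p) :=
  MId_setF_out y fun h => by
    have := MId_InQ2_lt h.2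
    omega

theorem MId_left (y : Fin (2 ^ 2 ^ b)) {p : ℕ} (hp : p < Q b) : setF b f (Q b) y p = f p :=
  MId_setF_out y fun h => by omega

theorem MId_shift (y : Fin (2 ^ 2 ^ b)) :
    setF b (shiftQ b f) 0 y = shiftQ b (setF b f (Q b) y) := by
  funext j
  simp [setF, shiftQ]

/-- a valid zone of two blocks -/
theorem MId_two {B0 B1 : List (Ltr b)} {a0 a1 : Ltr (2 ^ b)} (h0 : B0.length = Q b)
    (h1 : B1.length = Q b) (hv : Valid b (B0 ++ B1)) (hd : decZ b (B0 ++ B1) = [a0, a1]) :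
    ∃ f g m, Inv2 b f g m ∧ B0 = word b 1 f g ∧ B1 = word b 1 (shiftQ b f) (shiftQ b g) ∧
      a0 = ltr b f 0 m ∧ a1 = ltr b f (Q b) m := by
  have hQ := Q_pos b
  rcases hv with ⟨f, g, e, -⟩ | ⟨f, g, m, e, h⟩
  · have := congrArg List.length e
    rw [List.length_append, length_word] at this
    omega
  · obtain ⟨hp, k, sub, hM⟩ := h.marks
    rw [e, decZ_two hM] at hd
    rw [word_two] at e
    obtain ⟨e0, e1⟩ := List.append_inj e (by rw [h0, length_word, one_mul])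
    simp only [List.cons.injEq, and_true] at hd
    exact ⟨f, g, m, h, e0, e1, hd.1.symm, hd.2.symm⟩

end Aux

/-- Recipe: `B = word 1 f g` (`Valid.len`, or `decZ_two` has length two); `setZ_word`, `setF_self`,
`setZ_seg` (`st_top`), `ltr_setF`; `BitOK` by `Blk.addr`. -/
theorem id_one (B : List (Ltr b)) (a : Ltr (2 ^ b)) (hv : Valid b B) (hd : decZ b B = [a]) :
    fbZ B ∧ (a.item → setZ B a.id = B ∧ (∃ u v ρ, ∀ y, setZ B y = u ++ segZ ρ y ++ v) ∧
      ∀ y, Valid b (setZ B y) ∧ decZ b (setZ B y) = [a.setId y]) := by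
  rcases hv with ⟨f, g, rfl, α, hp, hB, hM, hD⟩ | ⟨f, g, m, rfl, h⟩
  · rw [decZ_one] at hd
    obtain rfl : ltr b f 0 true = a := by simpa using hd
    have hd0 : ∀ j, InQ2 b j → (f j).dn = none := fun j hj => (hD j (MId_InQ2_lt hj)).1
    have hd1 : ∀ j, InQ2 b j → (f (0 + j)).dn = none := fun j hj => by
      rw [Nat.zero_add]; exact hd0 j hj
    refine ⟨fbZ_word.2 hd0, fun hi => ⟨?_, ?_, fun y => ⟨?_, ?_⟩⟩⟩
    · rw [setZ_word, funext (setF_self hi hd1)]
    · refine setZ_seg hp (Mk.r false) (Mk.l true) (fun i j hi hj => ⟨?_, ?_, ?_⟩)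
        (fun i hi h => ?_) (fun i hi h => ?_)
      · have e1 := hB.st i (MId_InQ2_lt hi)
        have e2 := hB.st j (MId_InQ2_lt hj)
        rw [Nat.zero_add] at e1 e2
        rw [e1, e2]
        exact st_top hi.1 hj.1
      · rw [hd0 i hi, hd0 j hj]
      · rw [(hD i (MId_InQ2_lt hi)).2, (hD j (MId_InQ2_lt hj)).2]
      · rw [hM.2 i (MId_InQ2_lt hi), if_pos h]
      · rw [hM.2 i (MId_InQ2_lt hi), if_neg (by omega), if_neg (by omega)]
    · rw [setZ_word]
      refine Or.inl ⟨_, _, rfl, α, hp, MId_blk_same hB hi y, ⟨hM.1, fun i hi => ?_⟩,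
        fun p hp => ?_⟩
      · rw [(MId_setF_same 0 y i).2.1]; exact hM.2 i hi
      · rw [(MId_setF_same 0 y p).2.2.1, (MId_setF_same 0 y p).2.2.2]; exact hD p hp
    · rw [setZ_word, decZ_one, ltr_setF hd1]
  · obtain ⟨hp, k, sub, hM⟩ := h.marks
    rw [decZ_two hM] at hd
    simp at hd

/-- changing the bits of an untouched quarter `2` of the left block (`dnL` gives
`tL ≤ ell + 2 ^ b`, so no verified column is changed) -/
theorem Inv2.setL {f : ℕ → Ce} {g : ℕ → Fin (2 ^ b)} {m : Bool} (h : Inv2 b f g m)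
    (hi : (ltr b f 0 m).item) (hd : ∀ j, InQ2 b j → (f j).dn = none) (y : Fin (2 ^ 2 ^ b)) :
    Inv2 b (setF b f 0 y) g m := by
  refine MId_inv2 h (MId_setF_same 0 y)
    (fun i => MId_setF_dn (fun j hj => by rw [Nat.zero_add]; exact hd j hj) y)
    (fun α hB => MId_blk_same hB hi y) (fun α hB => MId_blk_other hB fun p _ => MId_right y p)

theorem Inv2.setR {f : ℕ → Ce} {g : ℕ → Fin (2 ^ b)} {m : Bool} (h : Inv2 b f g m)
    (hi : (ltr b f (Q b) m).item) (hd : ∀ j, InQ2 b j → (f (Q b + j)).dn = none)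
    (y : Fin (2 ^ 2 ^ b)) : Inv2 b (setF b f (Q b) y) g m := by
  refine MId_inv2 h (MId_setF_same (Q b) y) (fun i => MId_setF_dn hd y)
    (fun α hB => MId_blk_other hB fun p hp => ?_) (fun α hB => MId_blk_same hB hi y)
  rw [Nat.zero_add]
  exact MId_left y hp

/-- Recipe: `B0 ++ B1 = word 2 f g`, `B0 = word 1 f g`, `B1 = word 1 (shiftQ f) (shiftQ g)`
(`word_two`); on quarter `2` of the left block `ep = 0` (`base_lt`, `SubOK.tape`). -/
theorem id_twoL (B0 B1 : List (Ltr b)) (a0 a1 : Ltr (2 ^ b)) (h0 : B0.length = Q b)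
    (h1 : B1.length = Q b) (hv : Valid b (B0 ++ B1)) (hd : decZ b (B0 ++ B1) = [a0, a1])
    (hi : a0.item) (hf : fbZ B0) :
    setZ B0 a0.id = B0 ∧ (∃ u v ρ, ∀ y, setZ B0 y = u ++ segZ ρ y ++ v) ∧
      ∀ y, Valid b (setZ B0 y ++ B1) ∧ decZ b (setZ B0 y ++ B1) = [a0.setId y, a1] := by
  obtain ⟨f, g, m, h, rfl, rfl, rfl, rfl⟩ := MId_two h0 h1 hv hd
  have hd0 : ∀ j, InQ2 b j → (f j).dn = none := fbZ_word.1 hf
  have hd1 : ∀ j, InQ2 b j → (f (0 + j)).dn = none := fun j hj => by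
    rw [Nat.zero_add]; exact hd0 j hj
  refine ⟨?_, ?_, fun y => ?_⟩
  · rw [setZ_word, funext (setF_self hi hd1)]
  · obtain ⟨αL, αR, k, e, t, hp, sub, hM, hS⟩ := h
    obtain ⟨tL, u, hT, -, -, hu, -⟩ := hS.tape
    have hep : ∀ i, InQ2 b i → (f i).ep = 0 := fun i hi => by
      rw [hT.epL i (MId_InQ2_lt hi), epv]
      rcases hT.hk with ⟨h0, -⟩ | ⟨h0, he, -⟩
      · rw [if_pos h0]
      · have := base_lt he hu
        have h2 : 0 < 2 ^ b := by positivity
        have := hi.1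
        rw [if_neg (by omega), if_neg (by omega), if_neg (by omega)]
    refine setZ_seg hp (Mk.r false) (Mk.l false) (fun i j hi hj => ⟨?_, ?_, ?_⟩)
      (fun i hi h => ?_) (fun i hi h => ?_)
    · have e1 := hT.blkL.st i (MId_InQ2_lt hi)
      have e2 := hT.blkL.st j (MId_InQ2_lt hj)
      rw [Nat.zero_add] at e1 e2
      rw [e1, e2]
      exact st_top hi.1 hj.1
    · rw [hd0 i hi, hd0 j hj]
    · rw [hep i hi, hep j hj]
    · have := MId_InQ2_lt hi
      rw [hM.2 i (by omega), if_pos h, decide_eq_false (by omega)]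
    · have := MId_InQ2_lt hi
      rw [hM.2 i (by omega), if_neg (by omega), if_neg (by omega), decide_eq_false (by omega)]
  · have e1 : setZ (word b 1 f g) y ++ word b 1 (shiftQ b f) (shiftQ b g) =
        word b 2 (setF b f 0 y) g := by
      rw [setZ_word, word_two]
      congr 2
      funext j
      exact (MId_right y j).symm
    have h' := h.setL hi hd0 y
    obtain ⟨hp, k, sub, hM⟩ := h'.marks
    rw [e1]
    refine ⟨Or.inr ⟨_, _, m, rfl, h'⟩, ?_⟩
    rw [decZ_two hM, ltr_setF hd1]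
    congr 2
    exact ltr_congr fun p _ => by rw [MId_right]; exact ⟨rfl, rfl⟩

theorem id_twoR (B0 B1 : List (Ltr b)) (a0 a1 : Ltr (2 ^ b)) (h0 : B0.length = Q b)
    (h1 : B1.length = Q b) (hv : Valid b (B0 ++ B1)) (hd : decZ b (B0 ++ B1) = [a0, a1])
    (hi : a1.item) (hf : fbZ B1) :
    setZ B1 a1.id = B1 ∧ (∃ u v ρ, ∀ y, setZ B1 y = u ++ segZ ρ y ++ v) ∧
      ∀ y, Valid b (B0 ++ setZ B1 y) ∧ decZ b (B0 ++ setZ B1 y) = [a0, a1.setId y] := by
  obtain ⟨f, g, m, h, rfl, rfl, rfl, rfl⟩ := MId_two h0 h1 hv hd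
  have hd0 : ∀ j, InQ2 b j → (f (Q b + j)).dn = none := fbZ_word.1 hf
  refine ⟨?_, ?_, fun y => ?_⟩
  · rw [setZ_word, MId_shift, funext (setF_self hi hd0)]
  · obtain ⟨αL, αR, k, e, t, hp, sub, hM, hS⟩ := h
    obtain ⟨tL, u, hT, -, -, hu, -⟩ := hS.tape
    refine setZ_seg (hp - Q b) (Mk.r true) (Mk.l true) (fun i j hi hj => ⟨?_, ?_, ?_⟩)
      (fun i hi h => ?_) (fun i hi h => ?_)
    · simp only [shiftQ]
      rw [hT.blkR.st i (MId_InQ2_lt hi), hT.blkR.st j (MId_InQ2_lt hj)]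
      exact st_top hi.1 hj.1
    · simp only [shiftQ]
      rw [hd0 i hi, hd0 j hj]
    · simp only [shiftQ]
      rw [hT.epR i (MId_InQ2_lt hi), hT.epR j (MId_InQ2_lt hj)]
    · have := MId_InQ2_lt hi
      simp only [shiftQ]
      rw [hM.2 _ (by omega), if_pos (by omega), decide_eq_true (by omega)]
    · have := MId_InQ2_lt hi
      simp only [shiftQ]
      rw [hM.2 _ (by omega), if_neg (by omega), if_neg (by omega), decide_eq_true (by omega)]
  · have e1 : word b 1 f g ++ setZ (word b 1 (shiftQ b f) (shiftQ b g)) y =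
        word b 2 (setF b f (Q b) y) g := by
      rw [setZ_word, word_two, MId_shift]
      congr 1
      exact word_congr (fun i hi => (MId_left y (by omega)).symm) fun _ _ _ => rfl
    have h' := h.setR hi hd0 y
    obtain ⟨hp, k, sub, hM⟩ := h'.marks
    rw [e1]
    refine ⟨Or.inr ⟨_, _, m, rfl, h'⟩, ?_⟩
    rw [decZ_two hM, ltr_setF hd0]
    congr 1
    exact ltr_congr fun p hp => by rw [Nat.zero_add, MId_left y hp]; exact ⟨rfl, rfl⟩

/-- if quarter `2` is touched then `endc k > ell + 2 ^ b`, so the kind is `swap` or `eq`;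
`Tape.tag_three` -/
theorem id_act (B0 B1 : List (Ltr b)) (a0 a1 : Ltr (2 ^ b)) (h0 : B0.length = Q b)
    (h1 : B1.length = Q b) (hv : Valid b (B0 ++ B1)) (hd : decZ b (B0 ++ B1) = [a0, a1])
    (hf : ¬ fbZ B0 ∨ ¬ fbZ B1) : a0.hd := by
  obtain ⟨f, g, m, ⟨αL, αR, k, e, t, hp, sub, hM, hS⟩, rfl, rfl, rfl, rfl⟩ := MId_two h0 h1 hv hd
  have h2 : 0 < 2 ^ b := by positivity
  have hbe := be_lt_ell
  -- a touched cell of quarter `2`
  have key : ∀ tL u, Tape b f g αL αR k e t tL u → t ≤ tL → ell + 2 ^ b < tL := by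
    intro tL u hT htL
    rw [fbZ_word, fbZ_word] at hf
    rcases hf with hf | hf
    · push Not at hf
      obtain ⟨j, hj, hn⟩ := hf
      have := (hT.dnL j (MId_InQ2_lt hj)).1 hn
      have := hj.1
      omega
    · push Not at hf
      obtain ⟨j, hj, hn⟩ := hf
      have := (hT.dnR j (MId_InQ2_lt hj)).1 hn
      have := hj.1
      omega
  have fin : ∀ tL u, Tape b f g αL αR k e t tL u → be ≤ t → ell + 2 ^ b < endc b k →
      (ltr b f 0 m).hd := by
    intro tL u hT ht hk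
    have hk' : k = some Kind.swap ∨ k = some Kind.eq := by
      rcases k with _ | _ | _ | _ | _ <;> simp only [endc] at hk <;>
        first | omega | simp
    have hu : 0 < u := by
      rcases hT.hk with ⟨-, h0⟩ | ⟨h0, -⟩
      · rw [h0] at hk'
        simp at hk'
      · exact h0
    obtain ⟨s, e1, e2⟩ := (hT.tag_three ht hu hk').2.2 m
    exact ⟨s, e1, Or.inl e2⟩
  cases sub with
  | D =>
    have := key _ _ hS.1 le_rfl
    have := hS.2.1
    exact fin _ _ hS.1 (by omega) (by omega)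
  | A =>
    have := key _ _ hS.1 le_rfl
    have := hS.2.1
    exact fin _ _ hS.1 (by omega) (by omega)
  | F =>
    have := key _ _ hS.1 le_rfl
    have := hS.2.2.1
    exact fin _ _ hS.1 (by omega) (by omega)
  | B x y s nt nx =>
    have := key _ _ hS.1 (Nat.le_succ _)
    have := hS.2.1
    omega
  | C fl x y s nt nx =>
    have := key _ _ hS.1 (Nat.le_succ _)
    have := hS.2.1
    exact fin _ _ hS.1 (by omega) (by omega)

/-- **The label structure.** -/
def idStr (b : ℕ) : IdStr (simul b) (simul (2 ^ b)) (2 ^ 2 ^ b) (Pat b) where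
  item := Ltr.item
  hd := Ltr.hd
  getId := Ltr.id
  setId := Ltr.setId
  o := ell + 2 * 2 ^ 2 ^ b
  fb := fbZ
  setB := setZ
  seg := segZ
  o_pos := by
    have : 0 < 2 ^ 2 ^ b := by positivity
    omega
  o_le := by unfold Q; omega
  item_set _ _ h := h
  get_set _ y h := Ltr.get_set y h
  set_set := Ltr.set_set
  set_get := Ltr.set_get
  v_item _ h := h.item
  v_inj _ h := h.id_inj
  v_hd _ h := h.hd_unique
  v_perm _ h := h.perm
  fb_set := fbZ_set
  setB_set := setZ_set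
  len_set := length_setZ
  one := id_one
  twoL := id_twoL
  twoR := id_twoR
  act := id_act

end Crest.Agent.R176
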