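import Crest.Agent.R176.MIdU

/-! # R176: labels — the upper level -/

noncomputable section

namespace Crest.Agent.R176

open Classical

set_option linter.unusedSectionVars false

variable {b : ℕ}

/-! ### the lower level: definitions and generalities -/

/-- the position lies in quarter `2` -/
def InQ2 (b j : ℕ) : Prop := ell + 2 ^ b ≤ j ∧ j < ell + 2 * 2 ^ b

/-- quarter `2` of the block is untouched -/
def fbZ (B : List (Ltr b)) : Prop := ∀ j, InQ2 b j → (fz B j).dn = none

/-- write the label `y` in quarter `2` -/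
def setZ (B : List (Ltr b)) (y : Fin (2 ^ 2 ^ b)) : List (Ltr b) :=
  B.mapIdx fun j a => if InQ2 b j then
    ⟨a.p, encC { fz B j with bit := y.val.testBit (j - (ell + 2 ^ b)) }, a.id, a.h⟩ else a

/-- the same on control words, for the block at offset `o` -/
def setF (b : ℕ) (f : ℕ → Ce) (o : ℕ) (y : Fin (2 ^ 2 ^ b)) : ℕ → Ce := fun i =>
  if o ≤ i ∧ InQ2 b (i - o) then { f i with bit := y.val.testBit (i - o - (ell + 2 ^ b)) } else f i

/-- shapes of quarter `2` -/
abbrev Pat (b : ℕ) := Ce × Fin (2 ^ b + 1) × Ce × Ce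

def segZ (ρ : Pat b) (y : Fin (2 ^ 2 ^ b)) : List (Ltr b) :=
  (List.range (2 ^ b)).map fun j => mkL b (ell + 2 ^ b + j)
    { (if j < ρ.2.1.val then ρ.1 else if j = ρ.2.1.val then ρ.2.2.1 else ρ.2.2.2) with
      bit := y.val.testBit j } ⟨0, by positivity⟩

theorem MIdA_fz_setZ (B : List (Ltr b)) (y : Fin (2 ^ 2 ^ b)) (j : ℕ) :
    fz (setZ B y) j = if InQ2 b j ∧ j < B.length then
      { fz B j with bit := y.val.testBit (j - (ell + 2 ^ b)) } else fz B j := by
  by_cases hj : j < B.length
  · by_cases hq : InQ2 b j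
    · rw [if_pos ⟨hq, hj⟩]
      conv_lhs => rw [fz, setZ, List.getElem?_mapIdx, List.getElem?_eq_getElem hj]
      simp only [Option.map_some, if_pos hq, Option.bind_some, decC_encC, Option.getD_some]
    · rw [if_neg fun h => hq h.1, fz, fz, setZ, List.getElem?_mapIdx, List.getElem?_eq_getElem hj]
      simp only [Option.map_some, if_neg hq]
  · rw [if_neg fun h => hj h.2, fz, fz, setZ, List.getElem?_mapIdx,
      List.getElem?_eq_none (not_lt.1 hj)]
    rfl

theorem MIdA_ce_eq {s t : Ce} (β : Bool) (h1 : s.mk' = t.mk') (h2 : s.st = t.st)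
    (h3 : s.dn = t.dn) (h4 : s.ep = t.ep) : { s with bit := β } = { t with bit := β } := by
  rw [h1, h2, h3, h4]

theorem MIdA_root {m : Bool} {c : Ce} (h : c.dn = none) : root m c = c.bit := by
  unfold root
  rw [h]
  split_ifs <;> rfl

theorem MIdA_lt {j : ℕ} (h : InQ2 b j) : j < 1 * Q b := by
  have := h.2
  unfold Q
  omega

theorem fbZ_set (B : List (Ltr b)) (y : Fin (2 ^ 2 ^ b)) : fbZ (setZ B y) ↔ fbZ B := by
  refine forall₂_congr fun j _ => ?_
  rw [MIdA_fz_setZ]
  split_ifs <;> rfl

theorem setZ_set (B : List (Ltr b)) (y y' : Fin (2 ^ 2 ^ b)) : setZ (setZ B y) y' = setZ B y' := by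
  refine List.ext_getElem (by simp [setZ]) fun j h1 h2 => ?_
  have hj : j < B.length := by simpa [setZ] using h2
  have e := MIdA_fz_setZ B y j
  by_cases hq : InQ2 b j
  · rw [if_pos ⟨hq, hj⟩] at e
    simp only [setZ, List.getElem_mapIdx, if_pos hq] at e ⊢
    rw [e]
  · simp only [setZ, List.getElem_mapIdx, if_neg hq]

theorem length_setZ (B : List (Ltr b)) (y : Fin (2 ^ 2 ^ b)) : (setZ B y).length = B.length := by
  simp [setZ]

variable {f : ℕ → Ce} {g : ℕ → Fin (2 ^ b)}

theorem setZ_word (y : Fin (2 ^ 2 ^ b)) : setZ (word b 1 f g) y = word b 1 (setF b f 0 y) g := by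
  refine List.ext_getElem (by simp [setZ]) fun j h1 h2 => ?_
  have hj : j < 1 * Q b := by simpa using h2
  rw [getElem_word]
  simp only [setZ, List.getElem_mapIdx, getElem_word, fz_word hj, setF, Nat.zero_le, true_and,
    Nat.sub_zero]
  split_ifs <;> rfl

theorem fbZ_word : fbZ (word b 1 f g) ↔ ∀ j, InQ2 b j → (f j).dn = none := by
  refine forall₂_congr fun j hj => ?_
  rw [fz_word (MIdA_lt hj)]

/-- if on quarter `2` the cells agree up to the bit and the mark, and the marks are `c1` before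
`hp` and `c3` after `hp`, the quarter has one of the shapes `Pat` -/
theorem setZ_seg (hp : ℕ) (c1 c3 : Mk)
    (h : ∀ i j, InQ2 b i → InQ2 b j → (f i).st = (f j).st ∧ (f i).dn = (f j).dn ∧
      (f i).ep = (f j).ep)
    (h1 : ∀ i, InQ2 b i → i < hp → (f i).mk' = c1) (h3 : ∀ i, InQ2 b i → hp < i → (f i).mk' = c3) :
    ∃ u v ρ, ∀ y, setZ (word b 1 f g) y = u ++ segZ ρ y ++ v := by
  have h0 : 0 < 2 ^ b := by positivity
  have hq0 : InQ2 b (ell + 2 ^ b) := ⟨le_rfl, by omega⟩
  refine ⟨(List.range (ell + 2 ^ b)).map (fun i => mkL b i (f i) (g i)),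
    ((List.range (2 ^ b)).map (fun i => ell + 2 ^ b + 2 ^ b + i)).map
      (fun i => mkL b i (f i) (g i)),
    ({ f (ell + 2 ^ b) with mk' := c1 }, ⟨min (hp - (ell + 2 ^ b)) (2 ^ b), by omega⟩,
      f (ell + 2 ^ b + min (hp - (ell + 2 ^ b)) (2 ^ b)), { f (ell + 2 ^ b) with mk' := c3 }),
    fun y => ?_⟩
  have hQ : 1 * Q b = ell + 2 ^ b + 2 ^ b + 2 ^ b := by unfold Q; omega
  rw [setZ_word, word, hQ, List.range_add, List.range_add, List.map_append, List.map_append]
  congr 1
  · congr 1
    · refine List.map_congr_left fun i hi => ?_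
      rw [List.mem_range] at hi
      rw [setF, if_neg fun h => absurd h.2.1 (by omega)]
    · rw [segZ, List.map_map]
      refine List.map_congr_left fun j hj => ?_
      rw [List.mem_range] at hj
      have hq : InQ2 b (ell + 2 ^ b + j) := ⟨by omega, by omega⟩
      have hlt := MIdA_lt hq
      obtain ⟨a1, a2, a3⟩ := h _ _ hq hq0
      have e : setF b f 0 y (ell + 2 ^ b + j) =
          { f (ell + 2 ^ b + j) with bit := y.val.testBit j } := by
        rw [setF, if_pos ⟨Nat.zero_le _, hq⟩, Nat.sub_zero, Nat.add_sub_cancel_left]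
      rw [Function.comp_apply, e]
      refine (MBasicB_mkL_congr rfl _ (y' := ⟨0, h0⟩) fun h3 => ?_).trans ?_
      · rw [Nat.mod_eq_of_lt (by omega), tag_eq_three] at h3
        omega
      · congr 1
        dsimp only
        split_ifs with b1 b2
        · exact MIdA_ce_eq (t := { f (ell + 2 ^ b) with mk' := c1 }) _ (h1 _ hq (by omega)) a1 a2 a3
        · rw [← b2]
        · exact MIdA_ce_eq (t := { f (ell + 2 ^ b) with mk' := c3 }) _ (h3 _ hq (by omega)) a1 a2 a3
  · refine List.map_congr_left fun i hi => ?_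
    obtain ⟨j, -, rfl⟩ := List.mem_map.1 hi
    rw [setF, if_neg fun h => absurd h.2.2 (by omega)]

/-- the label read in an untouched quarter `2` -/
theorem setF_self {o : ℕ} {m : Bool} (hi : (ltr b f o m).item)
    (hd : ∀ j, InQ2 b j → (f (o + j)).dn = none) :
    ∀ i, setF b f o (ltr b f o m).id i = f i := by
  intro i
  unfold setF
  split_ifs with h
  · obtain ⟨h1, h2, h3⟩ := h
    have e : (ltr b f o m).id.val =
        Nat.ofBits (fun j : Fin (2 ^ b) => root m (f (o + (ell + 2 ^ b + j)))) :=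
      congrArg Fin.val (if_pos hi)
    have e2 : o + (ell + 2 ^ b + (i - o - (ell + 2 ^ b))) = i := by omega
    have e3 := hd (i - o) ⟨h2, h3⟩
    rw [Nat.add_sub_cancel' h1] at e3
    rw [e, Nat.testBit_ofBits_lt _ _ (by omega)]
    simp only [e2]
    rw [MIdA_root e3]
  · rfl

theorem ltr_setF {o : ℕ} {m : Bool} (hd : ∀ j, InQ2 b j → (f (o + j)).dn = none)
    (y : Fin (2 ^ 2 ^ b)) : ltr b (setF b f o y) o m = (ltr b f o m).setId y := by
  have h1 : addr b (setF b f o y) o = addr b f o := MBasic_addr fun p _ => by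
    unfold setF
    split_ifs <;> rfl
  have h2 : (fun j : Fin (2 ^ b) => root m (setF b f o y (o + (ell + 2 ^ b + j)))) =
      fun j : Fin (2 ^ b) => y.val.testBit j := by
    funext j
    have hq : InQ2 b (ell + 2 ^ b + j) := ⟨by omega, by have := j.2; omega⟩
    rw [setF, if_pos ⟨Nat.le_add_right _ _, by rw [Nat.add_sub_cancel_left]; exact hq⟩,
      MIdA_root (by exact hd _ hq), Nat.add_sub_cancel_left, Nat.add_sub_cancel_left]
  refine Ltr.ext h1 (funext fun i => ?_) ?_
  · show root m (setF b f o y (o + i)) = root m (f (o + i))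
    have := i.2
    have := be_lt_ell
    rw [setF, if_neg fun h => absurd h.2.1 (by
      rw [Nat.add_sub_cancel_left]
      exact not_le.2 (Nat.lt_add_right _ (by omega)))]
  · simp only [ltr, Ltr.setId, h1, h2]
    split_ifs
    · exact Fin.ext ((Nat.ofBits_testBit _ _).trans (Nat.mod_eq_of_lt y.2))
    · rfl

end Crest.Agent.R176
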