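import Crest.Agent.R176.MShapeA

/-! # R176: the shape of the pieces between free boundaries -/

noncomputable section

namespace Crest.Agent.R176

open Classical

set_option linter.unusedSectionVars false

variable {b : ℕ}

theorem MShape_flL {i : ℕ} {s : Ce} {y : Fin (2 ^ b)} :
    flL (mkL b i s y) ↔ i % Q b + 1 = Q b ∧ flM s.mk' := by
  rw [flL, mkL_sg, sgz, sg_last (Nat.mod_lt _ (Q_pos b))]
  refine and_congr_right fun _ => ⟨?_, fun h => ⟨s, rfl, h⟩⟩
  rintro ⟨s', e, h⟩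
  obtain rfl := encC_injective e
  exact h

theorem MShape_frL {i : ℕ} {s : Ce} {y : Fin (2 ^ b)} :
    frL (mkL b i s y) ↔ i % Q b = 0 ∧ frM s.mk' := by
  rw [frL, mkL_sg, sgz, sg_first]
  refine and_congr_right fun _ => ⟨?_, fun h => ⟨s, rfl, h⟩⟩
  rintro ⟨s', e, h⟩
  obtain rfl := encC_injective e
  exact h

theorem MShape_head {T : ℕ} (hT : 0 < T) (f : ℕ → Ce) (g : ℕ → Fin (2 ^ b)) :
    (word b T f g).head? = some (mkL b 0 (f 0) (g 0)) := by
  have : 0 < T * Q b := Nat.mul_pos hT (Q_pos b)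
  rw [List.head?_eq_getElem?, List.getElem?_eq_getElem (by simpa using this), getElem_word]

theorem MShape_last {T : ℕ} (hT : 0 < T) (f : ℕ → Ce) (g : ℕ → Fin (2 ^ b)) :
    (word b T f g).getLast? =
      some (mkL b (T * Q b - 1) (f (T * Q b - 1)) (g (T * Q b - 1))) := by
  have : 0 < T * Q b := Nat.mul_pos hT (Q_pos b)
  rw [List.getLast?_eq_getElem?, length_word,
    List.getElem?_eq_getElem (by rw [length_word]; omega), getElem_word]

theorem MShape_mod1 : (Q b - 1) % Q b = Q b - 1 :=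
  Nat.mod_eq_of_lt (by have := Q_pos b; omega)

theorem MShape_mod2 : (2 * Q b - 1) % Q b = Q b - 1 := by
  have := Q_pos b
  rw [show 2 * Q b - 1 = Q b + (Q b - 1) by omega, Nat.add_mod_left, MShape_mod1]

theorem MShape_m1_first {f : ℕ → Ce} {hp : ℕ} (h : Marks1 b f hp) :
    (f 0).mk' = Mk.r false ∨ (f 0).mk' = Mk.idle := by
  rw [h.2 0 (Q_pos b)]
  split_ifs with h1 h2
  · exact Or.inl rfl
  · exact Or.inr rfl
  · omega

theorem MShape_m1_last {f : ℕ → Ce} {hp : ℕ} (h : Marks1 b f hp) :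
    (f (Q b - 1)).mk' = Mk.l true ∨ (f (Q b - 1)).mk' = Mk.idle := by
  have h0 := h.1
  rw [h.2 (Q b - 1) (by omega)]
  split_ifs with h1 h2
  · omega
  · exact Or.inr rfl
  · exact Or.inl rfl

theorem MShape_m2_first {f : ℕ → Ce} {hp : ℕ} {m : Bool} {k : Option Kind} {sub : Sub}
    (h : Marks2 b f hp m k sub) :
    (f 0).mk' = Mk.r false ∨ (f 0).mk' = Mk.run false m k sub := by
  have h0 := Q_pos b
  rw [h.2 0 (by omega), decide_eq_false (show ¬ Q b ≤ 0 by omega)]
  split_ifs with h1 h2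
  · exact Or.inl rfl
  · exact Or.inr rfl
  · omega

theorem MShape_m2_last {f : ℕ → Ce} {g : ℕ → Fin (2 ^ b)} {m : Bool} (h : Inv2 b f g m) :
    (f (2 * Q b - 1)).mk' = Mk.l true := by
  obtain ⟨αL, αR, k, e, t, hp, sub, h1, h2⟩ := h
  obtain ⟨-, -, -, -, -, -, h3⟩ := h2.tape
  rw [h1.2 _ (by omega), if_neg (by omega), if_neg (by omega),
    decide_eq_true (show Q b ≤ 2 * Q b - 1 by omega)]

theorem Valid.chain {z : List (Ltr b)} (h : Valid b z) :
    z.IsChain (fun x y => ¬ (flL x ∧ frL y)) := by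
  have hQ := Q_pos b
  rw [List.isChain_iff_getElem]
  rcases h with ⟨f, g, rfl, -⟩ | ⟨f, g, m, rfl, h⟩
  · rintro i hi ⟨h1, -⟩
    rw [getElem_word, MShape_flL] at h1
    rw [length_word] at hi
    rw [Nat.mod_eq_of_lt (by omega)] at h1
    omega
  · rintro i hi ⟨h1, -⟩
    rw [getElem_word, MShape_flL] at h1
    rw [length_word] at hi
    obtain ⟨hp, k, sub, h⟩ := h.marks
    have hi' : i < Q b := by
      by_contra hc
      have e : i % Q b = i - Q b := by
        rw [Nat.mod_eq_sub_mod (not_lt.1 hc), Nat.mod_eq_of_lt (by omega)]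
      omega
    have h2 := h1.2
    rw [h.2 i (by omega), decide_eq_false (show ¬ Q b ≤ i by omega)] at h2
    split_ifs at h2 <;> simp [flM] at h2

theorem Valid.head {z : List (Ltr b)} (h : Valid b z) : ∀ x ∈ z.head?, frL x := by
  intro x hx
  rcases h with ⟨f, g, rfl, α, hp, -, h, -⟩ | ⟨f, g, m, rfl, h⟩
  · rw [MShape_head one_pos, Option.mem_some_iff] at hx
    subst hx
    refine MShape_frL.2 ⟨Nat.zero_mod _, ?_⟩
    rcases MShape_m1_first h with h | h
    · exact Or.inl h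
    · exact Or.inr (Or.inl h)
  · rw [MShape_head two_pos, Option.mem_some_iff] at hx
    subst hx
    obtain ⟨hp, k, sub, h⟩ := h.marks
    refine MShape_frL.2 ⟨Nat.zero_mod _, ?_⟩
    rcases MShape_m2_first h with h | h
    · exact Or.inl h
    · exact Or.inr (Or.inr ⟨_, _, _, h⟩)

theorem Valid.last {z : List (Ltr b)} (h : Valid b z) : ∀ x ∈ z.getLast?, flL x := by
  intro x hx
  have hQ := Q_pos b
  rcases h with ⟨f, g, rfl, α, hp, -, h, -⟩ | ⟨f, g, m, rfl, h⟩
  · rw [MShape_last one_pos, Option.mem_some_iff, one_mul] at hx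
    subst hx
    refine MShape_flL.2 ⟨by rw [MShape_mod1]; omega, ?_⟩
    rcases MShape_m1_last h with h | h
    · exact Or.inl h
    · exact Or.inr (Or.inl h)
  · rw [MShape_last two_pos, Option.mem_some_iff] at hx
    subst hx
    exact MShape_flL.2 ⟨by rw [MShape_mod2]; omega, Or.inl (MShape_m2_last h)⟩

theorem Valid.len {z : List (Ltr b)} (h : Valid b z) :
    ((decZ b z).length = 1 ∨ (decZ b z).length = 2) ∧ z.length = Q b * (decZ b z).length := by
  rcases h with ⟨f, g, rfl, -⟩ | ⟨f, g, m, rfl, h⟩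
  · rw [decZ_one, length_word]
    exact ⟨Or.inl rfl, mul_comm _ _⟩
  · obtain ⟨hp, k, sub, h⟩ := h.marks
    rw [decZ_two h, length_word]
    exact ⟨Or.inr rfl, mul_comm _ _⟩

/-- the last letter of a valid zone (`SubOK.tape`: the running head is never on the last cell) -/
theorem Valid.last_cell {u : List (Ltr b)} {x : Ltr b} (h : Valid b (u ++ [x])) :
    ∃ L gL, x = mkL b (Q b - 1) L gL ∧ (L.mk' = Mk.l true ∨ (L.mk' = Mk.idle ∧
      ∃ f g, u ++ [x] = word b 1 f g ∧ Inv1 b f g ∧ f (Q b - 1) = L ∧ g (Q b - 1) = gL)) := by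
  have hx : (u ++ [x]).getLast? = some x := by simp
  rcases h with ⟨f, g, e, h⟩ | ⟨f, g, m, e, h⟩
  · rw [e, MShape_last one_pos, one_mul, Option.some_inj] at hx
    refine ⟨f (Q b - 1), g (Q b - 1), hx.symm, ?_⟩
    obtain ⟨α, hp, h1, h2, h3⟩ := h
    rcases MShape_m1_last h2 with h | h
    · exact Or.inl h
    · exact Or.inr ⟨h, f, g, e, ⟨α, hp, h1, h2, h3⟩, rfl, rfl⟩
  · rw [e, MShape_last two_pos, Option.some_inj] at hx
    refine ⟨f (2 * Q b - 1), g (2 * Q b - 1), ?_, Or.inl (MShape_m2_last h)⟩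
    rw [← hx]
    exact MBasicB_mkL_congr (by rw [MShape_mod1, MShape_mod2]) _ fun _ => rfl

/-- the first letter of a valid zone, addressed as the position `Q b - 1 + 1` -/
theorem Valid.first_cell {v : List (Ltr b)} {y : Ltr b} (h : Valid b (y :: v)) :
    ∃ R gR, y = mkL b (Q b - 1 + 1) R gR ∧
      (R.mk' = Mk.r false ∨ (∃ m k sub, R.mk' = Mk.run false m k sub) ∨ (R.mk' = Mk.idle ∧
        ∃ f g, y :: v = word b 1 f g ∧ Inv1 b f g ∧ f 0 = R ∧ g 0 = gR)) := by
  have hQ := Q_pos b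
  have hy : (y :: v).head? = some y := rfl
  have hm : ∀ (s : Ce) (c : Fin (2 ^ b)), mkL b 0 s c = mkL b (Q b - 1 + 1) s c := fun s c =>
    MBasicB_mkL_congr (by rw [show Q b - 1 + 1 = Q b by omega]; simp) _ fun _ => rfl
  rcases h with ⟨f, g, e, h⟩ | ⟨f, g, m, e, h⟩
  · rw [e, MShape_head one_pos, Option.some_inj] at hy
    refine ⟨f 0, g 0, hy.symm.trans (hm _ _), ?_⟩
    obtain ⟨α, hp, h1, h2, h3⟩ := h
    rcases MShape_m1_first h2 with h | h
    · exact Or.inl h
    · exact Or.inr (Or.inr ⟨h, f, g, e, ⟨α, hp, h1, h2, h3⟩, rfl, rfl⟩)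
  · rw [e, MShape_head two_pos, Option.some_inj] at hy
    refine ⟨f 0, g 0, hy.symm.trans (hm _ _), ?_⟩
    obtain ⟨hp, k, sub, h⟩ := h.marks
    rcases MShape_m2_first h with h | h
    · exact Or.inl h
    · exact Or.inr (Or.inl ⟨_, _, _, h⟩)

end Crest.Agent.R176
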