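import Crest.Agent.R176.MSem
import Crest.Agent.R176.MShape

/-! # R176: labels — the upper level -/

noncomputable section

namespace Crest.Agent.R176

open Classical

set_option linter.unusedSectionVars false

variable {b : ℕ}

def Ltr.item (a : Ltr b) : Prop := tag b a.p = 3

def Ltr.hd (a : Ltr b) : Prop :=
  ∃ s, a.c = encC s ∧ (s.mk' = Mk.idle ∨ ∃ ρ m k sub, s.mk' = Mk.run ρ m k sub)

def Ltr.setId (a : Ltr b) (y : Fin (2 ^ b)) : Ltr b :=
  ⟨a.p, a.c, if tag b a.p = 3 then y else ⟨0, by positivity⟩, fun h => by simp [h]⟩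

theorem Ltr.set_set (a : Ltr b) (y y' : Fin (2 ^ b)) : (a.setId y).setId y' = a.setId y' := rfl

theorem Ltr.get_set {a : Ltr b} (y : Fin (2 ^ b)) (h : a.item) : (a.setId y).id = y := by
  exact if_pos h

theorem Ltr.set_get (a : Ltr b) : a.setId a.id = a := by
  refine Ltr.ext rfl rfl ?_
  show (if tag b a.p = 3 then a.id else ⟨0, by positivity⟩) = a.id
  split_ifs with h
  · rfl
  · exact Fin.ext (a.h h).symm

theorem Valid.MIdU_word {z : List (Ltr b)} (h : Valid b z) :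
    ∃ T f g α, z = word b T f g ∧ Blk b f g 0 α := by
  rcases h with ⟨f, g, rfl, α, hp, hB, -⟩ | ⟨f, g, m, rfl, αL, αR, k, e, t, hp, sub, -, hS⟩
  · exact ⟨1, f, g, α, rfl, hB⟩
  · obtain ⟨tL, u, hT, -⟩ := hS.tape
    exact ⟨2, f, g, αL, rfl, hT.blkL⟩

theorem MIdU_mkL_id {i : ℕ} (hi : i < Q b) (h : ell + 2 * 2 ^ b ≤ i) (s : Ce) (y : Fin (2 ^ b)) :
    (mkL b i s y).id = y :=
  if_pos (by rw [Nat.mod_eq_of_lt hi]; exact tag_eq_three.2 h)

theorem MIdU_blk {f : ℕ → Ce} {g g' : ℕ → Fin (2 ^ b)} {α : ℕ} (h : Blk b f g 0 α)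
    (h1 : Set.InjOn g' (Set.Ico (ell + 2 * 2 ^ b) (Q b))) : Blk b f g' 0 α :=
  ⟨h.lt, h.st, h.bit, fun p q h3 h4 h5 h6 h7 =>
    h1 ⟨h3, h4⟩ ⟨h5, h6⟩ (by simpa only [zero_add] using h7)⟩

theorem MIdU_mapIdx (T : ℕ) (f : ℕ → Ce) (g τ : ℕ → Fin (2 ^ b)) (P : ℕ → Prop) [DecidablePred P] :
    ((word b T f g).mapIdx fun i a => if P i then a.setId (τ i) else a) =
      word b T f (fun i => if P i then τ i else g i) := by
  refine List.ext_getElem (by simp) fun i h1 h2 => ?_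
  rw [List.getElem_mapIdx, getElem_word, getElem_word]
  split_ifs <;> rfl

theorem Valid.item {z : List (Ltr b)} (h : Valid b z) (j : ℕ) (hj : j < z.length)
    (h1 : ell + 2 * 2 ^ b ≤ j) (h2 : j < ell + 2 * 2 ^ b + 2 ^ b) : z[j].item := by
  obtain ⟨T, f, g, α, rfl, -⟩ := h.MIdU_word
  have hQ : j < Q b := by unfold Q; omega
  rw [getElem_word]
  show tag b (j % Q b) = 3
  rw [Nat.mod_eq_of_lt hQ]
  exact tag_eq_three.2 h1

/-- `Blk.inj` for the first block (`SubOK.tape`) -/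
theorem Valid.id_inj {z : List (Ltr b)} (h : Valid b z) (i j : ℕ) (hi : i < z.length)
    (hj : j < z.length) (h1 : ell + 2 * 2 ^ b ≤ i) (h2 : i < ell + 2 * 2 ^ b + 2 ^ b)
    (h3 : ell + 2 * 2 ^ b ≤ j) (h4 : j < ell + 2 * 2 ^ b + 2 ^ b) (he : z[i].id = z[j].id) :
    i = j := by
  obtain ⟨T, f, g, α, rfl, hB⟩ := h.MIdU_word
  have hQi : i < Q b := by unfold Q; omega
  have hQj : j < Q b := by unfold Q; omega
  rw [getElem_word, getElem_word, MIdU_mkL_id hQi h1, MIdU_mkL_id hQj h3] at he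
  exact hB.inj i j h1 hQi h3 hQj (by simpa only [zero_add] using he)

theorem Valid.hd_unique {z : List (Ltr b)} (h : Valid b z) (i j : ℕ) (hi : i < z.length)
    (hj : j < z.length) (h1 : z[i].hd) (h2 : z[j].hd) : i = j := by
  have key : ∃ hp, ∀ i (hi : i < z.length), z[i].hd → i = hp := by
    rcases h with ⟨f, g, rfl, α, hp, -, hM, -⟩ | ⟨f, g, m, rfl, h⟩
    · refine ⟨hp, fun i hi h => ?_⟩
      rw [getElem_word] at h
      obtain ⟨s, hs, hm⟩ := h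
      obtain rfl : f i = s := encC_injective hs
      rw [hM.2 i (by simpa using hi)] at hm
      by_contra hne
      rw [if_neg hne] at hm
      split_ifs at hm <;> simp at hm
    · obtain ⟨hp, k, sub, hM⟩ := h.marks
      refine ⟨hp, fun i hi h => ?_⟩
      rw [getElem_word] at h
      obtain ⟨s, hs, hm⟩ := h
      obtain rfl : f i = s := encC_injective hs
      rw [hM.2 i (by simpa using hi)] at hm
      by_contra hne
      rw [if_neg hne] at hm
      split_ifs at hm <;> simp at hm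
  obtain ⟨hp, key⟩ := key
  rw [key i hi h1, key j hj h2]

/-- the invariants depend on the labels only through `Blk.inj` -/
theorem Inv2.relabel {f : ℕ → Ce} {g g' : ℕ → Fin (2 ^ b)} {m : Bool} (h : Inv2 b f g m)
    (h1 : Set.InjOn g' (Set.Ico (ell + 2 * 2 ^ b) (Q b)))
    (h2 : ∀ p < Q b, g' (Q b + p) = g (Q b + p)) : Inv2 b f g' m := by
  obtain ⟨αL, αR, k, e, t, hp, sub, hM, hS⟩ := h
  refine ⟨αL, αR, k, e, t, hp, sub, hM, ?_⟩
  have key : ∀ {tL u : ℕ}, Tape b f g αL αR k e t tL u → Tape b f g' αL αR k e t tL u := by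
    intro tL u hT
    refine ⟨MIdU_blk hT.blkL h1, ⟨hT.blkR.lt, hT.blkR.st, hT.blkR.bit, fun p q h3 h4 h5 h6 h7 => ?_⟩,
      hT.dnL, hT.dnR, hT.epL, hT.epR, hT.hk, hT.col⟩
    rw [h2 p h4, h2 q h6] at h7
    exact hT.blkR.inj p q h3 h4 h5 h6 h7
  cases sub <;> exact ⟨key hS.1, hS.2⟩

/-- the relabelled zone is `word T f g'` with `g' i = if o ≤ i ∧ i < o + n' then τ i else g i` -/
theorem Valid.perm {z : List (Ltr b)} (h : Valid b z) (τ : ℕ → Fin (2 ^ b))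
    (hτ : Set.InjOn τ (Set.Ico (ell + 2 * 2 ^ b) (ell + 2 * 2 ^ b + 2 ^ b))) :
    Valid b (z.mapIdx fun i a =>
      if ell + 2 * 2 ^ b ≤ i ∧ i < ell + 2 * 2 ^ b + 2 ^ b then a.setId (τ i) else a) ∧
    decZ b (z.mapIdx fun i a =>
      if ell + 2 * 2 ^ b ≤ i ∧ i < ell + 2 * 2 ^ b + 2 ^ b then a.setId (τ i) else a) =
      decZ b z := by
  have hQ : Q b = ell + 2 * 2 ^ b + 2 ^ b := by unfold Q; omega
  have hinj : ∀ g : ℕ → Fin (2 ^ b), Set.InjOn (fun i =>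
      if ell + 2 * 2 ^ b ≤ i ∧ i < ell + 2 * 2 ^ b + 2 ^ b then τ i else g i)
      (Set.Ico (ell + 2 * 2 ^ b) (Q b)) := by
    intro g i hi j hj h
    rw [hQ] at hi hj
    simp only [if_pos (show ell + 2 * 2 ^ b ≤ i ∧ i < ell + 2 * 2 ^ b + 2 ^ b from hi),
      if_pos (show ell + 2 * 2 ^ b ≤ j ∧ j < ell + 2 * 2 ^ b + 2 ^ b from hj)] at h
    exact hτ hi hj h
  rcases h with ⟨f, g, rfl, α, hp, hB, hM, hD⟩ | ⟨f, g, m, rfl, h⟩
  · rw [MIdU_mapIdx]
    exact ⟨Or.inl ⟨f, _, rfl, α, hp, MIdU_blk hB (hinj g), hM, hD⟩, by rw [decZ_one, decZ_one]⟩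
  · rw [MIdU_mapIdx]
    obtain ⟨hp, k, sub, hM⟩ := h.marks
    refine ⟨Or.inr ⟨f, _, m, rfl, h.relabel (hinj g) fun p _ => if_neg (by omega)⟩, ?_⟩
    rw [decZ_two hM, decZ_two hM]

end Crest.Agent.R176
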