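import Crest.Agent.R176.MBasic

/-! # R176: valid double zones are closed under the moves of the head, and under merging -/

noncomputable section

namespace Crest.Agent.R176

open Classical

set_option linter.unusedSectionVars false

variable {b : ℕ} {f : ℕ → Ce} {g : ℕ → Fin (2 ^ b)} {m : Bool} {i : ℕ}

/-- two cells agree up to the mark -/
private def MMove_Ag (A B : Ce) : Prop :=
  A.st = B.st ∧ A.bit = B.bit ∧ A.dn = B.dn ∧ A.ep = B.ep

private theorem MMove_Ag.symm {A B : Ce} (h : MMove_Ag A B) : MMove_Ag B A :=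
  ⟨h.1.symm, h.2.1.symm, h.2.2.1.symm, h.2.2.2.symm⟩

private theorem MMove_lt_Q {p : ℕ} (h : p ≤ ell + 2 * 2 ^ b) : p < Q b := by
  have : 0 < 2 ^ b := by positivity
  unfold Q; omega

private theorem MMove_ell_lt : ell < Q b := MMove_lt_Q (by omega)

private theorem MMove_upd {L R : Ce} (hL : MMove_Ag L (f i)) (hR : MMove_Ag R (f (i + 1)))
    (j : ℕ) : MMove_Ag (upd f i L R j) (f j) := by
  unfold upd
  split_ifs with h1 h2
  · rw [h1]; exact hL
  · rw [h2]; exact hR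
  · exact ⟨rfl, rfl, rfl, rfl⟩

private theorem MMove_root {f' : ℕ → Ce} (h : ∀ j, MMove_Ag (f' j) (f j)) :
    SameRoot b f m f' m := by
  intro j _
  refine ⟨(h j).1, ?_⟩
  unfold root
  rw [(h j).2.1, (h j).2.2.1]

private theorem MMove_half {k : Option Kind} {e s : ℕ} {L L' : Ce} {xL x y sb : Bool}
    (h : Half b k e s L xL x y sb) (hL : MMove_Ag L' L) : Half b k e s L' xL x y sb := by
  obtain ⟨h1, h2, h3, -⟩ := hL
  refine ⟨h3 ▸ h.dn, ?_, ?_, ?_⟩
  · rw [h1, h2]; exact h.fld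
  · rw [h2]; exact h.mid
  · rw [h2]; exact h.top

private theorem MMove_sub {f' : ℕ → Ce} {αL αR e t hp : ℕ} {k : Option Kind} {sub : Sub}
    (h : SubOK b f g αL αR k e t hp sub) (hf : ∀ j, MMove_Ag (f' j) (f j)) :
    SubOK b f' g αL αR k e t hp sub := by
  have hc : ∀ {tL u : ℕ}, Tape b f g αL αR k e t tL u → t ≤ ell + 2 * 2 ^ b →
      Tape b f' g αL αR k e t tL u := fun hT ht =>
    hT.congr (fun j _ => hf j) (MMove_lt_Q ht).le
  have hE := endc_le (b := b) k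
  have hb := be_lt_ell
  cases sub with
  | D => exact ⟨hc h.1 (by have := h.2.1; omega), h.2⟩
  | A => exact ⟨hc h.1 (by have := h.2.1; omega), h.2⟩
  | F => exact ⟨hc h.1 (by have := h.2.2.1; omega), h.2⟩
  | B x y s nt nx =>
    obtain ⟨hT, h1, h2, h3, h4, h5, h6, h7, h8, h9⟩ := h
    obtain ⟨e1, e2, e3, -⟩ := hf t
    refine ⟨hc hT (by omega), h1, h2, h3, h4, ?_, ?_, ?_, ?_, ?_⟩
    · rw [e3, h5]
    · rw [e2, h6]
    · rw [e1, h7]
    · rw [e1, h8]
    · rw [e1, h9]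
  | C fl x y s nt nx =>
    obtain ⟨hT, h1, h2, h3, h4, h5, h6, h7, h8, xL, h9⟩ := h
    refine ⟨hc hT (by omega), h1, h2, h3, h4, h5, h6, ?_, ?_, xL, MMove_half h9 (hf t)⟩
    · rw [(hf t).1, h7]
    · rw [(hf t).1, h8]

/-- the common end of all cases -/
private theorem MMove_fin {L R : Ce} {αL αR e t hp : ℕ} {k : Option Kind} {sub : Sub}
    (hL : MMove_Ag L (f i)) (hR : MMove_Ag R (f (i + 1)))
    (hM : Marks2 b (upd f i L R) hp m k sub) (hS : SubOK b f g αL αR k e t hp sub) :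
    Inv2 b (upd f i L R) g m ∧ SameRoot b f m (upd f i L R) m :=
  ⟨⟨αL, αR, k, e, t, hp, sub, hM, MMove_sub hS (MMove_upd hL hR)⟩, MMove_root (MMove_upd hL hR)⟩

section marks

variable {hp : ℕ} {k : Option Kind} {sub : Sub}

private theorem MMove_run {m' ρ : Bool} {k' : Option Kind} {sub' : Sub}
    (h : Marks2 b f hp m k sub) (hi : i < 2 * Q b) (hm : (f i).mk' = Mk.run ρ m' k' sub') :
    i = hp ∧ ρ = decide (Q b ≤ i) ∧ m' = m ∧ k' = k ∧ sub' = sub := by
  rw [h.2 i hi] at hm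
  split_ifs at hm with h1 h2
  · simp only [Mk.run.injEq] at hm
    exact ⟨h2, hm.1.symm, hm.2.1.symm, hm.2.2.1.symm, hm.2.2.2.symm⟩

private theorem MMove_r {ρ : Bool} (h : Marks2 b f hp m k sub) (hi : i < 2 * Q b)
    (hm : (f i).mk' = Mk.r ρ) : ρ = decide (Q b ≤ i) := by
  rw [h.2 i hi] at hm
  split_ifs at hm with h1 h2
  · simp only [Mk.r.injEq] at hm
    exact hm.symm

private theorem MMove_l {ρ : Bool} (h : Marks2 b f hp m k sub) (hi : i < 2 * Q b)
    (hm : (f i).mk' = Mk.l ρ) : ρ = decide (Q b ≤ i) := by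
  rw [h.2 i hi] at hm
  split_ifs at hm with h1 h2
  · simp only [Mk.l.injEq] at hm
    exact hm.symm

private theorem MMove_idle (h : Marks2 b f hp m k sub) (hi : i < 2 * Q b) :
    (f i).mk' ≠ Mk.idle := by
  rw [h.2 i hi]
  split_ifs <;> simp

/-- the head ends in the left cell -/
private theorem MMove_left {L R : Ce} {m' : Bool} {k' : Option Kind} {sub' : Sub}
    (h : Marks2 b f hp m k sub) (hh : hp = i ∨ hp = i + 1) (hi : i + 1 < 2 * Q b)
    (hL : L.mk' = Mk.run (decide (Q b ≤ i)) m' k' sub')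
    (hR : R.mk' = Mk.l (decide (Q b ≤ i + 1))) : Marks2 b (upd f i L R) i m' k' sub' := by
  refine ⟨by omega, fun j hj => ?_⟩
  unfold upd
  by_cases h1 : j = i
  · subst h1; simp [hL]
  by_cases h2 : j = i + 1
  · subst h2; simp [hR]
  rw [if_neg h1, if_neg h2, h.2 j hj, if_neg h1]
  by_cases h3 : j < i
  · rw [if_pos h3, if_pos (by omega)]
  · rw [if_neg h3, if_neg (by omega), if_neg (by omega)]

/-- the head ends in the right cell -/
private theorem MMove_right {L R : Ce} {m' : Bool} {k' : Option Kind} {sub' : Sub}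
    (h : Marks2 b f hp m k sub) (hh : hp = i ∨ hp = i + 1) (hi : i + 1 < 2 * Q b)
    (hL : L.mk' = Mk.r (decide (Q b ≤ i)))
    (hR : R.mk' = Mk.run (decide (Q b ≤ i + 1)) m' k' sub') :
    Marks2 b (upd f i L R) (i + 1) m' k' sub' := by
  refine ⟨by omega, fun j hj => ?_⟩
  unfold upd
  by_cases h1 : j = i
  · subst h1; simp [hL]
  by_cases h2 : j = i + 1
  · subst h2; simp [hR]
  rw [if_neg h1, if_neg h2, h.2 j hj, if_neg h2]
  by_cases h3 : j < i
  · rw [if_pos (show j < i + 1 by omega), if_pos (by omega)]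
  · rw [if_neg (show ¬ j < i + 1 by omega), if_neg (by omega), if_neg (by omega)]

end marks

/-- inversion of `FMove` -/
private theorem MMove_inv {σ : Sg} {L R L' R' : Ce} (h : FMove σ L R L' R') :
    MMove_Ag L' L ∧ MMove_Ag R' R ∧
    ((∃ ρ ρ' m k, L.mk' = Mk.r ρ ∧ R.mk' = Mk.run ρ' m k Sub.D ∧ (ρ' = true → R.dn ≠ none) ∧
        L'.mk' = Mk.run ρ m k Sub.D ∧ R'.mk' = Mk.l ρ') ∨
      (∃ m k, σ.first ∧ L.mk' = Mk.run false m k Sub.D ∧ L'.mk' = Mk.run false m k Sub.A ∧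
        R' = R) ∨
      (∃ m k, L.mk' = Mk.run false m k Sub.A ∧ R.mk' = Mk.l false ∧ L.dn ≠ none ∧
        L'.mk' = Mk.r false ∧ R'.mk' = Mk.run false m k Sub.A) ∨
      (∃ m k x y s nt nx, L.mk' = Mk.run false m k (Sub.B x y s nt nx) ∧ R.mk' = Mk.l false ∧
        L.dn = none ∧ L.ep ≠ 1 ∧ L'.mk' = Mk.r false ∧
        R'.mk' = Mk.run false m k (Sub.B x y s nt nx)) ∨
      (∃ ρ ρ' m k fl x y s nt nx, L.mk' = Mk.run ρ m k (Sub.C fl x y s nt nx) ∧ R.mk' = Mk.l ρ' ∧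
        (ρ = false → L.dn = none ∧ (fl = true → R.ep ≠ 1)) ∧ (ρ = true → L.dn ≠ none) ∧
        L'.mk' = Mk.r ρ ∧ R'.mk' = Mk.run ρ' m k (Sub.C fl x y s nt nx))) := by
  cases h with
  | dmove ρ ρ' m k h1 h2 h3 h4 =>
    exact ⟨⟨rfl, rfl, rfl, rfl⟩, ⟨rfl, rfl, rfl, rfl⟩, Or.inl ⟨ρ, ρ', m, k, h1, h2, h4, rfl, rfl⟩⟩
  | turn m k h1 h2 =>
    exact ⟨⟨rfl, rfl, rfl, rfl⟩, ⟨rfl, rfl, rfl, rfl⟩, Or.inr (Or.inl ⟨m, k, h1, h2, rfl, rfl⟩)⟩
  | amove m k h1 h2 h3 h4 =>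
    exact ⟨⟨rfl, rfl, rfl, rfl⟩, ⟨rfl, rfl, rfl, rfl⟩,
      Or.inr (Or.inr (Or.inl ⟨m, k, h2, h3, h4, rfl, rfl⟩))⟩
  | bmove m k x y s nt nx h1 h2 h3 h4 h5 =>
    exact ⟨⟨rfl, rfl, rfl, rfl⟩, ⟨rfl, rfl, rfl, rfl⟩,
      Or.inr (Or.inr (Or.inr (Or.inl ⟨m, k, x, y, s, nt, nx, h2, h3, h4, h5, rfl, rfl⟩)))⟩
  | cmove ρ ρ' m k fl x y s nt nx h1 h2 h3 h4 h5 =>
    exact ⟨⟨rfl, rfl, rfl, rfl⟩, ⟨rfl, rfl, rfl, rfl⟩,
      Or.inr (Or.inr (Or.inr (Or.inr
        ⟨ρ, ρ', m, k, fl, x, y, s, nt, nx, h1, h2, h4, h5, rfl, rfl⟩)))⟩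

/-- inversion of `FMerge` -/
private theorem MMove_invM {σ : Sg} {L R L' R' : Ce} (h : FMerge σ L R L' R') :
    MMove_Ag L' L ∧ MMove_Ag R' R ∧ L.mk' = Mk.idle ∧ R.mk' = Mk.idle ∧
      (∃ m, L'.mk' = Mk.run false m none Sub.D) ∧ R'.mk' = Mk.l true := by
  cases h with
  | mk m h1 h2 h3 => exact ⟨⟨rfl, rfl, rfl, rfl⟩, ⟨rfl, rfl, rfl, rfl⟩, h2, h3, ⟨m, rfl⟩, rfl⟩

private theorem MMove_epv {e u : ℕ} (hu : 0 < u) : epv e u (base e + u) = 1 := by
  unfold epv
  rw [if_neg (by omega), if_neg (by omega), if_pos rfl]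

/-- a processed cell of the right block -/
private theorem MMove_dnR {αL αR e t tL u : ℕ} {k : Option Kind}
    (h : Tape b f g αL αR k e t tL u) (h1 : Q b ≤ i) (h2 : i < 2 * Q b) (hd : (f i).dn ≠ none) :
    i < Q b + t := by
  have := h.dnR (i - Q b) (by omega)
  rw [show Q b + (i - Q b) = i by omega] at this
  have := this.1 hd
  omega

/-- Recipe: `cases` on the rule; the marks locate the head; `Tape.congr`. -/
theorem move_fwd {L R : Ce} (h : Inv2 b f g m) (hi : i + 1 < 2 * Q b)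
    (hs : FMove (sgz b i) (f i) (f (i + 1)) L R) :
    Inv2 b (upd f i L R) g m ∧ SameRoot b f m (upd f i L R) m := by
  obtain ⟨αL, αR, k, e, t, hp, sub, hM, hS⟩ := h
  have hi' : i < 2 * Q b := by omega
  obtain ⟨aL, aR, hc⟩ := MMove_inv hs
  rcases hc with ⟨ρ, ρ', m', k', h1, h2, h3, h4, h5⟩ | ⟨m', k', h1, h2, h3, rfl⟩ |
    ⟨m', k', h1, h2, h3, h4, h5⟩ | ⟨m', k', x, y, s, nt, nx, h1, h2, h3, h4, h5, h6⟩ |
    ⟨ρ, ρ', m', k', fl, x, y, s, nt, nx, h1, h2, h3, h4, h5, h6⟩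
  · obtain ⟨rfl, rfl, rfl, rfl, rfl⟩ := MMove_run hM hi h2
    obtain rfl := MMove_r hM hi' h1
    exact MMove_fin aL aR (MMove_left hM (Or.inr rfl) hi h4 h5)
      ⟨hS.1, hS.2.1, by have := hS.2.2; omega⟩
  · obtain ⟨rfl, hρ, rfl, rfl, rfl⟩ := MMove_run hM hi' h2
    have hQ : i < Q b := by simpa using hρ
    rw [sgz_left hQ, sg_first] at h1
    rw [hρ] at h3
    refine MMove_fin aL aR (MMove_left hM (Or.inl rfl) hi h3 ?_)
      ⟨hS.1, hS.2.1, by omega⟩
    rw [hM.2 _ hi, if_neg (by omega), if_neg (by omega)]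
  · obtain ⟨rfl, hρ, rfl, rfl, rfl⟩ := MMove_run hM hi' h1
    have hρ' := MMove_l hM hi h2
    have hQ : i < Q b := by simpa using hρ
    rw [hρ] at h4
    rw [hρ'] at h5
    exact MMove_fin aL aR (MMove_right hM (Or.inl rfl) hi h4 h5)
      ⟨hS.1, hS.2.1, (hS.1.dnL i hQ).1 h3⟩
  · obtain ⟨rfl, hρ, rfl, rfl, rfl⟩ := MMove_run hM hi' h1
    have hρ' := MMove_l hM hi h2
    have hQ : i + 1 < Q b := by simpa using hρ'
    obtain ⟨hT, s1, s2, s3, s4, s5⟩ := hS
    rw [hρ] at h5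
    rw [hρ'] at h6
    refine MMove_fin aL aR (MMove_right hM (Or.inl rfl) hi h5 h6)
      ⟨hT, s1, by omega, hQ, fun hk => ?_, s5⟩
    have := s4 hk
    by_contra hc
    have hit : i = base e + t := by omega
    have hu : 0 < t := by
      rcases hT.hk with ⟨-, h0⟩ | ⟨h0, -⟩
      · exact absurd h0 hk
      · exact h0
    exact h4 (by rw [hT.epL i s3, hit, MMove_epv hu])
  · obtain ⟨rfl, rfl, rfl, rfl, rfl⟩ := MMove_run hM hi' h1
    obtain rfl := MMove_l hM hi h2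
    obtain ⟨hT, s1, s2, s3, s4, s5, s6⟩ := hS
    refine MMove_fin aL aR (MMove_right hM (Or.inl rfl) hi h5 h6)
      ⟨hT, s1, by omega, ?_, s4, fun ht => by have := s5 ht; omega, s6⟩
    by_cases hQ : Q b ≤ i
    · exact MMove_dnR hT hQ hi' (h4 (by simpa using hQ))
    · omega

theorem move_bwd {L R : Ce} (h : Inv2 b f g m) (hi : i + 1 < 2 * Q b)
    (hs : FMove (sgz b i) L R (f i) (f (i + 1))) :
    Inv2 b (upd f i L R) g m ∧ SameRoot b f m (upd f i L R) m := by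
  obtain ⟨αL, αR, k, e, t, hp, sub, hM, hS⟩ := h
  have hi' : i < 2 * Q b := by omega
  obtain ⟨aL, aR, hc⟩ := MMove_inv hs
  replace aL := aL.symm
  replace aR := aR.symm
  rcases hc with ⟨ρ, ρ', m', k', h1, h2, h3, h4, h5⟩ | ⟨m', k', h1, h2, h3, rfl⟩ |
    ⟨m', k', h1, h2, h3, h4, h5⟩ | ⟨m', k', x, y, s, nt, nx, h1, h2, h3, h4, h5, h6⟩ |
    ⟨ρ, ρ', m', k', fl, x, y, s, nt, nx, h1, h2, h3, h4, h5, h6⟩
  · obtain ⟨rfl, rfl, rfl, rfl, rfl⟩ := MMove_run hM hi' h4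
    obtain rfl := MMove_l hM hi h5
    refine MMove_fin aL aR (MMove_right hM (Or.inl rfl) hi h1 h2) ⟨hS.1, hS.2.1, ?_⟩
    by_cases hQ : Q b ≤ i + 1
    · exact MMove_dnR hS.1 hQ hi (aR.2.2.1 ▸ h3 (by simpa using hQ))
    · omega
  · obtain ⟨rfl, hρ, rfl, rfl, rfl⟩ := MMove_run hM hi' h3
    have hQ : i < Q b := by simpa using hρ
    rw [hρ] at h2
    refine MMove_fin aL aR (MMove_left hM (Or.inl rfl) hi h2 ?_)
      ⟨hS.1, hS.2.1, by omega⟩
    rw [hM.2 _ hi, if_neg (by omega), if_neg (by omega)]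
  · obtain ⟨rfl, hρ', rfl, rfl, rfl⟩ := MMove_run hM hi h5
    have hρ := MMove_r hM hi' h4
    rw [hρ] at h1
    rw [hρ'] at h2
    exact MMove_fin aL aR (MMove_left hM (Or.inr rfl) hi h1 h2)
      ⟨hS.1, hS.2.1, by have := hS.2.2; omega⟩
  · obtain ⟨rfl, hρ', rfl, rfl, rfl⟩ := MMove_run hM hi h6
    have hρ := MMove_r hM hi' h5
    obtain ⟨hT, s1, s2, s3, s4, s5, s6⟩ := hS
    rw [hρ] at h1
    rw [hρ'] at h2
    refine MMove_fin aL aR (MMove_left hM (Or.inr rfl) hi h1 h2)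
      ⟨hT, s1, ?_, by omega, fun hk => by have := s4 hk; omega, s5, s6⟩
    by_contra hc
    have hit : i = t := by omega
    rw [aL.2.2.1, hit, s5] at h3
    simp at h3
  · obtain ⟨rfl, rfl, rfl, rfl, rfl⟩ := MMove_run hM hi h6
    obtain rfl := MMove_r hM hi' h5
    obtain ⟨hT, s1, s2, s3, s4, s5, s6⟩ := hS
    have htQ : t < Q b := MMove_lt_Q (s1.le.trans (endc_le _))
    refine MMove_fin aL aR (MMove_left hM (Or.inr rfl) hi h1 h2)
      ⟨hT, s1, ?_, by omega, s4, fun ht => ?_, s6⟩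
    · by_cases hQ : Q b ≤ i
      · omega
      · have hd := (h3 (by simpa using hQ)).1
        rw [aL.2.2.1] at hd
        by_contra hc
        exact (hT.dnL i (by omega)).2 (by omega) hd
    · have := s5 ht
      by_contra hc
      have hit : i + 1 = base e + (t + 1) := by omega
      have hu : min be (t + 1) = t + 1 := by omega
      have he : e < nT := by
        rcases hT.hk with ⟨h0, -⟩ | ⟨-, h0, -⟩
        · omega
        · exact h0
      have hl := base_lt he (show t + 1 ≤ be by omega)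
      have hQ := MMove_ell_lt (b := b)
      refine (h3 (by simp; omega)).2 (by simpa [s4] using ht) ?_
      rw [aR.2.2.2, hT.epL (i + 1) (by omega), hu, hit, MMove_epv (by omega)]

private theorem MMove_blk {f' : ℕ → Ce} {o α : ℕ} (h : Blk b f g o α)
    (hf : ∀ j, MMove_Ag (f' j) (f j)) : Blk b f' g o α := by
  refine ⟨h.lt, fun p hp => by rw [(hf _).1, h.st p hp], fun p hp => ?_, h.inj⟩
  have := h.bit p hp
  unfold BitOK at this ⊢
  rw [(hf _).1, (hf _).2.1]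
  exact this

private theorem MMove_shift {α : ℕ} :
    Blk b (shiftQ b f) (shiftQ b g) 0 α ↔ Blk b f g (Q b) α := by
  constructor
  · intro h
    refine ⟨h.lt, fun p hp => ?_, fun p hp => ?_, fun p q h1 h2 h3 h4 h5 => ?_⟩
    · simpa [shiftQ] using h.st p hp
    · simpa [shiftQ] using h.bit p hp
    · exact h.inj p q h1 h2 h3 h4 (by simpa [shiftQ] using h5)
  · intro h
    refine ⟨h.lt, fun p hp => ?_, fun p hp => ?_, fun p q h1 h2 h3 h4 h5 => ?_⟩
    · simpa [shiftQ] using h.st p hp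
    · simpa [shiftQ] using h.bit p hp
    · exact h.inj p q h1 h2 h3 h4 (by simpa [shiftQ] using h5)

private theorem MMove_root' {f' : ℕ → Ce} {m' : Bool} (h : ∀ j, MMove_Ag (f' j) (f j))
    (hd : ∀ j < 2 * Q b, (f j).dn = none) : SameRoot b f m f' m' := by
  intro j hj
  refine ⟨(h j).1, ?_⟩
  unfold root
  rw [(h j).2.1, (h j).2.2.1, hd j hj]
  simp

theorem merge_fwd {L R : Ce} (h1 : Inv1 b f g) (h2 : Inv1 b (shiftQ b f) (shiftQ b g))
    (hi : i + 1 = Q b) (hs : FMerge (sgz b i) (f i) (f (i + 1)) L R) :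
    ∃ m, Inv2 b (upd f i L R) g m ∧ SameRoot b f true (upd f i L R) m := by
  obtain ⟨α, p1, hB1, hM1, hc1⟩ := h1
  obtain ⟨α', p2, hB2, hM2, hc2⟩ := h2
  obtain ⟨aL, aR, i1, i2, ⟨m, n1⟩, n2⟩ := MMove_invM hs
  have hA := MMove_upd aL aR
  have hp1 : p1 = i := by
    rw [hM1.2 i (by omega)] at i1
    split_ifs at i1 with c1 c2
    exact c2.symm
  have hp2 : p2 = 0 := by
    have := hM2.2 0 (by omega)
    simp only [shiftQ, add_zero] at this
    rw [hi, this] at i2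
    split_ifs at i2 with c1 c2
    exact c2.symm
  subst hp1 hp2
  have hd : ∀ j < 2 * Q b, (f j).dn = none := by
    intro j hj
    by_cases hQ : j < Q b
    · exact (hc1 j hQ).1
    · have := (hc2 (j - Q b) (by omega)).1
      simpa [shiftQ, show Q b + (j - Q b) = j by omega] using this
  refine ⟨m, ⟨α, α', none, 0, 0, p1, Sub.D, ⟨by omega, fun j hj => ?_⟩,
    MMove_sub (f := f) ⟨⟨hB1, MMove_shift.1 hB2, fun p hp => ?_, fun p hp => ?_, fun p hp => ?_,
      fun p hp => (hc2 p hp).2, Or.inl ⟨by simp, rfl⟩, fun s hs => by omega⟩, by simp [endc],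
      by omega⟩ hA⟩, MMove_root' hA hd⟩
  · unfold upd
    by_cases c1 : j = p1
    · subst c1
      have : ¬ Q b ≤ j := by omega
      simp [n1, this]
    by_cases c2 : j = p1 + 1
    · subst c2
      have : Q b ≤ p1 + 1 := by omega
      simp [n2, this]
    rw [if_neg c1, if_neg c2, if_neg c1]
    by_cases c3 : j < p1
    · have : ¬ Q b ≤ j := by omega
      rw [if_pos c3, hM1.2 j (by omega), if_pos c3]
      simp [this]
    · have h0 : Q b ≤ j := by omega
      have := hM2.2 (j - Q b) (by omega)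
      rw [if_neg (by omega), if_neg (by omega)] at this
      rw [if_neg c3]
      simpa [shiftQ, show Q b + (j - Q b) = j by omega, h0] using this
  · simp [hd p (by omega)]
  · simp [hd (Q b + p) (by omega)]
  · simp [(hc1 p hp).2, epv]

theorem merge_bwd {L R : Ce} (h : Inv2 b f g m) (hi : i + 1 < 2 * Q b)
    (hs : FMerge (sgz b i) L R (f i) (f (i + 1))) :
    i + 1 = Q b ∧ Inv1 b (upd f i L R) g ∧ Inv1 b (shiftQ b (upd f i L R)) (shiftQ b g) ∧
      SameRoot b f m (upd f i L R) true := by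
  obtain ⟨αL, αR, k, e, t, hp, sub, hM, hS⟩ := h
  have hi' : i < 2 * Q b := by omega
  obtain ⟨aL, aR, i1, i2, ⟨m', n1⟩, n2⟩ := MMove_invM hs
  have hA := MMove_upd aL.symm aR.symm
  obtain ⟨rfl, hρ, rfl, rfl, rfl⟩ := MMove_run hM hi' n1
  have hρ' := MMove_l hM hi n2
  have q1 : i < Q b := by simpa using hρ
  have q2 : Q b ≤ i + 1 := by simpa using hρ'
  have hQ : i + 1 = Q b := by omega
  obtain ⟨hT, ht, -⟩ := hS
  obtain rfl : t = 0 := by simpa [endc] using ht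
  have dL : ∀ p < Q b, (f p).dn = none := fun p hp => by simpa using hT.dnL p hp
  have dR : ∀ p < Q b, (f (Q b + p)).dn = none := fun p hp => by simpa using hT.dnR p hp
  have hd : ∀ j < 2 * Q b, (f j).dn = none := by
    intro j hj
    by_cases c : j < Q b
    · exact dL j c
    · have := dR (j - Q b) (by omega)
      rwa [show Q b + (j - Q b) = j by omega] at this
  refine ⟨hQ, ⟨αL, i, MMove_blk hT.blkL hA, ⟨q1, fun j hj => ?_⟩, fun p hp => ?_⟩,
    ⟨αR, 0, MMove_shift.2 (MMove_blk hT.blkR hA), ⟨Q_pos b, fun j hj => ?_⟩, fun p hp => ?_⟩,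
    MMove_root' hA hd⟩
  · unfold upd
    by_cases c1 : j = i
    · subst c1; simp [i1]
    have c3 : j < i := by omega
    have : ¬ Q b ≤ j := by omega
    rw [if_neg c1, if_neg (by omega), if_pos c3, hM.2 j (by omega), if_pos c3]
    simp [this]
  · rw [(hA p).2.2.1, (hA p).2.2.2, dL p hp, hT.epL p hp]
    simp [epv]
  · unfold shiftQ upd
    rw [if_neg (by omega)]
    by_cases c1 : j = 0
    · subst c1; simp [hQ, i2]
    rw [if_neg (by omega), if_neg (by omega), if_neg c1, hM.2 _ (by omega), if_neg (by omega),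
      if_neg (by omega)]
    simp
  · unfold shiftQ
    rw [(hA _).2.2.1, (hA _).2.2.2, dR p hp, hT.epR p hp]
    simp

theorem not_merge {L R : Ce} (h : Inv2 b f g m) (hi : i + 1 < 2 * Q b) :
    ¬ FMerge (sgz b i) (f i) (f (i + 1)) L R := by
  obtain ⟨hp, k, sub, hM⟩ := h.marks
  intro hs
  exact MMove_idle hM (by omega) (MMove_invM hs).2.2.1

end Crest.Agent.R176
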