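import Crest.Agent.R176.MStatic

/-! # R176: valid zones have predecessors and no bad pairs -/

noncomputable section

namespace Crest.Agent.R176

open Classical

set_option linter.unusedSectionVars false

section bw

variable {σ : Sg} {L R : Ce} {m ρ ρ' : Bool} {k : Option Kind}

theorem MPred_merge (h : σ.last) (hL : L.mk' = Mk.run false m none Sub.D) (hR : R.mk' = Mk.l true) :
    ∃ L0 R0, Fwd σ L0 R0 L R := by
  cases L; cases R
  subst hL hR
  exact ⟨⟨Mk.idle, _, _, _, _⟩, ⟨Mk.idle, _, _, _, _⟩, Or.inl (FMerge.mk m h rfl rfl)⟩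

theorem MPred_dmove (hL : L.mk' = Mk.run ρ m k Sub.D) (hR : R.mk' = Mk.l ρ')
    (h : (¬ σ.last ∧ ρ = ρ') ∨ (σ.last ∧ ρ = false ∧ ρ' = true)) (hd : ρ' = true → R.dn ≠ none) :
    ∃ L0 R0, Fwd σ L0 R0 L R := by
  cases L; cases R
  subst hL hR
  exact ⟨⟨Mk.r ρ, _, _, _, _⟩, ⟨Mk.run ρ' m k Sub.D, _, _, _, _⟩,
    Or.inr (Or.inl (FMove.dmove ρ ρ' m k rfl rfl h hd))⟩

theorem MPred_turn (h : σ.first) (hL : L.mk' = Mk.run false m k Sub.A) :
    ∃ L0 R0, Fwd σ L0 R0 L R := by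
  cases L
  subst hL
  exact ⟨⟨Mk.run false m k Sub.D, _, _, _, _⟩, R, Or.inr (Or.inl (FMove.turn m k h rfl))⟩

theorem MPred_amove (h : ¬ σ.last) (hL : L.mk' = Mk.r false) (hR : R.mk' = Mk.run false m k Sub.A)
    (hd : L.dn ≠ none) : ∃ L0 R0, Fwd σ L0 R0 L R := by
  cases L; cases R
  subst hL hR
  exact ⟨⟨Mk.run false m k Sub.A, _, _, _, _⟩, ⟨Mk.l false, _, _, _, _⟩,
    Or.inr (Or.inl (FMove.amove m k h rfl rfl hd))⟩

theorem MPred_bmove {x y s nx : Bool} {nt : Fin 4} (h : ¬ σ.last) (hL : L.mk' = Mk.r false)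
    (hR : R.mk' = Mk.run false m k (Sub.B x y s nt nx)) (hd : L.dn = none) (he : L.ep ≠ 1) :
    ∃ L0 R0, Fwd σ L0 R0 L R := by
  cases L; cases R
  subst hL hR
  exact ⟨⟨Mk.run false m k (Sub.B x y s nt nx), _, _, _, _⟩, ⟨Mk.l false, _, _, _, _⟩,
    Or.inr (Or.inl (FMove.bmove m k x y s nt nx h rfl rfl hd he))⟩

theorem MPred_cmove {fl x y s nx : Bool} {nt : Fin 4} (hL : L.mk' = Mk.r ρ)
    (hR : R.mk' = Mk.run ρ' m k (Sub.C fl x y s nt nx))
    (h : (¬ σ.last ∧ ρ = ρ') ∨ (σ.last ∧ ρ = false ∧ ρ' = true))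
    (h1 : ρ = false → L.dn = none ∧ (fl = true → R.ep ≠ 1)) (h2 : ρ = true → L.dn ≠ none) :
    ∃ L0 R0, Fwd σ L0 R0 L R := by
  cases L; cases R
  subst hL hR
  exact ⟨⟨Mk.run ρ m k (Sub.C fl x y s nt nx), _, _, _, _⟩, ⟨Mk.l ρ', _, _, _, _⟩,
    Or.inr (Or.inl (FMove.cmove ρ ρ' m k fl x y s nt nx rfl rfl h h1 h2))⟩

theorem MPred_ASub {L' : Ce} {x y : Bool} {sub : Sub} (h : ASub σ k L x y sub) (hs : L'.st = L.st) :
    ASub σ k L' x y sub := by
  cases h with
  | fld h => rw [← hs]; exact ASub.fld h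
  | mid h1 h2 h3 => rw [← hs]; exact ASub.mid h1 h2 h3
  | swap h1 h2 => rw [← hs]; exact ASub.swap h1 h2
  | eq h1 h2 h3 => rw [← hs]; exact ASub.eq h1 h2 h3

theorem MPred_FA {x : Bool} {sub : Sub} (h : ¬ σ.last) (hL : L.mk' = Mk.r false)
    (hR : R.mk' = Mk.run false m k sub) (hd : L.dn = some x) (hs : ASub σ k L x L.bit sub) :
    ∃ L0 R0, Fwd σ L0 R0 L R := by
  obtain ⟨_, st, y, _, ep⟩ := L
  cases R
  subst hL hR hd
  exact ⟨⟨Mk.run false m k Sub.A, st, if m = true then x else y, none, ep⟩, ⟨Mk.l false, _, _, _, _⟩,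
    Or.inr (Or.inr (Or.inl (FA'.mk m k x y sub h rfl rfl rfl rfl (MPred_ASub hs rfl))))⟩

theorem MPred_FB {k' : Kind} {nx : Bool} {nt : Fin 4} (h : σ.tag = 0) (hL : L.mk' = Mk.r false)
    (hR : R.mk' = Mk.run false m (some k') (Sub.C true σ.pr.ro σ.pr.rn σ.pr.sR nt nx))
    (hd : L.dn = none) (he : L.ep = 2) (he' : R.ep = 1) (hk : σ.est → k' = σ.pr.kind) :
    ∃ L0 R0, Fwd σ L0 R0 L R := by
  cases L; cases R
  subst hL hR he he'
  by_cases hs : σ.est
  · exact ⟨⟨Mk.run false m none (Sub.B σ.pr.lo σ.pr.ln σ.pr.sL nt nx), _, _, _, 0⟩,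
      ⟨Mk.l false, _, _, _, 0⟩, Or.inr (Or.inr (Or.inr (Or.inl
        (FB.mk m none k' nt nx h rfl rfl hd rfl (Or.inl ⟨rfl, hs, rfl, hk hs⟩)))))⟩
  · exact ⟨⟨Mk.run false m (some k') (Sub.B σ.pr.lo σ.pr.ln σ.pr.sL nt nx), _, _, _, 1⟩,
      ⟨Mk.l false, _, _, _, 0⟩, Or.inr (Or.inr (Or.inr (Or.inl
        (FB.mk m (some k') k' nt nx h rfl rfl hd rfl (Or.inr ⟨rfl, hs, rfl⟩)))))⟩

theorem MPred_FC (h : ¬ σ.last)
    (hL : L.mk' = Mk.run true m k (if EndC k σ then Sub.F else Sub.D)) (hd : L.dn ≠ none)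
    (hd' : R.dn = none) : ∃ L0 R0, Fwd σ L0 R0 L R := by
  obtain ⟨x, hx⟩ := Option.ne_none_iff_exists'.1 hd
  obtain ⟨_, st, y, _, ep⟩ := L
  subst hL hx
  exact ⟨⟨Mk.run true m k (Sub.C (decide σ.fld) x y (if σ.fld then st.sb else false) st.tg st.cu), st,
    if m = true then x else y, none, ep⟩, R,
    Or.inr (Or.inr (Or.inr (Or.inr (FC.mk m k x y h rfl rfl hd' rfl))))⟩

end bw

variable {b : ℕ} {f : ℕ → Ce} {g : ℕ → Fin (2 ^ b)} {m : Bool}

theorem MPred_sgz {i : ℕ} (h1 : Q b ≤ i) (h2 : i < 2 * Q b) : sgz b i = sg b (i - Q b) := by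
  rw [← sgz_right (by omega), Nat.add_sub_cancel' h1]

theorem MPred_last {i : ℕ} (hi : i + 1 < 2 * Q b) : (sgz b i).last ↔ i + 1 = Q b := by
  rcases lt_or_ge i (Q b) with h | h
  · rw [sgz_left h, sg_last h]
  · rw [MPred_sgz h (by omega), sg_last (by omega)]
    omega

theorem MPred_side {i : ℕ} (hi : i + 1 < 2 * Q b) :
    (¬ (sgz b i).last ∧ decide (Q b ≤ i) = decide (Q b ≤ i + 1)) ∨
      ((sgz b i).last ∧ decide (Q b ≤ i) = false ∧ decide (Q b ≤ i + 1) = true) := by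
  rw [MPred_last hi]
  simp only [decide_eq_decide, decide_eq_false_iff_not, decide_eq_true_eq]
  omega

theorem MPred_top_lt (b : ℕ) : ell + 2 * 2 ^ b < Q b := by
  have : 0 < 2 ^ b := by positivity
  unfold Q; omega

section marks

variable {hp i : ℕ} {k : Option Kind} {sub : Sub}

theorem MPred_lt (hm : Marks2 b f hp m k sub) (h : i < hp) :
    (f i).mk' = Mk.r (decide (Q b ≤ i)) := by
  rw [hm.2 i (h.trans hm.1), if_pos h]

theorem MPred_eq (hm : Marks2 b f hp m k sub) :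
    (f hp).mk' = Mk.run (decide (Q b ≤ hp)) m k sub := by
  rw [hm.2 hp hm.1, if_neg (lt_irrefl _), if_pos rfl]

theorem MPred_gt (hm : Marks2 b f hp m k sub) (h : hp < i) (hi : i < 2 * Q b) :
    (f i).mk' = Mk.l (decide (Q b ≤ i)) := by
  rw [hm.2 i hi, if_neg (by omega), if_neg (by omega)]

theorem MPred_run (hm : Marks2 b f hp m k sub) (hi : i < 2 * Q b) {ρ m' : Bool} {k' : Option Kind}
    {sub' : Sub} (h : (f i).mk' = Mk.run ρ m' k' sub') :
    i = hp ∧ ρ = decide (Q b ≤ i) ∧ sub' = sub := by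
  rcases lt_trichotomy i hp with h1 | rfl | h1
  · rw [MPred_lt hm h1] at h; cases h
  · rw [MPred_eq hm] at h; cases h; exact ⟨rfl, rfl, rfl⟩
  · rw [MPred_gt hm h1 hi] at h; cases h

theorem MPred_not_idle (hm : Marks2 b f hp m k sub) (hi : i < 2 * Q b) : (f i).mk' ≠ Mk.idle := by
  intro h
  rcases lt_trichotomy i hp with h1 | rfl | h1
  · rw [MPred_lt hm h1] at h; cases h
  · rw [MPred_eq hm] at h; cases h
  · rw [MPred_gt hm h1 hi] at h; cases h

theorem MPred_mkOK (hm : Marks2 b f hp m k sub) (hi : i + 1 < 2 * Q b) :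
    MkOK (sgz b i) (f i).mk' (f (i + 1)).mk' := by
  unfold MkOK
  rcases MPred_side hi with ⟨h1, h2⟩ | ⟨h1, h2, h3⟩
  · rw [if_neg h1]
    rcases lt_trichotomy i hp with h | rfl | h
    · rcases lt_or_eq_of_le (Nat.succ_le_of_lt h) with h' | rfl
      · exact Or.inl ⟨_, MPred_lt hm h, h2 ▸ MPred_lt hm h'⟩
      · exact Or.inr (Or.inr (Or.inr (Or.inr (Or.inl ⟨_, _, _, _, MPred_lt hm h, h2 ▸ MPred_eq hm⟩))))
    · exact Or.inr (Or.inr (Or.inr (Or.inr (Or.inr
        ⟨_, _, _, _, MPred_eq hm, h2 ▸ MPred_gt hm (by omega) hi⟩))))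
    · exact Or.inr (Or.inl ⟨_, MPred_gt hm h (by omega), h2 ▸ MPred_gt hm (by omega) hi⟩)
  · rw [if_pos h1]
    rcases lt_trichotomy i hp with h | rfl | h
    · rcases lt_or_eq_of_le (Nat.succ_le_of_lt h) with h' | rfl
      · exact Or.inr (Or.inl ⟨h2 ▸ MPred_lt hm h, h3 ▸ MPred_lt hm h'⟩)
      · exact Or.inr (Or.inr (Or.inl ⟨h2 ▸ MPred_lt hm h, _, _, _, h3 ▸ MPred_eq hm⟩))
    · exact Or.inr (Or.inr (Or.inr (Or.inr
        ⟨⟨_, _, _, h2 ▸ MPred_eq hm⟩, h3 ▸ MPred_gt hm (by omega) hi⟩)))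
    · exact Or.inr (Or.inr (Or.inr (Or.inl
        ⟨h2 ▸ MPred_gt hm h (by omega), h3 ▸ MPred_gt hm (by omega) hi⟩)))

end marks

section cases

variable {αL αR e t hp tL u : ℕ} {k : Option Kind}

theorem MPred_k_some (T : Tape b f g αL αR k e t tL u) (hu : 0 < u) :
    e < nT ∧ k = some (ent e).kind := by
  rcases T.hk with h | h
  · omega
  · exact h.2

theorem MPred_dnL (T : Tape b f g αL αR k e t tL u) {p : ℕ} (hp : p < Q b) (h : tL ≤ p) :
    (f p).dn = none := by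
  by_contra h'
  have := (T.dnL p hp).1 h'
  omega

theorem MPred_dnR (T : Tape b f g αL αR k e t tL u) {i : ℕ} (h1 : Q b ≤ i) (h2 : i < 2 * Q b) :
    (f i).dn ≠ none ↔ i < Q b + t := by
  have := T.dnR (i - Q b) (by omega)
  rw [Nat.add_sub_cancel' h1] at this
  rw [this]; omega

/-- the predecessor by `FC` -/
theorem MPred_predFC {sub : Sub} (hm : Marks2 b f hp m k sub)
    (T : Tape b f g αL αR k e t t (min be t)) (ht : 0 < t) (htl : t ≤ endc b k)
    (hh : hp + 1 = Q b + t) (hs : sub = if t = endc b k then Sub.F else Sub.D) :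
    ∃ L0 R0, Fwd (sgz b hp) L0 R0 (f hp) (f (hp + 1)) := by
  have h1 := endc_le (b := b) k
  have h2 := MPred_top_lt b
  obtain ⟨-, hk⟩ := MPred_k_some T (lt_min be_pos ht)
  refine MPred_FC (m := m) (k := k) (by rw [MPred_last (by omega)]; omega) ?_
    ((MPred_dnR T (by omega) (by omega)).2 (by omega)) ?_
  · rw [MPred_eq hm, decide_eq_true (show Q b ≤ hp by omega), hs, MPred_sgz (by omega) (by omega)]
    congr 1
    refine if_congr ?_ rfl rfl
    rw [hk, sg_endC]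
    omega
  · by_contra h
    have := (MPred_dnR T (by omega) (by omega)).1 h
    omega

theorem MPred_predD (hm : Marks2 b f hp m k Sub.D) (h : SubOK b f g αL αR k e t hp Sub.D) :
    ∃ L0 R0, Fwd (sgz b hp) L0 R0 (f hp) (f (hp + 1)) := by
  obtain ⟨T, ht, hh⟩ := h
  have h1 := endc_le (b := b) k
  have h2 := MPred_top_lt b
  rcases lt_or_eq_of_le (Nat.succ_le_of_lt hh) with h3 | h3
  · refine MPred_dmove (MPred_eq hm) (MPred_gt hm (by omega) (by omega)) (MPred_side (by omega))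
      fun h => ?_
    exact (MPred_dnR T (of_decide_eq_true h) (by omega)).2 h3
  rcases Nat.eq_zero_or_pos t with rfl | ht0
  · have hk : k = none := by
      rcases T.hk with h | h
      · exact h.2
      · simp at h
    subst hk
    refine MPred_merge (m := m) ((MPred_last (by omega)).2 h3) ?_ ?_
    · rw [MPred_eq hm, decide_eq_false (show ¬ Q b ≤ hp by omega)]
    · rw [MPred_gt hm (by omega) (by omega), decide_eq_true (show Q b ≤ hp + 1 by omega)]
  · exact MPred_predFC hm T ht0 ht.le h3 (by rw [if_neg ht.ne])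

theorem MPred_predF (hm : Marks2 b f hp m k Sub.F) (h : SubOK b f g αL αR k e t hp Sub.F) :
    ∃ L0 R0, Fwd (sgz b hp) L0 R0 (f hp) (f (hp + 1)) := by
  obtain ⟨T, hk, ht, hh⟩ := h
  obtain ⟨k', rfl⟩ := Option.ne_none_iff_exists'.1 hk
  have h1 := be_le_endc (b := b) k'
  have h2 := be_pos
  exact MPred_predFC hm T (by omega) ht.le hh (by rw [if_pos ht])

theorem MPred_predA {i : ℕ} (hm : Marks2 b f (i + 1) m k Sub.A)
    (h : SubOK b f g αL αR k e t (i + 1) Sub.A) :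
    ∃ L0 R0, Fwd (sgz b i) L0 R0 (f i) (f (i + 1)) := by
  obtain ⟨T, ht, hh⟩ := h
  have h1 := endc_le (b := b) k
  have h2 := MPred_top_lt b
  refine MPred_amove (m := m) (k := k) (by rw [MPred_last (by omega)]; omega) ?_ ?_
    ((T.dnL i (by omega)).2 (by omega))
  · rw [MPred_lt hm (by omega), decide_eq_false (show ¬ Q b ≤ i by omega)]
  · rw [MPred_eq hm, decide_eq_false (show ¬ Q b ≤ i + 1 by omega)]

theorem MPred_predB {i : ℕ} {x y s nx : Bool} {nt : Fin 4}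
    (hm : Marks2 b f (i + 1) m k (Sub.B x y s nt nx))
    (h : SubOK b f g αL αR k e t (i + 1) (Sub.B x y s nt nx)) :
    ∃ L0 R0, Fwd (sgz b i) L0 R0 (f i) (f (i + 1)) := by
  obtain ⟨T, ht, hh, hQ, hk, hx, hy, hs, hnt, hnx⟩ := h
  have hl : ¬ (sgz b i).last := by rw [MPred_last (by omega)]; omega
  have hL : (f i).mk' = Mk.r false := by
    rw [MPred_lt hm (by omega), decide_eq_false (show ¬ Q b ≤ i by omega)]
  have hR : (f (i + 1)).mk' = Mk.run false m k (Sub.B x y s nt nx) := by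
    rw [MPred_eq hm, decide_eq_false (show ¬ Q b ≤ i + 1 by omega)]
  rcases lt_or_eq_of_le (Nat.le_of_lt_succ hh) with h1 | rfl
  · refine MPred_bmove hl hL hR (MPred_dnL T (by omega) h1) ?_
    rw [T.epL i (by omega)]
    unfold epv
    split_ifs with h2 h3 h4
    · decide
    · decide
    · have := hk (by rw [(MPred_k_some T (by omega)).2]; simp)
      omega
    · decide
  · refine MPred_FA hl hL hR hx ?_
    subst hy hs hnt hnx
    exact ASub.fld (by rw [sgz_left (by omega), sg_fld]; exact ht)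

theorem MPred_predC {i : ℕ} {fl x y s nx : Bool} {nt : Fin 4}
    (hm : Marks2 b f (i + 1) m k (Sub.C fl x y s nt nx))
    (h : SubOK b f g αL αR k e t (i + 1) (Sub.C fl x y s nt nx)) :
    ∃ L0 R0, Fwd (sgz b i) L0 R0 (f i) (f (i + 1)) := by
  obtain ⟨T, ht, hh, hQ, hfl, hb, hs, hnt, hnx, xL, H⟩ := h
  have h1 := endc_le (b := b) k
  have h2 := MPred_top_lt b
  have h3 := be_pos
  have h4 := be_le_base e
  obtain ⟨he, hk⟩ := MPred_k_some T (lt_min be_pos (Nat.succ_pos t))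
  have hL := MPred_lt hm (Nat.lt_succ_self i)
  have hR := MPred_eq hm
  rcases eq_or_lt_of_le (Nat.le_of_lt_succ hh) with rfl | h5
  · have h6 : be ≤ t := by
      by_contra h
      have := hb (by omega)
      omega
    rw [decide_eq_false (show ¬ Q b ≤ t by omega)] at hL
    rw [decide_eq_false (show ¬ Q b ≤ t + 1 by omega)] at hR
    refine MPred_FA (by rw [MPred_last (by omega)]; omega) hL hR H.dn ?_
    rw [decide_eq_false (show ¬ t < be by omega)] at hfl
    obtain rfl := hs h6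
    subst hfl hnt hnx
    rw [sgz_left (by omega)]
    rcases lt_or_ge t (ell + 2 ^ b) with h7 | h7
    · obtain ⟨e1, rfl, rfl⟩ := H.mid h6 h7
      refine ASub.mid (by rw [sg_fld]; omega) ?_ e1
      rw [sg_tag, tag_eq_zero, tag_eq_one]
      omega
    · have h8 : (sg b t).tag = 2 := by rw [sg_tag, tag_eq_two]; omega
      rcases H.top h7 with ⟨e1, rfl, rfl⟩ | ⟨e1, e2, rfl, rfl⟩
      · exact ASub.swap h8 e1
      · exact ASub.eq h8 e1 e2
  by_cases h6 : t < be ∧ i = base e + t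
  · obtain ⟨h6, rfl⟩ := h6
    have h7 := base_lt he (show t + 1 ≤ be from h6)
    have h8 : min be (t + 1) = t + 1 := min_eq_right h6
    rw [decide_eq_false (show ¬ Q b ≤ base e + t by omega)] at hL
    rw [decide_eq_false (show ¬ Q b ≤ base e + t + 1 by omega), hfl, decide_eq_true h6, hk] at hR
    obtain ⟨-, -, -, e1, e2, e3⟩ := H.fld h6
    have hpr : (sgz b (base e + t)).pr = prog (base e + t) := by
      rw [sgz_left (by omega), sg_pr (by omega)]
    refine MPred_FB (m := m) (k' := (ent e).kind) (nt := nt) (nx := nx) ?_ hL ?_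
      (MPred_dnL T (by omega) (by omega)) ?_ ?_ fun _ => ?_
    · rw [sgz_left (by omega), sg_tag, tag_eq_zero]; omega
    · rw [hpr, e1, e2, e3]; exact hR
    · rw [T.epL _ (by omega), h8, epv, if_neg (by omega), if_pos (by omega)]
    · rw [T.epL _ (by omega), h8, epv, if_neg (by omega), if_neg (by omega), if_pos (by omega)]
    · rw [hpr, (prog_base h6).1]
  refine MPred_cmove hL hR (MPred_side (by omega)) (fun h => ⟨?_, fun h' => ?_⟩) fun h => ?_
  · exact MPred_dnL T (by simpa using h) h5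
  · have h7 : i < Q b := by simpa using h
    have h8 : t < be := by rw [hfl] at h'; exact of_decide_eq_true h'
    have h9 := hb h8
    rcases lt_or_eq_of_le (Nat.succ_le_of_lt h7) with h10 | h10
    · rw [T.epL _ h10, min_eq_right h8, epv, if_neg (by omega), if_neg (by omega), if_neg (by omega)]
      decide
    · have := T.epR 0 (Q_pos b)
      rw [Nat.add_zero, ← h10] at this
      rw [this]
      decide
  · exact (MPred_dnR T (of_decide_eq_true h) (by omega)).2 (by omega)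

end cases

/-- the predecessor, on the side given by `bsR`.  Recipe: by cases on `sub`.
`D`: `dmove`, or `merge` (`hp + 1 = Q`, `t = 0`), or `FC` (`hp + 1 = Q + t`, `t > 0`); `A`: `turn`
or `amove`; `B`: `FA'` (`hp = t + 1`) or `bmove`; `C`: `FA'` (`hp = t + 1`), `FB` (`t < be`,
`hp = base e + t + 1`) or `cmove`; `F`: `FC`. -/
theorem pred2 {αL αR e t hp : ℕ} {k : Option Kind} {sub : Sub} (hm : Marks2 b f hp m k sub)
    (h : SubOK b f g αL αR k e t hp sub) :
    (bsR (sgz b hp) (decide (Q b ≤ hp)) sub ∧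
      ∃ L0 R0, Fwd (sgz b hp) L0 R0 (f hp) (f (hp + 1))) ∨
    (¬ bsR (sgz b hp) (decide (Q b ≤ hp)) sub ∧
      ∃ i, i + 1 = hp ∧ ∃ L0 R0, Fwd (sgz b i) L0 R0 (f i) (f (i + 1))) := by
  obtain ⟨-, -, -, -, -, -, hQ⟩ := h.tape
  have hl : ¬ (decide (Q b ≤ hp) = true ∧ (sgz b hp).last) := by
    rw [MPred_last hQ, decide_eq_true_eq]; omega
  have hn (h0 : hp ≠ 0) (h1 : sub ≠ Sub.D) (h2 : sub ≠ Sub.F) :
      ¬ bsR (sgz b hp) (decide (Q b ≤ hp)) sub := by
    rintro (⟨h3, h4⟩ | ⟨h3 | h3, -⟩)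
    · rw [sgz_left (by simpa using h4), sg_first] at h3
      exact h0 h3
    · exact h1 h3
    · exact h2 h3
  cases sub with
  | D => exact Or.inl ⟨Or.inr ⟨Or.inl rfl, hl⟩, MPred_predD hm h⟩
  | F => exact Or.inl ⟨Or.inr ⟨Or.inr rfl, hl⟩, MPred_predF hm h⟩
  | A =>
    cases hp with
    | zero =>
      have h1 : (sgz b 0).first := by rw [sgz_left (Q_pos b), sg_first]
      have h2 : decide (Q b ≤ 0) = false := decide_eq_false (Q_pos b).not_ge
      exact Or.inl ⟨Or.inl ⟨h1, h2⟩, MPred_turn h1 (h2 ▸ MPred_eq hm)⟩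
    | succ i => exact Or.inr ⟨hn (by omega) nofun nofun, i, rfl, MPred_predA hm h⟩
  | B x y s nt nx =>
    cases hp with
    | zero => exact absurd h.2.2.1 (by omega)
    | succ i => exact Or.inr ⟨hn (by omega) nofun nofun, i, rfl, MPred_predB hm h⟩
  | C fl x y s nt nx =>
    cases hp with
    | zero => exact absurd h.2.2.1 (by omega)
    | succ i => exact Or.inr ⟨hn (by omega) nofun nofun, i, rfl, MPred_predC hm h⟩

theorem MPred_blk {o α p : ℕ} (h : Blk b f g o α) (hp : p + 1 < Q b) :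
    St2 (sg b p) (sg b (p + 1)) (f (o + p)).st (f (o + (p + 1))).st ∧
      (St1 (sg b p) (f (o + p)).st ∧ BitOK (sg b p) (f (o + p))) ∧
      St1 (sg b (p + 1)) (f (o + (p + 1))).st ∧ BitOK (sg b (p + 1)) (f (o + (p + 1))) := by
  refine ⟨?_, ⟨?_, h.bit p (by omega)⟩, ?_, h.bit _ hp⟩
  · rw [h.st p (by omega), h.st _ hp]; exact st_St2 h.lt hp
  · rw [h.st p (by omega)]; exact st_St1 h.lt (by omega)
  · rw [h.st _ hp]; exact st_St1 h.lt hp

theorem bad2 (h : Inv2 b f g m) {i : ℕ} (hi : i + 1 < 2 * Q b)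
    (hb : BadC (sgz b i) (sgz b (i + 1)) (f i) (f (i + 1))) : Found (f i) := by
  obtain ⟨αL, αR, k, e, t, hp, sub, hm, h⟩ := h
  rcases hb with hb | ⟨hl, hb⟩ | ⟨hb, hn⟩ | hb
  · exact absurd (MPred_mkOK hm hi) hb
  · exfalso
    obtain ⟨tL, u, T, -⟩ := h.tape
    rw [MPred_last hi] at hl
    have i1 := MPred_not_idle hm (show i < 2 * Q b by omega)
    have i2 := MPred_not_idle hm hi
    rcases lt_or_ge i (Q b) with h1 | h1
    · have := MPred_blk T.blkL (p := i) (by omega)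
      simp only [Nat.zero_add] at this
      rw [sgz_left h1, sgz_left (by omega)] at hb
      exact hb ⟨this.1, ⟨this.2.1.1, this.2.1.2, fun h => absurd h i1⟩,
        this.2.2.1, this.2.2.2, fun h => absurd h i2⟩
    · obtain ⟨p, rfl⟩ := Nat.exists_eq_add_of_le h1
      have := MPred_blk T.blkR (p := p) (by omega)
      rw [Nat.add_assoc, sgz_right (by omega), sgz_right (by omega)] at hb
      exact hb ⟨this.1, ⟨this.2.1.1, this.2.1.2, fun h => absurd h i1⟩,
        this.2.2.1, this.2.2.2, fun h => absurd h i2⟩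
  · exfalso
    rcases hb with ⟨ρ, m', k', sub', h1, h2⟩ | ⟨ρ, m', k', sub', h1, h2⟩
    · obtain ⟨rfl, rfl, rfl⟩ := MPred_run hm (by omega) h1
      rcases pred2 hm h with h3 | h3
      · exact hn h3.2
      · exact h3.1 h2
    · obtain ⟨rfl, rfl, rfl⟩ := MPred_run hm hi h1
      rcases pred2 hm h with h3 | ⟨-, j, hj, h3⟩
      · exact h2 h3.1
      · obtain rfl : j = i := by omega
        exact hn h3
  · exact hb

theorem bad1 (h : Inv1 b f g) {i : ℕ} (hi : i + 1 < Q b) :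
    ¬ BadC (sgz b i) (sgz b (i + 1)) (f i) (f (i + 1)) := by
  obtain ⟨α, hp, hB, ⟨-, hm⟩, hd⟩ := h
  have hi' : i < Q b := by omega
  have hr (j : ℕ) (hj : j < Q b) {ρ m' : Bool} {k : Option Kind} {sub : Sub} :
      (f j).mk' ≠ Mk.run ρ m' k sub := by
    rw [hm j hj]
    split_ifs <;> nofun
  rw [sgz_left hi', sgz_left hi]
  rintro (hb | ⟨-, hb⟩ | ⟨hb, -⟩ | hb)
  · refine hb ?_
    unfold MkOK
    rw [if_neg (by rw [sg_last hi']; omega), hm i hi', hm _ hi]
    rcases lt_trichotomy i hp with h | rfl | h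
    · rcases lt_or_eq_of_le (Nat.succ_le_of_lt h) with h' | rfl
      · exact Or.inl ⟨false, if_pos h, if_pos h'⟩
      · exact Or.inr (Or.inr (Or.inl ⟨if_pos h, by simp⟩))
    · exact Or.inr (Or.inr (Or.inr (Or.inl ⟨by simp, by simp⟩)))
    · exact Or.inr (Or.inl ⟨true, by rw [if_neg (by omega), if_neg (by omega)],
        by rw [if_neg (by omega), if_neg (by omega)]⟩)
  · have := MPred_blk hB hi
    simp only [Nat.zero_add] at this
    exact hb ⟨this.1, ⟨this.2.1.1, this.2.1.2, fun _ => hd i hi'⟩,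
      this.2.2.1, this.2.2.2, fun _ => hd _ hi⟩
  · rcases hb with ⟨ρ, m', k', sub', h1, -⟩ | ⟨ρ, m', k', sub', h1, -⟩
    · exact hr _ hi' h1
    · exact hr _ hi h1
  · rcases hb with ⟨_, _, _, _, _, _, _, _, h1, -⟩ | ⟨_, h1 | h1⟩
    · exact hr _ hi' h1
    · exact hr _ hi' h1
    · exact hr _ hi' h1

end Crest.Agent.R176
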