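import Crest.Agent.R176.MSem

/-! # R176: valid double zones are closed under processing a left cell.  The head is at the column `t`; `BitOK` in quarter `2` by `Tape.tag_three` -/

noncomputable section

namespace Crest.Agent.R176

open Classical

set_option linter.unusedSectionVars false

variable {b : ℕ} {f : ℕ → Ce} {g : ℕ → Fin (2 ^ b)} {m : Bool} {i : ℕ}

theorem MProcA_inv {σ : Sg} {L R L' R' : Ce} (h : FA' σ L R L' R') :
    ∃ (m : Bool) (k : Option Kind) (x y : Bool) (sub : Sub),
      L.mk' = Mk.run false m k Sub.A ∧ R.mk' = Mk.l false ∧ L.dn = none ∧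
      L.bit = (if m = true then x else y) ∧ ASub σ k L x y sub ∧
      L' = { L with mk' := Mk.r false, dn := some x, bit := y } ∧
      R' = { R with mk' := Mk.run false m k sub } := by
  cases h with
  | mk m k x y sub _ h1 h2 h3 h4 h5 => exact ⟨m, k, x, y, sub, h1, h2, h3, h4, h5, rfl, rfl⟩

theorem MProcA_head {hp j : ℕ} {k k' : Option Kind} {sub sub' : Sub} {m' : Bool}
    (h : Marks2 b f hp m k sub) (hj : j < 2 * Q b) (hm : (f j).mk' = Mk.run false m' k' sub') :
    j = hp ∧ j < Q b ∧ m' = m ∧ k' = k ∧ sub' = sub := by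
  have h1 := h.2 j hj
  rw [hm] at h1
  split_ifs at h1 with h2 h3
  simp only [Mk.run.injEq] at h1
  obtain ⟨e1, e2, e3, e4⟩ := h1
  refine ⟨h3, ?_, e2, e3, e4⟩
  simpa using e1.symm

theorem MProcA_upd_self {α : Type} (f : ℕ → α) (i : ℕ) (L R : α) : upd f i L R i = L := by
  simp [upd]

theorem MProcA_upd_succ {α : Type} (f : ℕ → α) (i : ℕ) (L R : α) : upd f i L R (i + 1) = R := by
  simp [upd]

theorem MProcA_upd_ne {α : Type} (f : ℕ → α) {i j : ℕ} (L R : α) (h1 : j ≠ i) (h2 : j ≠ i + 1) :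
    upd f i L R j = f j := by
  simp [upd, h1, h2]

/-- changing the bit and the flag of the cell `t` of the left block -/
theorem MProcA_tape {αL αR e t tL tL' u : ℕ} {k : Option Kind} {L R : Ce}
    (h : Tape b f g αL αR k e t tL u) (ht : t + 1 < Q b)
    (hst : L.st = (f t).st) (hep : L.ep = (f t).ep) (hbit : BitOK (sg b t) L)
    (hdn : L.dn ≠ none ↔ t < tL') (htL : ∀ p, p ≠ t → (p < tL ↔ p < tL'))
    (hR : R.st = (f (t + 1)).st ∧ R.bit = (f (t + 1)).bit ∧ R.dn = (f (t + 1)).dn ∧
      R.ep = (f (t + 1)).ep) :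
    Tape b (upd f t L R) g αL αR k e t tL' u := by
  have hQ : ∀ p, upd f t L R (Q b + p) = f (Q b + p) := fun p =>
    MProcA_upd_ne f L R (by omega) (by omega)
  have hall : ∀ p, p ≠ t → (upd f t L R p).st = (f p).st ∧ (upd f t L R p).bit = (f p).bit ∧
      (upd f t L R p).dn = (f p).dn ∧ (upd f t L R p).ep = (f p).ep := by
    intro p hp
    by_cases h2 : p = t + 1
    · subst h2; rw [MProcA_upd_succ]; exact hR
    · rw [MProcA_upd_ne f L R hp h2]; exact ⟨rfl, rfl, rfl, rfl⟩
  refine ⟨⟨h.blkL.lt, fun p hp => ?_, fun p hp => ?_, h.blkL.inj⟩,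
    ⟨h.blkR.lt, fun p hp => ?_, fun p hp => ?_, h.blkR.inj⟩, fun p hp => ?_, fun p hp => ?_,
    fun p hp => ?_, fun p hp => ?_, h.hk, fun s hs => ?_⟩
  · rw [← h.blkL.st p hp, Nat.zero_add]
    by_cases h2 : p = t
    · subst h2; rw [MProcA_upd_self, hst]
    · exact (hall p h2).1
  · have h3 := h.blkL.bit p hp
    rw [Nat.zero_add] at h3 ⊢
    by_cases h2 : p = t
    · subst h2; rw [MProcA_upd_self]; exact hbit
    · unfold BitOK at h3 ⊢
      rw [(hall p h2).1, (hall p h2).2.1]
      exact h3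
  · rw [hQ]; exact h.blkR.st p hp
  · rw [hQ]; exact h.blkR.bit p hp
  · by_cases h2 : p = t
    · subst h2; rw [MProcA_upd_self]; exact hdn
    · rw [(hall p h2).2.2.1, h.dnL p hp]; exact htL p h2
  · rw [hQ]; exact h.dnR p hp
  · rw [← h.epL p hp]
    by_cases h2 : p = t
    · subst h2; rw [MProcA_upd_self, hep]
    · exact (hall p h2).2.2.2
  · rw [hQ]; exact h.epR p hp
  · rw [hQ, MProcA_upd_ne f L R (by omega) (by omega)]
    exact h.col s hs

theorem MProcA_root {L R : Ce} (hL : L.st = (f i).st ∧ root m L = root m (f i))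
    (hR : R.st = (f (i + 1)).st ∧ root m R = root m (f (i + 1))) :
    SameRoot b f m (upd f i L R) m := by
  intro j _
  by_cases h1 : j = i
  · subst h1; rw [MProcA_upd_self]; exact hL
  by_cases h2 : j = i + 1
  · subst h2; rw [MProcA_upd_succ]; exact hR
  · rw [MProcA_upd_ne f L R h1 h2]; exact ⟨rfl, rfl⟩

theorem MProcA_tg {αL αR e t tL u : ℕ} (h : Tape b f g αL αR (some Kind.swap) e t tL u)
    (ht : be ≤ t) (hu : 0 < u) {p : ℕ} (hp : p < Q b) : (f p).st.tg = 3 := by
  have h1 := h.blkL.st p hp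
  rw [Nat.zero_add] at h1
  rw [h1]
  exact (h.tag_three ht hu (Or.inl rfl)).1

theorem procA_fwd {L R : Ce} (h : Inv2 b f g m) (hi : i + 1 < 2 * Q b)
    (hs : FA' (sgz b i) (f i) (f (i + 1)) L R) :
    Inv2 b (upd f i L R) g m ∧ SameRoot b f m (upd f i L R) m := by
  obtain ⟨αL, αR, k, e, t, hp, sub, hM, hS⟩ := h
  obtain ⟨m', k', x, y, sub', h1, h2, h3, h4, h5, rfl, rfl⟩ := MProcA_inv hs
  obtain ⟨rfl, hiQ, rfl, rfl, rfl⟩ := MProcA_head hM (by omega) h1
  have hi1 : i + 1 < Q b := by
    have h6 := hM.2 (i + 1) hi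
    rw [h2, if_neg (by omega), if_neg (by omega), Mk.l.injEq] at h6
    simpa using h6.symm
  obtain ⟨hT, hte, hit⟩ := hS
  obtain rfl : i = t := by
    have h6 := hT.dnL i hiQ
    rw [h3] at h6
    have : ¬ i < t := fun h7 => h6.2 h7 rfl
    omega
  rw [sgz_left hiQ] at h5
  have hb0 := hT.blkL.bit i hiQ
  rw [Nat.zero_add] at hb0
  have hbe := @be_pos
  have hbl := @be_lt_ell
  refine ⟨⟨αL, αR, k', e, i, i + 1, sub', ⟨hi, fun j hj => ?_⟩, ?_⟩, MProcA_root ⟨rfl, ?_⟩ ⟨rfl, rfl⟩⟩
  · by_cases h6 : j = i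
    · subst h6
      rw [MProcA_upd_self, if_pos (by omega), decide_eq_false (by omega)]
    by_cases h7 : j = i + 1
    · subst h7
      rw [MProcA_upd_succ, if_neg (by omega), if_pos rfl, decide_eq_false (by omega)]
    · rw [MProcA_upd_ne f _ _ h6 h7, hM.2 j hj]
      by_cases h8 : j < i
      · rw [if_pos h8, if_pos (by omega)]
      · rw [if_neg h8, if_neg h6, if_neg (by omega), if_neg h7]
  · have key : BitOK (sg b i) { f i with mk' := Mk.r false, dn := some x, bit := y } →
        Tape b (upd f i { f i with mk' := Mk.r false, dn := some x, bit := y }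
          { f (i + 1) with mk' := Mk.run false m' k' sub' }) g αL αR k' e i (i + 1) (min be i) :=
      fun hb => MProcA_tape hT hi1 rfl rfl hb (by simp) (fun p hp => by omega) ⟨rfl, rfl, rfl, rfl⟩
    have same : x = y → BitOK (sg b i) { f i with mk' := Mk.r false, dn := some x, bit := y } := by
      rintro rfl
      rw [ite_self] at h4
      intro h6
      exact hb0 (h4.trans h6)
    cases h5 with
    | fld hf =>
      have hlt : i < be := sg_fld.1 hf
      have hk := key (fun _ => Or.inl hf)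
      rw [min_eq_right hlt.le] at hk
      have := be_le_base e
      refine ⟨hk, hlt, by omega, hi1, fun _ => by omega, ?_⟩
      rw [MProcA_upd_self]
      exact ⟨rfl, rfl, rfl, rfl, rfl⟩
    | mid hf htag hxy =>
      have hge : be ≤ i := not_lt.1 fun h6 => hf (sg_fld.2 h6)
      have hlt : i < ell + 2 ^ b := by
        rw [sg_tag, tag_eq_zero, tag_eq_one] at htag
        have : 0 < 2 ^ b := by positivity
        omega
      have hk := key (same hxy)
      rw [min_eq_left hge, ← min_eq_left (show be ≤ i + 1 by omega)] at hk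
      refine ⟨hk, hte, by omega, by omega, (decide_eq_false (by omega)).symm, fun _ => by omega,
        fun _ => rfl, ?_⟩
      rw [MProcA_upd_self]
      exact ⟨rfl, rfl, x, rfl, fun _ => by omega, fun _ _ => ⟨hxy, rfl, rfl⟩, fun _ => by omega⟩
    | swap htag hk0 =>
      subst hk0
      have h6 := tag_eq_two.1 htag
      have hge : be ≤ i := le_trans hbl.le (le_trans (Nat.le_add_right _ _) h6.1)
      have hk := key (fun _ => Or.inr ⟨htag, MProcA_tg hT hge (by omega) hiQ⟩)
      rw [min_eq_left hge, ← min_eq_left (show be ≤ i + 1 by omega)] at hk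
      refine ⟨hk, hte, by omega, by omega, (decide_eq_false (by omega)).symm, fun _ => by omega,
        fun _ => rfl, ?_⟩
      rw [MProcA_upd_self]
      exact ⟨rfl, rfl, x, rfl, fun _ => by omega, fun _ _ => by omega,
        fun _ => Or.inl ⟨rfl, rfl, rfl⟩⟩
    | eq htag hk0 hxy =>
      subst hk0
      have h6 := tag_eq_two.1 htag
      have hge : be ≤ i := le_trans hbl.le (le_trans (Nat.le_add_right _ _) h6.1)
      have hk := key (same hxy)
      rw [min_eq_left hge, ← min_eq_left (show be ≤ i + 1 by omega)] at hk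
      refine ⟨hk, hte, by omega, by omega, (decide_eq_false (by omega)).symm, fun _ => by omega,
        fun _ => rfl, ?_⟩
      rw [MProcA_upd_self]
      exact ⟨rfl, rfl, x, rfl, fun _ => by omega, fun _ _ => by omega,
        fun _ => Or.inr ⟨rfl, hxy, rfl, rfl⟩⟩
  · unfold root
    rw [h3, h4]
    cases m' <;> rfl

theorem procA_bwd {L R : Ce} (h : Inv2 b f g m) (hi : i + 1 < 2 * Q b)
    (hs : FA' (sgz b i) L R (f i) (f (i + 1))) :
    Inv2 b (upd f i L R) g m ∧ SameRoot b f m (upd f i L R) m := by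
  obtain ⟨αL, αR, k, e, t, hp, sub, hM, hS⟩ := h
  obtain ⟨m', k', x, y, sub', h1, h2, h3, h4, h5, hL, hR⟩ := MProcA_inv hs
  obtain ⟨rfl, hi1, rfl, rfl, rfl⟩ := MProcA_head hM hi (m' := m') (k' := k') (sub' := sub')
    (by rw [hR])
  have hiQ : i < Q b := by omega
  rw [sgz_left hiQ] at h5
  have hbe := @be_pos
  have hbl := @be_lt_ell
  have hst : L.st = (f i).st := by rw [hL]
  have hep : L.ep = (f i).ep := by rw [hL]
  have hdn : (f i).dn = some x := by rw [hL]
  have hbt : (f i).bit = y := by rw [hL]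
  have hRR : R.st = (f (i + 1)).st ∧ R.bit = (f (i + 1)).bit ∧ R.dn = (f (i + 1)).dn ∧
      R.ep = (f (i + 1)).ep := by rw [hR]; exact ⟨rfl, rfl, rfl, rfl⟩
  have hti : ∀ {u}, Tape b f g αL αR k' e t (t + 1) u → t < i + 1 → i = t := by
    intro u hT ht
    have h6 := (hT.dnL i hiQ).1 (by rw [hdn]; simp)
    omega
  have key : ∀ {u}, Tape b f g αL αR k' e i (i + 1) u → BitOK (sg b i) L →
      Tape b (upd f i L R) g αL αR k' e i i u :=
    fun hT hb => MProcA_tape hT hi1 hst hep hb (by simp [h3]) (fun p hp => by omega) hRR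
  have same : ∀ {u}, Tape b f g αL αR k' e i (i + 1) u → x = y → BitOK (sg b i) L := by
    intro u hT hxy
    have hb0 := hT.blkL.bit i hiQ
    rw [Nat.zero_add] at hb0
    subst hxy
    rw [ite_self] at h4
    intro h6
    rw [hst]
    exact hb0 (hbt.trans (h4.symm.trans h6))
  refine ⟨⟨αL, αR, k', e, i, i, Sub.A, ⟨by omega, fun j hj => ?_⟩, ?_⟩,
    MProcA_root ⟨hst, ?_⟩ ⟨hRR.1, ?_⟩⟩
  · by_cases h6 : j = i
    · subst h6
      rw [MProcA_upd_self, if_neg (by omega), if_pos rfl, decide_eq_false (by omega), h1]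
    by_cases h7 : j = i + 1
    · subst h7
      rw [MProcA_upd_succ, if_neg (by omega), if_neg (by omega), decide_eq_false (by omega), h2]
    · rw [MProcA_upd_ne f _ _ h6 h7, hM.2 j hj]
      by_cases h8 : j < i
      · rw [if_pos h8, if_pos (by omega)]
      · rw [if_neg h8, if_neg h6, if_neg (by omega), if_neg h7]
  · cases h5 with
    | fld hf =>
      obtain ⟨hT, hlt, hth, -⟩ := hS
      obtain rfl := hti hT hth
      have hk := key hT (fun _ => Or.inl hf)
      refine ⟨by rw [min_eq_right hlt.le]; exact hk, ?_, le_rfl⟩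
      rcases hT.hk with ⟨h6, rfl⟩ | ⟨-, -, rfl⟩
      · rw [h6]; exact Nat.one_pos
      · exact lt_of_lt_of_le hlt (be_le_endc _)
    | mid hf htag hxy =>
      obtain ⟨hT, hte, hth, -⟩ := hS
      obtain rfl := hti hT hth
      have hge : be ≤ i := not_lt.1 fun h6 => hf (sg_fld.2 h6)
      have hk := key hT (same hT hxy)
      rw [min_eq_left (show be ≤ i + 1 by omega), ← min_eq_left hge] at hk
      exact ⟨hk, hte, le_rfl⟩
    | swap htag hk0 =>
      subst hk0
      obtain ⟨hT, hte, hth, -⟩ := hS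
      obtain rfl := hti hT hth
      have h6 := tag_eq_two.1 htag
      have hge : be ≤ i := le_trans hbl.le (le_trans (Nat.le_add_right _ _) h6.1)
      have hk := key hT (fun _ => Or.inr ⟨htag, hst ▸ MProcA_tg hT hge (by omega) hiQ⟩)
      rw [min_eq_left (show be ≤ i + 1 by omega), ← min_eq_left hge] at hk
      exact ⟨hk, hte, le_rfl⟩
    | eq htag hk0 hxy =>
      subst hk0
      obtain ⟨hT, hte, hth, -⟩ := hS
      obtain rfl := hti hT hth
      have h6 := tag_eq_two.1 htag
      have hge : be ≤ i := le_trans hbl.le (le_trans (Nat.le_add_right _ _) h6.1)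
      have hk := key hT (same hT hxy)
      rw [min_eq_left (show be ≤ i + 1 by omega), ← min_eq_left hge] at hk
      exact ⟨hk, hte, le_rfl⟩
  · unfold root
    rw [h3, h4, hdn, hbt]
    cases m' <;> rfl
  · unfold root
    rw [hRR.2.1, hRR.2.2.1]

end Crest.Agent.R176
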