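import Crest.Agent.R176.MSem

/-! # R176: valid double zones are closed under the table look-up.  `sg_est`, `prog_base`, `base_lt`; for `k = none` the entry is chosen now -/

noncomputable section

namespace Crest.Agent.R176

open Classical

set_option linter.unusedSectionVars false

variable {b : ℕ} {f : ℕ → Ce} {g : ℕ → Fin (2 ^ b)} {m : Bool} {i : ℕ}

theorem MProcB_inv {σ : Sg} {L R L' R' : Ce} (h : FB σ L R L' R') :
    ∃ (m : Bool) (k : Option Kind) (k' : Kind) (nt : Fin 4) (nx : Bool), σ.tag = 0 ∧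
      L.mk' = Mk.run false m k (Sub.B σ.pr.lo σ.pr.ln σ.pr.sL nt nx) ∧ R.mk' = Mk.l false ∧
      ((k = none ∧ σ.est ∧ L.ep = 0 ∧ k' = σ.pr.kind) ∨ (k = some k' ∧ ¬ σ.est ∧ L.ep = 1)) ∧
      R.ep = 0 ∧ L'.mk' = Mk.r false ∧ L'.ep = 2 ∧
      R'.mk' = Mk.run false m (some k') (Sub.C true σ.pr.ro σ.pr.rn σ.pr.sR nt nx) ∧ R'.ep = 1 ∧
      (L'.st = L.st ∧ L'.bit = L.bit ∧ L'.dn = L.dn) ∧
      (R'.st = R.st ∧ R'.bit = R.bit ∧ R'.dn = R.dn) := by
  cases h with
  | mk m k k' nt nx h1 h2 h3 h4 h5 h6 =>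
    exact ⟨m, k, k', nt, nx, h1, h2, h3, h6, h5, rfl, rfl, rfl, rfl, ⟨rfl, rfl, rfl⟩, rfl, rfl, rfl⟩

theorem MProcB_upd {L R : Ce} (hL : L.st = (f i).st ∧ L.bit = (f i).bit ∧ L.dn = (f i).dn)
    (hR : R.st = (f (i + 1)).st ∧ R.bit = (f (i + 1)).bit ∧ R.dn = (f (i + 1)).dn) (j : ℕ) :
    (upd f i L R j).st = (f j).st ∧ (upd f i L R j).bit = (f j).bit ∧
      (upd f i L R j).dn = (f j).dn := by
  unfold upd
  split_ifs with h1 h2
  · rw [h1]; exact hL
  · rw [h2]; exact hR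
  · exact ⟨rfl, rfl, rfl⟩

theorem MProcB_root {f' : ℕ → Ce}
    (h : ∀ j, (f' j).st = (f j).st ∧ (f' j).bit = (f j).bit ∧ (f' j).dn = (f j).dn) :
    SameRoot b f m f' m := fun j _ => ⟨(h j).1, by rw [root, root, (h j).2.1, (h j).2.2]⟩

theorem MProcB_blk {f' : ℕ → Ce} {o α : ℕ}
    (h : ∀ j, (f' j).st = (f j).st ∧ (f' j).bit = (f j).bit ∧ (f' j).dn = (f j).dn)
    (hb : Blk b f g o α) : Blk b f' g o α :=
  ⟨hb.lt, fun p hp => (h _).1.trans (hb.st p hp),
    fun p hp => by rw [BitOK, (h _).1, (h _).2.1]; exact hb.bit p hp, hb.inj⟩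

theorem MProcB_tape {f' : ℕ → Ce} {αL αR e e' t tL u u' : ℕ} {k k' : Option Kind}
    (h : ∀ j, (f' j).st = (f j).st ∧ (f' j).bit = (f j).bit ∧ (f' j).dn = (f j).dn)
    (hT : Tape b f g αL αR k e t tL u) (h1 : ∀ p < Q b, (f' p).ep = epv e' u' p)
    (h2 : ∀ p, f' (Q b + p) = f (Q b + p)) (h3 : ∀ p < t, f' p = f p)
    (h4 : (u' = 0 ∧ k' = none) ∨ (0 < u' ∧ e' < nT ∧ k' = some (ent e').kind))
    (h5 : t = 0 ∨ (k' = k ∧ e' = e)) : Tape b f' g αL αR k' e' t tL u' where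
  blkL := MProcB_blk h hT.blkL
  blkR := MProcB_blk h hT.blkR
  dnL := fun p hp => by rw [(h p).2.2]; exact hT.dnL p hp
  dnR := fun p hp => by rw [h2]; exact hT.dnR p hp
  epL := h1
  epR := fun p hp => by rw [h2]; exact hT.epR p hp
  hk := h4
  col := fun s hs => by
    rcases h5 with rfl | ⟨rfl, rfl⟩
    · omega
    · rw [h2, h3 s hs]; exact hT.col s hs

theorem MProcB_head {hp j : ℕ} {k k' : Option Kind} {sub sub' : Sub} {m' : Bool}
    (h : Marks2 b f hp m k sub) (hj : j < 2 * Q b) (e : (f j).mk' = Mk.run false m' k' sub') :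
    hp = j ∧ j < Q b ∧ m' = m ∧ k' = k ∧ sub' = sub := by
  rw [h.2 j hj] at e
  split_ifs at e with h1 h2
  simp only [Mk.run.injEq, decide_eq_false_iff_not, not_le] at e
  exact ⟨h2.symm, e.1, e.2.1.symm, e.2.2.1.symm, e.2.2.2.symm⟩

theorem MProcB_epv {e t p : ℕ} (h1 : p ≠ base e + t) (h2 : p ≠ base e + t + 1) :
    epv e (t + 1) p = epv e t p := by
  unfold epv
  rw [if_neg (Nat.succ_ne_zero t), if_neg (show ¬ p = base e + (t + 1) from h2), if_neg h1]
  by_cases h : base e ≤ p ∧ p < base e + t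
  · rw [if_pos h, if_pos (by omega), if_neg (by omega)]
  · rw [if_neg h, if_neg (by omega), ite_self]

theorem procB_fwd {L R : Ce} (h : Inv2 b f g m) (hi : i + 1 < 2 * Q b)
    (hs : FB (sgz b i) (f i) (f (i + 1)) L R) :
    Inv2 b (upd f i L R) g m ∧ SameRoot b f m (upd f i L R) m := by
  obtain ⟨m', k, k', nt, nx, s1, s2, s3, s4, s5, s6, s7, s8, s9, sL, sR⟩ := MProcB_inv hs
  have hu := MProcB_upd sL sR
  refine ⟨?_, MProcB_root hu⟩
  obtain ⟨αL, αR, k₀, e, t, hp, sub, hM, hS⟩ := h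
  obtain ⟨rfl, hQ, rfl, rfl, rfl⟩ := MProcB_head hM (by omega) s2
  have hQ' : hp + 1 < Q b := by
    have := hM.2 (hp + 1) hi
    rw [s3, if_neg (by omega), if_neg (by omega)] at this
    simpa using this
  rw [sgz_left hQ] at s1 s4 s8 hS
  have hl : hp < ell := tag_eq_zero.1 s1
  rw [sg_pr hl] at s4 s8 hS
  obtain ⟨hT, t1, t2, -, -, t3, t4, t5, t6, t7⟩ := hS
  obtain ⟨e', he', hb, hk', he⟩ : ∃ e' < nT, hp = base e' + t ∧ k' = (ent e').kind ∧
      (t = 0 ∨ (some k' = k ∧ e' = e)) := by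
    rcases s4 with ⟨rfl, a1, -, rfl⟩ | ⟨rfl, -, a1⟩
    · obtain ⟨e', he', rfl⟩ := sg_est.1 a1
      obtain ⟨rfl, -⟩ | ⟨-, -, a2⟩ := hT.hk
      · exact ⟨e', he', rfl, (prog_base (e := e') be_pos).1, Or.inl rfl⟩
      · cases a2
    · obtain ⟨-, a2⟩ | ⟨a2, a3, a4⟩ := hT.hk
      · cases a2
      · refine ⟨e, a3, ?_, Option.some.inj a4, Or.inr ⟨rfl, rfl⟩⟩
        rw [hT.epL hp hQ, epv] at a1
        split_ifs at a1 with b1 b2 b3 <;> first | exact b3 | exact absurd a1 (by decide)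
  have hft : ∀ p ≤ t, upd f hp L R p = f p := fun p h => by
    rw [upd, if_neg (by omega), if_neg (by omega)]
  refine ⟨αL, αR, some k', e', t, hp + 1, Sub.C true (prog hp).ro (prog hp).rn (prog hp).sR nt nx,
    ⟨hi, fun j hj => ?_⟩, ?_, t1.trans_le (be_le_endc _), by omega, by omega, by simp [t1],
    fun _ => by omega, fun _ => by omega, ?_⟩
  · unfold upd
    by_cases h1 : j = hp
    · rw [if_pos h1, if_pos (by omega), s6, decide_eq_false (by omega)]
    by_cases h2 : j = hp + 1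
    · rw [if_neg h1, if_pos h2, if_neg (by omega), if_pos h2, s8, decide_eq_false (by omega)]
    · rw [if_neg h1, if_neg h2, hM.2 j hj]
      split_ifs <;> first | rfl | omega
  · rw [min_eq_right t1]
    refine MProcB_tape hu hT (fun p hp' => ?_) (fun p => ?_) (fun p h => hft p h.le)
      (Or.inr ⟨by omega, he', by rw [hk']⟩) he
    · unfold upd
      by_cases h1 : p = hp
      · rw [if_pos h1, s7, epv, if_neg (by omega), if_pos (by omega)]
      by_cases h2 : p = hp + 1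
      · rw [if_neg h1, if_pos h2, s9, epv, if_neg (by omega), if_neg (by omega), if_pos (by omega)]
      · rw [if_neg h1, if_neg h2, hT.epL p hp', MProcB_epv (by omega) (by omega)]
        rcases he with rfl | ⟨-, rfl⟩ <;> simp [epv]
    · rw [upd, if_neg (by omega), if_neg (by omega)]
  · rw [hft t le_rfl]
    have := be_lt_ell
    refine ⟨t6, t7, _, t3, fun _ => ?_, fun _ => by omega, fun h => ?_⟩
    · rw [← hb]
      exact ⟨t5.symm, rfl, t4.symm, rfl, rfl, rfl⟩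
    · exact absurd (le_trans (Nat.le_add_right _ _) h) (by omega)

theorem procB_bwd {L R : Ce} (h : Inv2 b f g m) (hi : i + 1 < 2 * Q b)
    (hs : FB (sgz b i) L R (f i) (f (i + 1))) :
    Inv2 b (upd f i L R) g m ∧ SameRoot b f m (upd f i L R) m := by
  obtain ⟨m', k, k', nt, nx, s1, s2, s3, s4, s5, s6, s7, s8, s9, sL, sR⟩ := MProcB_inv hs
  have hu := MProcB_upd ⟨sL.1.symm, sL.2.1.symm, sL.2.2.symm⟩ ⟨sR.1.symm, sR.2.1.symm, sR.2.2.symm⟩
  refine ⟨?_, MProcB_root hu⟩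
  obtain ⟨αL, αR, k₀, e, t, hp, sub, hM, hS⟩ := h
  obtain ⟨rfl, hQ', rfl, rfl, rfl⟩ := MProcB_head hM hi s8
  have hQ : i < Q b := by omega
  rw [sgz_left hQ] at s1 s2 s4 hS
  have hl : i < ell := tag_eq_zero.1 s1
  rw [sg_pr hl] at s2 s4 hS
  obtain ⟨hT, -, -, -, t1, -, -, t6, t7, xL, hH⟩ := hS
  replace t1 : t < be := by simpa using t1
  rw [min_eq_right t1] at hT
  obtain ⟨he, hk'⟩ : e < nT ∧ some k' = some (ent e).kind := by
    obtain ⟨a1, -⟩ | ⟨-, a2⟩ := hT.hk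
    · omega
    · exact a2
  have hb : i = base e + t := by
    rw [hT.epL _ hQ', epv] at s9
    split_ifs at s9 with b1 b2 b3 <;> omega
  have hbe := be_le_base e
  have hk : (t = 0 ∧ k = none ∧ L.ep = 0) ∨ (0 < t ∧ k = some k' ∧ L.ep = 1) := by
    rcases s4 with ⟨rfl, a1, a2, -⟩ | ⟨rfl, a1, a2⟩
    · obtain ⟨e', -, a3⟩ := sg_est.1 a1
      refine Or.inl ⟨?_, rfl, a2⟩
      have a4 : (base e + t) % be = base e' % be := by rw [← hb, a3]
      simpa [base, Nat.add_mod, Nat.mod_eq_of_lt t1] using a4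
    · refine Or.inr ⟨Nat.pos_of_ne_zero fun h => a1 (sg_est.2 ⟨e, he, by omega⟩), rfl, a2⟩
  have hft : ∀ p ≤ t, upd f i L R p = f p := fun p h => by
    rw [upd, if_neg (by omega), if_neg (by omega)]
  obtain ⟨c1, c2, c3, -⟩ := hH.fld t1
  rw [← hb] at c1 c2 c3
  refine ⟨αL, αR, k, e, t, i, Sub.B (prog i).lo (prog i).ln (prog i).sL nt nx,
    ⟨by omega, fun j hj => ?_⟩, ?_, t1, by omega, hQ, fun _ => hb.le, ?_⟩
  · unfold upd
    by_cases h1 : j = i
    · rw [if_pos h1, if_neg (by omega), if_pos h1, s2, decide_eq_false (by omega)]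
    by_cases h2 : j = i + 1
    · rw [if_neg h1, if_pos h2, if_neg (by omega), if_neg h1, s3, decide_eq_false (by omega)]
    · rw [if_neg h1, if_neg h2, hM.2 j hj]
      split_ifs <;> first | rfl | omega
  · refine MProcB_tape hu hT (fun p hp' => ?_) (fun p => ?_) (fun p h => hft p h.le) ?_ ?_
    · unfold upd
      by_cases h1 : p = i
      · rw [if_pos h1, epv]
        rcases hk with ⟨a1, -, a2⟩ | ⟨a1, -, a2⟩
        · rw [a2, if_pos a1]
        · rw [a2, if_neg (by omega), if_neg (by omega), if_pos (by omega)]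
      by_cases h2 : p = i + 1
      · rw [if_neg h1, if_pos h2, s5, epv]
        split_ifs <;> first | rfl | omega
      · rw [if_neg h1, if_neg h2, hT.epL p hp', MProcB_epv (by omega) (by omega)]
    · rw [upd, if_neg (by omega), if_neg (by omega)]
    · rcases hk with ⟨a1, a2, -⟩ | ⟨a1, a2, -⟩
      · exact Or.inl ⟨a1, a2⟩
      · exact Or.inr ⟨a1, he, a2.trans hk'⟩
    · rcases hk with ⟨a1, -, -⟩ | ⟨-, a2, -⟩
      · exact Or.inl a1
      · exact Or.inr ⟨a2, rfl⟩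
  · rw [hft t le_rfl]
    exact ⟨c2 ▸ hH.dn, c3.symm, c1.symm, t6, t7⟩

end Crest.Agent.R176
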