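import Crest.Agent.R176.MSem

/-! # R176: valid double zones are closed under processing a right cell.  The head is at `Q b + t`; `sg_endC`, `Tape.tag_three` -/

noncomputable section

namespace Crest.Agent.R176

open Classical

set_option linter.unusedSectionVars false

variable {b : ℕ} {f : ℕ → Ce} {g : ℕ → Fin (2 ^ b)} {m : Bool} {i : ℕ}

theorem MProcC_upd_ne {L : Ce} {j : ℕ} (hj : j ≠ i) : upd f i L (f (i + 1)) j = f j := by
  unfold upd
  rw [if_neg hj]
  split_ifs with h
  · rw [h]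
  · rfl

theorem MProcC_upd_eq {L R : Ce} : upd f i L R i = L := if_pos rfl

/-- the position of a running head of the second block -/
theorem MProcC_head {hp : ℕ} {k k' : Option Kind} {sub sub' : Sub} {m' : Bool}
    (h : Marks2 b f hp m k sub) (hi : i < 2 * Q b) (hm : (f i).mk' = Mk.run true m' k' sub') :
    i = hp ∧ Q b ≤ i ∧ m' = m ∧ k' = k ∧ sub' = sub := by
  have h1 := h.2 i hi
  rw [hm] at h1
  split_ifs at h1 with h2 h3
  simp only [Mk.run.injEq, Bool.true_eq, decide_eq_true_eq] at h1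
  exact ⟨h3, h1.1, h1.2.1, h1.2.2.1, h1.2.2.2⟩

theorem MProcC_marks {k : Option Kind} {sub sub' : Sub} {L : Ce}
    (h : Marks2 b f i m k sub) (hq : Q b ≤ i) (hL : L.mk' = Mk.run true m k sub') :
    Marks2 b (upd f i L (f (i + 1))) i m k sub' := by
  refine ⟨h.1, fun j hj => ?_⟩
  by_cases hji : j = i
  · subst hji
    rw [MProcC_upd_eq, hL]
    simp [hq]
  · rw [MProcC_upd_ne hji, h.2 j hj, if_neg hji, if_neg hji]

theorem MProcC_root {p : ℕ} {L : Ce} (hst : L.st = (f p).st) (hr : root m L = root m (f p)) :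
    SameRoot b f m (upd f p L (f (p + 1))) m := by
  intro j _
  by_cases hj : j = p
  · subst hj
    rw [MProcC_upd_eq]
    exact ⟨hst, hr⟩
  · rw [MProcC_upd_ne hj]
    exact ⟨rfl, rfl⟩

/-- changing one cell of the right block -/
theorem MProcC_tape {αL αR e t t' tL u p : ℕ} {k : Option Kind} {L : Ce}
    (h : Tape b f g αL αR k e t tL u) (hp : p < Q b) (hst : L.st = (f (Q b + p)).st)
    (hep : L.ep = (f (Q b + p)).ep) (hbit : BitOK (sg b p) L) (hdn : L.dn ≠ none ↔ p < t')
    (ht : ∀ q, q ≠ p → (q < t' ↔ q < t)) (ht' : t' ≤ Q b)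
    (hc : p < t' → ColOK b k e p (f p) L) :
    Tape b (upd f (Q b + p) L (f (Q b + p + 1))) g αL αR k e t' tL u := by
  have hl : ∀ q < Q b, upd f (Q b + p) L (f (Q b + p + 1)) q = f q := fun q hq =>
    MProcC_upd_ne (by omega)
  have hr : ∀ q, q ≠ p → upd f (Q b + p) L (f (Q b + p + 1)) (Q b + q) = f (Q b + q) :=
    fun q hq => MProcC_upd_ne (by omega)
  refine ⟨⟨h.blkL.lt, fun q hq => ?_, fun q hq => ?_, h.blkL.inj⟩,
    ⟨h.blkR.lt, fun q hq => ?_, fun q hq => ?_, h.blkR.inj⟩, fun q hq => ?_, fun q hq => ?_,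
    fun q hq => ?_, fun q hq => ?_, h.hk, fun q hq => ?_⟩
  · rw [hl _ (by omega)]; exact h.blkL.st q hq
  · rw [hl _ (by omega)]; exact h.blkL.bit q hq
  · by_cases hqp : q = p
    · subst hqp; rw [MProcC_upd_eq, hst]; exact h.blkR.st q hq
    · rw [hr q hqp]; exact h.blkR.st q hq
  · by_cases hqp : q = p
    · subst hqp; rw [MProcC_upd_eq]; exact hbit
    · rw [hr q hqp]; exact h.blkR.bit q hq
  · rw [hl q hq]; exact h.dnL q hq
  · by_cases hqp : q = p
    · subst hqp; rw [MProcC_upd_eq]; exact hdn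
    · rw [hr q hqp, ht q hqp]; exact h.dnR q hq
  · rw [hl q hq]; exact h.epL q hq
  · by_cases hqp : q = p
    · subst hqp; rw [MProcC_upd_eq, hep]; exact h.epR q hq
    · rw [hr q hqp]; exact h.epR q hq
  · rw [hl q (by omega)]
    by_cases hqp : q = p
    · subst hqp; rw [MProcC_upd_eq]; exact hc hq
    · rw [hr q hqp]; exact h.col q ((ht q hqp).1 hq)

/-- the bits written on the right block are admissible -/
theorem MProcC_bit {αL αR e t tL u p : ℕ} {k : Option Kind} {L L0 : Ce} {xL x y s : Bool}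
    (h : Tape b f g αL αR k e t tL u) (hu : 0 < u) (hpt : p ≤ t) (hp : p < endc b k)
    (hH : Half b k e p L0 xL x y s) (hst : L.st = (f (Q b + p)).st)
    (hb : L.bit = x ∨ L.bit = y) : BitOK (sg b p) L := by
  intro hbit
  have h1 := endc_le (b := b) k
  have h2 := be_lt_ell
  by_cases h3 : p < be
  · exact Or.inl (sg_fld.2 h3)
  by_cases h4 : p < ell + 2 ^ b
  · obtain ⟨-, hx, hy⟩ := hH.mid (by omega) h4
    rw [hx, hy, hbit] at hb
    simp at hb
  · refine Or.inr ⟨tag_eq_two.2 ⟨by omega, by omega⟩, ?_⟩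
    have hk : k = some Kind.swap ∨ k = some Kind.eq :=
      (hH.top (by omega)).imp (fun h => h.1) (fun h => h.1)
    have hq : p < Q b := by unfold Q; omega
    rw [hst, h.blkR.st p hq]
    exact (h.tag_three (by omega) hu hk).2.1

theorem MProcC_half {e p : ℕ} {k : Option Kind} {L0 : Ce} {xL x y s s' : Bool}
    (hH : Half b k e p L0 xL x y s) (hs : p < be → s = s') : Half b k e p L0 xL x y s' :=
  ⟨hH.dn, fun h => hs h ▸ hH.fld h, hH.mid, hH.top⟩

theorem procC_fwd {L R : Ce} (h : Inv2 b f g m) (hi : i + 1 < 2 * Q b)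
    (hs : FC (sgz b i) (f i) (f (i + 1)) L R) :
    Inv2 b (upd f i L R) g m ∧ SameRoot b f m (upd f i L R) m := by
  obtain ⟨αL, αR, k, e, t, hp, sub, hM, hS⟩ := h
  generalize hL0 : f i = L0 at hs
  generalize hR0 : f (i + 1) = R0 at hs
  obtain ⟨m', k', x, y, -, hmk, hdn, -, hbit⟩ := hs
  subst hL0 hR0
  obtain ⟨rfl, hq, rfl, rfl, rfl⟩ := MProcC_head hM (by omega) hmk
  obtain ⟨hT, ht, -, hle, -, -, -, hnt, hnx, xL, hH⟩ := hS
  obtain ⟨p, rfl⟩ := Nat.exists_eq_add_of_le hq
  have hp : p < Q b := by omega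
  have hpt : p = t := by
    have := hT.dnR p hp
    rw [hdn] at this
    simp only [ne_eq, not_true_eq_false, false_iff, not_lt] at this
    omega
  subst hpt
  rw [sgz_right hp] at hH ⊢
  have hu : 0 < min be (p + 1) := lt_min be_pos (by omega)
  have hT' : ∀ mk : Mk, Tape b (upd f (Q b + p)
      { f (Q b + p) with mk' := mk, dn := some x, bit := y } (f (Q b + p + 1))) g αL αR k' e
      (p + 1) (p + 1) (min be (p + 1)) := fun mk =>
    MProcC_tape hT hp rfl rfl (MProcC_bit hT hu le_rfl ht hH rfl (Or.inr rfl)) (by simp)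
      (fun q hq => by omega) (by omega)
      (fun _ => ⟨hnt, hnx, xL, x, rfl, MProcC_half hH fun h => by rw [if_pos (sg_fld.2 h)]⟩)
  obtain ⟨k0, rfl⟩ : ∃ k0, k' = some k0 := by
    rcases hT.hk with h | h
    · omega
    · exact ⟨_, h.2.2⟩
  refine ⟨⟨αL, αR, some k0, e, p + 1, Q b + p, _, MProcC_marks hM hq rfl, ?_⟩,
    MProcC_root rfl ?_⟩
  · by_cases hE : EndC (some k0) (sg b p)
    · simp only [if_pos hE]
      exact ⟨hT' _, by simp, (sg_endC k0).1 hE, by omega⟩
    · simp only [if_neg hE]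
      have := mt (sg_endC (b := b) (p := p) k0).2 hE
      exact ⟨hT' _, by omega, by omega⟩
  · unfold root
    rw [hdn, hbit]
    cases m' <;> simp

theorem procC_bwd {L R : Ce} (h : Inv2 b f g m) (hi : i + 1 < 2 * Q b)
    (hs : FC (sgz b i) L R (f i) (f (i + 1))) :
    Inv2 b (upd f i L R) g m ∧ SameRoot b f m (upd f i L R) m := by
  obtain ⟨αL, αR, k, e, t, hp, sub, hM, hS⟩ := h
  generalize hL0 : f i = L0 at hs
  generalize hR0 : f (i + 1) = R0 at hs
  obtain ⟨m', k', x, y, -, hmk, hdn, hdnR, hbit⟩ := hs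
  subst hR0
  have e1 : (f i).mk' = Mk.run true m' k' (if EndC k' (sgz b i) then Sub.F else Sub.D) := by
    rw [hL0]
  have e2 : L.st = (f i).st := by rw [hL0]
  have e3 : L.ep = (f i).ep := by rw [hL0]
  have e4 : (f i).dn = some x := by rw [hL0]
  have e5 : (f i).bit = y := by rw [hL0]
  obtain ⟨rfl, hq, rfl, rfl, hsub⟩ := MProcC_head hM (by omega) e1
  have hT : Tape b f g αL αR k' e t t (min be t) ∧ t ≤ endc b k' := by
    subst hsub
    split_ifs at hS
    · exact ⟨hS.1, hS.2.2.1.le⟩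
    · exact ⟨hS.1, hS.2.1.le⟩
  obtain ⟨hT, ht⟩ := hT
  obtain ⟨p, rfl⟩ := Nat.exists_eq_add_of_le hq
  have hp : p < Q b := by omega
  have hpt : t = p + 1 := by
    have h1 := hT.dnR p hp
    have h2 := hT.dnR (p + 1) (by omega)
    rw [e4] at h1
    rw [← add_assoc, hdnR] at h2
    simp only [ne_eq, not_true_eq_false, false_iff, not_lt, reduceCtorEq, not_false_eq_true,
      true_iff] at h1 h2
    omega
  subst hpt
  rw [sgz_right hp] at hmk
  have hu : 0 < min be (p + 1) := lt_min be_pos (by omega)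
  obtain ⟨hnt, hnx, xL, xR, hxR, hH⟩ := hT.col p (by omega)
  rw [e4] at hxR
  obtain rfl : x = xR := Option.some.inj hxR
  rw [e5, ← e2] at hH
  rw [← e2] at hnt hnx
  have hl : upd f (Q b + p) L (f (Q b + p + 1)) p = f p := MProcC_upd_ne (by omega)
  have he : e < nT := by
    rcases hT.hk with h | h
    · omega
    · exact h.2.1
  refine ⟨⟨αL, αR, k', e, p, Q b + p, _, MProcC_marks hM hq hmk, ?_⟩, MProcC_root e2 ?_⟩
  · refine ⟨MProcC_tape hT hp e2 e3
      (MProcC_bit hT hu (by omega) (by omega) hH e2 (by rw [hbit]; cases m' <;> simp))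
      (by simp [hdn]) (fun q hq => by omega) hp.le (fun h => absurd h (lt_irrefl _)),
      by omega, by omega, le_rfl, by simp only [sg_fld], fun h => ?_, fun h => ?_, ?_⟩
    · have h1 := base_lt he h.le
      unfold Q
      omega
    · rw [if_neg fun h' => absurd (sg_fld.1 h') (by omega)]
    · rw [hl]
      exact ⟨hnt, hnx, xL, MProcC_half hH fun h => by rw [if_pos (sg_fld.2 h)]⟩
  · unfold root
    rw [hdn, hbit, e4, e5]
    cases m' <;> simp

end Crest.Agent.R176
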