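import Crest.Agent.R176.MSingle
import Crest.Agent.R176.MMove
import Crest.Agent.R176.MProcA
import Crest.Agent.R176.MProcB
import Crest.Agent.R176.MProcC
import Crest.Agent.R176.MPred

/-! # R176: double zones roll back to two clean blocks -/

noncomputable section

namespace Crest.Agent.R176

open Classical

set_option linter.unusedSectionVars false

variable {b : ℕ} {f : ℕ → Ce} {g : ℕ → Fin (2 ^ b)} {m : Bool} {i : ℕ}

theorem fwd2 {L R : Ce} (h : Inv2 b f g m) (hi : i + 1 < 2 * Q b)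
    (hs : Fwd (sgz b i) (f i) (f (i + 1)) L R) :
    Inv2 b (upd f i L R) g m ∧ SameRoot b f m (upd f i L R) m := by
  rcases hs with hs | hs | hs | hs | hs
  · exact absurd hs (not_merge h hi)
  · exact move_fwd h hi hs
  · exact procA_fwd h hi hs
  · exact procB_fwd h hi hs
  · exact procC_fwd h hi hs

theorem bwd2 {L R : Ce} (h : Inv2 b f g m) (hi : i + 1 < 2 * Q b)
    (hs : Fwd (sgz b i) L R (f i) (f (i + 1))) :
    (Inv2 b (upd f i L R) g m ∧ SameRoot b f m (upd f i L R) m) ∨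
    (i + 1 = Q b ∧ Inv1 b (upd f i L R) g ∧ Inv1 b (shiftQ b (upd f i L R)) (shiftQ b g) ∧
      SameRoot b f m (upd f i L R) true) := by
  rcases hs with hs | hs | hs | hs | hs
  · exact Or.inr (merge_bwd h hi hs)
  · exact Or.inl (move_bwd h hi hs)
  · exact Or.inl (procA_bwd h hi hs)
  · exact Or.inl (procB_bwd h hi hs)
  · exact Or.inl (procC_bwd h hi hs)

/-- weight of a cell -/
def wt (c : Ce) : ℕ :=
  (if c.dn = none then 0 else 8) + match c.mk' with
    | Mk.run _ _ _ Sub.D => 1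
    | Mk.run _ _ _ Sub.A => 2
    | Mk.run _ _ _ (Sub.B _ _ _ _ _) => 3
    | Mk.run _ _ _ (Sub.C _ _ _ _ _ _) => 4
    | Mk.run _ _ _ Sub.F => 1
    | _ => 0

/-- progress of the head in its direction -/
def pt (N i : ℕ) (c : Ce) : ℕ :=
  match c.mk' with
  | Mk.run _ _ _ Sub.D => N - i
  | Mk.run _ _ _ _ => i
  | _ => 0

def Phi (N : ℕ) (f : ℕ → Ce) : ℕ := ∑ i ∈ Finset.range N, ((N + 1) * wt (f i) + pt N i (f i))

/-- every forward step increases the potential (`cases` on the rule, then arithmetic) -/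
theorem pair_lt {σ : Sg} {N : ℕ} {L R L' R' : Ce} (hi : i + 1 < N) (hs : Fwd σ L R L' R') :
    (N + 1) * wt L + pt N i L + ((N + 1) * wt R + pt N (i + 1) R) <
      (N + 1) * wt L' + pt N i L' + ((N + 1) * wt R' + pt N (i + 1) R') := by
  rcases hs with h | h | h | h | h
  · cases h with
    | mk m h1 h2 h3 => simp only [wt, pt, h2, h3]; split_ifs <;> omega
  · cases h with
    | dmove ρ ρ' m k h1 h2 => simp only [wt, pt, h1, h2]; split_ifs <;> omega
    | turn m k h1 h2 =>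
      refine Nat.add_lt_add_right ?_ _
      simp only [wt, pt, h2]; split_ifs <;> omega
    | amove m k h1 h2 h3 => simp only [wt, pt, h2, h3]; split_ifs <;> omega
    | bmove m k x y s nt nx h1 h2 h3 => simp only [wt, pt, h2, h3]; split_ifs <;> omega
    | cmove ρ ρ' m k f x y s nt nx h2 h3 => simp only [wt, pt, h2, h3]; split_ifs <;> omega
  · cases h with
    | mk m k x y sub h1 h2 h3 h4 =>
      cases sub <;> simp only [wt, pt, h2, h3, h4, reduceCtorEq, if_true, if_false] <;>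
        split_ifs <;> omega
  · cases h with
    | mk m k k' nt nx h1 h2 h3 => simp only [wt, pt, h2, h3]; split_ifs <;> omega
  · cases h with
    | mk m k x y h1 h2 h3 =>
      refine Nat.add_lt_add_right ?_ _
      by_cases h4 : EndC k σ
      · simp only [wt, pt, h2, h3, h4, reduceCtorEq, if_true, if_false]; omega
      · simp only [wt, pt, h2, h3, h4, reduceCtorEq, if_true, if_false]; omega

theorem MRoll_sum_lt {N : ℕ} {F G : ℕ → ℕ} (hi : i + 1 < N)
    (h : ∀ j, j ≠ i → j ≠ i + 1 → F j = G j) (hlt : F i + F (i + 1) < G i + G (i + 1)) :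
    ∑ j ∈ Finset.range N, F j < ∑ j ∈ Finset.range N, G j := by
  have h1 : i ∈ Finset.range N := Finset.mem_range.2 (by omega)
  have h2 : i + 1 ∈ (Finset.range N).erase i :=
    Finset.mem_erase.2 ⟨by omega, Finset.mem_range.2 hi⟩
  rw [← Finset.add_sum_erase _ F h1, ← Finset.add_sum_erase _ G h1,
    ← Finset.add_sum_erase _ F h2, ← Finset.add_sum_erase _ G h2]
  have h3 : ∑ j ∈ ((Finset.range N).erase i).erase (i + 1), F j =
      ∑ j ∈ ((Finset.range N).erase i).erase (i + 1), G j :=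
    Finset.sum_congr rfl fun j hj =>
      h j (Finset.ne_of_mem_erase (Finset.mem_of_mem_erase hj)) (Finset.ne_of_mem_erase hj)
  omega

theorem MRoll_upd_self {α : Type} (f : ℕ → α) (i : ℕ) (L R : α) : upd f i L R i = L := by
  simp [upd]

theorem MRoll_upd_succ {α : Type} (f : ℕ → α) (i : ℕ) (L R : α) : upd f i L R (i + 1) = R := by
  simp [upd]

theorem MRoll_upd_ne {α : Type} (f : ℕ → α) {i j : ℕ} (L R : α) (h1 : j ≠ i) (h2 : j ≠ i + 1) :
    upd f i L R j = f j := by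
  simp [upd, h1, h2]

theorem MRoll_upd_upd {α : Type} (f : ℕ → α) (i : ℕ) (L R : α) :
    upd (upd f i L R) i (f i) (f (i + 1)) = f := by
  funext j
  simp only [upd]
  split_ifs with h1 h2
  · rw [h1]
  · rw [h2]
  · rfl

theorem Phi_lt {σ : Sg} {N : ℕ} {L R : Ce} (hi : i + 1 < N) (hs : Fwd σ L R (f i) (f (i + 1))) :
    Phi N (upd f i L R) < Phi N f := by
  refine MRoll_sum_lt hi (fun j h1 h2 => by rw [MRoll_upd_ne f L R h1 h2]) ?_
  rw [MRoll_upd_self, MRoll_upd_succ]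
  exact pair_lt hi hs

/-- undoing a step -/
theorem eqv_back {L R : Ce} (hi : i + 1 < 2 * Q b) (hs : Fwd (sgz b i) L R (f i) (f (i + 1))) :
    (sys b).Eqv (word b 2 (upd f i L R) g) (word b 2 f g) := by
  have := eqv_plain (T := 2) (f := upd f i L R) (g := g) hi (L := f i) (R := f (i + 1))
    (Or.inl (by rw [MRoll_upd_self, MRoll_upd_succ]; exact hs))
  rwa [MRoll_upd_upd] at this

/-- Recipe: strong induction on `Phi (2 * Q b) f`; `pred2` (`SubOK.tape` for the bound), `bwd2`,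
`eqv_back`; in the merging case `word_two`, `roll1` twice, `ltr_congr`, `SameRoot.ltr`. -/
theorem roll2 (h : Inv2 b f g m) :
    (sys b).Eqv (word b 2 f g) (encZ b (ltr b f 0 m) ++ encZ b (ltr b f (Q b) m)) := by
  induction hn : Phi (2 * Q b) f using Nat.strong_induction_on generalizing f with
  | _ n ih =>
  obtain ⟨αL, αR, k, e, t, hp, sub, hm, hs⟩ := id h
  obtain ⟨-, -, -, -, -, -, hQ⟩ := hs.tape
  obtain ⟨i, hi, L, R, hf⟩ : ∃ i, i + 1 < 2 * Q b ∧
      ∃ L R, Fwd (sgz b i) L R (f i) (f (i + 1)) := by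
    rcases pred2 hm hs with ⟨-, h1⟩ | ⟨-, i, rfl, h1⟩
    · exact ⟨hp, hQ, h1⟩
    · exact ⟨i, by omega, h1⟩
  refine (eqv_back hi hf).symm.trans ?_
  rcases bwd2 h hi hf with ⟨h1, h2⟩ | ⟨-, h1, h2, h3⟩
  · rw [← h2.ltr.1, ← h2.ltr.2]
    exact ih _ (hn ▸ Phi_lt hi hf) h1 rfl
  · rw [word_two, ← h3.ltr.1, ← h3.ltr.2]
    have e1 : ltr b (shiftQ b (upd f i L R)) 0 true = ltr b (upd f i L R) (Q b) true :=
      ltr_congr fun p _ => by simp [shiftQ]
    rw [← e1]
    exact (roll1 h1).append (roll1 h2)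

theorem MRoll_inv {σ : Sg} {L R L' R' : Ce} (h : Fwd σ L R L' R') :
    (FMerge σ L R L' R' ∧ σ.last ∧ L.mk' = Mk.idle ∧ R.mk' = Mk.idle ∧
      ∃ m, L'.mk' = Mk.run false m none Sub.D) ∨
    (∃ ρ ρ' m k s k' s', L.mk' = Mk.r ρ ∧ R.mk' = Mk.run ρ' m k s ∧
      L'.mk' = Mk.run ρ m k' s' ∧ R'.mk' = Mk.l ρ') ∨
    (∃ ρ m k s k' s', L.mk' = Mk.run ρ m k s ∧ L'.mk' = Mk.run ρ m k' s' ∧ R' = R) ∨
    (∃ ρ ρ' m k s k' s', L.mk' = Mk.run ρ m k s ∧ R.mk' = Mk.l ρ' ∧
      L'.mk' = Mk.r ρ ∧ R'.mk' = Mk.run ρ' m k' s') := by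
  rcases h with h | h | h | h | h
  · refine Or.inl ⟨h, ?_⟩
    cases h with
    | mk m h1 h2 h3 => exact ⟨h1, h2, h3, m, rfl⟩
  · cases h with
    | dmove ρ ρ' m k h1 h2 => exact Or.inr (Or.inl ⟨_, _, _, _, _, _, _, h1, h2, rfl, rfl⟩)
    | turn m k h1 h2 => exact Or.inr (Or.inr (Or.inl ⟨_, _, _, _, _, _, h2, rfl, rfl⟩))
    | amove m k h1 h2 h3 =>
      exact Or.inr (Or.inr (Or.inr ⟨_, _, _, _, _, _, _, h2, h3, rfl, rfl⟩))
    | bmove m k x y s nt nx h1 h2 h3 =>
      exact Or.inr (Or.inr (Or.inr ⟨_, _, _, _, _, _, _, h2, h3, rfl, rfl⟩))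
    | cmove ρ ρ' m k f x y s nt nx h2 h3 =>
      exact Or.inr (Or.inr (Or.inr ⟨_, _, _, _, _, _, _, h2, h3, rfl, rfl⟩))
  · cases h with
    | mk m k x y sub h1 h2 h3 =>
      exact Or.inr (Or.inr (Or.inr ⟨_, _, _, _, _, _, _, h2, h3, rfl, rfl⟩))
  · cases h with
    | mk m k k' nt nx h1 h2 h3 =>
      exact Or.inr (Or.inr (Or.inr ⟨_, _, _, _, _, _, _, h2, h3, rfl, rfl⟩))
  · cases h with
    | mk m k x y h1 h2 => exact Or.inr (Or.inr (Or.inl ⟨_, _, _, _, _, _, h2, rfl, rfl⟩))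

theorem MRoll_head {hp j : ℕ} {k k' : Option Kind} {sub sub' : Sub} {ρ m' : Bool}
    (h : Marks2 b f hp m k sub) (hj : j < 2 * Q b) (e : (f j).mk' = Mk.run ρ m' k' sub') :
    j = hp ∧ ρ = decide (Q b ≤ j) ∧ m' = m := by
  rw [h.2 j hj] at e
  split_ifs at e with h1 h2
  injection e with e1 e2
  exact ⟨h2, e1.symm, e2.symm⟩

/-- a backward step preserves the shape of the marks (`cases` on the rule; the new pair contains
the running head) -/
theorem Marks2.back {hp : ℕ} {k : Option Kind} {sub : Sub} {L R : Ce} (h : Marks2 b f hp m k sub)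
    (hi : i + 1 < 2 * Q b) (hs : Fwd (sgz b i) L R (f i) (f (i + 1))) :
    (∃ hp' k' sub', Marks2 b (upd f i L R) hp' m k' sub') ∨
    (i + 1 = Q b ∧ FMerge (sgz b i) L R (f i) (f (i + 1)) ∧ Marks1 b (upd f i L R) i ∧
      Marks1 b (shiftQ b (upd f i L R)) 0) := by
  rcases MRoll_inv hs with ⟨h0, h1, h2, h3, m', h4⟩ | ⟨ρ, ρ', m', k1, s1, k2, s2, h1, h2, h3, h4⟩ |
    ⟨ρ, m', k1, s1, k2, s2, h1, h2, h3⟩ | ⟨ρ, ρ', m', k1, s1, k2, s2, h1, h2, h3, h4⟩
  · obtain ⟨rfl, -, -⟩ := MRoll_head h (by omega) h4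
    have hQ := (MPred_last hi).1 h1
    refine Or.inr ⟨hQ, h0, ⟨by omega, fun j hj => ?_⟩, ⟨Q_pos b, fun j hj => ?_⟩⟩
    · rcases lt_or_eq_of_le (show j ≤ i by omega) with h5 | rfl
      · rw [MRoll_upd_ne _ _ _ (by omega) (by omega), if_pos h5, MPred_lt h h5,
          decide_eq_false (by omega)]
      · rw [MRoll_upd_self, h2]; simp
    · rcases Nat.eq_zero_or_pos j with rfl | h5
      · rw [shiftQ, Nat.add_zero, ← hQ, MRoll_upd_succ, h3]; simp
      · rw [shiftQ, MRoll_upd_ne _ _ _ (by omega) (by omega), MPred_gt h (by omega) (by omega),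
          decide_eq_true (by omega), if_neg (by omega), if_neg (by omega)]
  · obtain ⟨rfl, rfl, rfl⟩ := MRoll_head h (by omega) h3
    rw [MPred_gt h (by omega) hi] at h4
    injection h4 with h4
    subst h4
    refine Or.inl ⟨i + 1, k1, s1, hi, fun j hj => ?_⟩
    by_cases h5 : j = i
    · subst h5; rw [MRoll_upd_self, h1]; simp
    by_cases h6 : j = i + 1
    · subst h6; rw [MRoll_upd_succ, h2]; simp
    rw [MRoll_upd_ne _ _ _ h5 h6, h.2 j hj, if_neg h5, if_neg h6]
    by_cases h7 : j < i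
    · rw [if_pos h7, if_pos (by omega)]
    · rw [if_neg h7, if_neg (by omega)]
  · obtain ⟨rfl, rfl, rfl⟩ := MRoll_head h (by omega) h2
    refine Or.inl ⟨i, k1, s1, by omega, fun j hj => ?_⟩
    by_cases h5 : j = i
    · subst h5; rw [MRoll_upd_self, h1]; simp
    by_cases h6 : j = i + 1
    · subst h6; rw [MRoll_upd_succ, ← h3, MPred_gt h (by omega) hi]; simp
    rw [MRoll_upd_ne _ _ _ h5 h6, h.2 j hj, if_neg h5, if_neg h5]
  · obtain ⟨rfl, rfl, rfl⟩ := MRoll_head h hi h4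
    rw [MPred_lt h (by omega)] at h3
    injection h3 with h3
    subst h3
    refine Or.inl ⟨i, k1, s1, by omega, fun j hj => ?_⟩
    by_cases h5 : j = i
    · subst h5; rw [MRoll_upd_self, h1]; simp
    by_cases h6 : j = i + 1
    · subst h6; rw [MRoll_upd_succ, h2]; simp
    rw [MRoll_upd_ne _ _ _ h5 h6, h.2 j hj, if_neg h5, if_neg h6]
    by_cases h7 : j < i
    · rw [if_pos h7, if_pos (by omega)]
    · rw [if_neg h7, if_neg (by omega)]

/-- Recipe: strong induction on `Phi`.  If the word is nonzero the pair `(hp, hp+1)` (if `bsR`) or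
`(hp-1, hp)` (otherwise) lies in the zone (`sg_first`, `sg_last`) and is not `Stuck`
(`zero_of_badC`); go back one step (`Marks2.back`, `eqv_back`), apply the induction hypothesis or
`invalid1` twice (`word_two`), and come forward again (`fwd2`, `merge_fwd`). -/
theorem invalid2 {hp : ℕ} {k : Option Kind} {sub : Sub} (h : Marks2 b f hp m k sub) :
    (sys b).Zero (word b 2 f g) ∨ ∃ m', Inv2 b f g m' := by
  induction hn : Phi (2 * Q b) f using Nat.strong_induction_on generalizing f hp k sub with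
  | _ n ih =>
  by_cases hz : (sys b).Zero (word b 2 f g)
  · exact Or.inl hz
  refine Or.inr ?_
  have hQ := Q_pos b
  obtain ⟨i, hi, L, R, hf⟩ : ∃ i, i + 1 < 2 * Q b ∧
      ∃ L R, Fwd (sgz b i) L R (f i) (f (i + 1)) := by
    by_cases hb : bsR (sgz b hp) (decide (Q b ≤ hp)) sub
    · have h1 : hp + 1 < 2 * Q b := by
        have h2 := h.1
        rcases hb with ⟨-, h3⟩ | ⟨-, h3⟩
        · have : ¬ Q b ≤ hp := by simpa using h3
          omega
        · by_contra h4
          refine h3 ⟨decide_eq_true (by omega), ?_⟩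
          rw [MPred_sgz (by omega) h2, sg_last (by omega)]
          omega
      refine ⟨hp, h1, ?_⟩
      by_contra hc
      exact hz (zero_of_badC h1 (Or.inr (Or.inr (Or.inl
        ⟨Or.inl ⟨_, _, _, _, MPred_eq h, hb⟩, hc⟩))))
    · rcases hp with _ | i
      · exact absurd (Or.inl ⟨by rw [sgz_left hQ, sg_first], decide_eq_false (by omega)⟩) hb
      · refine ⟨i, h.1, ?_⟩
        by_contra hc
        exact hz (zero_of_badC h.1 (Or.inr (Or.inr (Or.inl
          ⟨Or.inr ⟨_, _, _, _, MPred_eq h, hb⟩, hc⟩))))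
  have hz' : ¬ (sys b).Zero (word b 2 (upd f i L R) g) :=
    fun h0 => hz (Sys.Zero.of_eqv (eqv_back hi hf).symm h0)
  rcases h.back hi hf with ⟨hp', k', sub', h1⟩ | ⟨h1, h2, h3, h4⟩
  · obtain ⟨m', h2⟩ := (ih _ (hn ▸ Phi_lt hi hf) h1 rfl).resolve_left hz'
    have := (fwd2 h2 hi (L := f i) (R := f (i + 1))
      (by rw [MRoll_upd_self, MRoll_upd_succ]; exact hf)).1
    rw [MRoll_upd_upd] at this
    exact ⟨m', this⟩
  · rw [word_two] at hz'
    have h5 := (invalid1 (g := g) h3).resolve_left fun h0 => hz' (h0.append_right _)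
    have h6 := (invalid1 (g := shiftQ b g) h4).resolve_left fun h0 => hz' (h0.append_left _)
    obtain ⟨m', h7, -⟩ := merge_fwd h5 h6 h1 (L := f i) (R := f (i + 1))
      (by rw [MRoll_upd_self, MRoll_upd_succ]; exact h2)
    rw [MRoll_upd_upd] at h7
    exact ⟨m', h7⟩

end Crest.Agent.R176
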