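import Crest.Agent.R176.MStatic

/-! # R176: the meaning of a verified tape -/

noncomputable section

namespace Crest.Agent.R176

open Classical

set_option linter.unusedSectionVars false

variable {b : ℕ} {f : ℕ → Ce} {g : ℕ → Fin (2 ^ b)} {αL αR e t tL u : ℕ} {k : Option Kind}

private theorem MSem_lt_Q {p : ℕ} (h : p ≤ ell + 2 * 2 ^ b) : p < Q b := by
  have : 0 < 2 ^ b := by positivity
  unfold Q; omega

private theorem MSem_cbit (c : Cw) (i : Fin be) : cbit c i = c i := by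
  unfold cbit; rw [dif_pos i.2]

/-- once the field area is verified, the entry matches the two letters -/
theorem Tape.entry (h : Tape b f g αL αR k e t tL u) (ht : be ≤ t) (hu : 0 < u) :
    e < nT ∧ k = some (ent e).kind ∧ (ent e).σL = sg (2 ^ b) αL ∧ (ent e).σR = sg (2 ^ b) αR ∧
    (ent e).cL = (ltr b f 0 true).c ∧ (ent e).cR = (ltr b f (Q b) true).c ∧
    (ent e).cL' = (ltr b f 0 false).c ∧ (ent e).cR' = (ltr b f (Q b) false).c := by
  have hk : e < nT ∧ k = some (ent e).kind := by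
    rcases h.hk with ⟨h0, -⟩ | ⟨-, h1, h2⟩
    · omega
    · exact ⟨h1, h2⟩
  have hQ : ∀ s < be, s < Q b := fun s hs =>
    MSem_lt_Q (by have := be_lt_ell; omega)
  have key : ∀ s < be, (ent e).σL.code s = (sg (2 ^ b) αL).code s ∧
      (ent e).σR.code s = (sg (2 ^ b) αR).code s ∧
      cbit (ent e).cL s = root true (f (0 + s)) ∧ cbit (ent e).cR s = root true (f (Q b + s)) ∧
      cbit (ent e).cL' s = root false (f (0 + s)) ∧
      cbit (ent e).cR' s = root false (f (Q b + s)) := by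
    intro s hs
    obtain ⟨-, -, xL, xR, hR, hH⟩ := h.col s (by omega)
    obtain ⟨h1, h2, h3, h4, h5, h6⟩ := hH.fld hs
    obtain ⟨-, p1, p2, p3, p4, p5, p6⟩ := prog_base (e := e) hs
    have sL := h.blkL.st s (hQ s hs)
    have sR := h.blkR.st s (hQ s hs)
    rw [zero_add] at sL
    have hL := hH.dn
    refine ⟨?_, ?_, ?_, ?_, ?_, ?_⟩
    · rw [← p1, h1, sL, st_sb]
    · rw [← p2, h4, sR, st_sb]
    · rw [← p3, h2, zero_add]; simp [root, hL]
    · rw [← p5, h5]; simp [root, hR]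
    · rw [← p4, h3, zero_add]; simp [root]
    · rw [← p6, h6]; simp [root]
  refine ⟨hk.1, hk.2, ?_, ?_, ?_, ?_, ?_, ?_⟩
  · exact Sg.code_inj fun i hi => (key i (by have := s0_le_be; omega)).1
  · exact Sg.code_inj fun i hi => (key i (by have := s0_le_be; omega)).2.1
  · funext i; exact (MSem_cbit _ i).symm.trans (key i i.2).2.2.1
  · funext i; exact (MSem_cbit _ i).symm.trans (key i i.2).2.2.2.1
  · funext i; exact (MSem_cbit _ i).symm.trans (key i i.2).2.2.2.2.1
  · funext i; exact (MSem_cbit _ i).symm.trans (key i i.2).2.2.2.2.2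

private theorem MSem_tab3 {E : Ent} (h : TabP E) (hk : E.kind = Kind.swap ∨ E.kind = Kind.eq) :
    E.cL' = E.cL ∧ E.cR' = E.cR ∧ E.σL.tag = 3 ∧ E.σR.tag = 3 ∧
      ∃ L, E.cL = encC L ∧ L.mk' = Mk.idle := by
  unfold TabP at h
  rcases hk with hk | hk <;> rw [hk] at h <;> exact h

private theorem MSem_tab0 {E : Ent} (h : TabP E) (hk : E.kind = Kind.zero) :
    E.cL' = E.cL ∧ E.cR' = E.cR := by
  unfold TabP at h
  rw [hk] at h
  exact ⟨h.1, h.2.1⟩

theorem Tape.tag_three (h : Tape b f g αL αR k e t tL u) (ht : be ≤ t) (hu : 0 < u)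
    (hk : k = some Kind.swap ∨ k = some Kind.eq) :
    tag (2 ^ b) αL = 3 ∧ tag (2 ^ b) αR = 3 ∧
      ∀ m, ∃ s, (ltr b f 0 m).c = encC s ∧ s.mk' = Mk.idle := by
  obtain ⟨he, h0, h1, h2, h3, -, h5, -⟩ := h.entry ht hu
  have hk' : (ent e).kind = Kind.swap ∨ (ent e).kind = Kind.eq := by
    rw [h0] at hk
    simpa using hk
  obtain ⟨t1, -, t3, t4, L, t5, t6⟩ := MSem_tab3 (ent_tab he) hk'
  refine ⟨?_, ?_, fun m => ⟨L, ?_, t6⟩⟩
  · rw [h1, sg_tag] at t3; exact t3
  · rw [h2, sg_tag] at t4; exact t4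
  · cases m
    · rw [← h5, t1, t5]
    · rw [← h3, t5]

/-- the entry as a tuple -/
private theorem MSem_tab (h : Tape b f g αL αR k e t tL u) (ht : be ≤ t) (hu : 0 < u)
    {k' : Kind} (hk : k = some k') :
    TabP ⟨(ltr b f 0 true).sg, (ltr b f (Q b) true).sg, (ltr b f 0 true).c, (ltr b f (Q b) true).c,
      (ltr b f 0 false).c, (ltr b f (Q b) false).c, k'⟩ := by
  obtain ⟨he, h0, h1, h2, h3, h4, h5, h6⟩ := h.entry ht hu
  have hk' : (ent e).kind = k' := by
    rw [h0] at hk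
    simpa using hk
  have a1 : (ltr b f 0 true).sg = sg (2 ^ b) αL := by
    change sg (2 ^ b) (addr b f 0).val = _
    rw [h.blkL.addr]
  have a2 : (ltr b f (Q b) true).sg = sg (2 ^ b) αR := by
    change sg (2 ^ b) (addr b f (Q b)).val = _
    rw [h.blkR.addr]
  rw [a1, a2, ← h1, ← h2, ← h3, ← h4, ← h5, ← h6, ← hk']
  exact ent_tab he

private theorem MSem_succ (h : Tape b f g αL αR k e t tL u) (ht : ell + 2 ^ b ≤ t) :
    αR = (αL + 1) % Q (2 ^ b) := by
  rw [succ_iff h.blkR.lt]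
  intro p hp
  have hp' : p < Q b := MSem_lt_Q (by have : 0 < 2 ^ b := by positivity
                                      omega)
  obtain ⟨h1, h2, -⟩ := h.col p (by omega)
  have sL := h.blkL.st p hp'
  have sR := h.blkR.st p hp'
  rw [zero_add] at sL
  rw [sL, sR] at h1 h2
  exact ⟨h1, h2⟩

/-- comparing the labels of two letters -/
private theorem MSem_id {o o' : ℕ} {m m' : Bool}
    (ht : tag (2 ^ b) (addr b f o) = 3 ↔ tag (2 ^ b) (addr b f o') = 3)
    (h : ∀ j < 2 ^ b, root m (f (o + (ell + 2 ^ b + j))) = root m' (f (o' + (ell + 2 ^ b + j)))) :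
    (ltr b f o m).id = (ltr b f o' m').id := by
  unfold ltr
  dsimp only
  by_cases h3 : tag (2 ^ b) (addr b f o) = 3
  · rw [if_pos h3, if_pos (ht.1 h3)]
    congr 2
    funext j
    exact h j j.2
  · rw [if_neg h3, if_neg (fun h' => h3 (ht.2 h'))]

/-- a finished pass of kind `plain` or `swap` -/
private theorem MSem_final {k' : Kind} (h : Tape b f g αL αR (some k') e t t (min be t))
    (ht : t = endc b (some k')) (hk : k' = Kind.plain ∨ k' = Kind.swap) :
    (sys (2 ^ b)).eqv (ltr b f 0 true) (ltr b f (Q b) true)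
      (ltr b f 0 false) (ltr b f (Q b) false) := by
  have hbe : be ≤ t := ht ▸ be_le_endc k'
  have hu : 0 < min be t := by have := be_pos; omega
  have h2 : 0 < 2 ^ b := by positivity
  have hT := MSem_tab h hbe hu rfl
  refine ⟨?_, rfl, rfl, ?_⟩
  · change (addr b f (Q b)).val = ((addr b f 0).val + 1) % Q (2 ^ b)
    rw [h.blkL.addr, h.blkR.addr]
    refine MSem_succ h ?_
    rcases hk with rfl | rfl
    · exact ht.ge
    · rw [ht]; change _ ≤ ell + 2 * 2 ^ b; omega
  · rcases hk with rfl | rfl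
    · have ht' : t = ell + 2 ^ b := ht
      refine Or.inl ⟨hT, MSem_id Iff.rfl fun j hj => ?_, MSem_id Iff.rfl fun j hj => ?_⟩
      · have := h.dnL (ell + 2 ^ b + j) (MSem_lt_Q (by omega))
        have hn : (f (ell + 2 ^ b + j)).dn = none := by
          by_contra hc
          have := this.1 hc
          omega
        rw [zero_add]
        simp [root, hn]
      · have := h.dnR (ell + 2 ^ b + j) (MSem_lt_Q (by omega))
        have hn : (f (Q b + (ell + 2 ^ b + j))).dn = none := by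
          by_contra hc
          have := this.1 hc
          omega
        simp [root, hn]
    · have ht' : t = ell + 2 * 2 ^ b := ht
      obtain ⟨t1, t2, -⟩ := h.tag_three hbe hu (Or.inl rfl)
      rw [← h.blkL.addr] at t1
      rw [← h.blkR.addr] at t2
      have key : ∀ j < 2 ^ b,
          root false (f (0 + (ell + 2 ^ b + j))) = root true (f (Q b + (ell + 2 ^ b + j))) ∧
          root false (f (Q b + (ell + 2 ^ b + j))) = root true (f (0 + (ell + 2 ^ b + j))) := by
        intro j hj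
        obtain ⟨-, -, xL, xR, hR, hH⟩ := h.col (ell + 2 ^ b + j) (by omega)
        have hL := hH.dn
        rw [zero_add]
        rcases hH.top (by omega) with ⟨-, e1, e2⟩ | ⟨e0, -⟩
        · simp [root, hL, hR, e1, e2]
        · simp at e0
      exact Or.inr ⟨hT, MSem_id (by simp [t1, t2]) fun j hj => (key j hj).1,
        MSem_id (by simp [t1, t2]) fun j hj => (key j hj).2⟩

/-- locating the head -/
private theorem MSem_head {hp i : ℕ} {m m' ρ : Bool} {k' : Option Kind} {sub sub' : Sub}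
    (h : Marks2 b f hp m k sub) (hi : i < 2 * Q b) (hm : (f i).mk' = Mk.run ρ m' k' sub') :
    i = hp ∧ ρ = decide (Q b ≤ i) ∧ m' = m ∧ k' = k ∧ sub' = sub := by
  rw [h.2 i hi] at hm
  split_ifs at hm with h1 h2
  · simp only [Mk.run.injEq] at hm
    exact ⟨h2, hm.1.symm, hm.2.1.symm, hm.2.2.1.symm, hm.2.2.2.symm⟩

/-- changing the mode of the head -/
private theorem MSem_mode {αL αR hp : ℕ} {m m' : Bool} {sub : Sub} {L : Ce}
    (h : Marks2 b f hp m k sub) (hs : SubOK b f g αL αR k e t hp Sub.F)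
    (hL : L.st = (f hp).st ∧ L.bit = (f hp).bit ∧ L.dn = (f hp).dn ∧ L.ep = (f hp).ep)
    (hm : L.mk' = Mk.run (decide (Q b ≤ hp)) m' k Sub.F) :
    Inv2 b (upd f hp L (f (hp + 1))) g m' ∧
      ∀ o m'', ltr b (upd f hp L (f (hp + 1))) o m'' = ltr b f o m'' := by
  have hf : ∀ j, (upd f hp L (f (hp + 1)) j).st = (f j).st ∧
      (upd f hp L (f (hp + 1)) j).bit = (f j).bit ∧ (upd f hp L (f (hp + 1)) j).dn = (f j).dn ∧
      (upd f hp L (f (hp + 1)) j).ep = (f j).ep := by
    intro j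
    unfold upd
    split_ifs with h1 h2
    · rw [h1]; exact hL
    · rw [h2]; exact ⟨rfl, rfl, rfl, rfl⟩
    · exact ⟨rfl, rfl, rfl, rfl⟩
  obtain ⟨hT, hk, ht, hh⟩ := hs
  refine ⟨⟨αL, αR, k, e, t, hp, Sub.F, ⟨h.1, fun j hj => ?_⟩,
    hT.congr (fun j _ => hf j) (MSem_lt_Q (ht ▸ endc_le k)).le, hk, ht, hh⟩, fun o m'' => ?_⟩
  · have := h.2 j hj
    unfold upd
    by_cases h1 : j = hp
    · subst h1
      simp [hm]
    · rw [if_neg h1]
      have e1 : (if j = hp + 1 then f (hp + 1) else f j) = f j := by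
        split_ifs with h2
        · rw [h2]
        · rfl
      rw [e1, this]
      simp [h1]
  · refine ltr_congr fun p _ => ⟨(hf _).1, ?_⟩
    unfold root
    rw [(hf _).2.1, (hf _).2.2.1]

/-- the link between the two modes is a relation of the next level -/
theorem link_sound {L' R' : Ce} {i : ℕ} {m : Bool} (h : Inv2 b f g m) (hi : i + 1 < 2 * Q b)
    (hs : Lnk (f i) (f (i + 1)) L' R') :
    m = true ∧ Inv2 b (upd f i L' R') g false ∧
      (sys (2 ^ b)).eqv (ltr b f 0 true) (ltr b f (Q b) true)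
        (ltr b (upd f i L' R') 0 false) (ltr b (upd f i L' R') (Q b) false) := by
  obtain ⟨αL, αR, k, e, t, hp, sub, hM, hS⟩ := h
  obtain ⟨k', hk', hm, rfl, rfl⟩ := hs
  obtain ⟨rfl, hρ, hm', rfl, rfl⟩ := MSem_head hM (by omega) hm
  obtain ⟨h1, h2⟩ := MSem_mode (m' := false)
    (L := { f i with mk' := Mk.run true false (some k') Sub.F }) hM hS ⟨rfl, rfl, rfl, rfl⟩
    (by rw [← hρ])
  refine ⟨hm'.symm, h1, ?_⟩
  rw [h2, h2]
  exact MSem_final hS.1 hS.2.2.1 hk'

theorem link_sound' {L0 R0 : Ce} {i : ℕ} {m : Bool} (h : Inv2 b f g m) (hi : i + 1 < 2 * Q b)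
    (hs : Lnk L0 R0 (f i) (f (i + 1))) :
    m = false ∧ Inv2 b (upd f i L0 R0) g true ∧
      (sys (2 ^ b)).eqv (ltr b (upd f i L0 R0) 0 true) (ltr b (upd f i L0 R0) (Q b) true)
        (ltr b f 0 false) (ltr b f (Q b) false) := by
  obtain ⟨αL, αR, k, e, t, hp, sub, hM, hS⟩ := h
  obtain ⟨k', hk', hm, hL, rfl⟩ := hs
  have hm0 : (f i).mk' = Mk.run true false (some k') Sub.F := by rw [hL]
  obtain ⟨rfl, hρ, hm', rfl, rfl⟩ := MSem_head hM (by omega) hm0
  obtain ⟨h1, h2⟩ := MSem_mode (m' := true) (L := L0) hM hS (by rw [hL]; exact ⟨rfl, rfl, rfl, rfl⟩)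
    (by rw [← hρ, hm])
  refine ⟨hm'.symm, h1, ?_⟩
  rw [h2, h2]
  exact MSem_final hS.1 hS.2.2.1 hk'

theorem found_sound {i : ℕ} {m : Bool} (h : Inv2 b f g m) (hi : i < 2 * Q b) (hs : Found (f i)) :
    (sys (2 ^ b)).zer (ltr b f 0 m) (ltr b f (Q b) m) := by
  obtain ⟨αL, αR, k, e, t, hp, sub, hM, hS⟩ := h
  have h2 : 0 < 2 ^ b := by positivity
  rcases hs with ⟨m', k', fl, x, y, s, nt, nx, hm, hd, hne⟩ | ⟨m', hm | hm⟩
  · obtain ⟨rfl, hρ, -, rfl, rfl⟩ := MSem_head hM hi hm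
    obtain ⟨hT, ht, -, hle, -, -, -, h1, h2, -⟩ := hS
    have hQ : Q b ≤ i := by simpa using hρ
    have htQ : t < Q b := MSem_lt_Q (ht.le.trans (endc_le _))
    have hit : i = Q b + t := by
      have := hT.dnR (i - Q b) (by omega)
      rw [show Q b + (i - Q b) = i by omega] at this
      by_contra hc
      exact this.2 (by omega) hd
    refine Or.inl fun hc => hne ?_
    change (addr b f (Q b)).val = ((addr b f 0).val + 1) % Q (2 ^ b) at hc
    rw [hT.blkL.addr, hT.blkR.addr] at hc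
    have sL := hT.blkL.st t htQ
    have sR := hT.blkR.st t htQ
    rw [zero_add] at sL
    rw [← h1, ← h2, hit, sL, sR, hc]
    exact ⟨rfl, rfl⟩
  · obtain ⟨rfl, -, -, rfl, rfl⟩ := MSem_head hM hi hm
    obtain ⟨hT, -, ht, -⟩ := hS
    have hbe : be ≤ t := ht ▸ be_le_endc _
    have hu : 0 < min be t := by have := be_pos; omega
    have ht' : t = ell + 2 * 2 ^ b := ht
    have hTab := MSem_tab hT hbe hu rfl
    obtain ⟨c1, c2, -⟩ := MSem_tab3 hTab (Or.inr rfl)
    dsimp only at c1 c2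
    obtain ⟨t1, t2, -⟩ := hT.tag_three hbe hu (Or.inr rfl)
    rw [← hT.blkL.addr] at t1
    rw [← hT.blkR.addr] at t2
    refine Or.inr (Or.inr ⟨?_, MSem_id (by simp [t1, t2]) fun j hj => ?_⟩)
    · cases m
      · rw [← c1, ← c2] at hTab; exact hTab
      · rw [c1, c2] at hTab; exact hTab
    · obtain ⟨-, -, xL, xR, hR, hH⟩ := hT.col (ell + 2 ^ b + j) (by omega)
      have hL := hH.dn
      rw [zero_add]
      rcases hH.top (by omega) with ⟨e0, -⟩ | ⟨-, e1, e2, e3⟩
      · simp at e0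
      · cases m <;> simp [root, hL, hR, ← e1, e2, e3]
  · obtain ⟨rfl, -, -, rfl, rfl⟩ := MSem_head hM hi hm
    obtain ⟨hT, -, ht, -⟩ := hS
    have hbe : be ≤ t := ht ▸ be_le_endc _
    have hu : 0 < min be t := by have := be_pos; omega
    have hTab := MSem_tab hT hbe hu rfl
    obtain ⟨c1, c2⟩ := MSem_tab0 hTab rfl
    dsimp only at c1 c2
    refine Or.inr (Or.inl ?_)
    cases m
    · rw [← c1, ← c2] at hTab; exact hTab
    · rw [c1, c2] at hTab; exact hTab

end Crest.Agent.R176
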