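import Crest.Agent.R176.MBasic

/-! # R176: the shape of the pieces between free boundaries -/

noncomputable section

namespace Crest.Agent.R176

open Classical

set_option linter.unusedSectionVars false

variable {b : ℕ}

theorem MShapeA_fz {w : List (Ltr b)} {i : ℕ} (hi : i < w.length) {s : Ce} (h : w[i].c = encC s) :
    fz w i = s := by
  simp [fz, hi, h, decC_encC]

/-- two adjacent letters of a nonzero word (`Sys.Zero.of_zer`, entry of kind `zero`) -/
theorem pair_ok {w : List (Ltr b)} (hw : ¬ (sys b).Zero w) {i : ℕ} (hi : i + 1 < w.length) :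
    w[i + 1].p.val = (w[i].p.val + 1) % Q b ∧ w[i].c = encC (fz w i) ∧
      w[i + 1].c = encC (fz w (i + 1)) ∧ MkOK w[i].sg (fz w i).mk' (fz w (i + 1)).mk' := by
  have e : w = w.take i ++ w[i] :: w[i + 1] :: w.drop (i + 2) := by
    rw [← List.drop_eq_getElem_cons hi, ← List.drop_eq_getElem_cons, List.take_append_drop]
  have hz : ¬ (sys b).zer w[i] w[i + 1] := fun h => hw (e ▸ Sys.Zero.of_zer _ _ h)
  simp only [sys, TabP, Bad, not_or, not_not, true_and] at hz
  obtain ⟨h1, ⟨L, R, h2, h3, h4⟩, -⟩ := hz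
  rw [MShapeA_fz _ h2, MShapeA_fz _ h3]
  exact ⟨h1, h2, h3, not_not.mp fun h => h4 (Or.inl h)⟩

/-- marks at the junction of a double zone -/
def MShapeA_Jn (a c : Mk) : Prop :=
  (a = Mk.r false ∧ c = Mk.r true) ∨ (a = Mk.r false ∧ ∃ m k sub, c = Mk.run true m k sub) ∨
    (a = Mk.l false ∧ c = Mk.l true) ∨ ((∃ m k sub, a = Mk.run false m k sub) ∧ c = Mk.l true)

/-- marks inside a block -/
def MShapeA_In (a c : Mk) : Prop :=
  (∃ ρ, a = Mk.r ρ ∧ c = Mk.r ρ) ∨ (∃ ρ, a = Mk.l ρ ∧ c = Mk.l ρ) ∨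
    (a = Mk.r false ∧ c = Mk.idle) ∨ (a = Mk.idle ∧ c = Mk.l true) ∨
    (∃ ρ m k sub, a = Mk.r ρ ∧ c = Mk.run ρ m k sub) ∨
    (∃ ρ m k sub, a = Mk.run ρ m k sub ∧ c = Mk.l ρ)

/-- marks of a second block -/
def MShapeA_T (a : Mk) : Prop := a = Mk.r true ∨ a = Mk.l true ∨ ∃ m k sub, a = Mk.run true m k sub

theorem MShapeA_Jn.T {a c : Mk} (h : MShapeA_Jn a c) : MShapeA_T c ∧ ¬ MShapeA_T a := by
  rcases h with ⟨rfl, rfl⟩ | ⟨rfl, m, k, sub, rfl⟩ | ⟨rfl, rfl⟩ | ⟨⟨m, k, sub, rfl⟩, rfl⟩ <;>
    simp [MShapeA_T]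

theorem MShapeA_In.T {a c : Mk} (h : MShapeA_In a c) : MShapeA_T a → MShapeA_T c := by
  rcases h with ⟨ρ, rfl, rfl⟩ | ⟨ρ, rfl, rfl⟩ | ⟨rfl, rfl⟩ | ⟨rfl, rfl⟩ | ⟨ρ, m, k, sub, rfl, rfl⟩ |
    ⟨ρ, m, k, sub, rfl, rfl⟩ <;> simp [MShapeA_T]

theorem MShapeA_pos {w : List (Ltr b)} (hw : ¬ (sys b).Zero w) (h0 : 0 < w.length) :
    ∀ (i : ℕ) (hi : i < w.length), w[i].p.val = (w[0].p.val + i) % Q b
  | 0, _ => (Nat.mod_eq_of_lt w[0].p.isLt).symm
  | i + 1, hi => by
    rw [(pair_ok hw hi).1, MShapeA_pos hw h0 i (by omega), Nat.mod_add_mod, add_assoc]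

theorem MShapeA_step {w : List (Ltr b)} (hw : ¬ (sys b).Zero w)
    (hc : w.IsChain (fun x y => ¬ (flL x ∧ frL y))) (h0 : 0 < w.length) (i : ℕ)
    (hi : i + 1 < w.length) :
    if (w[0].p.val + i) % Q b + 1 = Q b then MShapeA_Jn (fz w i).mk' (fz w (i + 1)).mk'
    else MShapeA_In (fz w i).mk' (fz w (i + 1)).mk' := by
  obtain ⟨h1, h2, h3, h4⟩ := pair_ok hw hi
  have hl : w[i].sg.last ↔ w[i].p.val + 1 = Q b := sg_last w[i].p.isLt
  rw [← MShapeA_pos hw h0 i (by omega)]
  split_ifs with h
  · rw [MkOK, if_pos (hl.mpr h)] at h4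
    refine h4.resolve_left fun k => List.isChain_iff_getElem.mp hc i hi
      ⟨⟨hl.mpr h, _, h2, k.1⟩, sg_first.mpr ?_, _, h3, k.2⟩
    rw [h1, h, Nat.mod_self]
  · rwa [MkOK, if_neg fun k => h (hl.mp k)] at h4

/-- Recipe: the addresses are consecutive modulo `Q`, so there are two pairs `(i, i+1)`,
`(i+Q, i+Q+1)` whose left letter is `last`.  At such a pair which is not a free boundary the left
mark is `r false`, `l false` or `run false`, the right mark is `r true`, `l true` or `run true`,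
and the latter set is closed under `MkOK` inside a block. -/
theorem short (w : List (Ltr b)) (hc : w.IsChain (fun x y => ¬ (flL x ∧ frL y)))
    (hl : 2 * Q b < w.length) : (sys b).Zero w := by
  by_contra hw
  have hQ := Q_pos b
  have hp := w[0].p.isLt
  have hs := MShapeA_step hw hc (by omega)
  generalize w[0].p.val = p at hp hs
  have h1 := hs (Q b - 1 - p) (by omega)
  have h2 := hs (Q b - 1 - p + Q b) (by omega)
  rw [if_pos (by rw [show p + (Q b - 1 - p) = Q b - 1 by omega, Nat.mod_eq_of_lt] <;> omega)] at h1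
  rw [if_pos (by
    rw [show p + (Q b - 1 - p + Q b) = Q b - 1 + Q b by omega, Nat.add_mod_right,
      Nat.mod_eq_of_lt] <;> omega)] at h2
  have key : ∀ j < Q b, MShapeA_T (fz w (Q b - 1 - p + (j + 1))).mk' := fun j => by
    induction j with
    | zero => exact fun _ => h1.T.1
    | succ j ih =>
      intro hj
      have h3 := hs (Q b - 1 - p + (j + 1)) (by omega)
      rw [if_neg (by
        rw [show p + (Q b - 1 - p + (j + 1)) = j + Q b by omega, Nat.add_mod_right,
          Nat.mod_eq_of_lt] <;> omega)] at h3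
      exact h3.T (ih (by omega))
  have h4 := key (Q b - 1) (by omega)
  rw [Nat.sub_add_cancel hQ] at h4
  exact h2.T.2 h4

theorem MShapeA_inv {q n : ℕ} (hq : 0 < q) (M : ℕ → Mk) (h0 : frM (M 0))
    (hs : ∀ i, i + 1 < n → if i + 1 = q then MShapeA_Jn (M i) (M (i + 1))
      else MShapeA_In (M i) (M (i + 1))) (i : ℕ) : i < n →
    (∀ j ≤ i, M j = Mk.r (decide (q ≤ j))) ∨
    (i < q ∧ ∃ hp ≤ i, ∀ j ≤ i,
      M j = if j < hp then Mk.r false else if j = hp then Mk.idle else Mk.l true) ∨
    ∃ hp ≤ i, ∃ m k sub, ∀ j ≤ i, M j = if j < hp then Mk.r (decide (q ≤ j))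
      else if j = hp then Mk.run (decide (q ≤ j)) m k sub else Mk.l (decide (q ≤ j)) := by
  induction i with
  | zero =>
    intro _
    have e : decide (q = 0) = false := decide_eq_false (by omega)
    simp only [Nat.le_zero, forall_eq, exists_eq_left, e, lt_irrefl, if_false, if_true]
    rcases h0 with h | h | h
    · exact Or.inl h
    · exact Or.inr (Or.inl ⟨hq, h⟩)
    · exact Or.inr (Or.inr h)
  | succ i ih =>
    intro hi
    have ext : ∀ A : ℕ → Mk, (∀ j ≤ i, M j = A j) → M (i + 1) = A (i + 1) →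
        ∀ j ≤ i + 1, M j = A j := fun A h1 h2 j hj => by
      rcases Nat.le_succ_iff.mp hj with h | rfl
      · exact h1 j h
      · exact h2
    have hst := hs i hi
    rcases ih (by omega) with h | ⟨h1, hp, h2, h⟩ | ⟨hp, h2, m, k, sub, h⟩
    · rw [h i le_rfl] at hst
      have hc : M (i + 1) = Mk.r (decide (q ≤ i + 1)) ∨ (i + 1 < q ∧ M (i + 1) = Mk.idle) ∨
          ∃ m k sub, M (i + 1) = Mk.run (decide (q ≤ i + 1)) m k sub := by
        split_ifs at hst with e
        · rw [decide_eq_true e.ge]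
          simp only [MShapeA_Jn, reduceCtorEq, false_and, exists_false, or_false] at hst
          exact hst.imp And.right fun h => Or.inr h.2
        · rw [show decide (q ≤ i + 1) = decide (q ≤ i) from decide_eq_decide.mpr (by omega)]
          simp only [MShapeA_In, reduceCtorEq, false_and, exists_false, or_false, false_or,
            Mk.r.injEq, exists_eq_left', decide_eq_false_iff_not, exists_and_left] at hst
          exact hst.imp id fun h => h.imp (fun h => ⟨by omega, h.2⟩) id
      rcases hc with hc | ⟨h1, hc⟩ | ⟨m, k, sub, hc⟩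
      · exact Or.inl (ext _ h hc)
      · refine Or.inr (Or.inl ⟨h1, i + 1, le_rfl, ext _ (fun j hj => ?_) (by simp [hc])⟩)
        rw [h j hj, if_pos (by omega), decide_eq_false (by omega)]
      · refine Or.inr (Or.inr ⟨i + 1, le_rfl, m, k, sub, ext _ (fun j hj => ?_) (by simp [hc])⟩)
        rw [h j hj, if_pos (by omega)]
    · rw [h i le_rfl, if_neg (show ¬ i < hp by omega)] at hst
      have hc : i + 1 ≠ q ∧ M (i + 1) = Mk.l true := by
        split_ifs at hst with e e' e'
        · simp [MShapeA_Jn] at hst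
        · simp [MShapeA_Jn] at hst
        · exact ⟨e, by simpa [MShapeA_In] using hst⟩
        · exact ⟨e, by simpa [MShapeA_In] using hst⟩
      refine Or.inr (Or.inl ⟨by omega, hp, by omega, ext _ h ?_⟩)
      rw [if_neg (by omega), if_neg (by omega), hc.2]
    · rw [h i le_rfl, if_neg (show ¬ i < hp by omega)] at hst
      refine Or.inr (Or.inr ⟨hp, by omega, m, k, sub, ext _ h ?_⟩)
      rw [if_neg (by omega), if_neg (by omega)]
      by_cases e : i + 1 = q
      · rw [if_pos e] at hst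
        rw [decide_eq_true e.ge]
        split_ifs at hst <;> simp only [MShapeA_Jn, reduceCtorEq, false_and, exists_false, or_false,
          false_or] at hst <;> exact hst.2
      · rw [if_neg e] at hst
        rw [show decide (q ≤ i + 1) = decide (q ≤ i) from decide_eq_decide.mpr (by omega)]
        split_ifs at hst <;> simpa [MShapeA_In] using hst

/-- Recipe: the first address is `0`, the last is `Q - 1`, so the length is `Q` or `2 Q` (`short`),
`w = word T (fz w) (ids)` (`Ltr.h`), and the marks follow the automaton `MkOK`: `hp` is the first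
position whose mark is not an arrow `r _`. -/
theorem shape {w : List (Ltr b)} (hw : ¬ (sys b).Zero w) (hne : w ≠ [])
    (hc : w.IsChain (fun x y => ¬ (flL x ∧ frL y))) (hh : ∀ x ∈ w.head?, frL x)
    (hl : ∀ x ∈ w.getLast?, flL x) :
    (∃ f g hp, w = word b 1 f g ∧ Marks1 b f hp) ∨
      ∃ f g hp m k sub, w = word b 2 f g ∧ Marks2 b f hp m k sub := by
  have hQ := Q_pos b
  have h0 : 0 < w.length := List.length_pos_iff.mpr hne
  obtain ⟨k1, s1, k2, k3⟩ := hh w[0] (by simp [List.head?_eq_getElem?])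
  obtain ⟨k4, s2, k5, k6⟩ := hl w[w.length - 1] (by simp [List.getLast?_eq_getElem?])
  have p0 : w[0].p.val = 0 := sg_first.mp k1
  have hp := MShapeA_pos hw h0
  have hs := MShapeA_step hw hc h0
  simp only [p0, zero_add] at hp hs
  have p1 := (sg_last w[w.length - 1].p.isLt).mp k4
  rw [hp] at p1
  have hn : w.length ≤ 2 * Q b := not_lt.mp fun h => hw (short w hc h)
  have hmod : ∀ i < 2 * Q b, i % Q b + 1 = Q b ↔ i + 1 = Q b ∨ i + 1 = 2 * Q b := fun i hi => by
    rcases lt_or_ge i (Q b) with h | h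
    · rw [Nat.mod_eq_of_lt h]; omega
    · rw [Nat.mod_eq_sub_mod h, Nat.mod_eq_of_lt (by omega)]; omega
  have hw' : ∀ T, w.length = T * Q b →
      w = word b T (fz w) fun i => if h : i < w.length then w[i].id else ⟨0, by positivity⟩ := by
    intro T hT
    refine List.ext_getElem (by simp [hT]) fun i hi _ => ?_
    rw [getElem_word, dif_pos hi]
    refine Ltr.ext (Fin.ext (hp i hi)) ?_ ?_
    · rcases lt_or_ge (i + 1) w.length with h | h
      · exact (pair_ok hw h).2.1
      · obtain rfl : i = w.length - 1 := by omega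
        rw [MShapeA_fz _ k5]
        exact k5
    · simp only [mkL, ← hp i hi]
      split_ifs with h
      · rfl
      · exact Fin.ext (w[i].h h)
  rw [← MShapeA_fz _ k2] at k3
  rw [← MShapeA_fz _ k5] at k6
  rw [hmod _ (by omega)] at p1
  rcases MShapeA_inv hQ (fun i => (fz w i).mk') k3 (n := w.length) (fun i hi => by
      simpa only [hmod i (by omega), show i + 1 ≠ 2 * Q b by omega, or_false] using hs i hi)
    (w.length - 1) (by omega) with h | ⟨h1, hp, h2, h⟩ | ⟨hp, h2, m, k, sub, h⟩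
  · rw [h _ le_rfl] at k6
    simp [flM] at k6
  · exact Or.inl ⟨_, _, hp, hw' 1 (by omega), by omega, fun i hi => h i (by omega)⟩
  · rcases p1 with p1 | p1
    · rw [h _ le_rfl, decide_eq_false (by omega)] at k6
      split_ifs at k6 <;> simp [flM] at k6
    · exact Or.inr ⟨_, _, hp, m, k, sub, hw' 2 (by omega), by omega, fun i hi => h i (by omega)⟩

end Crest.Agent.R176
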