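import Crest.Agent.R176.MSingleA

/-! # R176: single zones -/

noncomputable section

namespace Crest.Agent.R176

open Classical

set_option linter.unusedSectionVars false

variable {b : ℕ} {f : ℕ → Ce} {g g' : ℕ → Fin (2 ^ b)}

/-- `f` with the idle head put in the position `hp` -/
def idleAt (f : ℕ → Ce) (hp : ℕ) : ℕ → Ce := fun i =>
  { f i with mk' := if i < hp then Mk.r false else if i = hp then Mk.idle else Mk.l true }

theorem MSingle_marks {hp : ℕ} (h : hp < Q b) : Marks1 b (idleAt f hp) hp :=
  ⟨h, fun _ _ => rfl⟩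

theorem MSingle_step {i : ℕ} (hi : i + 1 < Q b) :
    (sys b).Eqv (word b 1 (idleAt f i) g) (word b 1 (idleAt f (i + 1)) g) := by
  have h := eqv_plain (T := 1) (f := idleAt f i) (g := g) (i := i) (by omega)
    (Or.inr (Or.inl ⟨by rw [sgz_left (by omega), sg_last (by omega)]; omega,
      by simp [idleAt], by simp [idleAt], rfl, rfl⟩))
  convert h using 2
  funext j
  simp only [upd, idleAt]
  by_cases h1 : j = i
  · subst h1; simp
  by_cases h2 : j = i + 1
  · subst h2; simp
  rw [if_neg h1, if_neg h2, if_neg h1, if_neg h2]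
  by_cases h3 : j < i
  · rw [if_pos h3, if_pos (by omega)]
  · rw [if_neg h3, if_neg (by omega)]

theorem MSingle_zero {i : ℕ} (hi : i < Q b) :
    (sys b).Eqv (word b 1 (idleAt f 0) g) (word b 1 (idleAt f i) g) := by
  induction i with
  | zero => exact Sys.Eqv.refl _
  | succ i ih => exact (ih (by omega)).trans (MSingle_step hi)

/-- the idle head moves freely (`eqv_plain` with `Idl`, induction) -/
theorem idle_eqv {hp hp' : ℕ} (h : Marks1 b f hp) (h' : hp' < Q b) :
    (sys b).Eqv (word b 1 f g) (word b 1 (idleAt f hp') g) := by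
  have e : word b 1 f g = word b 1 (idleAt f hp) g := by
    refine word_congr (fun i hi => ?_) (fun _ _ _ => rfl)
    rw [one_mul] at hi
    simp only [idleAt, ← h.2 i hi]
  rw [e]
  exact (MSingle_zero h.1).symm.trans (MSingle_zero h')

/-- adjacent labels of quarter `3` can be exchanged (bring the head to `j`, entry of kind `swap`,
`word_pair`, `word_split`, bring the head back) -/
theorem swap_eqv {hp j : ℕ} (h : Marks1 b f hp) (hj : ell + 2 * 2 ^ b ≤ j) (hj' : j + 1 < Q b) :
    (sys b).Eqv (word b 1 f g) (word b 1 f (upd g j (g (j + 1)) (g j))) := by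
  refine (idle_eqv h (hp' := j) (by omega)).trans (Sys.Eqv.trans ?_ (idle_eqv h (hp' := j)
    (by omega)).symm)
  obtain ⟨u, v, rfl, e⟩ := word_pair (T := 1) (f := idleAt f j) (g := g) (i := j) (by omega)
  have e' := (word_split e).2.2.2 (idleAt f u.length u.length) (idleAt f u.length (u.length + 1))
    (g (u.length + 1)) (g u.length)
  rw [upd_self] at e'
  rw [e', e]
  have t1 : tag b (u.length % Q b) = 3 := by
    rw [Nat.mod_eq_of_lt (by omega), tag_eq_three]; exact hj
  have t2 : tag b ((u.length + 1) % Q b) = 3 := by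
    rw [Nat.mod_eq_of_lt hj', tag_eq_three]; omega
  refine Sys.Eqv.of_eqv u v ⟨MBasicB_pos _ _ _ _ _, rfl, rfl,
    Or.inr ⟨⟨rfl, rfl, t1, t2, _, rfl, by simp [idleAt]⟩, ?_, ?_⟩⟩
  · exact (if_pos t1).trans (if_pos t2).symm
  · exact (if_pos t2).trans (if_pos t1).symm

/-- labels read from a list -/
def MSingle_G (b : ℕ) (l : List (Fin (2 ^ b))) (p : ℕ) : Fin (2 ^ b) :=
  l.getD (p - (ell + 2 * 2 ^ b)) ⟨0, by positivity⟩

theorem MSingle_perm {hp : ℕ} (h : Marks1 b f hp) {l l' : List (Fin (2 ^ b))} (hl : l.Perm l')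
    (pre : List (Fin (2 ^ b))) (hlen : pre.length + l.length ≤ 2 ^ b) :
    (sys b).Eqv (word b 1 f (MSingle_G b (pre ++ l))) (word b 1 f (MSingle_G b (pre ++ l'))) := by
  induction hl generalizing pre with
  | nil => exact Sys.Eqv.refl _
  | cons x _ ih =>
    have := ih (pre ++ [x]) (by simp at hlen ⊢; omega)
    simpa using this
  | swap x y l =>
    have hQ : Q b = ell + 3 * 2 ^ b := rfl
    simp only [List.length_cons] at hlen
    have h1 := swap_eqv (g := MSingle_G b (pre ++ y :: x :: l)) h
      (j := ell + 2 * 2 ^ b + pre.length) (by omega) (by omega)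
    convert h1 using 1
    refine word_congr (fun _ _ => rfl) fun i hi h3 => ?_
    rw [one_mul] at hi
    rw [Nat.mod_eq_of_lt hi, tag_eq_three] at h3
    obtain ⟨r, rfl⟩ := Nat.exists_eq_add_of_le h3
    simp only [upd, MSingle_G, Nat.add_assoc (ell + 2 * 2 ^ b), Nat.add_sub_cancel_left,
      Nat.add_left_cancel_iff]
    split_ifs with h4 h5
    · subst h4; simp [List.getD_eq_getElem?_getD]
    · subst h5; simp [List.getD_eq_getElem?_getD]
    · simp only [List.getD_eq_getElem?_getD]
      congr 1
      rcases lt_or_ge r pre.length with h6 | h6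
      · rw [List.getElem?_append_left h6, List.getElem?_append_left h6]
      · obtain ⟨s, rfl⟩ := Nat.exists_eq_add_of_le h6
        rw [List.getElem?_append_right h6, List.getElem?_append_right h6, Nat.add_sub_cancel_left]
        rcases s with _ | _ | s
        · omega
        · omega
        · rfl
  | trans h1 _ ih ih' => exact (ih pre hlen).trans (ih' pre (by rw [← h1.length_eq]; exact hlen))

theorem MSingle_ofFn : word b 1 f g =
    word b 1 f (MSingle_G b (List.ofFn fun j : Fin (2 ^ b) => g (ell + 2 * 2 ^ b + j))) := by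
  refine word_congr (fun _ _ => rfl) fun i hi h3 => ?_
  have hQ : Q b = ell + 3 * 2 ^ b := rfl
  rw [one_mul] at hi
  rw [Nat.mod_eq_of_lt hi, tag_eq_three] at h3
  obtain ⟨r, rfl⟩ := Nat.exists_eq_add_of_le h3
  have hr : r < 2 ^ b := by omega
  simp [MSingle_G, List.getD_eq_getElem?_getD, hr]

/-- the labels of quarter `3` can be permuted.  Recipe: for a list `l` of length `2 ^ b` let
`G l p = l.getD (p - (ell + 2 * 2 ^ b)) 0`; prove `l ~ l' → Eqv (word f (G (pre ++ l)))
(word f (G (pre ++ l')))` by induction on `List.Perm` (generalizing `pre`), `word_congr`. -/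
theorem perm_eqv {hp : ℕ} (h : Marks1 b f hp)
    (hp : (List.ofFn fun j : Fin (2 ^ b) => g (ell + 2 * 2 ^ b + j)).Perm
      (List.ofFn fun j : Fin (2 ^ b) => g' (ell + 2 * 2 ^ b + j))) :
    (sys b).Eqv (word b 1 f g) (word b 1 f g') := by
  rw [MSingle_ofFn (g := g), MSingle_ofFn (g := g')]
  simpa using MSingle_perm h hp [] (by simp)

theorem MSingle_inj {α : ℕ} (h : Blk b f g 0 α) :
    Function.Injective fun j : Fin (2 ^ b) => g (ell + 2 * 2 ^ b + j) := by
  intro j j' e
  have hQ : Q b = ell + 3 * 2 ^ b := rfl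
  have h1 := j.2
  have h2 := j'.2
  have := h.inj (ell + 2 * 2 ^ b + j) (ell + 2 * 2 ^ b + j') (by omega) (by omega) (by omega)
    (by omega) (by simpa using e)
  exact Fin.ext (by omega)

theorem MSingle_perm_inj {n : ℕ} {u v : Fin n → Fin n} (hu : Function.Injective u)
    (hv : Function.Injective v) : (List.ofFn u).Perm (List.ofFn v) := by
  refine (List.perm_ext_iff_of_nodup (List.nodup_ofFn.2 hu) (List.nodup_ofFn.2 hv)).2 fun a => ?_
  simp only [List.mem_ofFn]
  exact ⟨fun _ => Finite.injective_iff_surjective.1 hv a,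
    fun _ => Finite.injective_iff_surjective.1 hu a⟩

/-- Recipe: `idle_eqv` to `0`; `idleAt f 0` agrees with `encF (ltr f 0 true)` on `[0, Q)`
(`Blk.addr`, `BitOK`, `Nat.testBit_ofBits`); two injective lists of length `2 ^ b` in `Fin (2 ^ b)`
are permutations of each other. -/
theorem roll1 (h : Inv1 b f g) : (sys b).Eqv (word b 1 f g) (encZ b (ltr b f 0 true)) := by
  obtain ⟨α, hp, hB, hm, hd⟩ := h
  have ha : (ltr b f 0 true).p.val = α := hB.addr
  have e : word b 1 (idleAt f 0) g = word b 1 (encF b (ltr b f 0 true)) g := by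
    refine word_congr (fun p hp => ?_) (fun _ _ _ => rfl)
    rw [one_mul] at hp
    have h1 := hB.st p hp
    have h2 := hB.bit p hp
    rw [Nat.zero_add] at h1 h2
    have h3 : (f p).bit = bitE b (ltr b f 0 true) p := by
      have hbe := be_lt_ell
      unfold bitE
      split_ifs with h4 h5
      · simp [cbit, h4, ltr, root, (hd p hp).1]
      · obtain ⟨r, rfl⟩ := Nat.exists_eq_add_of_le h5.1
        have hr : r < 2 ^ b := by omega
        rw [Nat.add_sub_cancel_left]
        by_cases h6 : tag (2 ^ b) (addr b f 0) = 3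
        · simp only [ltr, if_pos h6]
          rw [Nat.testBit_ofBits_lt _ _ hr]
          simp [root, (hd _ hp).1]
        · simp only [ltr, if_neg h6, Nat.zero_testBit]
          by_contra h7
          rcases h2 (by simpa using h7) with h8 | h8
          · exact h4 (sg_fld.1 h8)
          · rw [h1] at h8
            exact h6 (by rw [hB.addr]; exact h8.2)
      · by_contra h7
        rcases h2 (by simpa using h7) with h8 | h8
        · exact h4 (sg_fld.1 h8)
        · rw [sg_tag, tag_eq_two] at h8
          exact h5 h8.1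
    simp only [idleAt, encF, ha, ← h1, ← h3, (hd p hp).1, (hd p hp).2]
    simp
  refine (idle_eqv hm (Q_pos b)).trans ?_
  rw [e]
  obtain ⟨α', hp', hB', hm', -⟩ := enc_inv1 (ltr b f 0 true)
  exact perm_eqv hm' (MSingle_perm_inj (MSingle_inj hB) (MSingle_inj hB'))

theorem MSingle_good (hz : ¬ (sys b).Zero (word b 1 f g)) :
    (∀ p, p + 1 < Q b → St2 (sg b p) (sg b (p + 1)) (f p).st (f (p + 1)).st) ∧
      ∀ p < Q b, One (sg b p) (f p) := by
  have key : ∀ p, p + 1 < Q b → St2 (sg b p) (sg b (p + 1)) (f p).st (f (p + 1)).st ∧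
      One (sg b p) (f p) ∧ One (sg b (p + 1)) (f (p + 1)) := by
    intro p hp
    by_contra hc
    refine hz (zero_of_badC (i := p) (by omega) (Or.inr (Or.inl ?_)))
    rw [sgz_left (by omega), sgz_left hp]
    exact ⟨by rw [sg_last (by omega)]; omega, hc⟩
  refine ⟨fun p hp => (key p hp).1, fun p hp => ?_⟩
  have hQ : Q b = ell + 3 * 2 ^ b := rfl
  have h0 : 0 < 2 ^ b := by positivity
  rcases p with _ | p
  · exact (key 0 (by omega)).2.1
  · exact (key p hp).2.2

/-- Recipe: suppose the word is nonzero.  `zero_of_badC` gives `St2`, `One` at all pairs, so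
`exists_st`, `BitOK`; moving the head to `p` (`idle_eqv`) gives `dn = none`, `ep = 0`; if two labels
of quarter `3` agree the list of labels is a permutation of `y :: y :: l` (`perm_eqv`), and the
entry of kind `eq` kills the word. -/
theorem invalid1 {hp : ℕ} (h : Marks1 b f hp) : (sys b).Zero (word b 1 f g) ∨ Inv1 b f g := by
  by_cases hz : (sys b).Zero (word b 1 f g)
  · exact Or.inl hz
  refine Or.inr ?_
  obtain ⟨h1, h2⟩ := MSingle_good hz
  obtain ⟨α, hα, hst⟩ := exists_st (fun p => (f p).st) (fun p hp => (h2 p hp).1) h1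
  refine ⟨α, hp, ⟨hα, fun p hp => ?_, fun p hp => ?_, fun p q h3 h4 h5 h6 e => ?_⟩, h,
    fun p hp => ?_⟩
  · rw [Nat.zero_add]; exact hst p hp
  · rw [Nat.zero_add]; exact (h2 p hp).2.1
  · by_contra hne
    have hQ : Q b = ell + 3 * 2 ^ b := rfl
    have h7 : ¬ (List.ofFn fun j : Fin (2 ^ b) => g (ell + 2 * 2 ^ b + j)).Nodup := by
      rw [List.nodup_ofFn]
      intro hi
      have := @hi ⟨p - (ell + 2 * 2 ^ b), by omega⟩ ⟨q - (ell + 2 * 2 ^ b), by omega⟩ (by
        simpa [Nat.add_sub_cancel' h3, Nat.add_sub_cancel' h5] using e)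
      simp only [Fin.mk.injEq] at this
      omega
    obtain ⟨y, hy⟩ := List.exists_duplicate_iff_not_nodup.2 h7
    obtain ⟨l, hl⟩ := (List.duplicate_iff_sublist.1 hy).exists_perm_append
    have h8 := hl.length_eq
    simp only [List.length_ofFn, List.length_append, List.length_cons, List.length_nil] at h8
    have h9 := MSingle_perm h hl [] (by simp)
    rw [List.nil_append, List.nil_append, ← MSingle_ofFn] at h9
    refine hz (Sys.Zero.of_eqv (h9.trans (idle_eqv h (hp' := ell + 2 * 2 ^ b) (by omega))) ?_)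
    obtain ⟨u, v, hu, e'⟩ := word_pair (T := 1) (f := idleAt f (ell + 2 * 2 ^ b))
      (g := MSingle_G b ([y, y] ++ l)) (i := ell + 2 * 2 ^ b) (by omega)
    rw [e']
    have t1 : tag b ((ell + 2 * 2 ^ b) % Q b) = 3 := by
      rw [Nat.mod_eq_of_lt (by omega), tag_eq_three]
    have t2 : tag b ((ell + 2 * 2 ^ b + 1) % Q b) = 3 := by
      rw [Nat.mod_eq_of_lt (by omega), tag_eq_three]; omega
    refine Sys.Zero.of_zer u v (Or.inr (Or.inr ⟨⟨rfl, rfl, t1, t2, _, rfl, by simp [idleAt]⟩, ?_⟩))
    refine (if_pos t1).trans (Eq.trans ?_ (if_pos t2).symm)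
    simp [MSingle_G]
  · have hz' : ¬ (sys b).Zero (word b 1 (idleAt f p) g) :=
      fun h0 => hz (Sys.Zero.of_eqv (idle_eqv h hp) h0)
    exact ((MSingle_good hz').2 p hp).2.2 (by simp [idleAt])

end Crest.Agent.R176
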