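import Crest.Agent.R176.MStatic

/-! # R176: single zones -/

noncomputable section

namespace Crest.Agent.R176

open Classical

set_option linter.unusedSectionVars false

variable {b : ℕ} {f : ℕ → Ce} {g g' : ℕ → Fin (2 ^ b)}

theorem MSingleA_col {p : ℕ} (hp : ell + 2 * 2 ^ b ≤ p) (hp' : p < Q b) :
    col b p = p - (ell + 2 * 2 ^ b) := by
  obtain ⟨r, rfl⟩ := Nat.exists_eq_add_of_le hp
  unfold Q at hp'
  rw [col, if_neg (by omega), add_assoc, Nat.add_sub_cancel_left, Nat.mul_add_mod_self_right,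
    Nat.mod_eq_of_lt (by omega)]
  omega

theorem encG_inj {p q : ℕ} (hp : ell + 2 * 2 ^ b ≤ p) (hp' : p < Q b) (hq : ell + 2 * 2 ^ b ≤ q)
    (hq' : q < Q b) (h : encG b p = encG b q) : p = q := by
  have e := congrArg Fin.val h
  simp only [encG, Nat.mod_eq_of_lt hp', Nat.mod_eq_of_lt hq', MSingleA_col hp hp',
    MSingleA_col hq hq'] at e
  omega

theorem MSingleA_blk (a : Ltr (2 ^ b)) : Blk b (encF b a) (encG b) 0 a.p := by
  refine ⟨a.p.2, fun p _ => by simp [encF], fun p _ => ?_, fun p q h1 h2 h3 h4 h => ?_⟩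
  · rw [Nat.zero_add]
    intro hb
    change bitE b a p = true at hb
    unfold bitE at hb
    split_ifs at hb with h1 h2
    · exact Or.inl (sg_fld.2 h1)
    · refine Or.inr ⟨by rw [sg_tag, tag_eq_two]; exact h2, ?_⟩
      by_contra h3
      rw [a.h h3] at hb
      simp at hb
  · rw [Nat.zero_add, Nat.zero_add] at h
    exact encG_inj h1 h2 h3 h4 h

/-- `BitOK` in quarter `2`: a label with a nonzero bit is nonzero, so the tag is `3` (`Ltr.h`) -/
theorem enc_inv1 (a : Ltr (2 ^ b)) : Inv1 b (encF b a) (encG b) := by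
  refine ⟨a.p, 0, MSingleA_blk a, ⟨Q_pos b, fun i _ => ?_⟩, fun p _ => ⟨rfl, rfl⟩⟩
  simp [encF]

/-- `Blk.addr`, `Nat.ofBits_testBit` -/
theorem ltr_encF (a : Ltr (2 ^ b)) : ltr b (encF b a) 0 true = a := by
  have h1 : addr b (encF b a) 0 = a.p := Fin.ext (MSingleA_blk a).addr
  refine Ltr.ext h1 (funext fun i => ?_) ?_
  · simp [ltr, root, encF, bitE, cbit]
  · have h2 : (fun j : Fin (2 ^ b) => root true (encF b a (0 + (ell + 2 ^ b + j)))) =
        fun j : Fin (2 ^ b) => a.id.val.testBit j := by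
      funext j
      have := j.2
      have := be_lt_ell
      simp only [root, encF, if_true, Option.getD_none, bitE]
      rw [if_neg (by omega), if_pos (by omega)]
      congr 1
      omega
    simp only [ltr, h1, h2]
    split_ifs with h3
    · refine Fin.ext ?_
      simp only [Nat.ofBits_testBit]
      exact Nat.mod_eq_of_lt a.id.2
    · exact Fin.ext (a.h h3).symm

/-- only the marks change -/
theorem MSingleA_remark {f' : ℕ → Ce} {hp : ℕ} (h : Inv1 b f g) (hm : Marks1 b f' hp)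
    (hf : ∀ p < Q b, (f' p).st = (f p).st ∧ (f' p).bit = (f p).bit ∧ (f' p).dn = (f p).dn ∧
      (f' p).ep = (f p).ep) :
    Inv1 b f' g ∧ ltr b f' 0 true = ltr b f 0 true := by
  obtain ⟨α, -, hB, -, hd⟩ := h
  refine ⟨⟨α, hp, MBasic_blk hB fun p hp => ?_, hm, fun p hp => ?_⟩, ltr_congr fun p hp => ?_⟩
  · rw [Nat.zero_add]; exact ⟨(hf p hp).1, (hf p hp).2.1⟩
  · rw [(hf p hp).2.2.1, (hf p hp).2.2.2]; exact hd p hp
  · rw [Nat.zero_add]
    exact ⟨(hf p hp).1, by simp only [root, (hf p hp).2.1, (hf p hp).2.2.1]⟩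

theorem MSingleA_head {hp i : ℕ} (h : Marks1 b f hp) (hi : i < Q b) (e : (f i).mk' = Mk.idle) :
    i = hp := by
  rw [h.2 i hi] at e
  split_ifs at e with h1 h2
  exact h2

theorem idl_fwd {L R : Ce} {i : ℕ} (h : Inv1 b f g) (hi : i + 1 < Q b)
    (hs : Idl (sgz b i) (f i) (f (i + 1)) L R) :
    Inv1 b (upd f i L R) g ∧ ltr b (upd f i L R) 0 true = ltr b f 0 true := by
  obtain ⟨-, h1, h2, rfl, rfl⟩ := hs
  obtain ⟨α, hp, hB, hm, hd⟩ := id h
  obtain rfl := MSingleA_head hm (by omega) h1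
  refine MSingleA_remark (hp := i + 1) h ⟨hi, fun j hj => ?_⟩ fun p _ => ?_
  · have := hm.2 j hj
    simp only [upd]
    split_ifs at this ⊢ <;> first | omega | rfl
  · simp only [upd]
    split_ifs with h3 h4
    · subst h3; exact ⟨rfl, rfl, rfl, rfl⟩
    · subst h4; exact ⟨rfl, rfl, rfl, rfl⟩
    · exact ⟨rfl, rfl, rfl, rfl⟩

theorem idl_bwd {L R : Ce} {i : ℕ} (h : Inv1 b f g) (hi : i + 1 < Q b)
    (hs : Idl (sgz b i) L R (f i) (f (i + 1))) :
    Inv1 b (upd f i L R) g ∧ ltr b (upd f i L R) 0 true = ltr b f 0 true := by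
  obtain ⟨-, h1, h2, h3, h4⟩ := hs
  obtain ⟨α, hp, hB, hm, hd⟩ := id h
  obtain rfl := MSingleA_head hm hi (by rw [h4])
  refine MSingleA_remark (hp := i) h ⟨by omega, fun j hj => ?_⟩ fun p _ => ?_
  · have := hm.2 j hj
    simp only [upd]
    split_ifs at this ⊢ <;> omega
  · simp only [upd]
    split_ifs with h5 h6
    · subst h5; rw [h3]; exact ⟨rfl, rfl, rfl, rfl⟩
    · subst h6; rw [h4]; exact ⟨rfl, rfl, rfl, rfl⟩
    · exact ⟨rfl, rfl, rfl, rfl⟩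

theorem Inv1.swap {i : ℕ} (h : Inv1 b f g) (hi : i + 1 < Q b) (h3 : (sgz b i).tag = 3) :
    Inv1 b f (upd g i (g (i + 1)) (g i)) := by
  obtain ⟨α, hp, hB, hm, hd⟩ := h
  rw [sgz_left (by omega), sg_tag, tag_eq_three] at h3
  refine ⟨α, hp, ⟨hB.lt, hB.st, hB.bit, fun p q h4 h5 h6 h7 e => ?_⟩, hm, hd⟩
  have key := hB.inj
  simp only [Nat.zero_add, upd] at key e
  split_ifs at e <;> first
    | omega
    | (have := key _ _ (by omega) (by omega) (by omega) (by omega) e; omega)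

theorem MSingleA_fwd_run {σ : Sg} {L R L' R' : Ce} (h : Fwd σ L R L' R') :
    (σ.last ∨ (∃ ρ m k sub, L.mk' = Mk.run ρ m k sub) ∨ ∃ ρ m k sub, R.mk' = Mk.run ρ m k sub) ∧
      ((∃ ρ m k sub, L'.mk' = Mk.run ρ m k sub) ∨ ∃ ρ m k sub, R'.mk' = Mk.run ρ m k sub) := by
  rcases h with h | h | h | h | h
  · cases h with
    | mk m h1 h2 h3 => exact ⟨Or.inl h1, Or.inl ⟨_, _, _, _, rfl⟩⟩
  · cases h with
    | dmove ρ ρ' m k h1 h2 => exact ⟨Or.inr (Or.inr ⟨_, _, _, _, h2⟩), Or.inl ⟨_, _, _, _, rfl⟩⟩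
    | turn m k h1 h2 => exact ⟨Or.inr (Or.inl ⟨_, _, _, _, h2⟩), Or.inl ⟨_, _, _, _, rfl⟩⟩
    | amove m k h1 h2 => exact ⟨Or.inr (Or.inl ⟨_, _, _, _, h2⟩), Or.inr ⟨_, _, _, _, rfl⟩⟩
    | bmove m k x y s nt nx h1 h2 =>
      exact ⟨Or.inr (Or.inl ⟨_, _, _, _, h2⟩), Or.inr ⟨_, _, _, _, rfl⟩⟩
    | cmove ρ ρ' m k f x y s nt nx h2 =>
      exact ⟨Or.inr (Or.inl ⟨_, _, _, _, h2⟩), Or.inr ⟨_, _, _, _, rfl⟩⟩
  · cases h with
    | mk m k x y sub h1 h2 => exact ⟨Or.inr (Or.inl ⟨_, _, _, _, h2⟩), Or.inr ⟨_, _, _, _, rfl⟩⟩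
  · cases h with
    | mk m k k' nt nx h1 h2 => exact ⟨Or.inr (Or.inl ⟨_, _, _, _, h2⟩), Or.inr ⟨_, _, _, _, rfl⟩⟩
  · cases h with
    | mk m k x y h1 h2 => exact ⟨Or.inr (Or.inl ⟨_, _, _, _, h2⟩), Or.inl ⟨_, _, _, _, rfl⟩⟩

/-- no running head, no merging inside a single zone -/
theorem Inv1.not_fwd {L R : Ce} {i : ℕ} (h : Inv1 b f g) (hi : i + 1 < Q b) :
    ¬ Fwd (sgz b i) (f i) (f (i + 1)) L R ∧ ¬ Fwd (sgz b i) L R (f i) (f (i + 1)) ∧
      ¬ Lnk (f i) (f (i + 1)) L R ∧ ¬ Lnk L R (f i) (f (i + 1)) := by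
  obtain ⟨α, hp, hB, ⟨-, hm⟩, hd⟩ := h
  have hr (j : ℕ) (hj : j < Q b) : ¬ ∃ ρ m k sub, (f j).mk' = Mk.run ρ m k sub := by
    rintro ⟨ρ, m, k, sub, e⟩
    rw [hm j hj] at e
    split_ifs at e
  have h1 := hr i (by omega)
  have h2 := hr (i + 1) hi
  refine ⟨fun hs => ?_, fun hs => ?_, ?_, ?_⟩
  · rcases (MSingleA_fwd_run hs).1 with h3 | h3 | h3
    · rw [sgz_left (by omega), sg_last (by omega)] at h3
      omega
    · exact h1 h3
    · exact h2 h3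
  · exact (MSingleA_fwd_run hs).2.elim h1 h2
  · rintro ⟨k, -, e, -⟩
    exact h1 ⟨_, _, _, _, e⟩
  · rintro ⟨k, -, -, e, -⟩
    exact h1 ⟨_, _, _, _, by rw [e]⟩

end Crest.Agent.R176
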