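import Crest.Agent.R176.MRoll
import Crest.Agent.R176.MShape

/-! # R176: soundness — steps and zeros inside and between valid zones -/

noncomputable section

namespace Crest.Agent.R176

open Classical

set_option linter.unusedSectionVars false

variable {b : ℕ}

theorem MSound_rule {T : ℕ} {f : ℕ → Ce} {g : ℕ → Fin (2 ^ b)} {u v : List (Ltr b)}
    {x y x' y' : Ltr b} (h : word b T f g = u ++ x :: y :: v)
    (hs : (sys b).eqv x y x' y' ∨ (sys b).eqv x' y' x y) :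
    ∃ i, i + 1 < T * Q b ∧ (u ++ x' :: y' :: v = word b T f g ∨
      (∃ L R, u ++ x' :: y' :: v = word b T (upd f i L R) g ∧
        ((Fwd (sgz b i) (f i) (f (i + 1)) L R ∨ Idl (sgz b i) (f i) (f (i + 1)) L R ∨
          Lnk (f i) (f (i + 1)) L R) ∨
        (Fwd (sgz b i) L R (f i) (f (i + 1)) ∨ Idl (sgz b i) L R (f i) (f (i + 1)) ∨
          Lnk L R (f i) (f (i + 1))))) ∨
      ((sgz b i).tag = 3 ∧ (f i).mk' = Mk.idle ∧
        u ++ x' :: y' :: v = word b T f (upd g i (g (i + 1)) (g i)))) := by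
  obtain ⟨hi, rfl, rfl, hw⟩ := word_split h
  refine ⟨u.length, hi, ?_⟩
  rcases hs with hs | hs
  · rcases eqv_mkL hs with ⟨rfl, rfl⟩ | ⟨L, R, rfl, rfl, h1⟩ | ⟨h1, -, h2, rfl, rfl⟩
    · exact Or.inl h.symm
    · exact Or.inr (Or.inl ⟨L, R, by rw [← hw, upd_self], Or.inl h1⟩)
    · exact Or.inr (Or.inr ⟨h1, h2, by rw [← hw, upd_self]⟩)
  · rcases eqv_mkL' hs with ⟨rfl, rfl⟩ | ⟨L, R, rfl, rfl, h1⟩ | ⟨h1, -, h2, rfl, rfl⟩
    · exact Or.inl h.symm
    · exact Or.inr (Or.inl ⟨L, R, by rw [← hw, upd_self], Or.inr h1⟩)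
    · exact Or.inr (Or.inr ⟨h1, h2, by rw [← hw, upd_self]⟩)

theorem MSound_dec2 {f : ℕ → Ce} {g : ℕ → Fin (2 ^ b)} {m : Bool} (h : Inv2 b f g m) :
    decZ b (word b 2 f g) = [ltr b f 0 m, ltr b f (Q b) m] := by
  obtain ⟨hp, k, sub, hm⟩ := h.marks
  exact decZ_two hm

theorem MSound_not_idle {f : ℕ → Ce} {g : ℕ → Fin (2 ^ b)} {m : Bool} (h : Inv2 b f g m) {i : ℕ}
    (hi : i < 2 * Q b) : (f i).mk' ≠ Mk.idle := by
  obtain ⟨hp, k, sub, hm⟩ := h.marks
  exact MPred_not_idle hm hi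

theorem MSound_same {f f' : ℕ → Ce} {g : ℕ → Fin (2 ^ b)} {m : Bool} (h : Inv2 b f g m)
    (h' : Inv2 b f' g m ∧ SameRoot b f m f' m) :
    Valid b (word b 2 f' g) ∧ (sys (2 ^ b)).Eqv (decZ b (word b 2 f g)) (decZ b (word b 2 f' g)) := by
  refine ⟨Or.inr ⟨f', g, m, rfl, h'.1⟩, ?_⟩
  rw [MSound_dec2 h, MSound_dec2 h'.1, h'.2.ltr.1, h'.2.ltr.2]
  exact Sys.Eqv.refl _

theorem MSound_ltr_shift (f : ℕ → Ce) (m : Bool) : ltr b (shiftQ b f) 0 m = ltr b f (Q b) m :=
  ltr_congr fun p _ => by rw [Nat.zero_add]; exact ⟨rfl, rfl⟩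

theorem MSound_inv1_congr {f f' : ℕ → Ce} {g g' : ℕ → Fin (2 ^ b)} (h : Inv1 b f g)
    (hf : ∀ p < Q b, f' p = f p) (hg : ∀ p < Q b, g' p = g p) : Inv1 b f' g' := by
  obtain ⟨α, hp, hB, hM, hd⟩ := h
  refine ⟨α, hp, ⟨hB.lt, fun p h => ?_, fun p h => ?_, fun p q h1 h2 h3 h4 h5 => ?_⟩,
    ⟨hM.1, fun p h => ?_⟩, fun p h => ?_⟩
  · rw [← hB.st p h, Nat.zero_add, hf p h]
  · have := hB.bit p h
    rw [Nat.zero_add] at this ⊢
    rw [hf p h]
    exact this
  · refine hB.inj p q h1 h2 h3 h4 ?_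
    rw [Nat.zero_add, Nat.zero_add] at h5 ⊢
    rw [← hg p h2, ← hg q h4, h5]
  · rw [hf p h]; exact hM.2 p h
  · rw [hf p h]; exact hd p h

theorem MSound_shift_join {α : Type} (f f' : ℕ → α) : shiftQ b (join b f f') = f' := by
  funext j
  simp [shiftQ, join]

theorem MSound_join_left {α : Type} (f f' : ℕ → α) {p : ℕ} (h : p < Q b) : join b f f' p = f p :=
  if_pos h

theorem MSound_last : (sgz b (Q b - 1)).last := by
  have := Q_pos b
  rw [sgz_left (by omega), sg_last (by omega)]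
  omega

theorem MSound_sgz_first : sgz b (Q b - 1 + 1) = sg b 0 := by
  have := Q_pos b
  rw [Nat.sub_add_cancel this, ← sgz_right this, Nat.add_zero]

theorem MSound_tag : (sgz b (Q b - 1 + 1)).tag ≠ 3 := by
  rw [MSound_sgz_first, sg_tag, tag_eq_zero.2 (lt_of_le_of_lt (Nat.zero_le _) be_lt_ell)]
  decide

theorem MSound_fwd_left {σ : Sg} {L R L' R' : Ce} (h : Fwd σ L R L' R')
    (hL : L.mk' = Mk.l true ∨ L.mk' = Mk.idle) : FMerge σ L R L' R' := by
  rcases h with h | h | h | h | h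
  · exact h
  all_goals
    exfalso
    cases h <;> rcases hL with hL | hL <;> simp_all

theorem MSound_fwd_right {σ : Sg} {L R L' R' : Ce} (h : Fwd σ L R L' R')
    (hL : L'.mk' = Mk.l true ∨ L'.mk' = Mk.idle) : False := by
  rcases h with h | h | h | h | h <;> cases h <;> rcases hL with hL | hL <;> cases hL

/-- Recipe: `word_split` locates the pair; `eqv_mkL` / `eqv_mkL'` give the rule.  Single zone:
`Inv1.not_fwd`, `idl_fwd`, `idl_bwd`, `Inv1.swap`, `decZ_one`.  Double zone: there is no idle mark;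
`fwd2`, `bwd2` (`word_two` in the merging case), `link_sound`, `link_sound'`, `decZ_two`,
`SameRoot.ltr`, `ltr_congr`. -/
theorem s_in (z w : List (Ltr b)) (hz : Valid b z) (hs : (sys b).Step z w ∨ (sys b).Step w z) :
    (Valid b w ∧ (sys (2 ^ b)).Eqv (decZ b z) (decZ b w)) ∨
      ∃ z1 z2, Valid b z1 ∧ Valid b z2 ∧ w = z1 ++ z2 ∧ decZ b z = decZ b z1 ++ decZ b z2 := by
  obtain ⟨u, v, x, y, x', y', rfl, rfl, hs'⟩ : ∃ u v x y x' y', z = u ++ x :: y :: v ∧
      w = u ++ x' :: y' :: v ∧ ((sys b).eqv x y x' y' ∨ (sys b).eqv x' y' x y) := by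
    rcases hs with ⟨u, v, h⟩ | ⟨u, v, h⟩
    · exact ⟨u, v, _, _, _, _, rfl, rfl, Or.inl h⟩
    · exact ⟨u, v, _, _, _, _, rfl, rfl, Or.inr h⟩
  rcases hz with ⟨f, g, hw, h⟩ | ⟨f, g, m, hw, h⟩
  · obtain ⟨i, hi, h1⟩ := MSound_rule hw.symm hs'
    rw [one_mul] at hi
    left
    rw [hw]
    have hn := fun L R => h.not_fwd (L := L) (R := R) hi
    rcases h1 with h1 | ⟨L, R, h1, h2⟩ | ⟨h3, -, h1⟩ <;> rw [h1]
    · exact ⟨Or.inl ⟨f, g, rfl, h⟩, Sys.Eqv.refl _⟩
    · have key : Inv1 b (upd f i L R) g ∧ ltr b (upd f i L R) 0 true = ltr b f 0 true := by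
        rcases h2 with (h2 | h2 | h2) | (h2 | h2 | h2)
        · exact absurd h2 (hn L R).1
        · exact idl_fwd h hi h2
        · exact absurd h2 (hn L R).2.2.1
        · exact absurd h2 (hn L R).2.1
        · exact idl_bwd h hi h2
        · exact absurd h2 (hn L R).2.2.2
      refine ⟨Or.inl ⟨_, g, rfl, key.1⟩, ?_⟩
      rw [decZ_one, decZ_one, key.2]
      exact Sys.Eqv.refl _
    · refine ⟨Or.inl ⟨f, _, rfl, h.swap hi h3⟩, ?_⟩
      rw [decZ_one, decZ_one]
      exact Sys.Eqv.refl _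
  · obtain ⟨i, hi, h1⟩ := MSound_rule hw.symm hs'
    rw [hw]
    rcases h1 with h1 | ⟨L, R, h1, h2⟩ | ⟨-, h3, -⟩
    · rw [h1]
      exact Or.inl ⟨Or.inr ⟨f, g, m, rfl, h⟩, Sys.Eqv.refl _⟩
    · rw [h1]
      rcases h2 with (h2 | h2 | h2) | (h2 | h2 | h2)
      · exact Or.inl (MSound_same h (fwd2 h hi h2))
      · exact absurd h2.2.1 (MSound_not_idle h (by omega))
      · obtain ⟨rfl, h3, h4⟩ := link_sound h hi h2
        refine Or.inl ⟨Or.inr ⟨_, g, false, rfl, h3⟩, ?_⟩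
        rw [MSound_dec2 h, MSound_dec2 h3]
        exact Sys.Eqv.of_eqv [] [] h4
      · rcases bwd2 h hi h2 with h3 | ⟨-, h3, h4, h5⟩
        · exact Or.inl (MSound_same h h3)
        · refine Or.inr ⟨_, _, Or.inl ⟨_, _, rfl, h3⟩, Or.inl ⟨_, _, rfl, h4⟩, word_two, ?_⟩
          rw [MSound_dec2 h, decZ_one, decZ_one, MSound_ltr_shift, h5.ltr.1, h5.ltr.2]
          rfl
      · exact absurd (by rw [h2.2.2.2.2]) (MSound_not_idle h hi)
      · obtain ⟨rfl, h3, h4⟩ := link_sound' h hi h2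
        refine Or.inl ⟨Or.inr ⟨_, g, true, rfl, h3⟩, ?_⟩
        rw [MSound_dec2 h, MSound_dec2 h3]
        exact (Sys.Eqv.of_eqv [] [] h4).symm
    · exact absurd h3 (MSound_not_idle h (by omega))

/-- Recipe: `Valid.last_cell`, `Valid.first_cell`, `eqv_mkL` / `eqv_mkL'`; the left mark is `l true`
or `idle`, so only the forward merge survives; `word_join`, `word_split`, `merge_fwd`. -/
theorem s_bd (u : List (Ltr b)) (x y : Ltr b) (v : List (Ltr b)) (x' y' : Ltr b)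
    (h1 : Valid b (u ++ [x])) (h2 : Valid b (y :: v))
    (hs : (sys b).eqv x y x' y' ∨ (sys b).eqv x' y' x y) :
    (x' = x ∧ y' = y) ∨ (Valid b (u ++ x' :: y' :: v) ∧
      decZ b (u ++ x' :: y' :: v) = decZ b (u ++ [x]) ++ decZ b (y :: v)) := by
  obtain ⟨L, gL, rfl, hL⟩ := h1.last_cell
  obtain ⟨R, gR, rfl, hR⟩ := h2.first_cell
  have hL' : L.mk' = Mk.l true ∨ L.mk' = Mk.idle := hL.imp id And.left
  have hQ := Q_pos b
  rcases hs with hs | hs
  · rcases eqv_mkL hs with h3 | ⟨L', R', rfl, rfl, h3 | h3 | ⟨k, -, h3, -⟩⟩ | ⟨-, h3, -⟩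
    · exact Or.inl h3
    · right
      have h4 := MSound_fwd_left h3 hL'
      obtain ⟨h5, h6⟩ : L.mk' = Mk.idle ∧ R.mk' = Mk.idle := by
        cases h4 with
        | mk m _ h5 h6 => exact ⟨h5, h6⟩
      obtain ⟨f, g, hw, hI, rfl, rfl⟩ : ∃ f g, u ++ [mkL b (Q b - 1) L gL] = word b 1 f g ∧
          Inv1 b f g ∧ f (Q b - 1) = L ∧ g (Q b - 1) = gL := by
        rcases hL with hL | hL
        · rw [h5] at hL; cases hL
        · exact hL.2
      obtain ⟨f', g', hw', hI', rfl, rfl⟩ : ∃ f g, mkL b (Q b - 1 + 1) R gR :: v = word b 1 f g ∧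
          Inv1 b f g ∧ f 0 = R ∧ g 0 = gR := by
        rcases hR with hR | ⟨_, _, _, hR⟩ | hR
        · rw [h6] at hR; cases hR
        · rw [h6] at hR; cases hR
        · exact hR.2
      have hu : u.length = Q b - 1 := by
        have := congrArg List.length hw
        simp only [List.length_append, List.length_cons, List.length_nil, length_word] at this
        omega
      have hj : word b 2 (join b f f') (join b g g') = u ++ mkL b (Q b - 1) (f (Q b - 1))
          (g (Q b - 1)) :: mkL b (Q b - 1 + 1) (f' 0) (g' 0) :: v := by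
        rw [← word_join, ← hw, ← hw']
        simp
      obtain ⟨-, -, -, hup⟩ := word_split hj
      rw [hu] at hup
      have e1 : ∀ {α : Type} (f f' : ℕ → α), join b f f' (Q b - 1) = f (Q b - 1) :=
        fun f f' => MSound_join_left f f' (by omega)
      have e2 : ∀ {α : Type} (f f' : ℕ → α), join b f f' (Q b - 1 + 1) = f' 0 := fun f f' => by
        rw [Nat.sub_add_cancel hQ]
        simp [join]
      have h7 := hup L' R' (g (Q b - 1)) (g' 0)
      rw [← e1 g g', ← e2 g g', upd_self, e1 g g', e2 g g'] at h7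
      obtain ⟨m, h8, h9⟩ := merge_fwd (f := join b f f') (g := join b g g') (i := Q b - 1)
        (L := L') (R := R')
        (MSound_inv1_congr hI (fun p hp => MSound_join_left f f' hp)
          (fun p hp => MSound_join_left g g' hp))
        (by rw [MSound_shift_join, MSound_shift_join]; exact hI') (Nat.sub_add_cancel hQ)
        (by rw [e1, e2]; exact h4)
      rw [← h7]
      refine ⟨Or.inr ⟨_, _, m, rfl, h8⟩, ?_⟩
      rw [MSound_dec2 h8, h9.ltr.1, h9.ltr.2, hw, hw', decZ_one, decZ_one, ← MSound_ltr_shift,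
        MSound_shift_join, ltr_congr (f' := join b f f') (f := f) (o := 0) (m := true)
          fun p hp => by rw [Nat.zero_add, MSound_join_left f f' hp]; exact ⟨rfl, rfl⟩]
      rfl
    · exact absurd MSound_last h3.1
    · rcases hL' with hL' | hL' <;> rw [h3] at hL' <;> cases hL'
    · exact absurd h3 MSound_tag
  · rcases eqv_mkL' hs with h3 | ⟨L', R', rfl, rfl, h3 | h3 | ⟨k, -, -, h3, -⟩⟩ | ⟨-, h3, -⟩
    · exact Or.inl h3
    · exact (MSound_fwd_right h3 hL').elim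
    · exact absurd MSound_last h3.1
    · rcases hL' with hL' | hL' <;> rw [h3] at hL' <;> cases hL'
    · exact absurd h3 MSound_tag

/-- `zer_mkL`, `bad1`, `Blk.inj`, `bad2`, `found_sound` -/
theorem z_in (u : List (Ltr b)) (x y : Ltr b) (v : List (Ltr b)) (h : Valid b (u ++ x :: y :: v))
    (hz : (sys b).zer x y) : (sys (2 ^ b)).Zero (decZ b (u ++ x :: y :: v)) := by
  rcases h with ⟨f, g, hw, h⟩ | ⟨f, g, m, hw, h⟩
  · exfalso
    obtain ⟨hi, rfl, rfl, -⟩ := word_split hw.symm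
    rw [one_mul] at hi
    rcases zer_mkL hz with h1 | ⟨h1, -, -, h2⟩
    · exact bad1 h hi h1
    · obtain ⟨α, hp, hB, -⟩ := h
      rw [sgz_left (by omega), sg_tag, tag_eq_three] at h1
      have := hB.inj u.length (u.length + 1) h1 (by omega) (by omega) hi
        (by rw [Nat.zero_add, Nat.zero_add]; exact h2)
      omega
  · obtain ⟨hi, hx, hy, -⟩ := word_split hw.symm
    rw [hw, MSound_dec2 h]
    rw [hx, hy] at hz
    rcases zer_mkL hz with h1 | ⟨-, -, h1, -⟩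
    · exact Sys.Zero.of_zer [] [] (found_sound h (by omega) (bad2 h hi h1))
    · exact absurd h1 (MSound_not_idle h (by omega))

/-- `zer_mkL` at the position `Q b - 1`: `MkOK` holds, nothing is `Stuck` or `Found` -/
theorem z_bd (u : List (Ltr b)) (x y : Ltr b) (v : List (Ltr b)) (h1 : Valid b (u ++ [x]))
    (h2 : Valid b (y :: v)) : ¬ (sys b).zer x y := by
  obtain ⟨L, gL, rfl, hL⟩ := h1.last_cell
  obtain ⟨R, gR, rfl, hR⟩ := h2.first_cell
  have hL' : L.mk' = Mk.l true ∨ L.mk' = Mk.idle := hL.imp id And.left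
  have hn : ∀ {ρ m k sub}, L.mk' ≠ Mk.run ρ m k sub := by
    intro ρ m k sub h
    rcases hL' with hL' | hL' <;> rw [h] at hL' <;> cases hL'
  intro hz
  rcases zer_mkL hz with (h3 | h3 | ⟨h3 | h3, -⟩ | h3) | ⟨-, h3, -⟩
  · refine h3 ?_
    unfold MkOK
    rw [if_pos MSound_last]
    refine Or.inl ⟨hL'.imp id Or.inl, ?_⟩
    rcases hR with hR | hR | hR
    · exact Or.inl hR
    · exact Or.inr (Or.inr hR)
    · exact Or.inr (Or.inl hR.1)
  · exact h3.1 MSound_last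
  · obtain ⟨ρ, m, k, sub, h4, -⟩ := h3
    exact hn h4
  · obtain ⟨ρ, m, k, sub, h4, h5⟩ := h3
    refine h5 (Or.inl ⟨by rw [MSound_sgz_first, sg_first], ?_⟩)
    rcases hR with hR | ⟨_, _, _, hR⟩ | ⟨hR, -⟩ <;> rw [h4] at hR <;> cases hR
    rfl
  · rcases h3 with ⟨_, _, _, _, _, _, _, _, h4, -⟩ | ⟨_, h4 | h4⟩ <;> exact hn h4
  · exact MSound_tag h3

end Crest.Agent.R176
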