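import Crest.Agent.R176.MBasic

/-! # R176: the static tracks are forced by the local constraints -/

noncomputable section

namespace Crest.Agent.R176

open Classical

set_option linter.unusedSectionVars false

variable {b : ℕ}

/-! ### bits -/

theorem MStatic_testBit_succ (i : ℕ) : ∀ c : ℕ, ((c + 1).testBit i = true ↔
    ¬ (c.testBit i = true ↔ ∀ j < i, c.testBit j = true)) := by
  induction i with
  | zero =>
    intro c
    simp only [Nat.testBit_zero, decide_eq_true_eq, Nat.not_lt_zero, IsEmpty.forall_iff,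
      implies_true, iff_true]
    omega
  | succ i ih =>
    intro c
    rw [Nat.testBit_add_one, Nat.testBit_add_one, Nat.forall_lt_succ_left]
    simp only [Nat.testBit_add_one, Nat.testBit_zero, decide_eq_true_eq]
    rcases Nat.mod_two_eq_zero_or_one c with h | h
    · rw [show (c + 1) / 2 = c / 2 by omega]
      simp [h]
    · rw [show (c + 1) / 2 = c / 2 + 1 by omega, ih]
      simp [h]

theorem MStatic_eq_of_bits {n c c' : ℕ} (hc : c < 2 ^ n) (hc' : c' < 2 ^ n)
    (h : ∀ j < n, c.testBit j = c'.testBit j) : c = c' := by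
  refine Nat.eq_of_testBit_eq fun j => ?_
  rcases Nat.lt_or_ge j n with hj | hj
  · exact h j hj
  · have : 2 ^ n ≤ 2 ^ j := Nat.pow_le_pow_right (by norm_num) hj
    rw [Nat.testBit_lt_two_pow (hc.trans_le this), Nat.testBit_lt_two_pow (hc'.trans_le this)]

theorem MStatic_max_iff {n c : ℕ} (hc : c < 2 ^ n) :
    c + 1 = 2 ^ n ↔ ∀ j < n, c.testBit j = true := by
  constructor
  · intro h j hj
    rw [show c = 2 ^ n - 1 by omega, Nat.testBit_two_pow_sub_one]
    simpa using hj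
  · intro h
    have : c = 2 ^ n - 1 := MStatic_eq_of_bits hc (by omega) fun j hj => by
      rw [h j hj, Nat.testBit_two_pow_sub_one]
      simpa using hj
    omega

/-! ### addresses -/

theorem MStatic_ell_pos : 0 < ell := (Nat.zero_le _).trans_lt be_lt_ell

theorem MStatic_col_low {B α : ℕ} (h : α < ell) : col B α = 0 := by
  simp only [col, if_pos h]

theorem MStatic_col_of {B k c : ℕ} (hc : c < 2 ^ B) : col B (ell + k * 2 ^ B + c) = c := by
  rw [col, if_neg (by omega), show ell + k * 2 ^ B + c - ell = c + k * 2 ^ B by omega,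
    Nat.add_mul_mod_self_right, Nat.mod_eq_of_lt hc]

theorem MStatic_col_spec {B α : ℕ} (hα : α < Q B) (h : ell ≤ α) :
    α = ell + col B α ∨ α = ell + 2 ^ B + col B α ∨ α = ell + 2 * 2 ^ B + col B α := by
  unfold Q at hα
  by_cases h1 : α < ell + 2 ^ B
  · have := MStatic_col_of (B := B) (k := 0) (c := α - ell) (by omega)
    rw [show ell + 0 * 2 ^ B + (α - ell) = α by omega] at this
    omega
  by_cases h2 : α < ell + 2 * 2 ^ B
  · have := MStatic_col_of (B := B) (k := 1) (c := α - (ell + 2 ^ B)) (by omega)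
    rw [show ell + 1 * 2 ^ B + (α - (ell + 2 ^ B)) = α by omega] at this
    omega
  · have := MStatic_col_of (B := B) (k := 2) (c := α - (ell + 2 * 2 ^ B)) (by omega)
    rw [show ell + 2 * 2 ^ B + (α - (ell + 2 * 2 ^ B)) = α by omega] at this
    omega

theorem MStatic_next {B α : ℕ} (hα : α < Q B) :
    ((α + 1) % Q B = α + 1 ∧ α + 1 < Q B) ∨ ((α + 1) % Q B = 0 ∧ α + 1 = Q B) := by
  rcases Nat.lt_or_ge (α + 1) (Q B) with h | h
  · exact Or.inl ⟨Nat.mod_eq_of_lt h, h⟩
  · have : α + 1 = Q B := by omega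
    exact Or.inr ⟨by rw [this, Nat.mod_self], this⟩

theorem MStatic_next_low {B α : ℕ} (h : α < ell) : (α + 1) % Q B = α + 1 := by
  have : 0 < 2 ^ B := by positivity
  exact Nat.mod_eq_of_lt (by unfold Q; omega)

theorem MStatic_col_next_low {B α : ℕ} (h : α < ell) : col B ((α + 1) % Q B) = 0 := by
  rw [MStatic_next_low h, col]
  split_ifs with h1
  · rfl
  · rw [show α + 1 - ell = 0 by omega, Nat.zero_mod]

theorem MStatic_col_next {B α : ℕ} (hα : α < Q B) (h : ell ≤ α) :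
    col B ((α + 1) % Q B) = (col B α + 1) % 2 ^ B := by
  have e : (col B α + 1) % 2 ^ B = (α + 1 - ell) % 2 ^ B := by
    rw [col, if_neg (by omega), Nat.mod_add_mod, show α - ell + 1 = α + 1 - ell by omega]
  rw [e]
  rcases MStatic_next hα with ⟨h1, _⟩ | ⟨h1, h2⟩
  · rw [h1, col, if_neg (by omega)]
  · rw [h1, MStatic_col_low MStatic_ell_pos, h2, Q, show ell + 3 * 2 ^ B - ell = 3 * 2 ^ B by omega,
      Nat.mul_mod_left]

theorem MStatic_sg_mx {B α : ℕ} : (sg B α).mx = true ↔ ell ≤ α ∧ col B α + 1 = 2 ^ B := by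
  simp only [sg, decide_eq_true_eq]

theorem MStatic_sg_nil {B α : ℕ} (h : ell ≤ α) : (sg B α).pr = Prog.nil := by
  simp only [sg, if_neg (not_lt.2 h)]

theorem MStatic_lastP {p : ℕ} : (prog p).lastP = true ↔ p + 1 = ell := by
  simp only [prog, decide_eq_true_eq]

theorem MStatic_tag_next {B α : ℕ} (hα : α < Q B) : tag B ((α + 1) % Q B) =
    if tag B α = 0 then (if (sg B α).pr.lastP = true then 1 else 0)
    else if (sg B α).mx = true then tag B α + 1 else tag B α := by
  have hM : 0 < 2 ^ B := by positivity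
  have h0 := MStatic_ell_pos
  rcases Nat.lt_or_ge α ell with h | h
  · rw [if_pos (tag_eq_zero.2 h), sg_pr h, MStatic_next_low h]
    simp only [MStatic_lastP]
    split_ifs with h1
    · exact tag_eq_one.2 (by omega)
    · exact tag_eq_zero.2 (by omega)
  rw [if_neg (fun h' => by have := tag_eq_zero.1 h'; omega)]
  simp only [MStatic_sg_mx]
  have hc := col_lt B α
  have hn := MStatic_next hα
  have hQ : Q B = ell + 3 * 2 ^ B := rfl
  rcases MStatic_col_spec hα h with h1 | h1 | h1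
  · rw [show tag B α = 1 from tag_eq_one.2 (by omega)]
    split_ifs with h2
    · exact tag_eq_two.2 (by omega)
    · exact tag_eq_one.2 (by omega)
  · rw [show tag B α = 2 from tag_eq_two.2 (by omega)]
    split_ifs with h2
    · exact tag_eq_three.2 (by omega)
    · exact tag_eq_two.2 (by omega)
  · rw [show tag B α = 3 from tag_eq_three.2 (by omega)]
    split_ifs with h2
    · exact tag_eq_zero.2 (by omega)
    · exact tag_eq_three.2 (by omega)

theorem MStatic_cuF_low {α p : ℕ} (hp : p < ell) : cuF b α p = true ↔ α < ell ∧ p ≤ α := by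
  simp only [cuF, if_pos hp, decide_eq_true_eq]

theorem MStatic_cuF_mid {α p : ℕ} (hp : ell ≤ p) (hp' : p < ell + 2 ^ b) :
    cuF b α p = (col (2 ^ b) α).testBit (p - ell) := by
  simp only [cuF, if_neg (not_lt.2 hp), if_pos hp']

theorem MStatic_cuF_top {α p : ℕ} (hp : ell + 2 ^ b ≤ p) : cuF b α p = false := by
  have h0 : 0 < 2 ^ b := by positivity
  have h1 : ¬ p < ell := by omega
  simp only [cuF, if_neg h1, if_neg (not_lt.2 hp)]

theorem MStatic_cy {α p : ℕ} : (st b α p).cy = true ↔ ell ≤ p ∧ p < ell + 2 ^ b ∧ ell ≤ α ∧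
    ∀ i < p - ell, (col (2 ^ b) α).testBit i = true := by
  simp only [st, decide_eq_true_eq]

theorem MStatic_cy_false {α p : ℕ} (h : p < ell ∨ ell + 2 ^ b ≤ p ∨ α < ell) :
    (st b α p).cy = false := by
  rw [Bool.eq_false_iff, Ne, MStatic_cy]
  omega

theorem MStatic_col_mid {p : ℕ} (hp : ell ≤ p) (hp' : p < ell + 2 ^ b) : col b p = p - ell := by
  rw [col, if_neg (not_lt.2 hp), Nat.mod_eq_of_lt (by omega)]

theorem MStatic_ext {s s' : Stat} (h1 : s.tg = s'.tg) (h2 : s.nt = s'.nt) (h3 : s.pr = s'.pr)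
    (h4 : s.mx = s'.mx) (h5 : s.cu = s'.cu) (h6 : s.nx = s'.nx) (h7 : s.cy = s'.cy)
    (h8 : s.ct = s'.ct) : s = s' := by
  cases s
  cases s'
  simp_all

theorem st_St1 {α p : ℕ} (hα : α < Q (2 ^ b)) (hp : p < Q b) : St1 (sg b p) (st b α p) := by
  have h0 := MStatic_ell_pos
  refine ⟨MStatic_tag_next hα, fun h => ?_, fun h => ?_, fun h => ?_, fun h => ?_, fun h => ?_⟩
  · obtain rfl := sg_first.1 h
    refine ⟨?_, ?_, ?_⟩
    · rw [Bool.eq_iff_iff, decide_eq_true_eq]
      exact (MStatic_cuF_low h0).trans (by simp only [Nat.zero_le, and_true]; exact tag_eq_zero.symm)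
    · rw [Bool.eq_iff_iff, decide_eq_true_eq]
      exact (MStatic_cuF_low h0).trans (by simp only [Nat.zero_le, and_true]; exact tag_eq_zero.symm)
    · exact Fin.ext (Nat.zero_min _)
  · exact MStatic_sg_nil (B := 2 ^ b) (not_lt.1 fun h' => h (tag_eq_zero.2 h'))
  · have hp0 : p < ell := tag_eq_zero.1 h
    refine ⟨MStatic_cy_false (Or.inl hp0), fun h1 h2 => ?_⟩
    rw [sg_pr hp0] at h1 ⊢
    have h3 := MStatic_lastP.1 h1
    have h4 := (MStatic_cuF_low hp0).1 h2
    obtain rfl : α = p := by omega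
    exact sg_pr (b := 2 ^ b) hp0
  · obtain ⟨hp0, hp1⟩ := tag_eq_one.1 h
    have ecu : (st b α p).cu = (col (2 ^ b) α).testBit (p - ell) := MStatic_cuF_mid hp0 hp1
    have enx : (st b α p).nx = (col (2 ^ b) ((α + 1) % Q (2 ^ b))).testBit (p - ell) :=
      MStatic_cuF_mid hp0 hp1
    refine ⟨fun h1 => ?_, ?_, fun h1 => ?_⟩
    · rw [ecu, MStatic_col_low (tag_eq_zero.1 h1), Nat.zero_testBit]
    · rcases Nat.lt_or_ge α ell with h1 | h1
      · rw [ecu, enx, MStatic_col_low h1, MStatic_col_next_low h1, Nat.zero_testBit,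
          MStatic_cy_false (Or.inr (Or.inr h1))]
        rfl
      · have e := MStatic_testBit_succ (p - ell) (col (2 ^ b) α)
        have e' : (st b α p).cy = true ↔ ∀ i < p - ell, (col (2 ^ b) α).testBit i = true := by
          rw [MStatic_cy]
          exact ⟨fun h => h.2.2.2, fun h => ⟨hp0, hp1, h1, h⟩⟩
        rw [← e'] at e
        rw [ecu, enx, MStatic_col_next hα h1, Nat.testBit_mod_two_pow,
          decide_eq_true (show p - ell < 2 ^ b by omega), Bool.true_and]
        revert e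
        cases (col (2 ^ b) α + 1).testBit (p - ell) <;> cases (col (2 ^ b) α).testBit (p - ell) <;>
          cases (st b α p).cy <;> simp
    · have h2 := (MStatic_sg_mx.1 h1).2
      rw [MStatic_col_mid hp0 hp1] at h2
      rw [Bool.eq_iff_iff, Bool.and_eq_true, MStatic_cy, ecu]
      refine MStatic_sg_mx.trans ?_
      rw [MStatic_max_iff (col_lt _ _), ← h2, Nat.forall_lt_succ_right]
      constructor
      · rintro ⟨a1, a2, a3⟩
        exact ⟨⟨hp0, by omega, a1, a2⟩, a3⟩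
      · rintro ⟨⟨_, _, a1, a2⟩, a3⟩
        exact ⟨a1, a2, a3⟩
  · have hp1 : ell + 2 ^ b ≤ p := by
      rcases h with h | h
      · exact (tag_eq_two.1 h).1
      · have := tag_eq_three.1 h
        omega
    exact ⟨MStatic_cuF_top hp1, MStatic_cuF_top hp1, MStatic_cy_false (Or.inr (Or.inl hp1))⟩

theorem st_St2 {α p : ℕ} (hα : α < Q (2 ^ b)) (hp : p + 1 < Q b) :
    St2 (sg b p) (sg b (p + 1)) (st b α p) (st b α (p + 1)) := by
  refine ⟨rfl, rfl, rfl, rfl, ?_, fun h h' => ?_, fun h h' => ?_, fun h h' => ?_⟩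
  · show min (p + 1) s0 = min (min p s0 + 1) s0
    omega
  · have hp0 : p < ell := tag_eq_zero.1 h
    have hp1 : p + 1 < ell := tag_eq_zero.1 h'
    have e0 : (st b α p).cu = true ↔ α < ell ∧ p ≤ α := MStatic_cuF_low hp0
    have e1 : (st b α (p + 1)).cu = true ↔ α < ell ∧ p + 1 ≤ α := MStatic_cuF_low hp1
    have e2 : (st b α (p + 1)).nx = true ↔
        (α + 1) % Q (2 ^ b) < ell ∧ p + 1 ≤ (α + 1) % Q (2 ^ b) := MStatic_cuF_low hp1
    have e3 : (st b α p).nt = 0 ↔ (α + 1) % Q (2 ^ b) < ell := tag_eq_zero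
    refine ⟨fun h1 => ?_, fun h1 h2 => ?_, ?_⟩
    · rw [e1] at h1
      rw [e0]
      omega
    · rw [Bool.eq_false_iff, Ne, e1] at h2
      rw [e0] at h1
      obtain rfl : α = p := by omega
      exact (sg_pr (b := 2 ^ b) hp0).trans (sg_pr hp0).symm
    · rw [Bool.eq_iff_iff, Bool.and_eq_true, decide_eq_true_eq, e0, e2, e3]
      have := MStatic_next hα
      have hQ' : Q (2 ^ b) = ell + 3 * 2 ^ 2 ^ b := rfl
      have hM : 0 < 2 ^ 2 ^ b := by positivity
      omega
  · have hp0 : p < ell := tag_eq_zero.1 h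
    obtain ⟨hp1, hp2⟩ := tag_eq_one.1 h'
    have e3 : (st b α p).tg = 0 ↔ α < ell := tag_eq_zero
    rw [Bool.eq_iff_iff, decide_eq_true_eq, MStatic_cy, Ne, e3, show p + 1 - ell = 0 by omega]
    simp only [Nat.not_lt_zero, IsEmpty.forall_iff, implies_true, and_true]
    omega
  · obtain ⟨hp0, hp1⟩ := tag_eq_one.1 h
    obtain ⟨hp2, hp3⟩ := tag_eq_one.1 h'
    have ecu : (st b α p).cu = (col (2 ^ b) α).testBit (p - ell) := MStatic_cuF_mid hp0 hp1
    rw [Bool.eq_iff_iff, Bool.and_eq_true, MStatic_cy, MStatic_cy, ecu,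
      show p + 1 - ell = p - ell + 1 by omega, Nat.forall_lt_succ_right]
    tauto

theorem MStatic_const {s : ℕ → Stat}
    (h2 : ∀ p, p + 1 < Q b → St2 (sg b p) (sg b (p + 1)) (s p) (s (p + 1))) :
    ∀ p < Q b, (s p).tg = (s 0).tg ∧ (s p).nt = (s 0).nt ∧ (s p).pr = (s 0).pr ∧
      (s p).mx = (s 0).mx := by
  intro p
  induction p with
  | zero => exact fun _ => ⟨rfl, rfl, rfl, rfl⟩
  | succ p ih =>
    intro hp
    obtain ⟨a1, a2, a3, a4⟩ := ih (by omega)
    have h := h2 p hp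
    exact ⟨h.tg.trans a1, h.nt.trans a2, h.pr.trans a3, h.mx.trans a4⟩

theorem MStatic_tag_cases (p : ℕ) : (p < ell ∧ tag b p = 0) ∨
    (ell ≤ p ∧ p < ell + 2 ^ b ∧ tag b p = 1) ∨
    (ell + 2 ^ b ≤ p ∧ (tag b p = 2 ∨ tag b p = 3)) := by
  rcases Nat.lt_or_ge p ell with h | h
  · exact Or.inl ⟨h, tag_eq_zero.2 h⟩
  rcases Nat.lt_or_ge p (ell + 2 ^ b) with h1 | h1
  · exact Or.inr (Or.inl ⟨h, h1, tag_eq_one.2 ⟨h, h1⟩⟩)
  rcases Nat.lt_or_ge p (ell + 2 * 2 ^ b) with h2 | h2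
  · exact Or.inr (Or.inr ⟨h1, Or.inl (tag_eq_two.2 ⟨h1, h2⟩)⟩)
  · exact Or.inr (Or.inr ⟨h1, Or.inr (tag_eq_three.2 h2)⟩)

/-- the tracks `tg`, `pr`, `cu` determine the others -/
theorem MStatic_uniq {s s' : ℕ → Stat} (h1 : ∀ p < Q b, St1 (sg b p) (s p))
    (h2 : ∀ p, p + 1 < Q b → St2 (sg b p) (sg b (p + 1)) (s p) (s (p + 1)))
    (h1' : ∀ p < Q b, St1 (sg b p) (s' p))
    (h2' : ∀ p, p + 1 < Q b → St2 (sg b p) (sg b (p + 1)) (s' p) (s' (p + 1)))
    (htg : (s 0).tg = (s' 0).tg) (hpr : (s 0).pr = (s' 0).pr)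
    (hcu : ∀ p < ell + 2 ^ b, (s p).cu = (s' p).cu) : ∀ p < Q b, s p = s' p := by
  have h0 := MStatic_ell_pos
  have hM : 0 < 2 ^ b := by positivity
  have hQ : Q b = ell + 3 * 2 ^ b := rfl
  have c := MStatic_const h2
  have c' := MStatic_const h2'
  have etg : ∀ p < Q b, (s p).tg = (s' p).tg := fun p hp =>
    (c p hp).1.trans (htg.trans (c' p hp).1.symm)
  have ecy : ∀ p < Q b, (s p).cy = (s' p).cy := by
    intro p
    induction p with
    | zero =>
      intro hp
      rw [((h1 0 hp).t0 (tag_eq_zero.2 h0)).1, ((h1' 0 hp).t0 (tag_eq_zero.2 h0)).1]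
    | succ p ih =>
      intro hp
      rcases MStatic_tag_cases (b := b) (p + 1) with ⟨_, h⟩ | ⟨a1, a2, h⟩ | ⟨_, h⟩
      · rw [((h1 _ hp).t0 h).1, ((h1' _ hp).t0 h).1]
      · rcases Nat.lt_or_ge p ell with h3 | h3
        · rw [(h2 p hp).t01 (tag_eq_zero.2 h3) h, (h2' p hp).t01 (tag_eq_zero.2 h3) h,
            etg p (by omega)]
        · have h4 : tag b p = 1 := tag_eq_one.2 ⟨h3, by omega⟩
          rw [(h2 p hp).t11 h4 h, (h2' p hp).t11 h4 h, ih (by omega), hcu p (by omega)]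
      · rw [((h1 _ hp).t2 h).2.2, ((h1' _ hp).t2 h).2.2]
  have emx : (s 0).mx = (s' 0).mx := by
    have hq : ell + 2 ^ b - 1 < Q b := by omega
    have ht : tag b (ell + 2 ^ b - 1) = 1 := tag_eq_one.2 ⟨by omega, by omega⟩
    have hm : (sg b (ell + 2 ^ b - 1)).mx = true := by
      rw [MStatic_sg_mx, MStatic_col_mid (by omega) (by omega)]
      omega
    rw [← (c _ hq).2.2.2, ← (c' _ hq).2.2.2, ((h1 _ hq).t1 ht).2.2 hm, ((h1' _ hq).t1 ht).2.2 hm,
      ecy _ hq, hcu _ (by omega)]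
  have ent : (s 0).nt = (s' 0).nt := by
    rw [(h1 0 (by omega)).nt, (h1' 0 (by omega)).nt, htg, hpr, emx]
  have ent' : ∀ p < Q b, (s p).nt = (s' p).nt := fun p hp =>
    (c p hp).2.1.trans (ent.trans (c' p hp).2.1.symm)
  have ect : ∀ p < Q b, (s p).ct = (s' p).ct := by
    intro p
    induction p with
    | zero =>
      intro hp
      rw [((h1 0 hp).first (sg_first.2 rfl)).2.2, ((h1' 0 hp).first (sg_first.2 rfl)).2.2]
    | succ p ih =>
      intro hp
      refine Fin.ext ?_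
      rw [(h2 p hp).ct, (h2' p hp).ct, ih (by omega)]
  intro p hp
  refine MStatic_ext (etg p hp) (ent' p hp) ((c p hp).2.2.1.trans (hpr.trans (c' p hp).2.2.1.symm))
    ((c p hp).2.2.2.trans (emx.trans (c' p hp).2.2.2.symm)) ?_ ?_ (ecy p hp) (ect p hp)
  · rcases MStatic_tag_cases (b := b) p with ⟨a1, _⟩ | ⟨_, a2, _⟩ | ⟨_, h⟩
    · exact hcu p (by omega)
    · exact hcu p a2
    · rw [((h1 _ hp).t2 h).1, ((h1' _ hp).t2 h).1]
  · rcases MStatic_tag_cases (b := b) p with ⟨a1, h⟩ | ⟨_, a2, h⟩ | ⟨_, h⟩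
    · cases p with
      | zero =>
        rw [((h1 0 hp).first (sg_first.2 rfl)).2.1, ((h1' 0 hp).first (sg_first.2 rfl)).2.1, ent]
      | succ p =>
        have h4 : tag b p = 0 := tag_eq_zero.2 (by omega)
        rw [((h2 p hp).t00 h4 h).2.2, ((h2' p hp).t00 h4 h).2.2, ent' p (by omega),
          hcu p (by omega)]
    · rw [((h1 _ hp).t1 h).2.1, ((h1' _ hp).t1 h).2.1, hcu p a2, ecy p hp]
    · rw [((h1 _ hp).t2 h).2.1, ((h1' _ hp).t2 h).2.1]

/-- the thermometer is monotone -/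
theorem MStatic_mono {s : ℕ → Stat}
    (h2 : ∀ p, p + 1 < Q b → St2 (sg b p) (sg b (p + 1)) (s p) (s (p + 1))) {p q : ℕ}
    (hpq : p ≤ q) (hq : q < ell) (h : (s q).cu = true) : (s p).cu = true := by
  have hQ : Q b = ell + 3 * 2 ^ b := rfl
  induction q, hpq using Nat.le_induction with
  | base => exact h
  | succ q _ ih =>
    exact ih (by omega) (((h2 q (by omega)).t00 (tag_eq_zero.2 (by omega)) (tag_eq_zero.2 hq)).1 h)

/-- Recipe: `tg, nt, pr, mx` are constant, `ct p = min p s0`.  If `tg = 0`, `α` is the largest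
`p < ell` with `cu`; otherwise `α = ell + (tg - 1) * 2^(2^b) + Nat.ofBits (cu on quarter 1)`, and
`cy` is the carry chain of the increment. -/
theorem exists_st (s : ℕ → Stat) (h1 : ∀ p < Q b, St1 (sg b p) (s p))
    (h2 : ∀ p, p + 1 < Q b → St2 (sg b p) (sg b (p + 1)) (s p) (s (p + 1))) :
    ∃ α < Q (2 ^ b), ∀ p < Q b, s p = st b α p := by
  have h0 := MStatic_ell_pos
  have hM : 0 < 2 ^ b := by positivity
  have hQ : Q b = ell + 3 * 2 ^ b := rfl
  have hQ' : Q (2 ^ b) = ell + 3 * 2 ^ 2 ^ b := rfl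
  have c := MStatic_const h2
  have hcu0 := ((h1 0 (by omega)).first (sg_first.2 rfl)).1
  suffices h : ∃ α < Q (2 ^ b), (s 0).tg = tag (2 ^ b) α ∧ (s 0).pr = (sg (2 ^ b) α).pr ∧
      ∀ p < ell + 2 ^ b, (s p).cu = cuF b α p by
    obtain ⟨α, hα, a1, a2, a3⟩ := h
    exact ⟨α, hα, MStatic_uniq h1 h2 (fun p hp => st_St1 hα hp) (fun p hp => st_St2 hα hp) a1 a2 a3⟩
  by_cases ht : (s 0).tg = 0
  · rw [ht, decide_eq_true rfl] at hcu0
    obtain ⟨α, hα, hα1, hα2⟩ : ∃ α < ell, (s α).cu = true ∧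
        ∀ p < ell, (s p).cu = true → p ≤ α := by
      refine ⟨Nat.findGreatest (fun p => (s p).cu = true) (ell - 1), ?_, ?_, fun p hp h => ?_⟩
      · have := Nat.findGreatest_le (P := fun p => (s p).cu = true) (ell - 1)
        omega
      · exact Nat.findGreatest_spec (P := fun p => (s p).cu = true) (Nat.zero_le _) hcu0
      · exact Nat.le_findGreatest (P := fun p => (s p).cu = true) (by omega) h
    refine ⟨α, by omega, ht.trans (tag_eq_zero.2 hα).symm, ?_, fun p hp => ?_⟩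
    · rw [sg_pr hα, ← (c α (by omega)).2.2.1, ← sg_pr (b := b) hα]
      rcases Nat.lt_or_ge (α + 1) ell with h | h
      · refine ((h2 α (by omega)).t00 (tag_eq_zero.2 hα) (tag_eq_zero.2 h)).2.1 hα1 ?_
        rw [Bool.eq_false_iff]
        intro h'
        have := hα2 _ h h'
        omega
      · refine ((h1 α (by omega)).t0 (tag_eq_zero.2 hα)).2 ?_ hα1
        rw [sg_pr hα, MStatic_lastP]
        omega
    · rcases Nat.lt_or_ge p ell with h | h
      · rw [Bool.eq_iff_iff, MStatic_cuF_low h]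
        exact ⟨fun h' => ⟨hα, hα2 p h h'⟩, fun h' => MStatic_mono h2 h'.2 hα hα1⟩
      · rw [MStatic_cuF_mid h hp, MStatic_col_low hα, Nat.zero_testBit]
        exact ((h1 p (by omega)).t1 (tag_eq_one.2 ⟨h, hp⟩)).1 ((c p (by omega)).1.trans ht)
  · rw [decide_eq_false ht] at hcu0
    have hc : Nat.ofBits (fun j : Fin (2 ^ b) => (s (ell + j)).cu) < 2 ^ 2 ^ b :=
      Nat.ofBits_lt_two_pow _
    have hbit : ∀ i (hi : i < 2 ^ b),
        (Nat.ofBits (fun j : Fin (2 ^ b) => (s (ell + j)).cu)).testBit i = (s (ell + i)).cu :=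
      fun i hi => Nat.testBit_ofBits_lt _ i hi
    generalize Nat.ofBits (fun j : Fin (2 ^ b) => (s (ell + j)).cu) = r at hc hbit
    obtain ⟨k, hk, hk'⟩ : ∃ k < 3, (s 0).tg = tag (2 ^ b) (ell + k * 2 ^ 2 ^ b + r) := by
      have : ∀ t : Fin 4, t ≠ 0 → t = 1 ∨ t = 2 ∨ t = 3 := by decide
      rcases this _ ht with h | h | h
      · exact ⟨0, by omega, h.trans (tag_eq_one.2 (by omega)).symm⟩
      · exact ⟨1, by omega, h.trans (tag_eq_two.2 (by omega)).symm⟩
      · exact ⟨2, by omega, h.trans (tag_eq_three.2 (by omega)).symm⟩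
    have hk2 : k * 2 ^ 2 ^ b ≤ 2 * 2 ^ 2 ^ b := Nat.mul_le_mul_right _ (by omega)
    refine ⟨ell + k * 2 ^ 2 ^ b + r, by omega, hk', ?_, fun p hp => ?_⟩
    · rw [MStatic_sg_nil (by omega)]
      exact (h1 0 (by omega)).blank ht
    · rcases Nat.lt_or_ge p ell with h | h
      · rw [Bool.eq_iff_iff, MStatic_cuF_low h]
        refine ⟨fun h' => ?_, fun h' => by omega⟩
        have := MStatic_mono h2 (Nat.zero_le p) h h'
        rw [hcu0] at this
        exact absurd this Bool.false_ne_true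
      · rw [MStatic_cuF_mid h hp, MStatic_col_of hc, hbit _ (by omega),
          show ell + (p - ell) = p by omega]

/-- the address is determined by its tag and its track -/
theorem addr_inj {α α' : ℕ} (hα : α < Q (2 ^ b)) (hα' : α' < Q (2 ^ b))
    (ht : tag (2 ^ b) α = tag (2 ^ b) α')
    (h : ∀ p < ell + 2 ^ b, cuF b α p = cuF b α' p) : α = α' := by
  have hM : 0 < 2 ^ b := by positivity
  have t0 : α < ell ↔ α' < ell := by rw [← tag_eq_zero (b := 2 ^ b), ht, tag_eq_zero]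
  rcases Nat.lt_or_ge α ell with h1 | h1
  · have h1' := t0.1 h1
    have a1 := h α (by omega)
    have a2 := h α' (by omega)
    rw [Bool.eq_iff_iff, MStatic_cuF_low h1, MStatic_cuF_low h1] at a1
    rw [Bool.eq_iff_iff, MStatic_cuF_low h1', MStatic_cuF_low h1'] at a2
    omega
  · have h1' : ell ≤ α' := by omega
    have hc : col (2 ^ b) α = col (2 ^ b) α' := by
      refine MStatic_eq_of_bits (col_lt _ _) (col_lt _ _) fun j hj => ?_
      have := h (ell + j) (by omega)
      rwa [MStatic_cuF_mid (by omega) (by omega), MStatic_cuF_mid (by omega) (by omega),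
        Nat.add_sub_cancel_left] at this
    have t1 : (ell ≤ α ∧ α < ell + 2 ^ 2 ^ b) ↔ (ell ≤ α' ∧ α' < ell + 2 ^ 2 ^ b) := by
      rw [← tag_eq_one (b := 2 ^ b), ht, tag_eq_one]
    have t3 : ell + 2 * 2 ^ 2 ^ b ≤ α ↔ ell + 2 * 2 ^ 2 ^ b ≤ α' := by
      rw [← tag_eq_three (b := 2 ^ b), ht, tag_eq_three]
    have b1 := MStatic_col_spec hα h1
    have b2 := MStatic_col_spec hα' h1'
    have b3 := col_lt (2 ^ b) α
    omega

theorem succ_iff {α α' : ℕ} (hα' : α' < Q (2 ^ b)) :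
    α' = (α + 1) % Q (2 ^ b) ↔ ∀ p < ell + 2 ^ b,
      (st b α p).nt = (st b α' p).tg ∧ (st b α p).nx = (st b α' p).cu := by
  constructor
  · rintro rfl p _
    exact ⟨rfl, rfl⟩
  · intro h
    have h0 := MStatic_ell_pos
    have hM : 0 < 2 ^ b := by positivity
    exact (addr_inj (Nat.mod_lt _ (Q_pos _)) hα' (h 0 (by omega)).1 fun p hp => (h p hp).2).symm

theorem Blk.addr {f : ℕ → Ce} {g : ℕ → Fin (2 ^ b)} {o α : ℕ} (h : Blk b f g o α) :
    (addr b f o).val = α := by
  have hex : ∃ α : Fin (Q (2 ^ b)), ∀ p < Q b, (f (o + p)).st = R176.st b α p :=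
    ⟨⟨α, h.lt⟩, h.st⟩
  have hQ : Q b = ell + 3 * 2 ^ b := rfl
  rw [R176.addr, dif_pos hex]
  have hs : ∀ p < Q b, R176.st b hex.choose p = R176.st b α p := fun p hp =>
    (hex.choose_spec p hp).symm.trans (h.st p hp)
  exact addr_inj hex.choose.2 h.lt (congrArg Stat.tg (hs 0 (Q_pos b)))
    fun p hp => congrArg Stat.cu (hs p (by omega))

/-- the static tracks are constant on quarter `2` -/
theorem st_top {α p q : ℕ} (hp : ell + 2 ^ b ≤ p) (hq : ell + 2 ^ b ≤ q) :
    st b α p = st b α q := by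
  have h1 := s0_le_be
  have h2 := be_lt_ell
  have h3 : 0 < 2 ^ b := by positivity
  refine MStatic_ext rfl rfl rfl rfl ((MStatic_cuF_top hp).trans (MStatic_cuF_top hq).symm)
    ((MStatic_cuF_top hp).trans (MStatic_cuF_top hq).symm) ?_ (Fin.ext ?_)
  · rw [MStatic_cy_false (Or.inr (Or.inl hp)), MStatic_cy_false (Or.inr (Or.inl hq))]
  · show min p s0 = min q s0
    omega

end Crest.Agent.R176
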