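import Crest.Agent.R176.Thue

/-!
# R176: the self-simulating system (definitions)

Level `b`: blocks of `Q b = ell + 3 * 2 ^ b` cells: the program segment `[0, ell)` (tag `0`) and
three quarters of `2 ^ b` cells (tags `1, 2, 3`).  A block encodes a letter of level `2 ^ b`:
its control word in the bits of the field area `[0, be)`, its address in the static tracks
(thermometer on the program segment, binary digits on quarter `1`), its label in the bits of
quarter `2`.  The cells of quarter `3` carry labels, which are permuted freely.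
-/

noncomputable section

namespace Crest.Agent.R176

open Classical

set_option synthInstance.maxSize 2048
set_option synthInstance.maxHeartbeats 400000

inductive Kind | plain | swap | eq | zero
  deriving DecidableEq, Fintype, Inhabited

/-- a symbol of the read-only program -/
structure Prog where
  first : Bool
  lastP : Bool
  fld : Bool
  fend : Bool
  est : Bool
  kind : Kind
  sL : Bool
  sR : Bool
  lo : Bool
  ln : Bool
  ro : Bool
  rn : Bool
  deriving DecidableEq

instance : Fintype Prog :=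
  Fintype.ofInjective (fun p : Prog => ((p.first, p.lastP, p.fld, p.fend), (p.est, p.kind, p.sL, p.sR),
    (p.lo, p.ln, p.ro, p.rn))) (fun p q h => by
      cases p; cases q; simp only [Prod.mk.injEq] at h; simp [h])

/-- the blank program symbol -/
def Prog.nil : Prog :=
  ⟨false, false, false, false, false, Kind.plain, false, false, false, false, false, false⟩

/-- what the rules see of the address of a cell -/
structure Sg where
  tag : Fin 4
  pr : Prog
  mx : Bool
  deriving DecidableEq, Fintype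

def Sg.first (σ : Sg) : Prop := σ.tag = 0 ∧ σ.pr.first = true
def Sg.last (σ : Sg) : Prop := σ.tag = 3 ∧ σ.mx = true
def Sg.fld (σ : Sg) : Prop := σ.tag = 0 ∧ σ.pr.fld = true
def Sg.est (σ : Sg) : Prop := σ.tag = 0 ∧ σ.pr.est = true

/-- length of the (one-hot) code of `Sg` -/
@[irreducible] def s0 : ℕ := Fintype.card Sg

theorem s0_eq : s0 = Fintype.card Sg := by unfold s0; rfl

def Sg.code (σ : Sg) (i : ℕ) : Bool := decide ((Fintype.equivFin Sg σ).val = i)

/-- the static tracks of a cell -/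
structure Stat where
  tg : Fin 4
  nt : Fin 4
  pr : Prog
  mx : Bool
  cu : Bool
  nx : Bool
  cy : Bool
  ct : Fin (s0 + 1)
  deriving DecidableEq, Fintype

def Stat.sg (s : Stat) : Sg := ⟨s.tg, s.pr, s.mx⟩

def Stat.sb (s : Stat) : Bool := s.sg.code s.ct

/-- phases of the head of a double zone -/
inductive Sub
  | D | A
  | B (x y s : Bool) (nt : Fin 4) (nx : Bool)
  | C (f x y s : Bool) (nt : Fin 4) (nx : Bool)
  | F
  deriving DecidableEq, Fintype

/-- marks: arrows to the head, and heads.  `ρ = true` in the second block of a double zone;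
`m = true` is the mode "rewrite old to new", `m = false` the mode "check new". -/
inductive Mk
  | r (ρ : Bool) | l (ρ : Bool) | idle
  | run (ρ m : Bool) (k : Option Kind) (sub : Sub)
  deriving DecidableEq, Fintype

/-- the control word of a cell -/
structure Ce where
  mk' : Mk
  st : Stat
  bit : Bool
  dn : Option Bool
  ep : Fin 3
  deriving DecidableEq, Fintype

instance : Inhabited Ce :=
  ⟨⟨Mk.idle, ⟨0, 0, Prog.nil, false, false, false, false, 0⟩, false, none, 0⟩⟩

/-- length of the field area -/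
@[irreducible] def be : ℕ := Fintype.card Ce + s0

theorem be_eq : be = Fintype.card Ce + s0 := by unfold be; rfl

/-- control words as bit strings -/
abbrev Cw := Fin be → Bool

def encC (s : Ce) : Cw := fun i => decide ((Fintype.equivFin Ce s).val = i.val)

def decC (c : Cw) : Option Ce := if h : ∃ s, encC s = c then some h.choose else none

/-- the last column of a pass -/
def EndC (k : Option Kind) (σ : Sg) : Prop :=
  (k = some Kind.zero ∧ σ.tag = 0 ∧ σ.pr.fend = true) ∨
  (k = some Kind.plain ∧ σ.tag = 1 ∧ σ.mx = true) ∨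
  ((k = some Kind.swap ∨ k = some Kind.eq) ∧ σ.tag = 2 ∧ σ.mx = true)

/-- the state after processing a cell of the left block (old bit `x`, new bit `y`) -/
inductive ASub (σ : Sg) (k : Option Kind) (L : Ce) (x y : Bool) : Sub → Prop
  | fld : σ.fld → ASub σ k L x y (Sub.B x y L.st.sb L.st.nt L.st.nx)
  | mid : ¬ σ.fld → (σ.tag = 0 ∨ σ.tag = 1) → x = y →
      ASub σ k L x y (Sub.C false false false false L.st.nt L.st.nx)
  | swap : σ.tag = 2 → k = some Kind.swap →
      ASub σ k L x y (Sub.C false y x false L.st.nt L.st.nx)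
  | eq : σ.tag = 2 → k = some Kind.eq → x = y →
      ASub σ k L x y (Sub.C false x x false L.st.nt L.st.nx)

/-- two idle heads merge -/
inductive FMerge (σL : Sg) : Ce → Ce → Ce → Ce → Prop
  | mk {L R : Ce} (m : Bool) : σL.last → L.mk' = Mk.idle → R.mk' = Mk.idle →
      FMerge σL L R { L with mk' := Mk.run false m none Sub.D } { R with mk' := Mk.l true }

/-- the steps that only change marks -/
inductive FMove (σL : Sg) : Ce → Ce → Ce → Ce → Prop
  | dmove {L R : Ce} (ρ ρ' m : Bool) (k : Option Kind) : L.mk' = Mk.r ρ →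
      R.mk' = Mk.run ρ' m k Sub.D →
      ((¬ σL.last ∧ ρ = ρ') ∨ (σL.last ∧ ρ = false ∧ ρ' = true)) → (ρ' = true → R.dn ≠ none) →
      FMove σL L R { L with mk' := Mk.run ρ m k Sub.D } { R with mk' := Mk.l ρ' }
  | turn {L R : Ce} (m : Bool) (k : Option Kind) : σL.first → L.mk' = Mk.run false m k Sub.D →
      FMove σL L R { L with mk' := Mk.run false m k Sub.A } R
  | amove {L R : Ce} (m : Bool) (k : Option Kind) : ¬ σL.last →
      L.mk' = Mk.run false m k Sub.A → R.mk' = Mk.l false → L.dn ≠ none →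
      FMove σL L R { L with mk' := Mk.r false } { R with mk' := Mk.run false m k Sub.A }
  | bmove {L R : Ce} (m : Bool) (k : Option Kind) (x y s : Bool) (nt : Fin 4) (nx : Bool) :
      ¬ σL.last → L.mk' = Mk.run false m k (Sub.B x y s nt nx) → R.mk' = Mk.l false →
      L.dn = none → L.ep ≠ 1 →
      FMove σL L R { L with mk' := Mk.r false }
        { R with mk' := Mk.run false m k (Sub.B x y s nt nx) }
  | cmove {L R : Ce} (ρ ρ' m : Bool) (k : Option Kind) (f x y s : Bool) (nt : Fin 4) (nx : Bool) :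
      L.mk' = Mk.run ρ m k (Sub.C f x y s nt nx) → R.mk' = Mk.l ρ' →
      ((¬ σL.last ∧ ρ = ρ') ∨ (σL.last ∧ ρ = false ∧ ρ' = true)) →
      (ρ = false → L.dn = none ∧ (f = true → R.ep ≠ 1)) → (ρ = true → L.dn ≠ none) →
      FMove σL L R { L with mk' := Mk.r ρ } { R with mk' := Mk.run ρ' m k (Sub.C f x y s nt nx) }

/-- processing a cell of the left block -/
inductive FA' (σL : Sg) : Ce → Ce → Ce → Ce → Prop
  | mk {L R : Ce} (m : Bool) (k : Option Kind) (x y : Bool) (sub : Sub) : ¬ σL.last →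
      L.mk' = Mk.run false m k Sub.A → R.mk' = Mk.l false → L.dn = none →
      L.bit = (if m = true then x else y) → ASub σL k L x y sub →
      FA' σL L R { L with mk' := Mk.r false, dn := some x, bit := y }
        { R with mk' := Mk.run false m k sub }

/-- looking up the table -/
inductive FB (σL : Sg) : Ce → Ce → Ce → Ce → Prop
  | mk {L R : Ce} (m : Bool) (k : Option Kind) (k' : Kind) (nt : Fin 4) (nx : Bool) :
      σL.tag = 0 → L.mk' = Mk.run false m k (Sub.B σL.pr.lo σL.pr.ln σL.pr.sL nt nx) →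
      R.mk' = Mk.l false → L.dn = none → R.ep = 0 →
      ((k = none ∧ σL.est ∧ L.ep = 0 ∧ k' = σL.pr.kind) ∨ (k = some k' ∧ ¬ σL.est ∧ L.ep = 1)) →
      FB σL L R { L with mk' := Mk.r false, ep := 2 }
        { R with mk' := Mk.run false m (some k') (Sub.C true σL.pr.ro σL.pr.rn σL.pr.sR nt nx),
                 ep := 1 }

/-- processing a cell of the right block -/
inductive FC (σL : Sg) : Ce → Ce → Ce → Ce → Prop
  | mk {L R : Ce} (m : Bool) (k : Option Kind) (x y : Bool) : ¬ σL.last →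
      L.mk' = Mk.run true m k (Sub.C (decide σL.fld) x y (if σL.fld then L.st.sb else false)
        L.st.tg L.st.cu) →
      L.dn = none → R.dn = none → L.bit = (if m = true then x else y) →
      FC σL L R
        { L with mk' := Mk.run true m k (if EndC k σL then Sub.F else Sub.D), dn := some x,
                 bit := y } R

/-- the forward steps `(L, R) → (L', R')` of a double zone -/
def Fwd (σL : Sg) (L R L' R' : Ce) : Prop :=
  FMerge σL L R L' R' ∨ FMove σL L R L' R' ∨ FA' σL L R L' R' ∨ FB σL L R L' R' ∨ FC σL L R L' R'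

/-- the idle head moves freely -/
def Idl (σL : Sg) (L R L' R' : Ce) : Prop :=
  ¬ σL.last ∧ L.mk' = Mk.idle ∧ R.mk' = Mk.l true ∧ L' = { L with mk' := Mk.r false } ∧
    R' = { R with mk' := Mk.idle }

/-- the link between the two modes -/
def Lnk (L R L' R' : Ce) : Prop :=
  ∃ k, (k = Kind.plain ∨ k = Kind.swap) ∧ L.mk' = Mk.run true true (some k) Sub.F ∧
    L' = { L with mk' := Mk.run true false (some k) Sub.F } ∧ R' = R

def flM (m : Mk) : Prop := m = Mk.l true ∨ m = Mk.idle ∨ ∃ m' k sub, m = Mk.run true m' k sub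
def frM (m : Mk) : Prop := m = Mk.r false ∨ m = Mk.idle ∨ ∃ m' k sub, m = Mk.run false m' k sub

/-- admissible pairs of marks -/
def MkOK (σL : Sg) (a c : Mk) : Prop :=
  if σL.last then
    (flM a ∧ frM c) ∨ (a = Mk.r false ∧ c = Mk.r true) ∨
      (a = Mk.r false ∧ ∃ m k sub, c = Mk.run true m k sub) ∨ (a = Mk.l false ∧ c = Mk.l true) ∨
      ((∃ m k sub, a = Mk.run false m k sub) ∧ c = Mk.l true)
  else
    (∃ ρ, a = Mk.r ρ ∧ c = Mk.r ρ) ∨ (∃ ρ, a = Mk.l ρ ∧ c = Mk.l ρ) ∨
      (a = Mk.r false ∧ c = Mk.idle) ∨ (a = Mk.idle ∧ c = Mk.l true) ∨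
      (∃ ρ m k sub, a = Mk.r ρ ∧ c = Mk.run ρ m k sub) ∨
      (∃ ρ m k sub, a = Mk.run ρ m k sub ∧ c = Mk.l ρ)

/-- one-cell constraints on the static tracks -/
structure St1 (σ : Sg) (s : Stat) : Prop where
  nt : s.nt = if s.tg = 0 then (if s.pr.lastP = true then 1 else 0)
    else if s.mx = true then s.tg + 1 else s.tg
  first : σ.first → s.cu = decide (s.tg = 0) ∧ s.nx = decide (s.nt = 0) ∧ s.ct = 0
  blank : s.tg ≠ 0 → s.pr = Prog.nil
  t0 : σ.tag = 0 → s.cy = false ∧ (σ.pr.lastP = true → s.cu = true → s.pr = σ.pr)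
  t1 : σ.tag = 1 → (s.tg = 0 → s.cu = false) ∧ s.nx = xor s.cu s.cy ∧
    (σ.mx = true → s.mx = (s.cy && s.cu))
  t2 : σ.tag = 2 ∨ σ.tag = 3 → s.cu = false ∧ s.nx = false ∧ s.cy = false

/-- two-cell constraints on the static tracks inside a block -/
structure St2 (σL σR : Sg) (a c : Stat) : Prop where
  tg : c.tg = a.tg
  nt : c.nt = a.nt
  pr : c.pr = a.pr
  mx : c.mx = a.mx
  ct : c.ct.val = min (a.ct.val + 1) s0
  t00 : σL.tag = 0 → σR.tag = 0 → (c.cu = true → a.cu = true) ∧
    (a.cu = true → c.cu = false → a.pr = σL.pr) ∧ c.nx = (decide (a.nt = 0) && a.cu)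
  t01 : σL.tag = 0 → σR.tag = 1 → c.cy = decide (a.tg ≠ 0)
  t11 : σL.tag = 1 → σR.tag = 1 → c.cy = (a.cy && a.cu)

def BitOK (σ : Sg) (c : Ce) : Prop := c.bit = true → σ.fld ∨ (σ.tag = 2 ∧ c.st.tg = 3)

def One (σ : Sg) (c : Ce) : Prop :=
  St1 σ c.st ∧ BitOK σ c ∧ (c.mk' = Mk.idle → c.dn = none ∧ c.ep = 0)

/-- the predecessor of a running head is looked for on the right -/
def bsR (σ : Sg) (ρ : Bool) (sub : Sub) : Prop :=
  (σ.first ∧ ρ = false) ∨ ((sub = Sub.D ∨ sub = Sub.F) ∧ ¬ (ρ = true ∧ σ.last))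

def Stuck (σL σR : Sg) (L R : Ce) : Prop :=
  ((∃ ρ m k sub, L.mk' = Mk.run ρ m k sub ∧ bsR σL ρ sub) ∨
    ∃ ρ m k sub, R.mk' = Mk.run ρ m k sub ∧ ¬ bsR σR ρ sub) ∧
  ¬ ∃ L0 R0, Fwd σL L0 R0 L R

/-- the head has found an address mismatch, or has finished a pass of kind `eq` or `zero` -/
def Found (L : Ce) : Prop :=
  (∃ m k f x y s nt nx, L.mk' = Mk.run true m k (Sub.C f x y s nt nx) ∧ L.dn = none ∧
    ¬ (nt = L.st.tg ∧ nx = L.st.cu)) ∨
  ∃ m, L.mk' = Mk.run true m (some Kind.eq) Sub.F ∨ L.mk' = Mk.run true m (some Kind.zero) Sub.F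

def BadC (σL σR : Sg) (L R : Ce) : Prop :=
  ¬ MkOK σL L.mk' R.mk' ∨ (¬ σL.last ∧ ¬ (St2 σL σR L.st R.st ∧ One σL L ∧ One σR R)) ∨
    Stuck σL σR L R ∨ Found L

def Bad (σL σR : Sg) (cL cR : Cw) : Prop :=
  ¬ ∃ L R, cL = encC L ∧ cR = encC R ∧ ¬ BadC σL σR L R

/-- an entry of the table -/
structure Ent where
  σL : Sg
  σR : Sg
  cL : Cw
  cR : Cw
  cL' : Cw
  cR' : Cw
  kind : Kind
  deriving Fintype

/-- the table -/
def TabP (e : Ent) : Prop :=
  match e.kind with
  | Kind.plain => (e.cL' = e.cL ∧ e.cR' = e.cR) ∨ ∃ L R L' R', e.cL = encC L ∧ e.cR = encC R ∧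
      e.cL' = encC L' ∧ e.cR' = encC R' ∧
      (Fwd e.σL L R L' R' ∨ Idl e.σL L R L' R' ∨ Lnk L R L' R')
  | Kind.zero => e.cL' = e.cL ∧ e.cR' = e.cR ∧ Bad e.σL e.σR e.cL e.cR
  | _ => e.cL' = e.cL ∧ e.cR' = e.cR ∧ e.σL.tag = 3 ∧ e.σR.tag = 3 ∧
      ∃ L, e.cL = encC L ∧ L.mk' = Mk.idle

/-- number of entries -/
@[irreducible] def nT : ℕ := Fintype.card {e : Ent // TabP e}

theorem nT_eq : nT = Fintype.card {e : Ent // TabP e} := by unfold nT; rfl

/-- enumeration of the table -/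
def ent (i : ℕ) : Ent :=
  if h : i < Fintype.card {e : Ent // TabP e} then
    ((Fintype.equivFin {e : Ent // TabP e}).symm ⟨i, h⟩).1
  else ⟨⟨0, Prog.nil, false⟩, ⟨0, Prog.nil, false⟩, fun _ => false, fun _ => false,
    fun _ => false, fun _ => false, Kind.plain⟩

/-- a bit of a control word, `false` out of range -/
def cbit (c : Cw) (i : ℕ) : Bool := if h : i < be then c ⟨i, h⟩ else false

/-- length of the program segment -/
@[irreducible] def ell : ℕ := 6 * (be * (nT + 1) + 1)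

theorem ell_eq : ell = 6 * (be * (nT + 1) + 1) := by unfold ell; rfl

/-- first cell of the row of the entry `e` -/
def base (e : ℕ) : ℕ := be + e * be

/-- the program -/
def prog (p : ℕ) : Prog where
  first := decide (p = 0)
  lastP := decide (p + 1 = ell)
  fld := decide (p < be)
  fend := decide (p + 1 = be)
  est := decide (be ≤ p ∧ p < be * (nT + 1) ∧ p % be = 0)
  kind := (ent (p / be - 1)).kind
  sL := (ent (p / be - 1)).σL.code (p % be)
  sR := (ent (p / be - 1)).σR.code (p % be)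
  lo := cbit (ent (p / be - 1)).cL (p % be)
  ln := cbit (ent (p / be - 1)).cL' (p % be)
  ro := cbit (ent (p / be - 1)).cR (p % be)
  rn := cbit (ent (p / be - 1)).cR' (p % be)

/-- block length at level `b` -/
def Q (b : ℕ) : ℕ := ell + 3 * 2 ^ b

def tag (b p : ℕ) : Fin 4 :=
  if p < ell then 0 else if p < ell + 2 ^ b then 1 else if p < ell + 2 * 2 ^ b then 2 else 3

def col (b p : ℕ) : ℕ := if p < ell then 0 else (p - ell) % 2 ^ b

def sg (b p : ℕ) : Sg :=
  ⟨tag b p, if p < ell then prog p else Prog.nil, decide (ell ≤ p ∧ col b p + 1 = 2 ^ b)⟩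

theorem Q_pos (b : ℕ) : 0 < Q b := by unfold Q; positivity

theorem col_lt (b p : ℕ) : col b p < 2 ^ b := by
  unfold col; split_ifs
  · positivity
  · exact Nat.mod_lt _ (by positivity)

/-- the letters of level `b` -/
@[ext] structure Ltr (b : ℕ) where
  p : Fin (Q b)
  c : Cw
  id : Fin (2 ^ b)
  h : tag b p ≠ 3 → id.val = 0

instance (b : ℕ) : Fintype (Ltr b) :=
  Fintype.ofInjective (fun a : Ltr b => (a.p, a.c, a.id)) (fun a a' h => by
    simp only [Prod.mk.injEq] at h
    exact Ltr.ext h.1 h.2.1 h.2.2)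

def Ltr.sg {b : ℕ} (a : Ltr b) : Sg := R176.sg b a.p

/-- the system of level `b` -/
def sys (b : ℕ) : Sys (Ltr b) where
  eqv x y x' y' := y.p.val = (x.p.val + 1) % Q b ∧ x'.p = x.p ∧ y'.p = y.p ∧
    ((TabP ⟨x.sg, y.sg, x.c, y.c, x'.c, y'.c, Kind.plain⟩ ∧ x'.id = x.id ∧ y'.id = y.id) ∨
      (TabP ⟨x.sg, y.sg, x.c, y.c, x'.c, y'.c, Kind.swap⟩ ∧ x'.id = y.id ∧ y'.id = x.id))
  zer x y := y.p.val ≠ (x.p.val + 1) % Q b ∨
    TabP ⟨x.sg, y.sg, x.c, y.c, x.c, y.c, Kind.zero⟩ ∨
    (TabP ⟨x.sg, y.sg, x.c, y.c, x.c, y.c, Kind.eq⟩ ∧ x.id = y.id)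

/-- the address track: thermometer on the program segment, binary digits on quarter `1` -/
def cuF (b α p : ℕ) : Bool :=
  if p < ell then decide (α < ell ∧ p ≤ α)
  else if p < ell + 2 ^ b then (col (2 ^ b) α).testBit (p - ell) else false

/-- the static tracks of the cell `p` of a block which encodes the address `α` of level `2 ^ b` -/
def st (b α p : ℕ) : Stat where
  tg := tag (2 ^ b) α
  nt := tag (2 ^ b) ((α + 1) % Q (2 ^ b))
  pr := (sg (2 ^ b) α).pr
  mx := (sg (2 ^ b) α).mx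
  cu := cuF b α p
  nx := cuF b ((α + 1) % Q (2 ^ b)) p
  cy := decide (ell ≤ p ∧ p < ell + 2 ^ b ∧ ell ≤ α ∧
    ∀ i < p - ell, (col (2 ^ b) α).testBit i = true)
  ct := ⟨min p s0, by omega⟩

/-- the letter in the position `i` of a zone -/
def mkL (b i : ℕ) (s : Ce) (y : Fin (2 ^ b)) : Ltr b :=
  ⟨⟨i % Q b, Nat.mod_lt _ (Q_pos b)⟩, encC s,
    if tag b (i % Q b) = 3 then y else ⟨0, by positivity⟩, fun h => by simp [h]⟩

/-- the zone of `T` blocks with control words `f` and labels `g` -/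
def word (b T : ℕ) (f : ℕ → Ce) (g : ℕ → Fin (2 ^ b)) : List (Ltr b) :=
  (List.range (T * Q b)).map (fun i => mkL b i (f i) (g i))

/-- the block at offset `o` encodes the address `α` -/
structure Blk (b : ℕ) (f : ℕ → Ce) (g : ℕ → Fin (2 ^ b)) (o α : ℕ) : Prop where
  lt : α < Q (2 ^ b)
  st : ∀ p < Q b, (f (o + p)).st = st b α p
  bit : ∀ p < Q b, BitOK (sg b p) (f (o + p))
  inj : ∀ p q, ell + 2 * 2 ^ b ≤ p → p < Q b → ell + 2 * 2 ^ b ≤ q → q < Q b →
    g (o + p) = g (o + q) → p = q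

def Marks1 (b : ℕ) (f : ℕ → Ce) (hp : ℕ) : Prop :=
  hp < Q b ∧ ∀ i < Q b,
    (f i).mk' = if i < hp then Mk.r false else if i = hp then Mk.idle else Mk.l true

def Marks2 (b : ℕ) (f : ℕ → Ce) (hp : ℕ) (m : Bool) (k : Option Kind) (sub : Sub) : Prop :=
  hp < 2 * Q b ∧ ∀ i < 2 * Q b,
    (f i).mk' = if i < hp then Mk.r (decide (Q b ≤ i))
      else if i = hp then Mk.run (decide (Q b ≤ i)) m k sub else Mk.l (decide (Q b ≤ i))

/-- valid single zones -/
def Inv1 (b : ℕ) (f : ℕ → Ce) (g : ℕ → Fin (2 ^ b)) : Prop :=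
  ∃ α hp, Blk b f g 0 α ∧ Marks1 b f hp ∧ ∀ p < Q b, (f p).dn = none ∧ (f p).ep = 0

/-- number of columns of a pass -/
def endc (b : ℕ) : Option Kind → ℕ
  | none => 1
  | some Kind.zero => be
  | some Kind.plain => ell + 2 ^ b
  | some _ => ell + 2 * 2 ^ b

/-- the marks left on the row of the entry `e` after `u` look-ups -/
def epv (e u p : ℕ) : Fin 3 :=
  if u = 0 then 0 else if base e ≤ p ∧ p < base e + u then 2 else if p = base e + u then 1 else 0

/-- the left cell `L` of the column `s` (old bit `xL`) and the data `(x, y, sb)` (old bit, new bit,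
static bit) of the right cell agree with the entry `e` -/
structure Half (b : ℕ) (k : Option Kind) (e s : ℕ) (L : Ce) (xL x y sb : Bool) : Prop where
  dn : L.dn = some xL
  fld : s < be → (prog (base e + s)).sL = L.st.sb ∧ (prog (base e + s)).lo = xL ∧
    (prog (base e + s)).ln = L.bit ∧ (prog (base e + s)).sR = sb ∧ (prog (base e + s)).ro = x ∧
    (prog (base e + s)).rn = y
  mid : be ≤ s → s < ell + 2 ^ b → xL = L.bit ∧ x = false ∧ y = false
  top : ell + 2 ^ b ≤ s → (k = some Kind.swap ∧ x = L.bit ∧ y = xL) ∨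
    (k = some Kind.eq ∧ xL = L.bit ∧ x = xL ∧ y = xL)

/-- a verified column -/
def ColOK (b : ℕ) (k : Option Kind) (e s : ℕ) (L R : Ce) : Prop :=
  L.st.nt = R.st.tg ∧ L.st.nx = R.st.cu ∧
    ∃ xL xR, R.dn = some xR ∧ Half b k e s L xL xR R.bit R.st.sb

/-- the tape of a double zone: `t` verified columns, `tL` processed left cells, `u` look-ups -/
structure Tape (b : ℕ) (f : ℕ → Ce) (g : ℕ → Fin (2 ^ b)) (αL αR : ℕ) (k : Option Kind)
    (e t tL u : ℕ) : Prop where
  blkL : Blk b f g 0 αL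
  blkR : Blk b f g (Q b) αR
  dnL : ∀ p < Q b, (f p).dn ≠ none ↔ p < tL
  dnR : ∀ p < Q b, (f (Q b + p)).dn ≠ none ↔ p < t
  epL : ∀ p < Q b, (f p).ep = epv e u p
  epR : ∀ p < Q b, (f (Q b + p)).ep = 0
  hk : (u = 0 ∧ k = none) ∨ (0 < u ∧ e < nT ∧ k = some (ent e).kind)
  col : ∀ s < t, ColOK b k e s (f s) (f (Q b + s))

/-- the tape and the position of the head, phase by phase -/
def SubOK (b : ℕ) (f : ℕ → Ce) (g : ℕ → Fin (2 ^ b)) (αL αR : ℕ) (k : Option Kind)
    (e t hp : ℕ) : Sub → Prop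
  | Sub.D => Tape b f g αL αR k e t t (min be t) ∧ t < endc b k ∧ hp < Q b + t
  | Sub.A => Tape b f g αL αR k e t t (min be t) ∧ t < endc b k ∧ hp ≤ t
  | Sub.F => Tape b f g αL αR k e t t (min be t) ∧ k ≠ none ∧ t = endc b k ∧ hp + 1 = Q b + t
  | Sub.B x y s nt nx => Tape b f g αL αR k e t (t + 1) t ∧ t < be ∧ t < hp ∧ hp < Q b ∧
      (k ≠ none → hp ≤ base e + t) ∧ (f t).dn = some x ∧ (f t).bit = y ∧ (f t).st.sb = s ∧
      (f t).st.nt = nt ∧ (f t).st.nx = nx
  | Sub.C fl x y s nt nx => Tape b f g αL αR k e t (t + 1) (min be (t + 1)) ∧ t < endc b k ∧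
      t < hp ∧ hp ≤ Q b + t ∧ fl = decide (t < be) ∧ (t < be → base e + t < hp) ∧
      (be ≤ t → s = false) ∧ (f t).st.nt = nt ∧ (f t).st.nx = nx ∧
      ∃ xL, Half b k e t (f t) xL x y s

/-- valid double zones in the mode `m` -/
def Inv2 (b : ℕ) (f : ℕ → Ce) (g : ℕ → Fin (2 ^ b)) (m : Bool) : Prop :=
  ∃ αL αR k e t hp sub, Marks2 b f hp m k sub ∧ SubOK b f g αL αR k e t hp sub

/-- the bit of the clean configuration at the root -/
def root (m : Bool) (c : Ce) : Bool := if m = true then c.dn.getD c.bit else c.bit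

def addr (b : ℕ) (f : ℕ → Ce) (o : ℕ) : Fin (Q (2 ^ b)) :=
  if h : ∃ α : Fin (Q (2 ^ b)), ∀ p < Q b, (f (o + p)).st = st b α p then h.choose
  else ⟨0, Q_pos _⟩

/-- the letter encoded by the block at offset `o` -/
def ltr (b : ℕ) (f : ℕ → Ce) (o : ℕ) (m : Bool) : Ltr (2 ^ b) :=
  ⟨addr b f o, fun i => root m (f (o + i)),
    if tag (2 ^ b) (addr b f o) = 3 then
      ⟨Nat.ofBits (fun j : Fin (2 ^ b) => root m (f (o + (ell + 2 ^ b + j)))),
        Nat.ofBits_lt_two_pow _⟩
    else ⟨0, by positivity⟩, fun h => by simp [h]⟩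

def Valid (b : ℕ) (z : List (Ltr b)) : Prop :=
  (∃ f g, z = word b 1 f g ∧ Inv1 b f g) ∨ ∃ f g m, z = word b 2 f g ∧ Inv2 b f g m

/-- the control words of a list of letters -/
def fz {b : ℕ} (z : List (Ltr b)) (i : ℕ) : Ce :=
  ((z[i]?).bind (fun a => decC a.c)).getD default

def modeZ {b : ℕ} (z : List (Ltr b)) : Bool :=
  decide (∃ i < z.length, ∃ ρ k sub, (fz z i).mk' = Mk.run ρ true k sub)

def decZ (b : ℕ) (z : List (Ltr b)) : List (Ltr (2 ^ b)) :=
  if z.length = Q b then [ltr b (fz z) 0 true]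
  else [ltr b (fz z) 0 (modeZ z), ltr b (fz z) (Q b) (modeZ z)]

/-- the bit of the cell `p` of the clean block of the letter `a` -/
def bitE (b : ℕ) (a : Ltr (2 ^ b)) (p : ℕ) : Bool :=
  if p < be then cbit a.c p
  else if ell + 2 ^ b ≤ p ∧ p < ell + 2 * 2 ^ b then a.id.val.testBit (p - (ell + 2 ^ b))
  else false

def encF (b : ℕ) (a : Ltr (2 ^ b)) (p : ℕ) : Ce :=
  ⟨if p = 0 then Mk.idle else Mk.l true, st b a.p p, bitE b a p, none, 0⟩

def encG (b : ℕ) (p : ℕ) : Fin (2 ^ b) := ⟨col b (p % Q b), col_lt _ _⟩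

/-- the clean block of a letter -/
def encZ (b : ℕ) (a : Ltr (2 ^ b)) : List (Ltr b) := word b 1 (encF b a) (encG b)

def flL {b : ℕ} (x : Ltr b) : Prop := x.sg.last ∧ ∃ s, x.c = encC s ∧ flM s.mk'
def frL {b : ℕ} (x : Ltr b) : Prop := x.sg.first ∧ ∃ s, x.c = encC s ∧ frM s.mk'

/-- update of two adjacent cells -/
def upd {α : Type} (f : ℕ → α) (i : ℕ) (L R : α) : ℕ → α :=
  fun j => if j = i then L else if j = i + 1 then R else f j

/-- juxtaposition of two blocks -/
def join {α : Type} (b : ℕ) (f f' : ℕ → α) : ℕ → α :=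
  fun j => if j < Q b then f j else f' (j - Q b)

/-- the second block -/
def shiftQ {α : Type} (b : ℕ) (f : ℕ → α) : ℕ → α := fun j => f (Q b + j)

/-- the address symbol of the position `i` of a zone -/
def sgz (b i : ℕ) : Sg := sg b (i % Q b)

/-- `f` and `f'` have the same static tracks and the same root bits -/
def SameRoot (b : ℕ) (f : ℕ → Ce) (m : Bool) (f' : ℕ → Ce) (m' : Bool) : Prop :=
  ∀ i < 2 * Q b, (f' i).st = (f i).st ∧ root m' (f' i) = root m (f i)

end Crest.Agent.R176
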