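import Crest.Agent.R176.MId
import Crest.Agent.R176.Kill
import Crest.Agent.R176.NilOf
import Crest.Agent.R176.PosOf

/-! # R176: a finite system which is infinite, nil, and knows its positions -/

noncomputable section

namespace Crest.Agent.R176

theorem Sys.Nil.mono {X : Type} [Finite X] {S : Sys X} {𝕜 : Type} [CommRing 𝕜] {L L' : ℕ}
    (h : S.Nil 𝕜 L') (hL : L ≤ L') : S.Nil 𝕜 L :=
  fun ι _ _ hι μ => h ι (hι.trans hL) μ

theorem card_Ltr_le (b : ℕ) :
    Fintype.card (Ltr b) + 1 ≤ ((ell + 3) * Fintype.card Cw + 1) * 2 ^ b * 2 ^ b := by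
  have h := card_Ltr b
  have h1 : 1 ≤ 2 ^ b := Nat.one_le_two_pow
  have h2 : Q b ≤ (ell + 3) * 2 ^ b := by unfold Q; nlinarith
  generalize Fintype.card Cw = c at *
  generalize 2 ^ b = n at *
  have h3 : Q b * c * n ≤ (ell + 3) * n * c * n := by gcongr
  nlinarith

theorem card_Pat_le (b : ℕ) : Fintype.card (Pat b) ≤ 2 * Fintype.card Ce ^ 3 * 2 ^ b := by
  have h1 : 1 ≤ 2 ^ b := Nat.one_le_two_pow
  simp only [Pat, Fintype.card_prod, Fintype.card_fin]
  generalize Fintype.card Ce = c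
  generalize 2 ^ b = n at *
  have : c * ((n + 1) * (c * c)) = c ^ 3 * (n + 1) := by ring
  rw [this]
  have h2 : c ^ 3 * (n + 1) ≤ c ^ 3 * (2 * n) := by gcongr; omega
  linarith

theorem exists_nil (𝕜 : Type) [CommRing 𝕜] [CharP 𝕜 2] :
    ∃ b, 1 ≤ b ∧ ∀ L, (sys b).Nil 𝕜 L := by
  refine tower (fun b L => (sys b).Nil 𝕜 L)
    (((ell + 3) * Fintype.card Cw + 1) + 2 * Fintype.card Ce ^ 3) (fun b L _ h => ?_)
    (fun b L _ h => ?_)
  · refine (simul b).nil_of 𝕜 L (h.mono ?_)
    exact Nat.mul_le_mul_left _ ((card_Ltr_le _).trans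
      (Nat.mul_le_mul_right _ (Nat.mul_le_mul_right _ (Nat.le_add_right _ _))))
  · refine (idStr b).kill 𝕜 L (lt_of_le_of_lt ?_ h)
    exact Nat.add_le_add_right (Nat.mul_le_mul_left _ ((card_Pat_le b).trans
      (Nat.mul_le_mul_right _ (Nat.le_add_left _ _)))) _

theorem pos_six (k : ℕ) : ∀ b, 1 ≤ b → (sys b).Pos (6 ^ k) := by
  induction k with
  | zero => exact fun b _ => (sys b).pos_one
  | succ k ih =>
    intro b hb
    refine ((simul b).pos_of (by positivity) (ih _ Nat.one_le_two_pow)).of_dvd ?_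
    rw [pow_succ']
    exact Nat.mul_dvd_mul_right (six_dvd_Q hb) _

theorem inf_sys (b : ℕ) : (sys b).Inf := by
  have key : ∀ n b, ∃ w : List (Ltr b), n + 1 ≤ w.length ∧ ¬ (sys b).Zero w := by
    intro n
    induction n with
    | zero =>
      intro b
      refine ⟨[mkL b 0 default ⟨0, by positivity⟩], by simp, fun h => ?_⟩
      have := h.two_le
      simp at this
    | succ n ih =>
      intro b
      obtain ⟨w, hw, hz⟩ := ih (2 ^ b)
      refine ⟨w.flatMap (simul b).enc, ?_, (simul b).nonzero hz⟩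
      have h1 := (Simul.ZB.enc (simul b) w).len_flatten
      rw [← List.flatMap_def] at h1
      rw [h1]
      have := two_le_Q b
      nlinarith
  intro n
  obtain ⟨w, hw, hz⟩ := key n b
  exact ⟨w, by omega, hz⟩

/-- **The system.** -/
theorem exists_sys : ∃ (X : Type) (_ : Fintype X) (S : Sys X),
    (∀ L, S.Nil (Polynomial (ZMod 2)) L) ∧ (∀ k, S.Pos (6 ^ k)) ∧ S.Inf := by
  obtain ⟨b, hb, h⟩ := exists_nil (Polynomial (ZMod 2))
  exact ⟨Ltr b, inferInstance, sys b, h, fun k => pos_six k b hb, inf_sys b⟩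

end Crest.Agent.R176
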