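import Crest.Agent.R176.Eps

/-! # R176: the charts `(T, γ)` glued along the exchanges; left and right multiplications -/

noncomputable section

namespace Crest.Agent.R176

open scoped commutatorElement

set_option linter.unusedSectionVars false

namespace St

variable {V R : Type} [Ring R] [Algebra (ZMod 2) R] [Fintype V] [DecidableEq V] {n : ℕ}

/-- points of the charts -/
structure Pt (V : Type) [Fintype V] [DecidableEq V] (L : Loc R) (n : ℕ) where
  T : Tri V R n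
  γ : St V5 R
  good : T.Good L

variable {L : Loc R}

theorem Tri.Good.swap {T : Tri V R n} (h : T.Good L) (a : Fin n) : (T.swap a).Good L := by
  obtain ⟨Ψ, hΨ, h⟩ := h
  exact ⟨Ψ, hΨ, h.swap hΨ a⟩

def Pt.sw (y : Pt V L n) (a : Fin n) : Pt V L n :=
  ⟨y.T.swap a, y.T.E a * y.γ, y.good.swap a⟩

/-- the equivalence relation generated by the exchanges -/
def Pt.Rel : Pt V L n → Pt V L n → Prop :=
  Relation.EqvGen (fun y y' => ∃ a, y' = y.sw a)

theorem Orb_ext {y y' : Pt V L n} (hT : y.T = y'.T) (hγ : y.γ = y'.γ) : y = y' := by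
  cases y
  cases y'
  simp only at hT hγ
  subst hT hγ
  rfl

theorem Orb_sw_sw (y : Pt V L n) (a : Fin n) : (y.sw a).sw a = y := by
  obtain ⟨Ψ, hΨ, h⟩ := y.good
  refine Orb_ext (h.swap_swap hΨ a) ?_
  change (y.T.swap a).E a * (y.T.E a * y.γ) = y.γ
  rw [← mul_assoc, Tri.E_invol y.good, one_mul]

theorem Orb_sw_comm (y : Pt V L n) (a b : Fin n) (hab : a.val + 1 < b.val) :
    (y.sw a).sw b = (y.sw b).sw a := by
  obtain ⟨Ψ, hΨ, h⟩ := y.good
  refine Orb_ext (h.swap_comm hΨ a b hab) ?_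
  change (y.T.swap a).E b * (y.T.E a * y.γ) = (y.T.swap b).E a * (y.T.E b * y.γ)
  rw [← mul_assoc, Tri.E_comm y.good a b hab, mul_assoc]

theorem Orb_sw_braid (y : Pt V L n) (a b : Fin n) (hab : a.val + 1 = b.val) :
    ((y.sw a).sw b).sw a = ((y.sw b).sw a).sw b := by
  obtain ⟨Ψ, hΨ, h⟩ := y.good
  refine Orb_ext (h.swap_braid hΨ a b hab) ?_
  change ((y.T.swap a).swap b).E a * ((y.T.swap a).E b * (y.T.E a * y.γ)) =
    ((y.T.swap b).swap a).E b * ((y.T.swap b).E a * (y.T.E b * y.γ))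
  rw [← mul_assoc, ← mul_assoc, Tri.E_braid y.good a b hab, mul_assoc, mul_assoc]

theorem Orb_rel_refl (y : Pt V L n) : y.Rel y := Relation.EqvGen.refl y

theorem Orb_rel_sw (y : Pt V L n) (a : Fin n) : y.Rel (y.sw a) :=
  Relation.EqvGen.rel _ _ ⟨a, rfl⟩

theorem Orb_rel_symm {y y' : Pt V L n} (h : y.Rel y') : y'.Rel y := Relation.EqvGen.symm _ _ h

theorem Orb_rel_trans {y y' y'' : Pt V L n} (h : y.Rel y') (h' : y'.Rel y'') : y.Rel y'' :=
  Relation.EqvGen.trans _ _ _ h h'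

theorem Orb_swap_lt {p q : Fin (n + 1)} (c : Fin n) (hpq : p < q)
    (h : ¬ (p = c.castSucc ∧ q = c.succ)) :
    Equiv.swap c.castSucc c.succ p < Equiv.swap c.castSucc c.succ q := by
  simp only [Equiv.swap_apply_def]
  split_ifs <;> simp only [Fin.lt_def, Fin.ext_iff, Fin.val_castSucc, Fin.val_succ] at * <;> omega

/-- an exchange of the bubble sort towards `rk'` preserves the pairs ordered as in `rk'` -/
theorem Orb_bubble_lt {ρ rk' : V ≃ Fin (n + 1)} {a b : V} (c : Fin n) (h : ρ b < ρ a)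
    (h' : rk' b < rk' a) (hc : rk' (ρ.symm c.succ) < rk' (ρ.symm c.castSucc)) :
    (ρ.trans (Equiv.swap c.castSucc c.succ)) b < (ρ.trans (Equiv.swap c.castSucc c.succ)) a := by
  refine Orb_swap_lt c h ?_
  rintro ⟨h1, h2⟩
  rw [← h1, ← h2, Equiv.symm_apply_apply, Equiv.symm_apply_apply] at hc
  exact lt_asymm hc h'

/-- **Path independence.**  Recipe: the `sw a` are involutions satisfying the Coxeter relations
(`swap_swap`, `swap_comm`, `swap_braid`, `E_invol`, `E_comm`, `E_braid`); `coxeter` gives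
`φ : Perm (Fin (n+1)) →* Perm (Pt V L n)` with `(φ g y).T.rk = y.T.rk.trans g`
(induction over `mclosure_swap_castSucc_succ`), and `Rel y y' → ∃ g, y' = φ g y`. -/
theorem Pt.Rel.unique {y y' : Pt V L n} (h : y.Rel y') (hrk : y.T.rk = y'.T.rk) : y = y' := by
  let σ : Fin n → Equiv.Perm (Pt V L n) := fun a =>
    Function.Involutive.toPerm (fun z => z.sw a) fun z => Orb_sw_sw z a
  obtain ⟨φ, hφ⟩ := coxeter n σ (fun a => Equiv.ext fun z => Orb_sw_sw z a)
    (fun a b hab => Equiv.ext fun z => (Orb_sw_comm z a b hab).symm)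
    (fun a b hab => Equiv.ext fun z => Orb_sw_braid z a b hab)
  have h1 : ∀ g : Equiv.Perm (Fin (n + 1)), ∀ z : Pt V L n, (φ g z).T.rk = z.T.rk.trans g := by
    intro g
    have hg : g ∈ Submonoid.closure
        (Set.range fun i : Fin n => Equiv.swap i.castSucc i.succ) := by
      rw [Equiv.Perm.mclosure_swap_castSucc_succ]; trivial
    induction hg using Submonoid.closure_induction with
    | mem g hg =>
      obtain ⟨a, rfl⟩ := hg
      intro z
      rw [hφ]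
      rfl
    | one => intro z; rw [map_one]; rfl
    | mul g g' _ _ ih ih' =>
      intro z
      rw [map_mul, Equiv.Perm.mul_apply, ih, ih']
      rfl
  have h2 : ∀ z z' : Pt V L n, z.Rel z' → ∃ g, z' = φ g z := by
    intro z z' hz
    induction hz with
    | rel z z' hz =>
      obtain ⟨a, rfl⟩ := hz
      exact ⟨_, by rw [hφ]; rfl⟩
    | refl z => exact ⟨1, by rw [map_one]; rfl⟩
    | symm z z' _ ih =>
      obtain ⟨g, rfl⟩ := ih
      exact ⟨g⁻¹, by rw [map_inv]; exact ((φ g).symm_apply_apply z).symm⟩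
    | trans z z' z'' _ _ ih ih' =>
      obtain ⟨g, rfl⟩ := ih
      obtain ⟨g', rfl⟩ := ih'
      exact ⟨g' * g, by rw [map_mul, Equiv.Perm.mul_apply]⟩
  obtain ⟨g, rfl⟩ := h2 y y' h
  rw [h1] at hrk
  have hg : g = 1 := Equiv.ext fun p => by
    have := congrArg (fun e : V ≃ Fin (n + 1) => e (y.T.rk.symm p)) hrk
    simpa using this.symm
  rw [hg, map_one]
  rfl

theorem Pt.exists_rel (y : Pt V L n) (rk : V ≃ Fin (n + 1)) :
    ∃ y' : Pt V L n, y.Rel y' ∧ y'.T.rk = rk := by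
  refine bubble y.T.rk rk (fun ρ => ∃ y' : Pt V L n, y.Rel y' ∧ y'.T.rk = ρ)
    ⟨y, Orb_rel_refl y, rfl⟩ ?_
  rintro _ a ⟨z, hz, rfl⟩ -
  exact ⟨z.sw a, Orb_rel_trans hz (Orb_rel_sw z a), rfl⟩

theorem Pt.Rel.mat {y y' : Pt V L n} (h : y.Rel y') : y.T.mat = y'.T.mat := by
  induction h with
  | rel z z' hz =>
    obtain ⟨a, rfl⟩ := hz
    obtain ⟨Ψ, hΨ, h⟩ := z.good
    exact (h.swap_mat hΨ a).symm
  | refl z => rfl
  | symm z z' _ ih => exact ih.symm
  | trans z z' z'' _ _ ih ih' => exact ih.trans ih'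

theorem Pt.Rel.ok {y y' : Pt V L n} (h : y.Rel y') {Ψ : V → V → Prop} (hΨ : SO Ψ) :
    y.T.OK L Ψ ↔ y'.T.OK L Ψ := by
  induction h with
  | rel z z' hz =>
    obtain ⟨a, rfl⟩ := hz
    refine ⟨fun h => h.swap hΨ a, fun h => ?_⟩
    rw [← Orb_sw_sw z a]
    exact h.swap hΨ a
  | refl z => rfl
  | symm z z' _ ih => exact ih.symm
  | trans z z' z'' _ _ ih ih' => exact ih.trans ih'

/-- left multiplication is independent of the chart (`bubble` from `y.T.rk` to `y'.T.rk` never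
exchanges `a` and `b`; `lmul_swap`, `Rel.unique`) -/
theorem Pt.Rel.lmul {y y' : Pt V L n} (h : y.Rel y') {a b : V} (r : R)
    (hab : y.T.rk b < y.T.rk a) (hab' : y'.T.rk b < y'.T.rk a)
    (g : (y.T.lmul a b r).Good L) (g' : (y'.T.lmul a b r).Good L) :
    Pt.Rel ⟨y.T.lmul a b r, y.γ, g⟩ ⟨y'.T.lmul a b r, y'.γ, g'⟩ := by
  have key := bubble y.T.rk y'.T.rk (fun ρ => ∃ z : Pt V L n, y.Rel z ∧ z.T.rk = ρ ∧ ρ b < ρ a ∧
      ∃ gz : (z.T.lmul a b r).Good L,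
        Pt.Rel ⟨y.T.lmul a b r, y.γ, g⟩ ⟨z.T.lmul a b r, z.γ, gz⟩)
    ⟨y, Orb_rel_refl y, rfl, hab, g, Orb_rel_refl _⟩ (by
      rintro _ c ⟨z, hz, rfl, hlt, gz, hrel⟩ hc
      have hlt' := Orb_bubble_lt c hlt hab' hc
      obtain ⟨Ψ, -, hok⟩ := z.good
      obtain ⟨e1, e2⟩ := hok.lmul_swap r c hlt hlt'
      have gz' : ((z.sw c).T.lmul a b r).Good L := e2 ▸ gz.swap c
      refine ⟨z.sw c, Orb_rel_trans hz (Orb_rel_sw z c), rfl, hlt', gz',
        Orb_rel_trans hrel (Relation.EqvGen.rel _ _ ⟨c, Orb_ext e2.symm ?_⟩)⟩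
      change z.T.E c * z.γ = (z.T.lmul a b r).E c * z.γ
      rw [Tri.E, Tri.E, e1]
      rfl)
  obtain ⟨z, hz, hrk, -, gz, hrel⟩ := key
  obtain rfl : z = y' := (Orb_rel_trans (Orb_rel_symm hz) h).unique hrk
  exact hrel

theorem Pt.Rel.rmul {y y' : Pt V L n} (h : y.Rel y') {a b : V} (r : R)
    (hab : y.T.rk a < y.T.rk b) (hab' : y'.T.rk a < y'.T.rk b)
    (g : (y.T.rmul a b r).Good L) (g' : (y'.T.rmul a b r).Good L) :
    Pt.Rel ⟨y.T.rmul a b r, y.γ, g⟩ ⟨y'.T.rmul a b r, y'.γ, g'⟩ := by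
  have key := bubble y.T.rk y'.T.rk (fun ρ => ∃ z : Pt V L n, y.Rel z ∧ z.T.rk = ρ ∧ ρ a < ρ b ∧
      ∃ gz : (z.T.rmul a b r).Good L,
        Pt.Rel ⟨y.T.rmul a b r, y.γ, g⟩ ⟨z.T.rmul a b r, z.γ, gz⟩)
    ⟨y, Orb_rel_refl y, rfl, hab, g, Orb_rel_refl _⟩ (by
      rintro _ c ⟨z, hz, rfl, hlt, gz, hrel⟩ hc
      have hlt' := Orb_bubble_lt c hlt hab' hc
      obtain ⟨Ψ, -, hok⟩ := z.good
      obtain ⟨e1, e2⟩ := hok.rmul_swap r c hlt hlt'
      have gz' : ((z.sw c).T.rmul a b r).Good L := e2 ▸ gz.swap c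
      refine ⟨z.sw c, Orb_rel_trans hz (Orb_rel_sw z c), rfl, hlt', gz',
        Orb_rel_trans hrel (Relation.EqvGen.rel _ _ ⟨c, Orb_ext e2.symm ?_⟩)⟩
      change z.T.E c * z.γ = (z.T.rmul a b r).E c * z.γ
      rw [Tri.E, Tri.E, e1]
      rfl)
  obtain ⟨z, hz, hrk, -, gz, hrel⟩ := key
  obtain rfl : z = y' := (Orb_rel_trans (Orb_rel_symm hz) h).unique hrk
  exact hrel

instance Pt.setoid : Setoid (Pt V L n) :=
  Relation.EqvGen.setoid (fun y y' => ∃ a, y' = y.sw a)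

/-- the glued space -/
def XX (V : Type) [Fintype V] [DecidableEq V] (L : Loc R) (n : ℕ) : Type :=
  Quotient (Pt.setoid (V := V) (L := L) (n := n))

def XX.mk (y : Pt V L n) : XX V L n := Quotient.mk _ y

/-- the class has pattern `Ψ` -/
def XX.OK (Ψ : V → V → Prop) (ξ : XX V L n) : Prop := ∃ y : Pt V L n, XX.mk y = ξ ∧ y.T.OK L Ψ

open Classical in
/-- left multiplication by `x a b r` (the identity where it is not defined) -/
def XX.Lm (a b : V) (r : R) (ξ : XX V L n) : XX V L n :=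
  if h : ∃ y : Pt V L n, XX.mk y = ξ ∧ y.T.rk b < y.T.rk a ∧ (y.T.lmul a b r).Good L then
    XX.mk ⟨h.choose.T.lmul a b r, h.choose.γ, h.choose_spec.2.2⟩ else ξ

open Classical in
/-- right multiplication by `x a b r` (the identity where it is not defined) -/
def XX.Rm (a b : V) (r : R) (ξ : XX V L n) : XX V L n :=
  if h : ∃ y : Pt V L n, XX.mk y = ξ ∧ y.T.rk a < y.T.rk b ∧ (y.T.rmul a b r).Good L then
    XX.mk ⟨h.choose.T.rmul a b r, h.choose.γ, h.choose_spec.2.2⟩ else ξ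

theorem XX.Lm_mk (y : Pt V L n) {a b : V} (r : R) (hab : y.T.rk b < y.T.rk a)
    (g : (y.T.lmul a b r).Good L) :
    XX.Lm a b r (XX.mk y) = XX.mk ⟨y.T.lmul a b r, y.γ, g⟩ := by
  have h : ∃ z : Pt V L n, XX.mk z = XX.mk y ∧ z.T.rk b < z.T.rk a ∧ (z.T.lmul a b r).Good L :=
    ⟨y, rfl, hab, g⟩
  rw [XX.Lm, dif_pos h]
  exact Quotient.sound
    (Pt.Rel.lmul (Quotient.exact h.choose_spec.1) r h.choose_spec.2.1 hab h.choose_spec.2.2 g)

theorem XX.Rm_mk (y : Pt V L n) {a b : V} (r : R) (hab : y.T.rk a < y.T.rk b)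
    (g : (y.T.rmul a b r).Good L) :
    XX.Rm a b r (XX.mk y) = XX.mk ⟨y.T.rmul a b r, y.γ, g⟩ := by
  have h : ∃ z : Pt V L n, XX.mk z = XX.mk y ∧ z.T.rk a < z.T.rk b ∧ (z.T.rmul a b r).Good L :=
    ⟨y, rfl, hab, g⟩
  rw [XX.Rm, dif_pos h]
  exact Quotient.sound
    (Pt.Rel.rmul (Quotient.exact h.choose_spec.1) r h.choose_spec.2.1 hab h.choose_spec.2.2 g)

/-- a representative in any chart, with the same pattern -/
theorem XX.OK.rep {Ψ : V → V → Prop} (hΨ : SO Ψ) {ξ : XX V L n} (h : ξ.OK Ψ)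
    (rk : V ≃ Fin (n + 1)) : ∃ y : Pt V L n, XX.mk y = ξ ∧ y.T.OK L Ψ ∧ y.T.rk = rk := by
  obtain ⟨y, rfl, hy⟩ := h
  obtain ⟨z, hz, hrk⟩ := y.exists_rel rk
  exact ⟨z, (Quotient.sound hz).symm, (hz.ok hΨ).1 hy, hrk⟩

end St

end Crest.Agent.R176
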