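import Crest.Agent.R176.ParseA

/-! # R176: the canonical parse; soundness and completeness of a simulation -/

noncomputable section

namespace Crest.Agent.R176

set_option linter.unusedSectionVars false

namespace Simul

variable {X X' : Type} {S : Sys X} {S' : Sys X'} {Q : ℕ} {M : Simul S S' Q}

/-- the first free boundary -/
theorem Parse_first (M : Simul S S' Q) (w : List X) :
    w.IsChain (fun x y => ¬ (M.fl x ∧ M.fr y)) ∨ ∃ p r, w = p ++ r ∧ p ≠ [] ∧ r ≠ [] ∧
      p.IsChain (fun x y => ¬ (M.fl x ∧ M.fr y)) ∧ (∀ x ∈ p.getLast?, M.fl x) ∧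
      ∀ x ∈ r.head?, M.fr x := by
  induction w with
  | nil => exact Or.inl List.isChain_nil
  | cons a w ih =>
    by_cases h : ∀ y ∈ w.head?, ¬ (M.fl a ∧ M.fr y)
    · rcases ih with h1 | ⟨p, r, rfl, hp, hr, h1, h2, h3⟩
      · exact Or.inl (List.isChain_cons.2 ⟨h, h1⟩)
      · refine Or.inr ⟨a :: p, r, rfl, by simp, hr, List.isChain_cons.2 ⟨fun y hy => h y ?_, h1⟩,
          ?_, h3⟩
        · rwa [List.head?_append_of_ne_nil _ hp]
        · rwa [← List.singleton_append, List.getLast?_append_of_ne_nil _ hp]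
    · push Not at h
      obtain ⟨y, hy, h1, h2⟩ := h
      refine Or.inr ⟨[a], w, rfl, by simp, ?_, List.isChain_singleton a, by simpa using h1, ?_⟩
      · rintro rfl
        simp at hy
      · intro x hx
        rwa [Option.mem_unique hx hy]

/-- a nonzero word beginning with an `fr` letter -/
theorem Parse_tail (M : Simul S S' Q) (r : List X) (hr : r ≠ []) (h0 : ¬ S.Zero r)
    (hh : ∀ x ∈ r.head?, M.fr x) :
    ∃ Bs W s, r = Bs.flatten ++ s ∧ M.ZB Bs W ∧ s ≠ [] ∧
      s.IsChain (fun x y => ¬ (M.fl x ∧ M.fr y)) ∧ ∀ x ∈ s.head?, M.fr x := by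
  induction hn : r.length using Nat.strong_induction_on generalizing r with
  | _ n ih =>
    rcases M.Parse_first r with h1 | ⟨z, r', rfl, hz, hr', h1, h2, h3⟩
    · exact ⟨[], [], r, rfl, ZB.nil, hr, h1, hh⟩
    · have hv : M.valid z := by
        by_contra hv
        rw [List.head?_append_of_ne_nil _ hz] at hh
        exact h0 ((M.invalid z hz h1 hh h2 hv).append_right r')
      obtain ⟨B0, h4, rfl⟩ := ZB.of_valid hv
      obtain ⟨Bs, W, s, rfl, h5, h6⟩ := ih r'.length (by
        have := List.length_pos_iff.2 hz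
        rw [← hn, List.length_append]
        omega) r' hr' (fun h => h0 (h.append_left _)) h3 rfl
      exact ⟨B0 ++ Bs, _, s, by simp, h4.append h5, h6⟩

/-- a nonzero word ending with an `fl` letter -/
theorem Parse_head (M : Simul S S' Q) (w : List X) (hw : w ≠ []) (h0 : ¬ S.Zero w)
    (hl : ∀ x ∈ w.getLast?, M.fl x) :
    ∃ p Bs W, w = p ++ Bs.flatten ∧ M.ZB Bs W ∧ p ≠ [] ∧
      p.IsChain (fun x y => ¬ (M.fl x ∧ M.fr y)) ∧ ∀ x ∈ p.getLast?, M.fl x := by
  rcases M.Parse_first w with h1 | ⟨p, r, rfl, hp, hr, h1, h2, h3⟩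
  · exact ⟨w, [], [], by simp, ZB.nil, hw, h1, hl⟩
  · obtain ⟨Bs, W, s, rfl, h4, hs, h5, h6⟩ :=
      M.Parse_tail r hr (fun h => h0 (h.append_left _)) h3
    have hv : M.valid s := by
      by_contra hv
      rw [← List.append_assoc] at h0 hl
      rw [List.getLast?_append_of_ne_nil _ hs] at hl
      exact h0 ((M.invalid s hs h5 h6 hl hv).append_left _)
    obtain ⟨B0, h7, rfl⟩ := ZB.of_valid hv
    exact ⟨p, Bs ++ B0, _, by simp, h4.append h7, hp, h1, h2⟩

theorem Parse_not_chain {p r : List X} (hp : p ≠ []) (hr : r ≠ [])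
    (h1 : ∀ x ∈ p.getLast?, M.fl x) (h2 : ∀ x ∈ r.head?, M.fr x) :
    ¬ (p ++ r).IsChain (fun x y => ¬ (M.fl x ∧ M.fr y)) := fun h =>
  (List.isChain_append.1 h).2.2 _ (List.getLast_mem_getLast? hp) _ (List.head_mem_head? hr)
    ⟨h1 _ (List.getLast_mem_getLast? hp), h2 _ (List.head_mem_head? hr)⟩

theorem Parse_first_unique {p p' r r' : List X} (e : p ++ r = p' ++ r') (hp : p ≠ [])
    (hp' : p' ≠ []) (c : p.IsChain (fun x y => ¬ (M.fl x ∧ M.fr y)))
    (c' : p'.IsChain (fun x y => ¬ (M.fl x ∧ M.fr y))) (h1 : ∀ x ∈ p.getLast?, M.fl x)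
    (h1' : ∀ x ∈ p'.getLast?, M.fl x) (h2 : ∀ x ∈ r.head?, M.fr x)
    (h2' : ∀ x ∈ r'.head?, M.fr x) : p = p' := by
  rcases List.append_eq_append_iff.1 e with ⟨t, rfl, rfl⟩ | ⟨t, rfl, rfl⟩
  · by_cases ht : t = []
    · simp [ht]
    · rw [List.head?_append_of_ne_nil _ ht] at h2
      exact absurd c' (Parse_not_chain hp ht h1 h2)
  · by_cases ht : t = []
    · simp [ht]
    · rw [List.head?_append_of_ne_nil _ ht] at h2'
      exact absurd c (Parse_not_chain hp' ht h1' h2')

theorem Parse_valid_ne {z : List X} (h : M.valid z) : z ≠ [] := by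
  obtain ⟨h1, h2⟩ := M.v_len z h
  have := M.two_le
  rintro rfl
  rcases h1 with h1 | h1 <;> simp [h1] at h2 <;> omega

theorem Parse_zones_head {Z : List (List X)} {s : List X} (hZ : ∀ z ∈ Z, M.valid z)
    (hs : ∀ x ∈ s.head?, M.fr x) : ∀ x ∈ (Z.flatten ++ s).head?, M.fr x := by
  cases Z with
  | nil => simpa using hs
  | cons z Z =>
    have hz := hZ z List.mem_cons_self
    rw [List.flatten_cons, List.append_assoc, List.head?_append_of_ne_nil _ (Parse_valid_ne hz)]
    exact M.v_head z hz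

theorem Parse_zones_unique {Z Z' : List (List X)} {s s' : List X}
    (e : Z.flatten ++ s = Z'.flatten ++ s') (hZ : ∀ z ∈ Z, M.valid z) (hZ' : ∀ z ∈ Z', M.valid z)
    (hs : s ≠ []) (hs' : s' ≠ []) (c : s.IsChain (fun x y => ¬ (M.fl x ∧ M.fr y)))
    (c' : s'.IsChain (fun x y => ¬ (M.fl x ∧ M.fr y))) (h : ∀ x ∈ s.head?, M.fr x)
    (h' : ∀ x ∈ s'.head?, M.fr x) : Z = Z' ∧ s = s' := by
  induction Z generalizing Z' with
  | nil =>
    cases Z' with
    | nil => simpa using e
    | cons z Z' =>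
      have hz := hZ' z List.mem_cons_self
      rw [List.flatten_nil, List.nil_append, List.flatten_cons, List.append_assoc] at e
      exact absurd (e ▸ c) (Parse_not_chain (Parse_valid_ne hz) (by simp [hs']) (M.v_last z hz)
        (Parse_zones_head (fun y hy => hZ' y (List.mem_cons_of_mem _ hy)) h'))
  | cons z Z ih =>
    have hz := hZ z List.mem_cons_self
    have hZ1 : ∀ y ∈ Z, M.valid y := fun y hy => hZ y (List.mem_cons_of_mem _ hy)
    cases Z' with
    | nil =>
      rw [List.flatten_nil, List.nil_append, List.flatten_cons, List.append_assoc] at e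
      exact absurd (e ▸ c') (Parse_not_chain (Parse_valid_ne hz) (by simp [hs]) (M.v_last z hz)
        (Parse_zones_head hZ1 h))
    | cons z' Z' =>
      have hz' := hZ' z' List.mem_cons_self
      have hZ1' : ∀ y ∈ Z', M.valid y := fun y hy => hZ' y (List.mem_cons_of_mem _ hy)
      rw [List.flatten_cons, List.flatten_cons, List.append_assoc, List.append_assoc] at e
      obtain rfl : z = z' := Parse_first_unique e (Parse_valid_ne hz) (Parse_valid_ne hz')
        (M.v_chain _ hz) (M.v_chain _ hz') (M.v_last _ hz) (M.v_last _ hz')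
        (Parse_zones_head hZ1 h) (Parse_zones_head hZ1' h')
      obtain ⟨rfl, rfl⟩ := ih (List.append_cancel_left e) hZ1 hZ1'
      exact ⟨rfl, rfl⟩

/-- Recipe: `List.splitBy` at the free boundaries (`List.isChain_of_mem_splitBy`,
`List.isChain_getLast_head_splitBy`); there are at least two pieces by `short`; the inner pieces
are valid by `invalid`. -/
theorem exists_parse (M : Simul S S' Q) {w : List X} (hw : ¬ S.Zero w) (hl : 2 * Q < w.length) :
    ∃ p Bs W s, M.Parse w p Bs W s := by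
  rcases M.Parse_first w with h1 | ⟨p, r, rfl, hp, hr, h1, h2, h3⟩
  · exact absurd (M.short w h1 hl) hw
  · obtain ⟨Bs, W, s, rfl, h4, hs, h5, h6⟩ :=
      M.Parse_tail r hr (fun h => hw (h.append_left _)) h3
    exact ⟨p, Bs, W, s, (List.append_assoc _ _ _).symm, hp, hs, h1, h5, h2, h6, h4⟩

/-- Recipe: `p :: zones ++ [s]` is `w.splitBy` (`List.splitBy_flatten`); the zones determine the
blocks (all of length `Q`) and `W`. -/
theorem Parse.unique {w p p' s s' : List X} {Bs Bs' : List (List X)} {W W' : List X'}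
    (h : M.Parse w p Bs W s) (h' : M.Parse w p' Bs' W' s') :
    p = p' ∧ Bs = Bs' ∧ W = W' ∧ s = s' := by
  obtain ⟨Z, h1, h2, h3⟩ := h.zb.zones
  obtain ⟨Z', h1', h2', h3'⟩ := h'.zb.zones
  have e : p ++ (Z.flatten ++ s) = p' ++ (Z'.flatten ++ s') := by
    rw [h2, h2', ← List.append_assoc, ← List.append_assoc, ← h.eq, ← h'.eq]
  obtain rfl : p = p' := Parse_first_unique e h.p_ne h'.p_ne h.p_chain h'.p_chain h.p_last
    h'.p_last (Parse_zones_head h1 h.s_head) (Parse_zones_head h1' h'.s_head)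
  obtain ⟨rfl, rfl⟩ := Parse_zones_unique (List.append_cancel_left e) h1 h1' h.s_ne h'.s_ne
    h.s_chain h'.s_chain h.s_head h'.s_head
  obtain rfl : W = W' := h3.symm.trans h3'
  refine ⟨rfl, List.eq_iff_flatten_eq.2 ⟨h2.symm.trans h2', ?_⟩, rfl, rfl⟩
  have key : ∀ {Cs : List (List X)}, M.ZB Cs W → Cs.map List.length = List.replicate W.length Q :=
    fun hC => List.eq_replicate_iff.2 ⟨by rw [List.length_map, hC.length], fun b hb => by
      obtain ⟨B, hB, rfl⟩ := List.mem_map.1 hb
      exact hC.len_mem B hB⟩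
  rw [key h.zb, key h'.zb]

theorem Parse.len_le {w p s : List X} {Bs : List (List X)} {W : List X'}
    (h : M.Parse w p Bs W s) (hw : ¬ S.Zero w) : p.length ≤ 2 * Q ∧ s.length ≤ 2 * Q := by
  rw [h.eq] at hw
  constructor
  · by_contra hc
    exact hw (((M.short p h.p_chain (not_le.1 hc)).append_right _).append_right _)
  · by_contra hc
    exact hw ((M.short s h.s_chain (not_le.1 hc)).append_left _)

theorem Parse.length {w p s : List X} {Bs : List (List X)} {W : List X'}
    (h : M.Parse w p Bs W s) : w.length = p.length + Q * W.length + s.length := by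
  rw [h.eq, List.length_append, List.length_append, h.zb.len_flatten]

theorem Parse.eqv {w p s : List X} {Bs : List (List X)} {W : List X'}
    (h : M.Parse w p Bs W s) : S.Eqv w (p ++ W.flatMap M.enc ++ s) := by
  rw [h.eq]
  exact h.zb.eqv.ctx p s

theorem Parse.nonzero {w p s : List X} {Bs : List (List X)} {W : List X'}
    (h : M.Parse w p Bs W s) (hw : ¬ S.Zero w) : ¬ S'.Zero W := by
  exact fun hz => hw (Sys.Zero.of_eqv h.eqv ((M.enc_zero hz).ctx p s))

/-- the parse of a factor.  Recipe: parse `a ++ p` and `s ++ c` separately: a nonzero word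
`a ++ p` ending in an `fl` letter is `p' ++ (valid zones)`; glue and use `Parse.unique`. -/
theorem Parse.factor {a u c p p' s s' : List X} {Bs Bs' : List (List X)} {W W' : List X'}
    (hw : ¬ S.Zero (a ++ u ++ c)) (h : M.Parse u p Bs W s)
    (h' : M.Parse (a ++ u ++ c) p' Bs' W' s') :
    ∃ W1 W2, W' = W1 ++ W ++ W2 ∧ p'.length + Q * W1.length = a.length + p.length := by
  have e : a ++ u ++ c = a ++ p ++ Bs.flatten ++ (s ++ c) := by
    rw [h.eq]
    simp only [List.append_assoc]
  obtain ⟨p₁, B₁, W₁, e₁, z₁, hp₁, c₁, l₁⟩ := M.Parse_head (a ++ p) (by simp [h.p_ne])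
    (fun hz => hw (e ▸ (hz.append_right _).append_right _))
    (by rw [List.getLast?_append_of_ne_nil _ h.p_ne]; exact h.p_last)
  obtain ⟨B₂, W₂, s₂, e₂, z₂, hs₂, c₂, l₂⟩ := M.Parse_tail (s ++ c) (by simp [h.s_ne])
    (fun hz => hw (e ▸ hz.append_left _))
    (by rw [List.head?_append_of_ne_nil _ h.s_ne]; exact h.s_head)
  have h1 : M.Parse (a ++ u ++ c) p₁ (B₁ ++ Bs ++ B₂) (W₁ ++ W ++ W₂) s₂ :=
    ⟨by rw [e, e₁, e₂]; simp, hp₁, hs₂, c₁, c₂, l₁, l₂, (z₁.append h.zb).append z₂⟩
  obtain ⟨rfl, -, rfl, -⟩ := h1.unique h'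
  refine ⟨W₁, W₂, rfl, ?_⟩
  rw [← List.length_append, e₁, List.length_append, z₁.len_flatten]

end Simul

end Crest.Agent.R176
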