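import Crest.Agent.R176.Thue

/-! # R176: the canonical parse; soundness and completeness of a simulation -/

noncomputable section

namespace Crest.Agent.R176

set_option linter.unusedSectionVars false

/-- a pair of adjacent letters lies inside a piece or at a junction -/
theorem ParseA_locate {X : Type} {x y : X} {v : List X} (Z : List (List X)) :
    ∀ (u : List X), (∀ z ∈ Z, z ≠ []) → Z.flatten = u ++ x :: y :: v →
      (∃ Z1 Z2 u' v', Z = Z1 ++ (u' ++ x :: y :: v') :: Z2 ∧ u = Z1.flatten ++ u' ∧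
        v = v' ++ Z2.flatten) ∨
      (∃ Z1 Z2 u' v', Z = Z1 ++ (u' ++ [x]) :: (y :: v') :: Z2 ∧ u = Z1.flatten ++ u' ∧
        v = v' ++ Z2.flatten) := by
  induction Z with
  | nil => intro u _ h; simp at h
  | cons z Z ih =>
    intro u hne h
    have hne' : ∀ z ∈ Z, z ≠ [] := fun z hz => hne z (List.mem_cons_of_mem _ hz)
    have key : ∀ a, u = z ++ a → Z.flatten = a ++ x :: y :: v →
        (∃ Z1 Z2 u' v', z :: Z = Z1 ++ (u' ++ x :: y :: v') :: Z2 ∧ u = Z1.flatten ++ u' ∧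
          v = v' ++ Z2.flatten) ∨
        (∃ Z1 Z2 u' v', z :: Z = Z1 ++ (u' ++ [x]) :: (y :: v') :: Z2 ∧ u = Z1.flatten ++ u' ∧
          v = v' ++ Z2.flatten) := by
      intro a ha hZ
      rcases ih a hne' hZ with ⟨Z1, Z2, u', v', e1, e2, e3⟩ | ⟨Z1, Z2, u', v', e1, e2, e3⟩
      · exact Or.inl ⟨z :: Z1, Z2, u', v', by simp [e1], by simp [ha, e2], e3⟩
      · exact Or.inr ⟨z :: Z1, Z2, u', v', by simp [e1], by simp [ha, e2], e3⟩
    rw [List.flatten_cons, List.append_eq_append_iff] at h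
    rcases h with ⟨a, ha, hZ⟩ | ⟨c, hc, hZ⟩
    · exact key a ha hZ
    · rcases c with _ | ⟨x0, _ | ⟨y0, c⟩⟩
      · exact key [] (by simpa using hc.symm) (by simpa using hZ.symm)
      · simp only [List.cons_append, List.nil_append, List.cons.injEq] at hZ
        obtain ⟨rfl, hZ⟩ := hZ
        rcases Z with _ | ⟨z', Z⟩
        · simp at hZ
        · rcases z' with _ | ⟨y0, z'⟩
          · exact absurd rfl (hne' [] (by simp))
          · simp only [List.flatten_cons, List.cons_append, List.cons.injEq] at hZ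
            obtain ⟨rfl, hZ⟩ := hZ
            exact Or.inr ⟨[], Z, u, z', by simp [hc], by simp, hZ⟩
      · simp only [List.cons_append, List.cons.injEq] at hZ
        obtain ⟨rfl, rfl, hZ⟩ := hZ
        exact Or.inl ⟨[], Z, u, c, by simp [hc], by simp, hZ⟩

namespace Simul

variable {X X' : Type} {S : Sys X} {S' : Sys X'} {Q : ℕ} {M : Simul S S' Q}

theorem len_enc (M : Simul S S' Q) (a : X') : (M.enc a).length = Q := by
  have := (M.v_len _ (M.enc_valid a)).2
  simpa [M.dec_enc] using this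

theorem enc_eqv (M : Simul S S' Q) {W W' : List X'} (h : S'.Eqv W W') :
    S.Eqv (W.flatMap M.enc) (W'.flatMap M.enc) := by
  induction h with
  | rel _ _ h =>
    obtain ⟨u, v, h⟩ := h
    simpa using (M.c_eqv _ _ _ _ h).ctx (u.flatMap M.enc) (v.flatMap M.enc)
  | refl => exact Sys.Eqv.refl _
  | symm _ _ _ ih => exact ih.symm
  | trans _ _ _ _ _ ih ih' => exact ih.trans ih'

theorem enc_zero (M : Simul S S' Q) {W : List X'} (h : S'.Zero W) : S.Zero (W.flatMap M.enc) := by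
  obtain ⟨u, x, y, v, hz, e⟩ := h
  refine Sys.Zero.of_eqv (M.enc_eqv e) ?_
  simpa using (M.c_zer _ _ hz).ctx (u.flatMap M.enc) (v.flatMap M.enc)

theorem ZB.length {Bs : List (List X)} {W : List X'} (h : M.ZB Bs W) : Bs.length = W.length := by
  induction h with
  | nil => rfl
  | one _ _ _ ih => simp [ih]
  | two _ _ _ _ _ ih => simp [ih]

theorem ZB.len_mem {Bs : List (List X)} {W : List X'} (h : M.ZB Bs W) : ∀ B ∈ Bs, B.length = Q := by
  induction h with
  | nil => simp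
  | one hv hd _ ih =>
    intro B hB
    rcases List.mem_cons.1 hB with rfl | hB
    · simpa [hd] using (M.v_len _ hv).2
    · exact ih B hB
  | two h0 h1 _ _ _ ih =>
    intro B hB
    rcases List.mem_cons.1 hB with rfl | hB
    · exact h0
    · rcases List.mem_cons.1 hB with rfl | hB
      · exact h1
      · exact ih B hB

theorem ZB.len_flatten {Bs : List (List X)} {W : List X'} (h : M.ZB Bs W) :
    Bs.flatten.length = Q * W.length := by
  induction h with
  | nil => simp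
  | one hv hd _ ih =>
    have := (M.v_len _ hv).2
    rw [hd] at this
    simp only [List.flatten_cons, List.length_append, List.length_cons, ih, this, List.length_nil]
    ring
  | two h0 h1 _ _ _ ih =>
    simp only [List.flatten_cons, List.length_append, List.length_cons, ih, h0, h1]
    ring

theorem ZB.eqv {Bs : List (List X)} {W : List X'} (h : M.ZB Bs W) :
    S.Eqv Bs.flatten (W.flatMap M.enc) := by
  induction h with
  | nil => exact Sys.Eqv.refl _
  | one hv hd _ ih =>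
    have := M.roll _ hv
    rw [hd] at this
    simpa using this.append ih
  | two _ _ hv hd _ ih =>
    have := M.roll _ hv
    rw [hd] at this
    simpa using this.append ih

theorem ZB.append {Bs Bs' : List (List X)} {W W' : List X'} (h : M.ZB Bs W) (h' : M.ZB Bs' W') :
    M.ZB (Bs ++ Bs') (W ++ W') := by
  induction h with
  | nil => exact h'
  | one hv hd _ ih => exact .one hv hd ih
  | two h0 h1 hv hd _ ih => exact .two h0 h1 hv hd ih

theorem ZB.enc (M : Simul S S' Q) (W : List X') : M.ZB (W.map M.enc) W := by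
  induction W with
  | nil => exact .nil
  | cons a W ih => exact .one (M.enc_valid a) (M.dec_enc a) ih

/-- a valid zone as a list of blocks -/
theorem ZB.of_valid {z : List X} (h : M.valid z) :
    ∃ Bs, M.ZB Bs (M.dec z) ∧ Bs.flatten = z := by
  obtain ⟨h1 | h2, hl⟩ := M.v_len z h
  · obtain ⟨a, ha⟩ := List.length_eq_one_iff.1 h1
    exact ⟨[z], ha ▸ ZB.one h ha .nil, by simp⟩
  · obtain ⟨a0, a1, ha⟩ := List.length_eq_two.1 h2
    rw [h2] at hl
    refine ⟨[z.take Q, z.drop Q], ?_, by simp⟩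
    rw [ha]
    refine ZB.two ?_ ?_ (by simpa using h) (by simpa using ha) .nil
    · rw [List.length_take]; omega
    · rw [List.length_drop]; omega

/-- lists of blocks versus lists of zones -/
theorem ZB.zones {Bs : List (List X)} {W : List X'} (h : M.ZB Bs W) :
    ∃ Z : List (List X), (∀ z ∈ Z, M.valid z) ∧ Z.flatten = Bs.flatten ∧ Z.flatMap M.dec = W := by
  induction h with
  | nil => exact ⟨[], by simp, rfl, rfl⟩
  | @one B Bs a W hv hd _ ih =>
    obtain ⟨Z, h1, h2, h3⟩ := ih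
    exact ⟨B :: Z, List.forall_mem_cons.2 ⟨hv, h1⟩, by simp [h2], by simp [hd, h3]⟩
  | @two B0 B1 Bs a0 a1 W _ _ hv hd _ ih =>
    obtain ⟨Z, h1, h2, h3⟩ := ih
    exact ⟨(B0 ++ B1) :: Z, List.forall_mem_cons.2 ⟨hv, h1⟩, by simp [h2], by simp [hd, h3]⟩

/-- lists of zones versus lists of blocks -/
theorem ZB.of_zones {Z : List (List X)} (h : ∀ z ∈ Z, M.valid z) :
    ∃ Bs, M.ZB Bs (Z.flatMap M.dec) ∧ Bs.flatten = Z.flatten := by
  induction Z with
  | nil => exact ⟨[], .nil, rfl⟩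
  | cons z Z ih =>
    obtain ⟨h1, h2⟩ := List.forall_mem_cons.1 h
    obtain ⟨Bs, a, b⟩ := ZB.of_valid h1
    obtain ⟨Bs', a', b'⟩ := ih h2
    exact ⟨Bs ++ Bs', by simpa using a.append a', by simp [b, b']⟩

theorem valid_ne_nil {z : List X} (h : M.valid z) : z ≠ [] := by
  rintro rfl
  have := M.two_le
  obtain ⟨h1 | h1, h2⟩ := M.v_len _ h <;> rw [h1] at h2 <;> simp at h2 <;> omega

/-- soundness: one step (locate the pair inside a zone, `s_in`, or at a junction, `s_bd`) -/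
theorem ZB.step {Bs : List (List X)} {W : List X'} (h : M.ZB Bs W) {w : List X}
    (hs : S.Step Bs.flatten w ∨ S.Step w Bs.flatten) :
    ∃ Bs' W', M.ZB Bs' W' ∧ w = Bs'.flatten ∧ S'.Eqv W W' := by
  obtain ⟨Z, hZ, e1, rfl⟩ := h.zones
  rw [← e1] at hs
  obtain ⟨u, v, x, y, x', y', hxy, e2, rfl⟩ : ∃ u v x y x' y',
      (S.eqv x y x' y' ∨ S.eqv x' y' x y) ∧ Z.flatten = u ++ x :: y :: v ∧
        w = u ++ x' :: y' :: v := by
    generalize Z.flatten = w0 at hs
    rcases hs with hs | hs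
    · obtain ⟨u, v, h⟩ := hs
      exact ⟨u, v, _, _, _, _, Or.inl h, rfl, rfl⟩
    · obtain ⟨u, v, h⟩ := hs
      exact ⟨u, v, _, _, _, _, Or.inr h, rfl, rfl⟩
  suffices H : ∃ Z' : List (List X), (∀ z ∈ Z', M.valid z) ∧ u ++ x' :: y' :: v = Z'.flatten ∧
      S'.Eqv (Z.flatMap M.dec) (Z'.flatMap M.dec) by
    obtain ⟨Z', a, b, c⟩ := H
    obtain ⟨Bs', a', b'⟩ := ZB.of_zones a
    exact ⟨Bs', _, a', b.trans b'.symm, c⟩
  rcases ParseA_locate Z u (fun z hz => valid_ne_nil (hZ z hz)) e2 with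
    ⟨Z1, Z2, u', v', rfl, rfl, rfl⟩ | ⟨Z1, Z2, u', v', rfl, rfl, rfl⟩
  · simp only [List.forall_mem_append, List.forall_mem_cons] at hZ
    obtain ⟨hZ1, hz, hZ2⟩ := hZ
    rcases M.s_in _ (u' ++ x' :: y' :: v') hz
      (hxy.imp (fun h => Sys.Step.mk _ _ h) fun h => Sys.Step.mk _ _ h) with
      ⟨a, b⟩ | ⟨z1, z2, a1, a2, b, c⟩
    · refine ⟨Z1 ++ (u' ++ x' :: y' :: v') :: Z2, ?_, by simp, ?_⟩
      · simp only [List.forall_mem_append, List.forall_mem_cons]
        exact ⟨hZ1, a, hZ2⟩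
      · simpa using b.ctx (Z1.flatMap M.dec) (Z2.flatMap M.dec)
    · refine ⟨Z1 ++ z1 :: z2 :: Z2, ?_, ?_, ?_⟩
      · simp only [List.forall_mem_append, List.forall_mem_cons]
        exact ⟨hZ1, a1, a2, hZ2⟩
      · simp only [List.flatten_append, List.flatten_cons, ← List.append_assoc z1, ← b]
        simp
      · simp only [List.flatMap_append, List.flatMap_cons, c, List.append_assoc]
        exact Sys.Eqv.refl _
  · simp only [List.forall_mem_append, List.forall_mem_cons] at hZ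
    obtain ⟨hZ1, hz1, hz2, hZ2⟩ := hZ
    rcases M.s_bd _ _ _ _ _ _ hz1 hz2 hxy with ⟨rfl, rfl⟩ | ⟨a, b⟩
    · refine ⟨_, ?_, e2.symm, Sys.Eqv.refl _⟩
      simp only [List.forall_mem_append, List.forall_mem_cons]
      exact ⟨hZ1, hz1, hz2, hZ2⟩
    · refine ⟨Z1 ++ (u' ++ x' :: y' :: v') :: Z2, ?_, by simp, ?_⟩
      · simp only [List.forall_mem_append, List.forall_mem_cons]
        exact ⟨hZ1, a, hZ2⟩
      · simp only [List.flatMap_append, List.flatMap_cons, b, List.append_assoc]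
        exact Sys.Eqv.refl _

/-- soundness: a whole class -/
theorem ZB.sound {w w' : List X} (e : S.Eqv w w') :
    (∀ Bs W, M.ZB Bs W → w = Bs.flatten →
      ∃ Bs' W', M.ZB Bs' W' ∧ w' = Bs'.flatten ∧ S'.Eqv W W') ∧
    (∀ Bs W, M.ZB Bs W → w' = Bs.flatten →
      ∃ Bs' W', M.ZB Bs' W' ∧ w = Bs'.flatten ∧ S'.Eqv W W') := by
  induction e with
  | rel _ _ h =>
    exact ⟨fun Bs W a b => a.step (Or.inl (b ▸ h)), fun Bs W a b => a.step (Or.inr (b ▸ h))⟩
  | refl => exact ⟨fun Bs W a b => ⟨Bs, W, a, b, Sys.Eqv.refl _⟩,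
      fun Bs W a b => ⟨Bs, W, a, b, Sys.Eqv.refl _⟩⟩
  | symm _ _ _ ih => exact ih.symm
  | trans _ _ _ _ _ ih ih' =>
    refine ⟨fun Bs W a b => ?_, fun Bs W a b => ?_⟩
    · obtain ⟨Bs1, W1, a1, b1, c1⟩ := ih.1 Bs W a b
      obtain ⟨Bs2, W2, a2, b2, c2⟩ := ih'.1 Bs1 W1 a1 b1
      exact ⟨Bs2, W2, a2, b2, c1.trans c2⟩
    · obtain ⟨Bs1, W1, a1, b1, c1⟩ := ih'.2 Bs W a b
      obtain ⟨Bs2, W2, a2, b2, c2⟩ := ih.2 Bs1 W1 a1 b1
      exact ⟨Bs2, W2, a2, b2, c1.trans c2⟩

theorem ZB.zero {Bs : List (List X)} {W : List X'} (h : M.ZB Bs W) (hz : S.Zero Bs.flatten) :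
    S'.Zero W := by
  obtain ⟨u, x, y, v, hz, e⟩ := hz
  obtain ⟨Bs', W', h', e1, e2⟩ := (ZB.sound e).1 Bs W h rfl
  refine Sys.Zero.of_eqv e2 ?_
  obtain ⟨Z, hZ, e3, rfl⟩ := h'.zones
  rcases ParseA_locate Z u (fun z hz => valid_ne_nil (hZ z hz)) (e3.trans e1.symm) with
    ⟨Z1, Z2, u', v', rfl, rfl, rfl⟩ | ⟨Z1, Z2, u', v', rfl, rfl, rfl⟩
  · simpa using (M.z_in u' x y v' (hZ _ (by simp)) hz).ctx (Z1.flatMap M.dec) (Z2.flatMap M.dec)
  · exact absurd hz (M.z_bd u' x y v' (hZ _ (by simp)) (hZ _ (by simp)))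

theorem nonzero (M : Simul S S' Q) {W : List X'} (h : ¬ S'.Zero W) :
    ¬ S.Zero (W.flatMap M.enc) := fun hz =>
  h ((ZB.enc M W).zero (by simpa [List.flatMap_def] using hz))

end Simul

end Crest.Agent.R176
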