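import Crest.Agent.R176.St

/-! # R176: finite presentability passes to quotients of the ring and to finite-index subgroups -/

noncomputable section

namespace Crest.Agent.R176

open scoped commutatorElement

set_option linter.unusedSectionVars false

theorem RS_finite_of_fg {α : Type} [h : Group.FG (FreeGroup α)] : Finite α := by
  classical
  let φ : α → FreeGroup α →* Multiplicative ℤ := fun a =>
    FreeGroup.lift fun b => if b = a then Multiplicative.ofAdd 1 else 1
  have h1 : ∀ x : FreeGroup α, {a | φ a x ≠ 1}.Finite := by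
    intro x
    induction x using FreeGroup.induction_on with
    | C1 => simp
    | of b =>
      refine (Set.finite_singleton b).subset fun a ha => ?_
      by_contra hab
      exact ha (by simp [φ, Ne.symm hab])
    | inv_of b hb => simpa using hb
    | mul x y hx hy =>
      refine (hx.union hy).subset fun a ha => ?_
      by_contra hc
      simp only [Set.mem_union, Set.mem_ofPred_eq, not_or, not_not] at hc
      exact ha (by rw [map_mul, hc.1, hc.2, mul_one])
  obtain ⟨S, hS, hfin⟩ := Group.fg_iff.1 h
  refine Set.finite_univ_iff.1 ((hfin.biUnion fun x _ => h1 x).subset fun a _ => ?_)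
  by_contra hc
  simp only [Set.mem_iUnion, Set.mem_ofPred_eq, not_exists, not_not] at hc
  have h2 : Subgroup.closure S ≤ (φ a).ker := (Subgroup.closure_le _).2 fun x hx => hc x hx
  have h3 : φ a (FreeGroup.of a) = 1 := h2 (hS ▸ Subgroup.mem_top _)
  simp [φ] at h3

theorem RS_fp_of_free {F : Type} [Group F] [IsFreeGroup F] [Group.FG F] :
    Group.IsFinitelyPresented F := by
  have : Group.FG (FreeGroup (IsFreeGroup.Generators F)) :=
    Group.fg_of_surjective (f := (IsFreeGroup.toFreeGroup F).toMonoidHom)
      (IsFreeGroup.toFreeGroup F).surjective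
  have : Finite (IsFreeGroup.Generators F) := RS_finite_of_fg
  exact Group.IsFinitelyPresented.equiv (IsFreeGroup.mulEquiv F)

theorem RS_normal {F : Type} [Group F] (K N : Subgroup F) [K.FiniteIndex] (hNK : N ≤ K)
    (hN : N.IsFinitelyNormallyGenerated) : (N.subgroupOf K).IsFinitelyNormallyGenerated := by
  obtain ⟨S, hS, rfl⟩ := hN
  let T : Set F := Set.image2 (fun (q : F ⧸ K) s => q.out⁻¹ * s * q.out) Set.univ S
  have hT : T.Finite := Set.finite_univ.image2 _ hS
  refine ⟨Subtype.val ⁻¹' T, hT.preimage Subtype.val_injective.injOn, le_antisymm ?_ ?_⟩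
  · refine Subgroup.normalClosure_le_normal ?_
    rintro x ⟨q, -, s, hs, e⟩
    change (x : F) ∈ Subgroup.normalClosure S
    rw [← e]
    exact Subgroup.Normal.conj_mem' inferInstance _ (Subgroup.subset_normalClosure hs) _
  · have key : Subgroup.normalClosure S ≤
        (Subgroup.normalClosure (Subtype.val ⁻¹' T : Set K)).map K.subtype := by
      refine (Subgroup.closure_le _).2 fun x hx => ?_
      obtain ⟨s, hs, hc⟩ := Group.mem_conjugatesOfSet_iff.1 hx
      obtain ⟨c, rfl⟩ := isConj_iff.1 hc
      obtain ⟨k, hk⟩ := QuotientGroup.mk_out_eq_mul K c⁻¹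
      have hm : (c⁻¹ * k)⁻¹ * s * (c⁻¹ * k) ∈ K :=
        hNK (Subgroup.Normal.conj_mem' inferInstance _ (Subgroup.subset_normalClosure hs) _)
      have hT' : (⟨_, hm⟩ : K) ∈ (Subtype.val ⁻¹' T : Set K) :=
        ⟨(c⁻¹ : F), trivial, s, hs, by simp only [hk]⟩
      refine ⟨k * ⟨_, hm⟩ * k⁻¹, Subgroup.Normal.conj_mem inferInstance _
        (Subgroup.subset_normalClosure hT') _, ?_⟩
      simp [mul_assoc]
    intro x hx
    obtain ⟨y, hy, e⟩ := key hx
    rwa [← Subtype.ext e]

/-- Reidemeister–Schreier.  Recipe: `φ : F → G` with kernel the normal closure of the finite set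
`S`; `F' = H.comap φ` has finite index in `F`, is free (`subgroupIsFreeOfIsFree`) and finitely
generated (`Subgroup.fg_of_index_ne_zero`), so its basis is finite and `F'` is finitely presented;
the kernel of `F' → H` is the normal closure in `F'` of the conjugates of `S` by a transversal. -/
theorem fp_of_finiteIndex {G : Type} [Group G] [Group.IsFinitelyPresented G] (H : Subgroup G)
    [H.FiniteIndex] : Group.IsFinitelyPresented H := by
  obtain ⟨n, φ, hφ, hk⟩ := Group.IsFinitelyPresented.out (G := G)
  have : (H.comap φ).FiniteIndex :=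
    ⟨by rw [Subgroup.index_comap_of_surjective H hφ]; exact Subgroup.FiniteIndex.index_ne_zero⟩
  have : Group.IsFinitelyPresented (H.comap φ) := RS_fp_of_free
  refine Group.IsFinitelyPresented.of_surjective (φ.subgroupComap H)
    (φ.subgroupComap_surjective_of_surjective H hφ) ?_
  have e : (φ.subgroupComap H).ker = φ.ker.subgroupOf (H.comap φ) := by
    ext x; simp [Subgroup.mem_subgroupOf, Subtype.ext_iff]
  rw [e]
  exact RS_normal _ _ (Subgroup.ker_le_comap φ H) hk

theorem fg_of_fp {G : Type} [Group G] [Group.IsFinitelyPresented G] : Group.FG G := by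
  obtain ⟨n, φ, hφ, -⟩ := Group.IsFinitelyPresented.out (G := G)
  exact Group.fg_of_surjective hφ

end Crest.Agent.R176
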