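import Crest.Agent.R176.Alg

/-! # R176: the shift register -/

noncomputable section

namespace Crest.Agent.R176

open scoped commutatorElement

set_option linter.unusedSectionVars false

namespace Sys

open Classical

variable {X : Type} [Fintype X] [DecidableEq X] (S : Sys X) (m : ℕ)

/-- words of length `m` -/
abbrev Wd (X : Type) (m : ℕ) := List.Vector X m

/-- all factors of length `m + 1` are nonzero -/
def chi (v : List X) : Prop := ∀ a u c, v = a ++ u ++ c → u.length = m + 1 → ¬ S.Zero u

/-- the column attached to a word: the first `m` letters are the index, the rest is the entry -/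
def colW (v : List X) : Wd X m → S.R := fun w =>
  if S.chi m v ∧ v.take m = w.toList then S.wd (v.drop m) else 0

/-- linear extension of `colW` -/
def pcol : FA X →ₗ[ZMod 2] (Wd X m → S.R) := (basisW X).constr (ZMod 2) (S.colW m)

/-- the shift register: prepend a letter, push out the last one -/
def sig : FA X →ₐ[ZMod 2] Matrix (Wd X m) (Wd X m) S.R :=
  FreeAlgebra.lift (ZMod 2) (fun x => Matrix.of fun w w' => S.colW m (x :: w'.toList) w)

/-- the row of the words -/
def hrow : Wd X m → S.R := fun w => S.wd w.toList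

theorem pcol_wA (v : List X) : S.pcol m (wA v) = S.colW m v := by
  rw [pcol, ← basisW_apply, Module.Basis.constr_basis]

theorem Shift_ind {p : ℕ} {P : FA X → Prop} (h0 : P 0)
    (hw : ∀ w : List X, p ≤ w.length → P (wA w)) (hadd : ∀ a b, P a → P b → P (a + b))
    {a : FA X} (ha : a ∈ IA X p) : P a := by
  induction ha using Submodule.span_induction with
  | mem a h => obtain ⟨w, hw', rfl⟩ := h; exact hw w hw'
  | zero => exact h0
  | add a b _ _ h1 h2 => exact hadd a b h1 h2
  | smul c a _ h =>
    have hc : c = 0 ∨ c = 1 := by revert c; decide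
    rcases hc with rfl | rfl
    · rwa [zero_smul]
    · rwa [one_smul]

theorem Shift_wA_mem {p : ℕ} {w : List X} (h : p ≤ w.length) : wA w ∈ IA X p :=
  Submodule.subset_span ⟨w, h, rfl⟩

theorem Shift_chi_left {u v : List X} (h : S.chi m (u ++ v)) : S.chi m u :=
  fun a t c e ht => h a t (c ++ v) (by rw [e]; simp) ht

theorem Shift_chi_right {u v : List X} (h : S.chi m (u ++ v)) : S.chi m v :=
  fun a t c e ht => h (u ++ a) t c (by rw [e]; simp) ht

theorem Shift_chi_cons (x : X) (v : List X) :
    S.chi m (x :: v) ↔ S.chi m (x :: v.take m) ∧ S.chi m v := by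
  constructor
  · intro h
    refine ⟨S.Shift_chi_left m (v := v.drop m) ?_, S.Shift_chi_right m (u := [x]) h⟩
    rwa [List.cons_append, List.take_append_drop]
  · rintro ⟨h1, h2⟩ a t c e ht
    cases a with
    | nil =>
      refine h1 [] t [] ?_ ht
      have := congrArg (List.take (m + 1)) e
      rw [List.take_succ_cons, List.nil_append, List.take_left' ht] at this
      simpa using this
    | cons y a =>
      simp only [List.cons_append, List.cons.injEq] at e
      exact h2 a t c e.2 ht

theorem Shift_not_chi {v : List X} (h : ¬ S.chi m v) : S.wd v = 0 := by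
  unfold chi at h
  push Not at h
  obtain ⟨a, t, c, rfl, -, hz⟩ := h
  exact S.wd_zero (hz.ctx a c)

/-- a sum against a column picks the first `m` letters -/
theorem Shift_sum {v : List X} (w₀ : Wd X m) (h : v.take m = w₀.toList) (f : Wd X m → S.R) :
    ∑ w, f w * S.colW m v w = if S.chi m v then f w₀ * S.wd (v.drop m) else 0 := by
  rw [Finset.sum_eq_single w₀]
  · unfold colW
    by_cases hc : S.chi m v <;> simp [hc, h]
  · intro w _ hne
    unfold colW
    rw [if_neg, mul_zero]
    rintro ⟨-, e⟩
    exact hne (List.Vector.toList_injective (e.symm.trans h))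
  · simp

theorem Shift_letter (x : X) {v : List X} (hv : m ≤ v.length) :
    (S.sig m (FreeAlgebra.ι (ZMod 2) x)).mulVec (S.colW m v) = S.colW m (x :: v) := by
  funext w
  have hl : (v.take m).length = m := by simp [hv]
  rw [sig, FreeAlgebra.lift_ι_apply, Matrix.mulVec, dotProduct,
    S.Shift_sum m (⟨v.take m, hl⟩ : Wd X m) rfl]
  show (if S.chi m v then S.colW m (x :: v.take m) w * S.wd (v.drop m) else 0) = _
  have e : x :: v = (x :: v.take m) ++ v.drop m := by simp
  have hl' : m ≤ (x :: v.take m).length := by simp [hl]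
  have e1 : (x :: v).take m = (x :: v.take m).take m := by
    rw [e, List.take_append_of_le_length hl']
  have e2 : (x :: v).drop m = (x :: v.take m).drop m ++ v.drop m := by
    conv_lhs => rw [e]
    rw [List.drop_append_of_le_length hl']
  unfold colW
  have e3 := S.Shift_chi_cons m x v
  rw [e1, e2, wd_append]
  by_cases h1 : S.chi m v <;> by_cases h2 : S.chi m (x :: v.take m) <;>
    by_cases h3 : (x :: v.take m).take m = w.toList <;> simp [e3, h1, h2, h3]

theorem Shift_word (u : List X) {v : List X} (hv : m ≤ v.length) :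
    (S.sig m (wA u)).mulVec (S.colW m v) = S.colW m (u ++ v) := by
  induction u with
  | nil => simp
  | cons x u ih =>
    rw [wA_cons, map_mul, ← Matrix.mulVec_mulVec, ih, Shift_letter _ _ _ (by simp; omega)]
    rfl

theorem Shift_col_append {v : List X} (hv : 2 * m ≤ v.length) (u : List X) (w : Wd X m) :
    S.colW m (v ++ u) w = S.colW m v w * S.wd u := by
  have hm : m ≤ v.length := by omega
  unfold colW
  rw [List.take_append_of_le_length hm]
  by_cases h3 : v.take m = w.toList
  swap
  · simp [h3]
  by_cases h1 : S.chi m (v ++ u)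
  · rw [if_pos ⟨h1, h3⟩, if_pos ⟨S.Shift_chi_left m h1, h3⟩, List.drop_append_of_le_length hm,
      wd_append]
  rw [if_neg fun h => h1 h.1]
  by_cases h2 : S.chi m v
  swap
  · simp [h2]
  rw [if_pos ⟨h2, h3⟩, ← wd_append, ← List.drop_append_of_le_length hm]
  unfold chi at h1
  push Not at h1
  obtain ⟨a, t, c, e, ht, hz⟩ := h1
  by_cases ha : m ≤ a.length
  · rw [e, List.append_assoc, List.drop_append_of_le_length ha, ← List.append_assoc]
    exact (S.wd_zero (hz.ctx _ c)).symm
  · rcases List.append_eq_append_iff.1 e with ⟨c', e1, -⟩ | ⟨c', e1, -⟩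
    · have hl := congrArg List.length e1
      simp only [List.length_append] at hl
      have : c' = [] := List.length_eq_zero_iff.1 (by omega)
      subst this
      exact absurd hz (h2 a t [] (by simpa using e1.symm) ht)
    · exact absurd hz (h2 a t c' e1 ht)

theorem Shift_col_vec (w' : Wd X m) : S.colW m w'.toList = Pi.single w' 1 := by
  funext w
  have hc : S.chi m w'.toList := fun a t c e ht => by
    have hl := congrArg List.length e
    simp only [List.length_append, List.Vector.toList_length] at hl
    omega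
  unfold colW
  rw [List.take_of_length_le (by simp), List.drop_of_length_le (by simp), wd_nil, Pi.single_apply]
  simp only [hc, true_and]
  congr 1
  exact propext ⟨fun h => (List.Vector.toList_injective h).symm, fun h => by rw [h]⟩

theorem Shift_aug_pcol {a : FA X} (ha : a ∈ IA X (m + 1)) (w : Wd X m) :
    S.aug (S.pcol m a w) = 0 := by
  refine Shift_ind (P := fun a => S.aug (S.pcol m a w) = 0) (by simp) (fun v hv => ?_)
    (fun a b h1 h2 => by rw [map_add, Pi.add_apply, map_add, h1, h2, add_zero]) ha
  rw [pcol_wA, colW]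
  split_ifs
  · rw [aug_wd, if_neg]
    rw [List.drop_eq_nil_iff]
    omega
  · exact map_zero _

/-- check on letters `b` and words `a`: `chi (x :: v) ↔ chi (x :: take m v) ∧ chi v` -/
theorem sig_mulVec (b : FA X) {a : FA X} (ha : a ∈ IA X m) :
    (S.sig m b).mulVec (S.pcol m a) = S.pcol m (b * a) := by
  refine Shift_ind (P := fun b => (S.sig m b).mulVec (S.pcol m a) = S.pcol m (b * a)) (by simp)
    (fun u _ => ?_) (fun b c h1 h2 => by rw [map_add, Matrix.add_mulVec, h1, h2, add_mul, map_add])
    (mem_IA_zero b)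
  refine Shift_ind (P := fun a => (S.sig m (wA u)).mulVec (S.pcol m a) = S.pcol m (wA u * a))
    (by simp) (fun v hv => ?_)
    (fun b c h1 h2 => by rw [map_add, Matrix.mulVec_add, h1, h2, mul_add, map_add]) ha
  rw [← wA_append, pcol_wA, pcol_wA, S.Shift_word m u hv]

theorem hrow_pcol {a : FA X} (ha : a ∈ IA X m) :
    dotProduct (S.hrow m) (S.pcol m a) = S.mk' a := by
  refine Shift_ind (P := fun a => dotProduct (S.hrow m) (S.pcol m a) = S.mk' a) (by simp)
    (fun v hv => ?_) (fun b c h1 h2 => by rw [map_add, dotProduct_add, h1, h2, map_add]) ha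
  have hl : (v.take m).length = m := by simp [hv]
  rw [pcol_wA, dotProduct, S.Shift_sum m (⟨v.take m, hl⟩ : Wd X m) rfl]
  show (if S.chi m v then S.wd (v.take m) * S.wd (v.drop m) else 0) = S.wd v
  split_ifs with h
  · rw [← wd_append, List.take_append_drop]
  · exact (S.Shift_not_chi m h).symm

/-- for `|v| ≥ 2 m` the last window of `v ++ [y]` lies in `drop m (v ++ [y])` -/
theorem pcol_mul {a : FA X} (ha : a ∈ IA X (2 * m)) (b : FA X) (w : Wd X m) :
    S.pcol m (a * b) w = S.pcol m a w * S.mk' b := by
  refine Shift_ind (P := fun b => S.pcol m (a * b) w = S.pcol m a w * S.mk' b) (by simp)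
    (fun u _ => ?_)
    (fun b c h1 h2 => by rw [mul_add, map_add, Pi.add_apply, h1, h2, map_add, mul_add])
    (mem_IA_zero b)
  refine Shift_ind (P := fun a => S.pcol m (a * wA u) w = S.pcol m a w * S.mk' (wA u)) (by simp)
    (fun v hv => ?_)
    (fun b c h1 h2 => by
      rw [add_mul, map_add, Pi.add_apply, h1, h2, map_add, Pi.add_apply, add_mul]) ha
  rw [← wA_append, pcol_wA, pcol_wA]
  exact S.Shift_col_append m hv u w

theorem sig_apply (a : FA X) (w w' : Wd X m) :
    S.sig m a w w' = S.pcol m (a * wA w'.toList) w := by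
  rw [← S.sig_mulVec m a (Shift_wA_mem (by simp)), pcol_wA, Shift_col_vec,
    Matrix.mulVec_single_one]
  rfl

theorem sig_deep {a : FA X} (ha : a ∈ IA X (2 * m)) (w w' : Wd X m) :
    S.sig m a w w' = S.pcol m a w * S.hrow m w' := by
  rw [sig_apply, S.pcol_mul m ha]
  rfl

theorem hrow_sig (b : FA X) (w' : Wd X m) :
    ∑ w, S.hrow m w * S.sig m b w w' = S.mk' b * S.hrow m w' := by
  simp only [sig_apply]
  have h : b * wA w'.toList ∈ IA X m := by
    simpa using IA_mul (mem_IA_zero b) (Shift_wA_mem (p := m) (w := w'.toList) (by simp))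
  exact (S.hrow_pcol m h).trans (map_mul _ _ _)

theorem aug_sig (b : FA X) (w w' : Wd X m) :
    S.aug (S.sig m b w w') = if w = w' then S.aug (S.mk' b) else 0 := by
  refine Shift_ind
    (P := fun b => S.aug (S.sig m b w w') = if w = w' then S.aug (S.mk' b) else 0) (by simp)
    (fun u _ => ?_) (fun b c h1 h2 => ?_) (mem_IA_zero b)
  · cases u with
    | nil =>
      rw [wA_nil, map_one, map_one, map_one, Matrix.one_apply]
      split_ifs <;> simp
    | cons x u =>
      rw [sig_apply, ← wA_append, S.Shift_aug_pcol m (Shift_wA_mem (by simp))]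
      have : S.aug (S.mk' (wA (x :: u))) = 0 := (S.aug_wd _).trans (by simp)
      rw [this, ite_self]
  · rw [map_add, Matrix.add_apply, map_add, h1, h2, map_add, map_add]
    split_ifs <;> simp

theorem aug_pcol {a : FA X} (ha : a ∈ IA X (m + 1)) (w : Wd X m) : S.aug (S.pcol m a w) = 0 := by
  exact S.Shift_aug_pcol m ha w

/-- deep relations: `𝔯 ∩ A_{≥ 6m+2} ⊆ ker pcol + (𝔯 ∩ A_{≥ 2m}) A_{≥ 2m}` (`ker_deep`, `pcol_mul`) -/
theorem deep_rel {a : FA X} (ha : S.mk' a = 0) (hm : a ∈ IA X (6 * m + 2)) :
    a ∈ AddSubgroup.closure ({k | k ∈ IA X (2 * m) ∧ S.pcol m k = 0} ∪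
      {a | ∃ k u, k ∈ IA X (2 * m) ∧ S.mk' k = 0 ∧ u ∈ IA X (2 * m) ∧ a = k * u}) := by
  refine AddSubgroup.closure_mono ?_ (S.ker_deep ha hm)
  rintro _ ⟨u, v, ρ, hρ, hl, rfl⟩
  have hρ0 := (S.rels_mem_IA hρ).2
  by_cases hu : 2 * m ≤ u.length
  · left
    have h1 : wA u ∈ IA X (2 * m) := Shift_wA_mem hu
    rw [mul_assoc]
    refine ⟨by simpa using IA_mul h1 (mem_IA_zero _), ?_⟩
    funext w
    rw [S.pcol_mul m h1, map_mul, hρ0, zero_mul, mul_zero]
    rfl
  · right
    refine ⟨wA u * ρ * wA (v.take (2 * m)), wA (v.drop (2 * m)), ?_, ?_,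
      Shift_wA_mem (by simp; omega), ?_⟩
    · simpa using IA_mul (mem_IA_zero (wA u * ρ))
        (Shift_wA_mem (p := 2 * m) (w := v.take (2 * m)) (by simp; omega))
    · rw [map_mul, map_mul, hρ0, mul_zero, zero_mul]
    · rw [mul_assoc (wA u * ρ), ← wA_append, List.take_append_drop]

end Sys

end Crest.Agent.R176
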