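import Mathlib

/-!
# Row 176: Steinberg groups (definitions and basic API)

Owner: helper79.  See `Crest/Agent/R176/Blueprint.lean` for the overview.
`St V R` is the Steinberg group of the ring `R` on the index type `V`; the generator `x i i r` is `1`.
-/

noncomputable section

namespace Crest.Agent.R176

open scoped commutatorElement

set_option linter.unusedSectionVars false

/-- The Steinberg relators. -/
inductive StRel (V R : Type) [Ring R] : FreeGroup (V × V × R) → Prop
  | diag (i : V) (r : R) : StRel V R (FreeGroup.of (i, i, r))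
  | add (i j : V) (r s : R) :
      StRel V R (FreeGroup.of (i, j, r) * FreeGroup.of (i, j, s) * (FreeGroup.of (i, j, r + s))⁻¹)
  | comm (i j k l : V) (r s : R) (h1 : j ≠ k) (h2 : i ≠ l) :
      StRel V R ⁅FreeGroup.of (i, j, r), FreeGroup.of (k, l, s)⁆
  | mul (i j k : V) (r s : R) (hij : i ≠ j) (hjk : j ≠ k) (hik : i ≠ k) :
      StRel V R (⁅FreeGroup.of (i, j, r), FreeGroup.of (j, k, s)⁆ * (FreeGroup.of (i, k, r * s))⁻¹)

/-- The Steinberg group. -/
def St (V R : Type) [Ring R] : Type := PresentedGroup {w | StRel V R w}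

instance (V R : Type) [Ring R] : Group (St V R) :=
  inferInstanceAs (Group (PresentedGroup {w | StRel V R w}))

/-- total inverse-of-unit helper: the unit with value `r` if `r` is a unit, else `1` -/
def un {R : Type} [Ring R] (r : R) : Rˣ := by
  classical exact if h : IsUnit r then h.unit else 1

theorem un_val {R : Type} [Ring R] {r : R} (h : IsUnit r) : (un r : R) = r := by
  simp [un, h]

/-- A local `𝔽₂`-algebra with residue field `𝔽₂`. -/
structure Loc (R : Type) [Ring R] [Algebra (ZMod 2) R] where
  ε : R →+* ZMod 2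
  unit : ∀ r, ε r = 1 → IsUnit r

theorem two_eq_zero' (R : Type) [Ring R] [Algebra (ZMod 2) R] (r : R) : r + r = 0 := by
  have h : (1 : ZMod 2) + 1 = 0 := by decide
  have := congrArg (fun c : ZMod 2 => c • r) h
  simpa [add_smul] using this

theorem neg_eq_self' (R : Type) [Ring R] [Algebra (ZMod 2) R] (r : R) : -r = r :=
  neg_eq_of_add_eq_zero_left (two_eq_zero' R r)

namespace Loc
variable {R : Type} [Ring R] [Algebra (ZMod 2) R] (L : Loc R)

theorem ε_algebraMap (c : ZMod 2) : L.ε (algebraMap (ZMod 2) R c) = c := by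
  have : L.ε.comp (algebraMap (ZMod 2) R) = RingHom.id _ := RingHom.ext_zmod _ _
  exact congrArg (fun f : ZMod 2 →+* ZMod 2 => f c) this

theorem ε_unit (u : Rˣ) : L.ε (u : R) = 1 := by
  have h : L.ε (u : R) * L.ε ((u⁻¹ : Rˣ) : R) = 1 := by rw [← map_mul]; simp
  revert h
  generalize L.ε (u : R) = a
  generalize L.ε ((u⁻¹ : Rˣ) : R) = b
  revert a b
  decide

theorem isUnit_one_add {r : R} (h : L.ε r = 0) : IsUnit (1 + r) :=
  L.unit _ (by simp [h])

theorem ε_mul_comm (a b : R) : L.ε (a * b) = L.ε (b * a) := by
  rw [map_mul, map_mul, mul_comm]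

end Loc

namespace St

variable {V V' V'' R R' R'' : Type} [Ring R] [Ring R'] [Ring R'']

/-- the generators -/
def x (i j : V) (r : R) : St V R := PresentedGroup.of (rels := {w | StRel V R w}) (i, j, r)

theorem rel_one {w : FreeGroup (V × V × R)} (h : StRel V R w) :
    (PresentedGroup.mk {w | StRel V R w} w : St V R) = 1 :=
  PresentedGroup.one_of_mem (rels := {w | StRel V R w}) h

@[simp] theorem x_self (i : V) (r : R) : x i i r = 1 := rel_one (StRel.diag i r)

theorem x_add (i j : V) (r s : R) : x i j (r + s) = x i j r * x i j s := by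
  have h := rel_one (StRel.add i j r s)
  rw [map_mul, map_mul, map_inv, mul_inv_eq_one] at h
  exact h.symm

@[simp] theorem x_zero (i j : V) : x i j (0 : R) = 1 := by
  have h := x_add i j (0 : R) 0
  rw [add_zero] at h
  exact mul_eq_left.1 h.symm

theorem x_neg (i j : V) (r : R) : x i j (-r) = (x i j r)⁻¹ := by
  rw [eq_inv_iff_mul_eq_one, ← x_add, neg_add_cancel, x_zero]

theorem x_commute {i j k l : V} (h1 : j ≠ k) (h2 : i ≠ l) (r s : R) :
    Commute (x i j r) (x k l s) := by
  have h := rel_one (StRel.comm i j k l r s h1 h2)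
  rw [map_commutatorElement] at h
  exact commutatorElement_eq_one_iff_commute.1 h

theorem x_comm_mul {i j k : V} (hij : i ≠ j) (hjk : j ≠ k) (hik : i ≠ k) (r s : R) :
    ⁅x i j r, x j k s⁆ = x i k (r * s) := by
  have h := rel_one (StRel.mul i j k r s hij hjk hik)
  rw [map_mul, map_inv, mul_inv_eq_one, map_commutatorElement] at h
  exact h

/-- `x i j r * x j k s * (x i j r)⁻¹ = x i k (r * s) * x j k s` -/
theorem conj_left {i j k : V} (hij : i ≠ j) (hjk : j ≠ k) (hik : i ≠ k) (r s : R) :
    x i j r * x j k s * (x i j r)⁻¹ = x i k (r * s) * x j k s := by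
  rw [← x_comm_mul hij hjk hik, commutatorElement_def]; group

/-- `x j k s * x i j r * (x j k s)⁻¹ = x i k (-(r * s)) * x i j r` -/
theorem conj_right {i j k : V} (hij : i ≠ j) (hjk : j ≠ k) (hik : i ≠ k) (r s : R) :
    x j k s * x i j r * (x j k s)⁻¹ = x i k (-(r * s)) * x i j r := by
  rw [x_neg, ← x_comm_mul hij hjk hik, commutatorElement_def]; group

theorem closure_x : Subgroup.closure {y : St V R | ∃ i j r, y = x i j r} = ⊤ := by
  have h := PresentedGroup.closure_range_of {w | StRel V R w}
  refine top_unique (le_trans (le_of_eq h.symm) (Subgroup.closure_mono ?_))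
  rintro _ ⟨⟨i, j, r⟩, rfl⟩
  exact ⟨i, j, r, rfl⟩

/-- induction principle: a subgroup containing all generators is everything -/
theorem mem_of_x (H : Subgroup (St V R)) (h : ∀ i j r, i ≠ j → x i j r ∈ H) (y : St V R) :
    y ∈ H := by
  have : (⊤ : Subgroup (St V R)) ≤ H := by
    rw [← closure_x, Subgroup.closure_le]
    rintro _ ⟨i, j, r, rfl⟩
    by_cases hij : i = j
    · subst hij; simp
    · exact h i j r hij
  exact this (Subgroup.mem_top y)

/-- induction principle (every generator's inverse is a generator) -/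
theorem induction_on {P : St V R → Prop} (y : St V R) (h1 : P 1)
    (hx : ∀ i j r y, i ≠ j → P y → P (x i j r * y)) : P y := by
  have key : ∀ g : St V R, ∀ y, P y → P (g * y) := by
    intro g
    let H : Subgroup (St V R) :=
      { carrier := {g | (∀ y, P y → P (g * y)) ∧ ∀ y, P y → P (g⁻¹ * y)}
        one_mem' := ⟨fun y hy => by simpa using hy, fun y hy => by simpa using hy⟩
        mul_mem' := fun {a b} ha hb =>
          ⟨fun y hy => by rw [mul_assoc]; exact ha.1 _ (hb.1 y hy),
           fun y hy => by rw [mul_inv_rev, mul_assoc]; exact hb.2 _ (ha.2 y hy)⟩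
        inv_mem' := fun {a} ha => ⟨ha.2, by simpa using ha.1⟩ }
    exact (mem_of_x H (fun i j r hij => ⟨fun y hy => hx i j r y hij hy,
      fun y hy => by rw [← x_neg]; exact hx i j _ y hij hy⟩) g).1
  simpa using key y 1 h1

theorem hom_ext {M : Type*} [Monoid M] {f g : St V R →* M}
    (h : ∀ i j r, i ≠ j → f (x i j r) = g (x i j r)) : f = g := by
  ext y
  induction y using induction_on with
  | h1 => simp
  | hx i j r y hij hy => rw [map_mul, map_mul, h i j r hij, hy]

/-- universal property -/
def lift {G : Type*} [Group G] (f : V → V → R → G) (h0 : ∀ i r, f i i r = 1)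
    (hadd : ∀ i j r s, i ≠ j → f i j (r + s) = f i j r * f i j s)
    (hcomm : ∀ i j k l r s, i ≠ j → k ≠ l → j ≠ k → i ≠ l → Commute (f i j r) (f k l s))
    (hmul : ∀ i j k r s, i ≠ j → j ≠ k → i ≠ k → ⁅f i j r, f j k s⁆ = f i k (r * s)) :
    St V R →* G :=
  PresentedGroup.toGroup (rels := {w | StRel V R w}) (f := fun p => f p.1 p.2.1 p.2.2) (by
    rintro _ (⟨i, r⟩ | ⟨i, j, r, s⟩ | ⟨i, j, k, l, r, s, h1, h2⟩ | ⟨i, j, k, r, s, h1, h2, h3⟩)
    · simp [h0]
    · by_cases hij : i = j
      · subst hij; simp [h0]
      · simp [hadd i j r s hij]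
    · rw [map_commutatorElement, commutatorElement_eq_one_iff_commute]
      simp only [FreeGroup.lift_apply_of]
      by_cases hij : i = j
      · subst hij; simp [h0]
      by_cases hkl : k = l
      · subst hkl; simp [h0]
      exact hcomm i j k l r s hij hkl h1 h2
    · rw [map_mul, map_inv, map_commutatorElement]
      simp [hmul i j k r s h1 h2 h3])

@[simp] theorem lift_x {G : Type*} [Group G] (f : V → V → R → G) (h0 hadd hcomm hmul)
    (i j : V) (r : R) : lift f h0 hadd hcomm hmul (x i j r) = f i j r :=
  PresentedGroup.toGroup.of _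

/-- functoriality in the ring -/
def map (f : R →+* R') : St V R →* St V R' :=
  lift (fun i j r => x i j (f r)) (by simp) (fun i j r s _ => by rw [map_add, x_add])
    (fun _ _ _ _ _ _ _ _ h1 h2 => x_commute h1 h2 _ _)
    (fun _ _ _ r s h1 h2 h3 => by rw [x_comm_mul h1 h2 h3, map_mul])

@[simp] theorem map_x (f : R →+* R') (i j : V) (r : R) : map f (x i j r) = x i j (f r) :=
  lift_x _ _ _ _ _ _ _ _

theorem map_map (f : R →+* R') (g : R' →+* R'') (y : St V R) :
    map g (map f y) = map (g.comp f) y := by
  have : (map g).comp (map f) = (map (g.comp f) : St V R →* St V R'') :=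
    hom_ext fun i j r _ => by simp
  exact DFunLike.congr_fun this y

theorem map_id' (y : St V R) : map (RingHom.id R) y = y := by
  have : (map (RingHom.id R) : St V R →* St V R) = MonoidHom.id _ := hom_ext fun i j r _ => by simp
  exact DFunLike.congr_fun this y

theorem map_surjective (f : R →+* R') (hf : Function.Surjective f) :
    Function.Surjective (map f : St V R →* St V R') := by
  intro y
  refine mem_of_x (map f : St V R →* St V R').range (fun i j r _ => ?_) y
  obtain ⟨r, rfl⟩ := hf r
  exact ⟨x i j r, map_x _ _ _ _⟩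

/-- functoriality in the index set -/
def relabel (e : V ↪ V') : St V R →* St V' R :=
  lift (fun i j r => x (e i) (e j) r) (by simp) (fun i j r s _ => x_add _ _ _ _)
    (fun _ _ _ _ _ _ _ _ h1 h2 => x_commute (e.injective.ne h1) (e.injective.ne h2) _ _)
    (fun _ _ _ r s h1 h2 h3 =>
      x_comm_mul (e.injective.ne h1) (e.injective.ne h2) (e.injective.ne h3) _ _)

@[simp] theorem relabel_x (e : V ↪ V') (i j : V) (r : R) :
    relabel e (x i j r) = x (e i) (e j) r := lift_x _ _ _ _ _ _ _ _

theorem relabel_relabel (e : V ↪ V') (e' : V' ↪ V'') (y : St V R) :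
    relabel e' (relabel e y) = relabel (e.trans e') y := by
  have : (relabel e').comp (relabel e) = (relabel (e.trans e') : St V R →* St V'' R) :=
    hom_ext fun i j r _ => by simp
  exact DFunLike.congr_fun this y

theorem relabel_refl (y : St V R) : relabel (Function.Embedding.refl V) y = y := by
  have : (relabel (Function.Embedding.refl V) : St V R →* St V R) = MonoidHom.id _ :=
    hom_ext fun i j r _ => by simp
  exact DFunLike.congr_fun this y

theorem map_relabel (f : R →+* R') (e : V ↪ V') (y : St V R) :
    map f (relabel e y) = relabel e (map f y) := by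
  have : (map f).comp (relabel e) = ((relabel e).comp (map f) : St V R →* St V' R') :=
    hom_ext fun i j r _ => by simp
  exact DFunLike.congr_fun this y

/-- elements with disjoint supports commute -/
theorem relabel_commute (e : V ↪ V'') (e' : V' ↪ V'') (h : ∀ a b, e a ≠ e' b)
    (y : St V R) (y' : St V' R) : Commute (relabel e y) (relabel e' y') := by
  induction y using induction_on with
  | h1 => simp
  | hx i j r y _ hy =>
    rw [map_mul]
    refine Commute.mul_left ?_ hy
    induction y' using induction_on with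
    | h1 => simp
    | hx k l s y' _ hy' =>
      rw [map_mul]
      refine Commute.mul_right ?_ (hy' ?_)
      · simpa using x_commute (h j k) (h i l) r s
      · rw [map_mul] at hy
        have h2 : Commute (relabel e y) (relabel e' (x k l s)) := by
          clear hy hy'
          induction y using induction_on with
          | h1 => simp
          | hx i j r y _ hy =>
            rw [map_mul]
            exact Commute.mul_left (by simpa using x_commute (h j k) (h i l) r s) hy
        have := Commute.mul_right (Commute.inv_right h2) hy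
        simpa using this

/-- the diagonal automorphism `x i j r ↦ x i j (d i * r * (d j)⁻¹)` -/
def dg (d : V → Rˣ) : St V R →* St V R :=
  lift (fun i j r => x i j (d i * r * ((d j)⁻¹ : Rˣ))) (by simp)
    (fun i j r s _ => by rw [mul_add, add_mul, x_add])
    (fun _ _ _ _ _ _ _ _ h1 h2 => x_commute h1 h2 _ _)
    (fun _ _ _ r s h1 h2 h3 => by rw [x_comm_mul h1 h2 h3]; simp [mul_assoc])

@[simp] theorem dg_x (d : V → Rˣ) (i j : V) (r : R) :
    dg d (x i j r) = x i j (d i * r * ((d j)⁻¹ : Rˣ)) := lift_x _ _ _ _ _ _ _ _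

theorem dg_dg (d d' : V → Rˣ) (y : St V R) : dg d (dg d' y) = dg (d * d') y := by
  have : (dg d).comp (dg d') = (dg (d * d') : St V R →* St V R) :=
    hom_ext fun i j r _ => by simp [mul_assoc]
  exact DFunLike.congr_fun this y

@[simp] theorem dg_one (y : St V R) : dg (1 : V → Rˣ) y = y := by
  have : (dg (1 : V → Rˣ) : St V R →* St V R) = MonoidHom.id _ := hom_ext fun i j r _ => by simp
  exact DFunLike.congr_fun this y

theorem dg_relabel (d : V' → Rˣ) (e : V ↪ V') (y : St V R) :
    dg d (relabel e y) = relabel e (dg (d ∘ e) y) := by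
  have : (dg d).comp (relabel e) = ((relabel e).comp (dg (d ∘ e)) : St V R →* St V' R) :=
    hom_ext fun i j r _ => by simp
  exact DFunLike.congr_fun this y

/-- the normal subgroup generated by the `x i j r`, `r ∈ I` -/
def NI (V : Type) (I : Set R) : Subgroup (St V R) :=
  Subgroup.normalClosure {y | ∃ i j r, r ∈ I ∧ y = x i j r}

instance (I : Set R) : (NI V I).Normal := Subgroup.normalClosure_normal

theorem x_mem_NI {I : Set R} (i j : V) {r : R} (hr : r ∈ I) : x i j r ∈ NI V I :=
  Subgroup.subset_normalClosure ⟨i, j, r, hr, rfl⟩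

theorem NI_mono {I I' : Set R} (h : I ⊆ I') : NI V I ≤ NI V I' :=
  Subgroup.normalClosure_mono fun _ ⟨i, j, r, hr, e⟩ => ⟨i, j, r, h hr, e⟩

/-- the subgroup generated by the root subgroups of the roots in `Ψ` -/
def Ug (R : Type) [Ring R] (Ψ : V → V → Prop) : Subgroup (St V R) :=
  Subgroup.closure {y | ∃ a b r, Ψ a b ∧ y = x a b r}

theorem x_mem_Ug {Ψ : V → V → Prop} {a b : V} (h : Ψ a b) (r : R) : x a b r ∈ Ug R Ψ :=
  Subgroup.subset_closure ⟨a, b, r, h, rfl⟩

theorem Ug_mono {Ψ Ψ' : V → V → Prop} (h : ∀ a b, Ψ a b → Ψ' a b) : Ug R Ψ ≤ Ug R Ψ' :=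
  Subgroup.closure_mono fun _ ⟨a, b, r, hr, e⟩ => ⟨a, b, r, h a b hr, e⟩

section matrices
variable [Fintype V] [DecidableEq V]

/-- elementary matrix -/
def el (i j : V) (r : R) : Matrix V V R := if i = j then 1 else 1 + Matrix.single i j r

theorem el_mul_el (i j : V) (r s : R) : el i j r * el i j s = el i j (r + s) := by
  unfold el
  split_ifs with h
  · simp
  · rw [add_mul, mul_add, mul_add, Matrix.single_mul_single_of_ne _ _ _ _ (Ne.symm h),
      Matrix.single_add]
    simp [add_assoc, add_comm]

theorem el_zero (i j : V) : el i j (0 : R) = 1 := by simp [el]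

/-- elementary matrix as a unit -/
def elU (i j : V) (r : R) : (Matrix V V R)ˣ :=
  ⟨el i j r, el i j (-r), by rw [el_mul_el, add_neg_cancel, el_zero],
    by rw [el_mul_el, neg_add_cancel, el_zero]⟩

/-- the map to `GL` -/
def pmU : St V R →* (Matrix V V R)ˣ :=
  lift elU (fun i r => Units.ext (by simp [elU, el]))
    (fun i j r s _ => Units.ext (by simp [elU, el_mul_el]))
    (fun i j k l r s h1 h2 h3 h4 => Units.ext (by
      simp only [elU, el, if_neg h1, if_neg h2, Units.val_mul, mul_add, add_mul, mul_one, one_mul]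
      rw [Matrix.single_mul_single_of_ne _ _ _ _ h3, Matrix.single_mul_single_of_ne _ _ _ _ h4.symm]
      abel))
    (fun i j k r s h1 h2 h3 => by
      rw [commutatorElement_def, mul_inv_eq_iff_eq_mul, mul_inv_eq_iff_eq_mul]
      refine Units.ext ?_
      simp only [elU, el, if_neg h1, if_neg h2, if_neg h3, Units.val_mul, mul_add, add_mul,
        mul_one, one_mul, Matrix.single_mul_single_same,
        Matrix.single_mul_single_of_ne _ _ _ _ h3.symm,
        Matrix.single_mul_single_of_ne _ _ _ _ h2.symm, add_zero]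
      abel)

/-- the map to matrices -/
def pm : St V R →* Matrix V V R := (Units.coeHom _).comp pmU

theorem pm_x (i j : V) (r : R) : pm (x i j r) = el i j r := by simp [pm, pmU, elU]

theorem pm_x_of_ne {i j : V} (h : i ≠ j) (r : R) : pm (x i j r) = 1 + Matrix.single i j r := by
  rw [pm_x, el, if_neg h]

theorem pm_map (f : R →+* R') (y : St V R) : pm (map f y) = (pm y).map f := by
  have : pm.comp (map f) = (f.mapMatrix.toMonoidHom.comp pm : St V R →* Matrix V V R') :=
    hom_ext fun i j r h => by
      simp only [MonoidHom.comp_apply, map_x, pm_x_of_ne h, RingHom.toMonoidHom_eq_coe,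
        MonoidHom.coe_coe, map_add, map_one]
      congr 1
      ext a b
      simp only [RingHom.mapMatrix_apply, Matrix.map_apply, Matrix.single_apply]
      split_ifs <;> simp
  exact DFunLike.congr_fun this y

end matrices

section loc
variable [Algebra (ZMod 2) R]

theorem x_inv (i j : V) (r : R) : (x i j r)⁻¹ = x i j r := by rw [← x_neg, neg_eq_self']

/-- the congruence subgroup `ker (St V R → St V 𝔽₂)` -/
def G1 (V : Type) (L : Loc R) : Subgroup (St V R) := (map L.ε : St V R →* St V (ZMod 2)).ker

instance (L : Loc R) : (G1 V L).Normal := MonoidHom.normal_ker _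

theorem mem_G1 {L : Loc R} {y : St V R} : y ∈ G1 V L ↔ map L.ε y = 1 := Iff.rfl

/-- relative `K₂` -/
def KK (V : Type) [Fintype V] [DecidableEq V] (L : Loc R) : Subgroup (St V R) :=
  G1 V L ⊓ (pm : St V R →* Matrix V V R).ker

theorem mem_KK [Fintype V] [DecidableEq V] {L : Loc R} {y : St V R} :
    y ∈ KK V L ↔ map L.ε y = 1 ∧ pm y = 1 := Iff.rfl

theorem G1_eq_NI (L : Loc R) : G1 V L = NI V {r | L.ε r = 0} := by
  refine le_antisymm (fun y hy => ?_) (Subgroup.normalClosure_le_normal ?_)
  · have key : ∀ y : St V R, y * (map (algebraMap (ZMod 2) R) (map L.ε y))⁻¹ ∈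
        NI V {r | L.ε r = 0} := by
      intro y
      induction y using induction_on with
      | h1 => simp
      | hx i j r y _ hy =>
        rw [map_mul, map_mul, map_x, map_x]
        have h1 : x i j r * (x i j (algebraMap (ZMod 2) R (L.ε r)))⁻¹ ∈ NI V {r | L.ε r = 0} := by
          rw [← x_neg, ← x_add]
          refine x_mem_NI _ _ ?_
          show L.ε _ = 0
          rw [map_add, map_neg, L.ε_algebraMap, add_neg_cancel]
        have h2 := (inferInstance : (NI V {r | L.ε r = 0}).Normal).conj_mem _ hy (x i j r)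
        have h3 := (NI V {r | L.ε r = 0}).mul_mem h2 h1
        convert h3 using 1
        group
    have := key y
    rwa [mem_G1.1 hy, map_one, inv_one, mul_one] at this
  · rintro _ ⟨i, j, r, hr, rfl⟩
    show map L.ε (x i j r) = 1
    rw [map_x, show L.ε r = 0 from hr, x_zero]

end loc

end St

end Crest.Agent.R176
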