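import Crest.Agent.R176.Act

/-! # R176: injective stability -/

noncomputable section

namespace Crest.Agent.R176

open scoped commutatorElement

set_option linter.unusedSectionVars false

namespace St

variable {V R : Type} [Ring R] [Algebra (ZMod 2) R] [Fintype V] [DecidableEq V] {L : Loc R}

/-- `T'` is the triple on `V` induced by the triple `T` on `Fin 4` -/
structure StabA_Hat {n : ℕ} (e : Fin 4 ↪ V) (rk0 : V ≃ Fin (n + 1)) (T : Tri (Fin 4) R 3)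
    (T' : Tri V R n) : Prop where
  hrk : ∀ v, (T'.rk (e v)).val = (T.rk v).val
  hout : ∀ w, w ∉ Set.range e → T'.rk w = rk0 w
  hl : T'.l = relabel e T.l
  hu : T'.u = relabel e T.u
  hd : ∀ v, T'.d (e v) = T.d v

section hat

variable {n : ℕ} {e : Fin 4 ↪ V} {rk0 : V ≃ Fin (n + 1)} {T : Tri (Fin 4) R 3} {T' : Tri V R n}

theorem StabA_Hat.symm_eq (H : StabA_Hat e rk0 T T') {s : Fin (3 + 1)} {s' : Fin (n + 1)}
    (hs : s'.val = s.val) : T'.rk.symm s' = e (T.rk.symm s) := by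
  rw [Equiv.symm_apply_eq]
  ext
  rw [H.hrk, Equiv.apply_symm_apply, hs]

theorem StabA_Hat.lt (H : StabA_Hat e rk0 T T') {a b : Fin 4} (h : T.rk a < T.rk b) :
    T'.rk (e a) < T'.rk (e b) := by
  rw [Fin.lt_def, H.hrk, H.hrk]
  exact h

theorem StabA_Hat.vi (H : StabA_Hat e rk0 T T') {a : Fin 3} {a' : Fin n} (ha : a'.val = a.val) :
    T'.vi a' = e (T.vi a) := H.symm_eq ha

theorem StabA_Hat.vj (H : StabA_Hat e rk0 T T') {a : Fin 3} {a' : Fin n} (ha : a'.val = a.val) :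
    T'.vj a' = e (T.vj a) := H.symm_eq (by simp [ha])

theorem StabA_Hat.al (H : StabA_Hat e rk0 T T') {a : Fin 3} {a' : Fin n} (ha : a'.val = a.val) :
    T'.al a' = T.al a := by
  rw [Tri.al, H.vi ha, H.vj ha, H.hl, pm_relabel_apply, Tri.al]

theorem StabA_Hat.be (H : StabA_Hat e rk0 T T') {a : Fin 3} {a' : Fin n} (ha : a'.val = a.val) :
    T'.be a' = T.be a := by
  rw [Tri.be, H.vi ha, H.vj ha, H.hu, pm_relabel_apply, Tri.be]

theorem StabA_Hat.at' (H : StabA_Hat e rk0 T T') {a : Fin 3} {a' : Fin n} (ha : a'.val = a.val) :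
    T'.at' a' = T.at' a := by
  rw [Tri.at', H.al ha, H.vi ha, H.vj ha, H.hd, H.hd, Tri.at']

theorem StabA_Hat.swap (H : StabA_Hat e rk0 T T') {a : Fin 3} {a' : Fin n}
    (ha : a'.val = a.val) : StabA_Hat e rk0 (T.swap a) (T'.swap a') where
  hrk v := by
    have h1 := H.hrk v
    simp only [Tri.swap, Equiv.trans_apply, Equiv.swap_apply_def, Fin.ext_iff, Fin.val_castSucc,
      Fin.val_succ, h1, ha]
    split_ifs <;> simp [h1, ha]
  hout w hw := by
    have h1 : T'.rk w ≠ a'.castSucc := fun h =>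
      hw ⟨T.vi a, by rw [← H.vi ha, Tri.vi, ← h, Equiv.symm_apply_apply]⟩
    have h2 : T'.rk w ≠ a'.succ := fun h =>
      hw ⟨T.vj a, by rw [← H.vj ha, Tri.vj, ← h, Equiv.symm_apply_apply]⟩
    simp only [Tri.swap, Equiv.trans_apply]
    rw [Equiv.swap_apply_of_ne_of_ne h1 h2, H.hout w hw]
  hl := by
    simp only [Tri.swap, map_mul, relabel_x, H.al ha, H.be ha, H.at' ha, H.vi ha, H.vj ha, H.hd,
      H.hl]
  hu := by
    simp only [Tri.swap, map_mul, relabel_x, H.be ha, H.at' ha, H.vi ha, H.vj ha, H.hu]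
  hd v := by
    simp only [Tri.swap, Pi.mul_apply, d2, H.be ha, H.at' ha, H.vi ha, H.vj ha, H.hd,
      e.injective.eq_iff]

theorem StabA_Hat.pre (H : StabA_Hat e rk0 T T') (hn : 3 ≤ n) (k : ℕ) (hk : k ≤ 4) :
    T'.pre k = T.pre k := by
  induction k with
  | zero => simp [Tri.pre]
  | succ k ih =>
    have h1 := Tri.pre_succ T ⟨k, by omega⟩
    have h2 := Tri.pre_succ T' ⟨k, by omega⟩
    rw [H.symm_eq (s := ⟨k, by omega⟩) rfl, H.hd] at h2
    simp only at h1 h2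
    rw [h1, h2, ih (by omega)]

theorem StabA_Hat.E (H : StabA_Hat e rk0 T T') (hn : 3 ≤ n) {a : Fin 3} {a' : Fin n}
    (ha : a'.val = a.val) : T'.E a' = T.E a := by
  simp only [Tri.E, Tri.loc2, H.al ha, H.be ha, H.vi ha, H.vj ha, H.hd]
  rw [ha, H.pre hn _ (by omega)]

theorem StabA_SO_map (e : Fin 4 ↪ V) {Ψ : Fin 4 → Fin 4 → Prop} (hΨ : SO Ψ) :
    SO (Relation.Map Ψ e e) := by
  refine ⟨?_, ?_⟩
  · rintro _ ⟨a, b, h, rfl, hb⟩
    cases e.injective hb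
    exact hΨ.1 _ h
  · rintro _ _ _ ⟨a, b, h, rfl, rfl⟩ ⟨c, d, h', hc, rfl⟩
    cases e.injective hc
    exact ⟨a, d, hΨ.2 _ _ _ h h', rfl, rfl⟩

theorem StabA_Pat (e : Fin 4 ↪ V) {Ψ : Fin 4 → Fin 4 → Prop} {y : St (Fin 4) R}
    (h : Pat L Ψ y) : Pat L (Relation.Map Ψ e e) (relabel e y) := by
  intro a b hab hΨ
  by_cases ha : a ∈ Set.range e
  · by_cases hb : b ∈ Set.range e
    · obtain ⟨a, rfl⟩ := ha
      obtain ⟨b, rfl⟩ := hb
      rw [pm_relabel_apply]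
      exact h a b (fun h' => hab (by rw [h'])) (fun h' => hΨ ⟨a, b, h', rfl, rfl⟩)
    · rw [pm_relabel_out e y a b (Or.inr hb), if_neg hab, map_zero]
  · rw [pm_relabel_out e y a b (Or.inl ha), if_neg hab, map_zero]

theorem StabA_Hat.good (H : StabA_Hat e rk0 T T') {Ψ : Fin 4 → Fin 4 → Prop} (hΨ : SO Ψ)
    (h : T.OK L Ψ) : T'.Good L := by
  refine ⟨_, StabA_SO_map e hΨ, ?_, ?_, ?_, ?_⟩
  · rw [H.hl]
    exact relabel_mem_Ug e (fun a b hab => H.lt hab) h.hl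
  · rw [H.hu]
    exact relabel_mem_Ug e (fun a b hab => H.lt hab) h.hu
  · rw [H.hl]
    exact StabA_Pat e h.pl
  · rw [H.hu]
    exact StabA_Pat e h.pu

theorem StabA_Hat.lmul (H : StabA_Hat e rk0 T T') (a b : Fin 4) (r : R) :
    StabA_Hat e rk0 (T.lmul a b r) (T'.lmul (e a) (e b) r) :=
  ⟨H.hrk, H.hout, by simp [Tri.lmul, H.hl], H.hu, H.hd⟩

theorem StabA_Hat.rmul (H : StabA_Hat e rk0 T T') (a b : Fin 4) (r : R) :
    StabA_Hat e rk0 (T.rmul a b r) (T'.rmul (e a) (e b) r) :=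
  ⟨H.hrk, H.hout, H.hl, by simp [Tri.rmul, H.hu], H.hd⟩

end hat

/-- a toral element of `St (Fin 4)` stays toral in `St V5`, with entry `1` at `none` -/
theorem StabA_io_tor {t : St (Fin 4) R} {d : Fin 4 → Rˣ} (ht : IsTor t d) :
    IsTor (io t) (fun a : V5 => a.elim 1 d) := by
  refine isTor_of_supp (Set.range (Function.Embedding.some : Fin 4 ↪ V5)) none (by simp) ?_ _ ?_
  · refine relabel_mem_Ug _ (Ψ := fun _ _ => True) (fun a b _ => ⟨⟨a, rfl⟩, ⟨b, rfl⟩⟩) ?_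
    exact mem_of_x _ (fun i j r _ => x_mem_Ug trivial r) t
  · ext a b
    rw [io]
    rcases a with _ | a
    · rw [pm_relabel_out _ _ _ _ (Or.inl (by simp)), Matrix.diagonal_apply]
      simp
    · rcases b with _ | b
      · rw [pm_relabel_out _ _ _ _ (Or.inr (by simp)), Matrix.diagonal_apply]
        simp
      · have := pm_relabel_apply (Function.Embedding.some : Fin 4 ↪ V5) t a b
        refine this.trans ?_
        rw [ht.2]
        simp [Matrix.diagonal_apply]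

theorem StabA_cj_one (y : St V5 R) : cj (1 : Rˣ) y = y := by
  have : d0 (1 : Rˣ) = (1 : V5 → Rˣ) := by
    funext a
    simp [d0]
  rw [cj, this, dg_one]

/-- `ξ` is the point of the glued space attached to `y` -/
def StabA_Xi {n : ℕ} (L : Loc R) (e : Fin 4 ↪ V) (rk0 : V ≃ Fin (n + 1))
    (Ψ : Fin 4 → Fin 4 → Prop) (rk : Fin 4 ≃ Fin (3 + 1)) (y : St (Fin 4) R) (ξ : XX V L n) :
    Prop :=
  ∃ (T : Tri (Fin 4) R 3) (T' : Tri V R n) (t : St (Fin 4) R) (g : T'.Good L), T.rk = rk ∧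
    T.OK L Ψ ∧ StabA_Hat e rk0 T T' ∧ IsTor t T.d ∧ y = T.l * t * T.u ∧
    ξ = XX.mk ⟨T', T.phi (io t), g⟩

section xi

variable {n : ℕ} {e : Fin 4 ↪ V} {rk0 : V ≃ Fin (n + 1)} {Ψ : Fin 4 → Fin 4 → Prop}
  {rk : Fin 4 ≃ Fin (3 + 1)} {y : St (Fin 4) R} {ξ : XX V L n}

theorem StabA_Xi.swap (hn : 3 ≤ n) (hΨ : SO Ψ) (h : StabA_Xi L e rk0 Ψ rk y ξ) (a : Fin 3) :
    StabA_Xi L e rk0 Ψ (rk.trans (Equiv.swap a.castSucc a.succ)) y ξ := by
  obtain ⟨T, T', t, g, rfl, hT, H, ht, rfl, rfl⟩ := h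
  let a' : Fin n := ⟨a.val, by omega⟩
  have ha : a'.val = a.val := rfl
  have h1 := hT.eps_ab hΨ a
  refine ⟨T.swap a, T'.swap a', t * T.tau a, g.swap a', rfl, hT.swap hΨ a, H.swap ha, ?_, ?_, ?_⟩
  · exact ht.mul (isTor_ds (by simp) (T.vi_ne_vj a) (L.isUnit_one_add h1)
      (L.isUnit_one_add (by rw [L.ε_mul_comm]; exact h1)))
  · have := Tri.swap_St T a (Function.Embedding.refl _) ht (fun _ => rfl)
    simpa only [relabel_refl] using this
  · refine Quotient.sound (Relation.EqvGen.rel _ _ ⟨a', ?_⟩)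
    have h2 := Tri.phi_swap ⟨Ψ, hΨ, hT⟩ (StabA_io_tor ht) (fun _ => rfl) a
    rw [Option.elim_none, StabA_cj_one, ← map_mul, ← H.E hn ha] at h2
    simp only [Pt.sw, h2]

theorem StabA_Xi.change (hn : 3 ≤ n) (hΨ : SO Ψ) (h : StabA_Xi L e rk0 Ψ rk y ξ)
    (rk' : Fin 4 ≃ Fin (3 + 1)) : StabA_Xi L e rk0 Ψ rk' y ξ :=
  bubble rk rk' (fun ρ => StabA_Xi L e rk0 Ψ ρ y ξ) h fun _ a hρ _ => hρ.swap hn hΨ a

theorem StabA_Xi.lm (hn : 3 ≤ n) (hΨ : SO Ψ) (h : StabA_Xi L e rk0 Ψ rk y ξ) {a b : Fin 4}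
    (hab : Ψ a b) (r : R) :
    StabA_Xi L e rk0 Ψ rk (x a b r * y) (XX.Lm (e a) (e b) r ξ) := by
  obtain ⟨rk', hrk'⟩ := exists_rank (n := 3) (by simp) Ψ hΨ.1 hΨ.2
  refine StabA_Xi.change hn hΨ (rk := rk') ?_ rk
  obtain ⟨T, T', t, g, rfl, hT, H, ht, rfl, rfl⟩ := h.change hn hΨ rk'
  have h1 := hT.lmul hΨ (hrk' a b hab) (Or.inl hab : Ψ a b ∨ L.ε r = 0)
  have g' := (H.lmul a b r).good hΨ h1
  refine ⟨T.lmul a b r, T'.lmul (e a) (e b) r, t, g', rfl, h1, H.lmul a b r, ht, ?_, ?_⟩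
  · simp only [Tri.lmul, mul_assoc]
  · exact XX.Lm_mk ⟨T', T.phi (io t), g⟩ r (H.lt (hrk' a b hab)) g'

theorem StabA_Xi.rm (hn : 3 ≤ n) (hΨ : SO Ψ) (h : StabA_Xi L e rk0 Ψ rk y ξ) {a b : Fin 4}
    (hab : Ψ a b) (r : R) :
    StabA_Xi L e rk0 Ψ rk (y * x a b r) (XX.Rm (e a) (e b) r ξ) := by
  obtain ⟨rk', hrk'⟩ := exists_rank (n := 3) (by simp) (fun a b => Ψ b a) hΨ.1
    (fun a b c h1 h2 => hΨ.2 c b a h2 h1)
  refine StabA_Xi.change hn hΨ (rk := rk') ?_ rk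
  obtain ⟨T, T', t, g, rfl, hT, H, ht, rfl, rfl⟩ := h.change hn hΨ rk'
  have h1 := hT.rmul hΨ (hrk' b a hab) (Or.inl hab : Ψ a b ∨ L.ε r = 0)
  have g' := (H.rmul a b r).good hΨ h1
  refine ⟨T.rmul a b r, T'.rmul (e a) (e b) r, t, g', rfl, h1, H.rmul a b r, ht, ?_, ?_⟩
  · simp only [Tri.rmul, mul_assoc]
  · exact XX.Rm_mk ⟨T', T.phi (io t), g⟩ r (H.lt (hrk' b a hab)) g'

theorem StabA_mat {T : Tri (Fin 4) R 3} {t : St (Fin 4) R} (ht : IsTor t T.d) :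
    T.mat = pm (T.l * t * T.u) := by
  rw [map_mul, map_mul, ht.2, Tri.mat]

theorem StabA_Xi.op (hn : 3 ≤ n) (h : StabA_Xi L e rk0 (fun _ _ => False) rk y ξ) {a b : Fin 4}
    (hab : a ≠ b) (r : R) (hy : map L.ε (x a b r * y * x a b (-c0 L r)) = 1) :
    StabA_Xi L e rk0 (fun _ _ => False) rk (x a b r * y * x a b (-c0 L r))
      (XX.op (e a) (e b) r ξ) := by
  have hΨ : SO (fun c d : Fin 4 => c = a ∧ d = b) :=
    ⟨fun c h => hab (h.1.symm.trans h.2), fun _ _ _ h1 h2 => ⟨h1.1, h2.2⟩⟩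
  have h1 : StabA_Xi L e rk0 (fun c d => c = a ∧ d = b) rk y ξ := by
    obtain ⟨T, T', t, g, hrk, hT, H⟩ := h
    exact ⟨T, T', t, g, hrk, hT.mono (fun _ _ h => h.elim), H⟩
  obtain ⟨T, T', t, g, hrk, hT, H, ht, hy', hξ⟩ :=
    (h1.lm hn hΨ ⟨rfl, rfl⟩ r).rm hn hΨ ⟨rfl, rfl⟩ (-c0 L r)
  refine ⟨T, T', t, g, hrk, hT.bot ?_, H, ht, hy', hξ⟩
  rw [StabA_mat ht, ← hy', ← pm_map, hy, map_one]

end xi

/-- the trivial triple -/
def StabA_one {W : Type} {n : ℕ} (rk : W ≃ Fin (n + 1)) : Tri W R n := ⟨rk, 1, 1, 1⟩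

theorem StabA_one_ok {W : Type} [Fintype W] [DecidableEq W] {n : ℕ} (rk : W ≃ Fin (n + 1)) :
    (StabA_one rk : Tri W R n).OK L (fun _ _ => False) := by
  have : Pat L (fun _ _ => False) (1 : St W R) := by
    intro a b hab _
    rw [map_one, Matrix.one_apply_ne hab, map_zero]
  exact ⟨Subgroup.one_mem _, Subgroup.one_mem _, this, this⟩

theorem StabA_phi_one (rk : Fin 4 ≃ Fin (3 + 1)) (t : St V5 R) :
    (StabA_one rk : Tri (Fin 4) R 3).phi t = t := by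
  simp [Tri.phi, StabA_one, HH]

/-- Recipe.  `card V = n + 1`, `3 ≤ n`.  Fix an order `rk0 : V ≃ Fin (n+1)` with
`rk0 (e v) = castLE v`.  For a triple `T` on `Fin 4` let `T^` be the triple on `V` with order
`e v ↦ castLE (T.rk v)`, the other points as in `rk0`, `l^ = relabel e l`, `u^ = relabel e u`, `d^`
extended by `1`; `(T.swap a)^ = T^.swap (castLE a)` and `T^.E (castLE a) = T.E a`.
Say `Xi y ξ` if `y = T.l * t * T.u` (as in `HasG`, some pattern) and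
`ξ = XX.mk ⟨T^, T.phi (io t), _⟩`.  By `phi_swap` (`io t` is toral with `none`-entry `1`) the order
of `T` can be changed (`bubble`); `Xi y ξ → Xi (x a b r * y) (Lm (e a) (e b) r ξ)`, same for `Rm`.
Hence by `St.induction_on`, with `s = map (algebraMap ∘ ε)`:
`Xi (g * (s g)⁻¹) (ρ (relabel e g) base)` for all `g`, `base = mk ⟨(rk0,1,1,1), 1⟩`.
For `g = z`: `Xi z base`; take the order `refl`; `ext_mat` gives `T = (refl,1,1,1)`, `z = t`, and
`Rel.unique` gives `io z = phi (io t) = 1`. -/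
theorem stab_step (e : Fin 4 ↪ V) {z : St (Fin 4) R} (hz : z ∈ KK (Fin 4) L)
    (h : relabel e z = 1) : io z = 1 := by
  have hV4 : 4 ≤ Fintype.card V := by simpa using Fintype.card_le_of_embedding e
  obtain ⟨n, hn⟩ : ∃ n, Fintype.card V = n + 1 := ⟨Fintype.card V - 1, by omega⟩
  have hn3 : 3 ≤ n := by omega
  have hbot : SO (fun _ _ : Fin 4 => False) := ⟨fun _ h => h, fun _ _ _ h _ => h⟩
  have hbotV : SO (fun _ _ : V => False) := ⟨fun _ h => h, fun _ _ _ h _ => h⟩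
  obtain ⟨rk0, hrk0⟩ : ∃ rk0 : V ≃ Fin (n + 1), ∀ v, (rk0 (e v)).val = v.val := by
    let f := Fintype.equivFinOfCardEq hn
    have h4 : 4 ≤ n + 1 := by omega
    obtain ⟨σ, hσ⟩ := Equiv.Perm.exists_extending_pair (f := fun v : Fin 4 => f (e v))
      (g := fun v : Fin 4 => (Fin.castLE h4 v : Fin (n + 1)))
      (f.injective.comp e.injective) (Fin.castLE_injective h4)
    exact ⟨f.trans σ, fun v => by rw [Equiv.trans_apply, hσ]; rfl⟩
  obtain ⟨ρ, hρ⟩ := exists_action (L := L) hn (by omega)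
  have g0 : (StabA_one rk0 : Tri V R n).Good L := ⟨_, hbotV, StabA_one_ok rk0⟩
  let base : {ξ : XX V L n // ξ.OK (fun _ _ => False)} :=
    ⟨XX.mk ⟨StabA_one rk0, 1, g0⟩, _, rfl, StabA_one_ok rk0⟩
  have key : ∀ g : St (Fin 4) R, StabA_Xi L e rk0 (fun _ _ => False) (Equiv.refl _)
      (g * (map (algebraMap (ZMod 2) R) (map L.ε g))⁻¹) (ρ (relabel e g) base).1 := by
    intro g
    induction g using induction_on with
    | h1 =>
      refine ⟨StabA_one (Equiv.refl _), StabA_one rk0, 1, g0, rfl, StabA_one_ok _,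
        ⟨hrk0, fun _ _ => rfl, (map_one _).symm, (map_one _).symm, fun _ => rfl⟩, IsTor.one,
        by simp [StabA_one], ?_⟩
      simp only [map_one, StabA_phi_one]
      rfl
    | hx i j r g hij ih =>
      have e1 : x i j r * g * (map (algebraMap (ZMod 2) R) (map L.ε (x i j r * g)))⁻¹ =
          x i j r * (g * (map (algebraMap (ZMod 2) R) (map L.ε g))⁻¹) * x i j (-c0 L r) := by
        rw [map_mul, map_mul, map_x, map_x, x_neg, c0]
        group
      rw [map_mul (relabel e), map_mul ρ, relabel_x, Equiv.Perm.mul_apply,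
        hρ _ _ _ (e.injective.ne hij), e1]
      refine ih.op hn3 hij r ?_
      rw [← e1, map_mul, map_inv, map_map (algebraMap (ZMod 2) R) L.ε,
        RingHom.ext_zmod (L.ε.comp (algebraMap (ZMod 2) R)) (RingHom.id _), map_id',
        mul_inv_cancel]
  have hk := key z
  rw [(mem_KK.1 hz).1, map_one, inv_one, mul_one, h, map_one] at hk
  obtain ⟨T, T', t, g, hrk, hT, H, ht, hz', hξ⟩ := hk
  have hT1 : T = StabA_one (Equiv.refl _) := by
    refine Tri.ext_mat hT (StabA_one_ok _) hrk ?_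
    rw [StabA_mat ht, ← hz', (mem_KK.1 hz).2]
    simp [Tri.mat, StabA_one]
  subst hT1
  have hrk' : rk0 = T'.rk := by
    ext w
    by_cases hw : w ∈ Set.range e
    · obtain ⟨v, rfl⟩ := hw
      rw [H.hrk, hrk0]
      rfl
    · rw [H.hout w hw]
  have hrel : Pt.Rel (⟨StabA_one rk0, 1, g0⟩ : Pt V L n)
      ⟨T', (StabA_one (Equiv.refl _) : Tri (Fin 4) R 3).phi (io t), g⟩ := Quotient.exact hξ
  have h2 := congrArg Pt.γ (hrel.unique hrk')
  rw [StabA_phi_one] at h2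
  have h3 : z = t := by simpa [StabA_one] using hz'
  rw [h3]
  exact h2.symm

end St

end Crest.Agent.R176
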