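import Crest.Agent.R176.StabA

/-! # R176: injective stability -/

noncomputable section

namespace Crest.Agent.R176

open scoped commutatorElement

set_option linter.unusedSectionVars false

namespace St

variable {V R : Type} [Ring R] [Algebra (ZMod 2) R] [Fintype V] [DecidableEq V] {L : Loc R}

theorem StabB_map_dg {W : Type} (L : Loc R) (d : W → Rˣ) (y : St W R) :
    map L.ε (dg d y) = map L.ε y := by
  have : (map L.ε).comp (dg d) = (map L.ε : St W R →* St W (ZMod 2)) :=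
    hom_ext fun i j r _ => by
      simp only [MonoidHom.comp_apply, dg_x, map_x, map_mul, L.ε_unit, one_mul, mul_one]
  exact DFunLike.congr_fun this y

theorem StabB_card : 3 ≤ Fintype.card V5 := by simp

theorem StabB_isTor_HH (k : Fin 4) (u : Rˣ) :
    IsTor (HH k u : St V5 R) (d2 none (some k) u u⁻¹) :=
  isTor_h StabB_card (by simp) u

/-- conjugation of `w` by the inverse of a toral element -/
theorem StabB_conj_w {t : St V5 R} {d : V5 → Rˣ} (ht : IsTor t d) (i j : V5) :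
    w i j 1 * t * (w i j 1)⁻¹ = t * h i j ((d i)⁻¹ * d j) := by
  have h1 := ht.inv.1 (w i j 1)
  rw [dg_w] at h1
  simp only [Pi.inv_apply, mul_one, inv_inv] at h1
  rw [h, ← h1]
  group

theorem StabB_HH_eq {k j : Fin 4} (hkj : k ≠ j) (u : Rˣ) :
    (HH k u : St V5 R) = HH j u * io (h k j u⁻¹) := by
  have hkj' : (some k : V5) ≠ some j := fun e => hkj (Option.some.inj e)
  have h1 := w_conj (R := R) StabB_card hkj' (HH j u)
  rw [StabB_conj_w (StabB_isTor_HH j u)] at h1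
  have h2 : relabel (Equiv.swap (some k : V5) (some j)).toEmbedding (HH j u : St V5 R) = HH k u := by
    rw [HH, relabel_h, HH, Equiv.coe_toEmbedding, Equiv.swap_apply_right,
      Equiv.swap_apply_of_ne_of_ne (by simp) (by simp)]
  rw [h2] at h1
  rw [← h1, io, relabel_h]
  congr 2
  simp [d2, hkj]

theorem StabB_HH_mul (L : Loc R) (u v : Rˣ) :
    ∃ g ∈ G1 (Fin 4) L, (HH 0 u * HH 0 v : St V5 R) = HH 0 (u * v) * io g := by
  have h10 : (1 : Fin 4) ≠ 0 := by decide
  have h1 := (StabB_isTor_HH (R := R) 0 u).1 (HH 1 v)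
  have h2 : dg (d2 none (some (0 : Fin 4)) u u⁻¹) (HH 1 v : St V5 R) = HH 1 (u * v) * (HH 1 u)⁻¹ := by
    simp only [HH, h, map_mul, map_inv, dg_w]
    have e1 : d2 none (some (0 : Fin 4)) u u⁻¹ none = u := by simp [d2]
    have e2 : d2 none (some (0 : Fin 4)) u u⁻¹ (some 1) = 1 := by simp [d2]
    rw [e1, e2]
    simp only [inv_one, mul_one]
    group
  rw [h2, StabB_HH_eq h10 v, StabB_HH_eq h10 (u * v), StabB_HH_eq h10 u] at h1
  refine ⟨h 1 0 (u * v)⁻¹ * (h 1 0 u⁻¹)⁻¹ * (h 1 0 v⁻¹)⁻¹, ?_, ?_⟩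
  · exact mul_mem (mul_mem (h_mem_G1 L _ _ _) (inv_mem (h_mem_G1 L _ _ _)))
      (inv_mem (h_mem_G1 L _ _ _))
  · rw [map_mul, map_mul, map_inv, map_inv]
    calc (HH 0 u * HH 0 v : St V5 R)
        = (HH 0 u * (HH 0 v * io (h 1 0 v⁻¹)) * (HH 0 u)⁻¹) * HH 0 u * (io (h 1 0 v⁻¹))⁻¹ := by
          group
      _ = _ := by rw [h1]; group

theorem StabB_conj_io (L : Loc R) {t : St V5 R} {d : V5 → Rˣ} (ht : IsTor t d)
    {g : St (Fin 4) R} (hg : g ∈ G1 (Fin 4) L) :
    ∃ g' ∈ G1 (Fin 4) L, io g * t = t * io g' := by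
  refine ⟨dg (d⁻¹ ∘ Function.Embedding.some) g, ?_, ?_⟩
  · rw [mem_G1, StabB_map_dg]; exact hg
  · have h1 := ht.inv.1 (io g)
    rw [io, dg_relabel] at h1
    rw [io, ← h1]
    group

/-- the subgroup of the elements `HH 0 u * io g` -/
def StabB_S (L : Loc R) : Subgroup (St V5 R) where
  carrier := {y | ∃ u : Rˣ, ∃ g ∈ G1 (Fin 4) L, y = HH 0 u * io g}
  one_mem' := ⟨1, 1, one_mem _, by simp [HH]⟩
  mul_mem' := by
    rintro _ _ ⟨u, g, hg, rfl⟩ ⟨v, g', hg', rfl⟩
    obtain ⟨g₁, hg₁, e₁⟩ := StabB_conj_io L (StabB_isTor_HH 0 v) hg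
    obtain ⟨g₂, hg₂, e₂⟩ := StabB_HH_mul L u v
    refine ⟨u * v, g₂ * g₁ * g', mul_mem (mul_mem hg₂ hg₁) hg', ?_⟩
    calc HH 0 u * io g * (HH 0 v * io g') = HH 0 u * (io g * HH 0 v) * io g' := by group
      _ = (HH 0 u * HH 0 v) * io g₁ * io g' := by rw [e₁]; group
      _ = _ := by rw [e₂, map_mul, map_mul]; group
  inv_mem' := by
    rintro _ ⟨u, g, hg, rfl⟩
    obtain ⟨g₂, hg₂, e₂⟩ := StabB_HH_mul L u u⁻¹
    obtain ⟨g₁, hg₁, e₁⟩ := StabB_conj_io L (StabB_isTor_HH 0 u⁻¹) (inv_mem hg)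
    refine ⟨u⁻¹, g₁ * g₂⁻¹, mul_mem hg₁ (inv_mem hg₂), ?_⟩
    rw [mul_inv_cancel, HH, HH, HH, h_one, one_mul] at e₂
    rw [map_inv] at e₁
    rw [map_mul, map_inv, ← mul_assoc, ← e₁, ← e₂, HH, HH]
    group

theorem StabB_io_mem {g : St (Fin 4) R} (hg : g ∈ G1 (Fin 4) L) : io g ∈ StabB_S L :=
  ⟨1, g, hg, by simp [HH]⟩

theorem StabB_HH_mem (L : Loc R) (k : Fin 4) (u : Rˣ) : HH k u ∈ StabB_S L := by
  by_cases hk : k = 0
  · subst hk
    exact ⟨u, 1, one_mem _, by simp⟩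
  · exact ⟨u, _, h_mem_G1 L _ _ _, StabB_HH_eq hk u⟩

theorem StabB_ds_mem (L : Loc R) {i j : V5} (hij : i ≠ j) {a b : R} (hab : L.ε (a * b) = 0) :
    ds i j a b ∈ StabB_S L := by
  have key : ∀ i j : Fin 4, ds (some i : V5) (some j) a b ∈ StabB_S L := fun i j => by
    have : ds (some i : V5) (some j) a b = io (ds i j a b) := by rw [io, relabel_ds]; rfl
    rw [this]
    exact StabB_io_mem (ds_mem_G1 L i j hab)
  have key2 : ∀ i j k : Fin 4, i ≠ j →
      ds (Equiv.swap (none : V5) (some k) (some i)) (Equiv.swap (none : V5) (some k) (some j)) a b ∈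
        StabB_S L := by
    intro i j k hij
    have hij' : (some i : V5) ≠ some j := fun e => hij (Option.some.inj e)
    have ht := isTor_ds StabB_card hij' (L.isUnit_one_add hab)
      (L.isUnit_one_add ((L.ε_mul_comm b a).trans hab))
    have h1 := w_conj (R := R) StabB_card (show (none : V5) ≠ some k by simp)
      (ds (some i) (some j) a b)
    rw [StabB_conj_w ht, relabel_ds] at h1
    have h2 := mul_mem (key i j) (StabB_HH_mem L k
      ((d2 (some i) (some j) (un (1 + b * a))⁻¹ (un (1 + a * b)) none)⁻¹ *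
        d2 (some i) (some j) (un (1 + b * a))⁻¹ (un (1 + a * b)) (some k)))
    rw [HH, h1] at h2
    exact h2
  rcases i with _ | i <;> rcases j with _ | j
  · exact absurd rfl hij
  · obtain ⟨k, hk⟩ := exists_ne j
    have := key2 k j k hk
    rwa [Equiv.swap_apply_right, Equiv.swap_apply_of_ne_of_ne (by simp)
      (fun e => hk (Option.some.inj e).symm)] at this
  · obtain ⟨k, hk⟩ := exists_ne i
    have := key2 i k k hk.symm
    rwa [Equiv.swap_apply_right, Equiv.swap_apply_of_ne_of_ne (by simp)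
      (fun e => hk (Option.some.inj e).symm)] at this
  · exact key i j

/-- Surjective stability.  Recipe: `z ∈ TG` (`KK_le_TG`).  Let `T'` be the subgroup of the
`t' ∈ G1 (Fin 4)` that are toral, and `𝒮 = {io t' * HH 0 u}`.  It is closed under right
multiplication by the `ds i j a b` (and their inverses):
(1) `HH k u = HH 0 u * io (h 0 k _)`-type identities from conjugation by `w (some 0) (some k) 1`
(`w_conj`, `dg_w`, `γ * w * γ⁻¹ = dg d w` for toral `γ`);
(2) `HH 0 u * HH 1 v * (HH 0 u)⁻¹ = HH 1 (u v) * (HH 1 u)⁻¹`, so `HH 0 u * HH 0 v ∈ HH 0 (u v) * io T'`;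
(3) `ds none j a b = w ds k j a b w⁻¹ = ds k j a b * HH k _` with `w = w none k 1`, same for
`ds i none`; (4) `HH 0 u` normalises `io T'` (`dg_relabel`).
If `pm z = 1` then `u = 1` and `pm t' = 1`. -/
theorem surj_stab {z : St V5 R} (hz : z ∈ KK V5 L) : ∃ z' ∈ KK (Fin 4) L, io z' = z := by
  have h1 : TG V5 L ≤ StabB_S L := by
    rw [TG, Subgroup.closure_le]
    rintro _ ⟨i, j, a, b, hij, hab, rfl⟩
    exact StabB_ds_mem L hij hab
  obtain ⟨u, g, hg, rfl⟩ := h1 (KK_le_TG L StabB_card hz)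
  have h2 := (mem_KK.1 hz).2
  have h3 := congrFun (congrFun h2 none) none
  rw [map_mul, (StabB_isTor_HH 0 u).2, Matrix.diagonal_mul, io,
    pm_relabel_out _ _ _ _ (Or.inl (by simp))] at h3
  have h4 : u = 1 := by
    apply Units.ext
    simpa [d2] using h3
  subst h4
  rw [HH, h_one, one_mul] at h2 ⊢
  exact ⟨g, mem_KK.2 ⟨hg, (pm_relabel_eq_one _ g).1 h2⟩, rfl⟩

end St

end Crest.Agent.R176
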