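import Mathlib

/-!
# R176: Thue systems with zero, simulations

A system consists of length-preserving relations `x y = x' y'` and `x y = 0`.
-/

noncomputable section

namespace Crest.Agent.R176

/-- relations `x y = x' y'` and `x y = 0` -/
structure Sys (X : Type) where
  eqv : X → X → X → X → Prop
  zer : X → X → Prop

namespace Sys

variable {X : Type} (S : Sys X)

inductive Step : List X → List X → Prop
  | mk (u v : List X) {x y x' y' : X} (h : S.eqv x y x' y') :
      Step (u ++ x :: y :: v) (u ++ x' :: y' :: v)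

def Eqv : List X → List X → Prop := Relation.EqvGen S.Step

def Zero (w : List X) : Prop := ∃ u x y v, S.zer x y ∧ S.Eqv w (u ++ x :: y :: v)

variable {S}

theorem Eqv.refl (w : List X) : S.Eqv w w := Relation.EqvGen.refl w

theorem Eqv.symm {w w' : List X} (h : S.Eqv w w') : S.Eqv w' w := Relation.EqvGen.symm _ _ h

theorem Eqv.trans {w w' w'' : List X} (h : S.Eqv w w') (h' : S.Eqv w' w'') : S.Eqv w w'' :=
  Relation.EqvGen.trans _ _ _ h h'

theorem Step.eqv {w w' : List X} (h : S.Step w w') : S.Eqv w w' := Relation.EqvGen.rel _ _ h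

theorem Eqv.of_eqv (u v : List X) {x y x' y' : X} (h : S.eqv x y x' y') :
    S.Eqv (u ++ x :: y :: v) (u ++ x' :: y' :: v) := (Step.mk u v h).eqv

theorem Step.ctx {w w' : List X} (h : S.Step w w') (a c : List X) :
    S.Step (a ++ w ++ c) (a ++ w' ++ c) := by
  obtain ⟨u, v, h⟩ := h
  have := Step.mk (S := S) (a ++ u) (v ++ c) h
  simpa using this

theorem Eqv.ctx {w w' : List X} (h : S.Eqv w w') (a c : List X) :
    S.Eqv (a ++ w ++ c) (a ++ w' ++ c) := by
  induction h with
  | rel _ _ h => exact (h.ctx a c).eqv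
  | refl => exact Eqv.refl _
  | symm _ _ _ ih => exact ih.symm
  | trans _ _ _ _ _ ih ih' => exact ih.trans ih'

theorem Eqv.append {w w' v v' : List X} (h : S.Eqv w w') (h' : S.Eqv v v') :
    S.Eqv (w ++ v) (w' ++ v') := by
  have h1 := h.ctx [] v
  have h2 := h'.ctx w' []
  simp only [List.nil_append, List.append_nil] at h1 h2
  exact h1.trans h2

theorem Step.length {w w' : List X} (h : S.Step w w') : w.length = w'.length := by
  obtain ⟨u, v, h⟩ := h
  simp

theorem Eqv.length {w w' : List X} (h : S.Eqv w w') : w.length = w'.length := by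
  induction h with
  | rel _ _ h => exact h.length
  | refl => rfl
  | symm _ _ _ ih => exact ih.symm
  | trans _ _ _ _ _ ih ih' => exact ih.trans ih'

theorem Zero.of_zer (u v : List X) {x y : X} (h : S.zer x y) : S.Zero (u ++ x :: y :: v) :=
  ⟨u, x, y, v, h, Eqv.refl _⟩

theorem Zero.of_eqv {w w' : List X} (h : S.Eqv w w') (h' : S.Zero w') : S.Zero w := by
  obtain ⟨u, x, y, v, hz, e⟩ := h'
  exact ⟨u, x, y, v, hz, h.trans e⟩

theorem Zero.ctx {w : List X} (h : S.Zero w) (a c : List X) : S.Zero (a ++ w ++ c) := by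
  obtain ⟨u, x, y, v, hz, e⟩ := h
  refine ⟨a ++ u, x, y, v ++ c, hz, ?_⟩
  simpa using e.ctx a c

theorem Zero.append_left {w : List X} (h : S.Zero w) (a : List X) : S.Zero (a ++ w) := by
  simpa using h.ctx a []

theorem Zero.append_right {w : List X} (h : S.Zero w) (c : List X) : S.Zero (w ++ c) := by
  simpa using h.ctx [] c

theorem Zero.two_le {w : List X} (h : S.Zero w) : 2 ≤ w.length := by
  obtain ⟨u, x, y, v, -, e⟩ := h
  rw [e.length]
  simp only [List.length_append, List.length_cons]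
  omega

theorem finite_cls [Finite X] (w0 : List X) : {w | S.Eqv w w0}.Finite :=
  (List.finite_length_eq X w0.length).subset fun _ h => Eqv.length h

variable (S)

/-- the class of a word -/
def cls [Finite X] (w0 : List X) : Finset (List X) := (finite_cls (S := S) w0).toFinset

@[simp] theorem mem_cls [Finite X] {w w0 : List X} : w ∈ S.cls w0 ↔ S.Eqv w w0 := by
  simp [cls]

/-- every automaton with at most `L` states is killed on long classes -/
def Nil [Finite X] (𝕜 : Type) [CommRing 𝕜] (L : ℕ) : Prop :=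
  ∀ (ι : Type) [Fintype ι] [DecidableEq ι], Fintype.card ι ≤ L → ∀ μ : X → Matrix ι ι 𝕜,
    ∃ n0, ∀ w0 : List X, n0 ≤ w0.length → ¬ S.Zero w0 → ∑ w ∈ S.cls w0, (w.map μ).prod = 0

/-- long nonzero words know their position modulo `N` -/
def Pos (N : ℕ) : Prop :=
  ∃ (m : ℕ) (α : List X → ZMod N), ∀ a u c : List X, ¬ S.Zero (a ++ u ++ c) → m ≤ u.length →
    α u = α (a ++ u ++ c) + (a.length : ZMod N)

/-- there are arbitrarily long nonzero words -/
def Inf : Prop := ∀ n, ∃ w : List X, n ≤ w.length ∧ ¬ S.Zero w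

end Sys

/-- `S` simulates `S'` with blocks of length `Q`.  Words are cut at the *free boundaries*
`x y` (`fl x ∧ fr y`) into pieces; an inner piece is zero or a valid zone of one or two blocks. -/
structure Simul {X X' : Type} (S : Sys X) (S' : Sys X') (Q : ℕ) where
  fl : X → Prop
  fr : X → Prop
  valid : List X → Prop
  dec : List X → List X'
  enc : X' → List X
  two_le : 2 ≤ Q
  short : ∀ w : List X, w.IsChain (fun x y => ¬ (fl x ∧ fr y)) → 2 * Q < w.length → S.Zero w
  invalid : ∀ w : List X, w ≠ [] → w.IsChain (fun x y => ¬ (fl x ∧ fr y)) →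
    (∀ x ∈ w.head?, fr x) → (∀ x ∈ w.getLast?, fl x) → ¬ valid w → S.Zero w
  roll : ∀ z, valid z → S.Eqv z ((dec z).flatMap enc)
  v_chain : ∀ z, valid z → z.IsChain (fun x y => ¬ (fl x ∧ fr y))
  v_head : ∀ z, valid z → ∀ x ∈ z.head?, fr x
  v_last : ∀ z, valid z → ∀ x ∈ z.getLast?, fl x
  v_len : ∀ z, valid z → ((dec z).length = 1 ∨ (dec z).length = 2) ∧ z.length = Q * (dec z).length
  enc_valid : ∀ a, valid (enc a)
  dec_enc : ∀ a, dec (enc a) = [a]
  c_eqv : ∀ x y x' y', S'.eqv x y x' y' → S.Eqv (enc x ++ enc y) (enc x' ++ enc y')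
  c_zer : ∀ x y, S'.zer x y → S.Zero (enc x ++ enc y)
  s_in : ∀ z w, valid z → (S.Step z w ∨ S.Step w z) → (valid w ∧ S'.Eqv (dec z) (dec w)) ∨
    ∃ z1 z2, valid z1 ∧ valid z2 ∧ w = z1 ++ z2 ∧ dec z = dec z1 ++ dec z2
  s_bd : ∀ u x y v x' y', valid (u ++ [x]) → valid (y :: v) →
    (S.eqv x y x' y' ∨ S.eqv x' y' x y) → (x' = x ∧ y' = y) ∨
      (valid (u ++ x' :: y' :: v) ∧ dec (u ++ x' :: y' :: v) = dec (u ++ [x]) ++ dec (y :: v))
  z_in : ∀ u x y v, valid (u ++ x :: y :: v) → S.zer x y → S'.Zero (dec (u ++ x :: y :: v))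
  z_bd : ∀ u x y v, valid (u ++ [x]) → valid (y :: v) → ¬ S.zer x y

namespace Simul

variable {X X' : Type} {S : Sys X} {S' : Sys X'} {Q : ℕ} (M : Simul S S' Q)

/-- `Bs` is a list of blocks grouped into valid zones, and `W` is its decoding -/
inductive ZB : List (List X) → List X' → Prop
  | nil : ZB [] []
  | one {B Bs a W} : M.valid B → M.dec B = [a] → ZB Bs W → ZB (B :: Bs) (a :: W)
  | two {B0 B1 Bs a0 a1 W} : B0.length = Q → B1.length = Q → M.valid (B0 ++ B1) →
      M.dec (B0 ++ B1) = [a0, a1] → ZB Bs W → ZB (B0 :: B1 :: Bs) (a0 :: a1 :: W)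

/-- the canonical parse of a word -/
structure Parse (w p : List X) (Bs : List (List X)) (W : List X') (s : List X) : Prop where
  eq : w = p ++ Bs.flatten ++ s
  p_ne : p ≠ []
  s_ne : s ≠ []
  p_chain : p.IsChain (fun x y => ¬ (M.fl x ∧ M.fr y))
  s_chain : s.IsChain (fun x y => ¬ (M.fl x ∧ M.fr y))
  p_last : ∀ x ∈ p.getLast?, M.fl x
  s_head : ∀ x ∈ s.head?, M.fr x
  zb : M.ZB Bs W

end Simul

/-- The structure behind the Capelli argument: the letters of `X'` carry labels in `Y = Fin n'`,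
which the system `S'` permutes freely inside a block, and which are stored in a segment of the
blocks of `S` that has few possible shapes. -/
structure IdStr {X X' X'' : Type} {S : Sys X} {S' : Sys X'} {S'' : Sys X''} {Q Q' : ℕ}
    (M : Simul S S' Q) (M' : Simul S' S'' Q') (n' : ℕ) (Pat : Type) where
  item : X' → Prop
  hd : X' → Prop
  getId : X' → Fin n'
  setId : X' → Fin n' → X'
  o : ℕ
  fb : List X → Prop
  setB : List X → Fin n' → List X
  seg : Pat → Fin n' → List X
  o_pos : 1 ≤ o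
  o_le : o + n' ≤ Q'
  item_set : ∀ a y, item a → item (setId a y)
  get_set : ∀ a y, item a → getId (setId a y) = y
  set_set : ∀ a y y', setId (setId a y) y' = setId a y'
  set_get : ∀ a, setId a (getId a) = a
  /-- the items of the first block of a valid zone of `S'` -/
  v_item : ∀ z, M'.valid z → ∀ j (hj : j < z.length), o ≤ j → j < o + n' → item z[j]
  v_inj : ∀ z, M'.valid z → ∀ i j (hi : i < z.length) (hj : j < z.length), o ≤ i → i < o + n' →
    o ≤ j → j < o + n' → getId z[i] = getId z[j] → i = j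
  v_hd : ∀ z, M'.valid z → ∀ i j (hi : i < z.length) (hj : j < z.length), hd z[i] → hd z[j] → i = j
  /-- relabelling the items injectively -/
  v_perm : ∀ z, M'.valid z → ∀ τ : ℕ → Fin n', Set.InjOn τ (Set.Ico o (o + n')) →
    M'.valid (z.mapIdx fun i a => if o ≤ i ∧ i < o + n' then setId a (τ i) else a) ∧
    M'.dec (z.mapIdx fun i a => if o ≤ i ∧ i < o + n' then setId a (τ i) else a) = M'.dec z
  fb_set : ∀ B y, fb (setB B y) ↔ fb B
  setB_set : ∀ B y y', setB (setB B y) y' = setB B y'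
  len_set : ∀ B y, (setB B y).length = B.length
  one : ∀ B a, M.valid B → M.dec B = [a] → fb B ∧ (item a → setB B (getId a) = B ∧
    (∃ u v ρ, ∀ y, setB B y = u ++ seg ρ y ++ v) ∧
    ∀ y, M.valid (setB B y) ∧ M.dec (setB B y) = [setId a y])
  twoL : ∀ B0 B1 a0 a1, B0.length = Q → B1.length = Q → M.valid (B0 ++ B1) →
    M.dec (B0 ++ B1) = [a0, a1] → item a0 → fb B0 → setB B0 (getId a0) = B0 ∧
    (∃ u v ρ, ∀ y, setB B0 y = u ++ seg ρ y ++ v) ∧
    ∀ y, M.valid (setB B0 y ++ B1) ∧ M.dec (setB B0 y ++ B1) = [setId a0 y, a1]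
  twoR : ∀ B0 B1 a0 a1, B0.length = Q → B1.length = Q → M.valid (B0 ++ B1) →
    M.dec (B0 ++ B1) = [a0, a1] → item a1 → fb B1 → setB B1 (getId a1) = B1 ∧
    (∃ u v ρ, ∀ y, setB B1 y = u ++ seg ρ y ++ v) ∧
    ∀ y, M.valid (B0 ++ setB B1 y) ∧ M.dec (B0 ++ setB B1 y) = [a0, setId a1 y]
  act : ∀ B0 B1 a0 a1, B0.length = Q → B1.length = Q → M.valid (B0 ++ B1) →
    M.dec (B0 ++ B1) = [a0, a1] → (¬ fb B0 ∨ ¬ fb B1) → hd a0

end Crest.Agent.R176
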