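import Crest.Agent.R176.TorusA

/-! # R176: monomial and diagonal elements of the Steinberg group -/

noncomputable section

namespace Crest.Agent.R176

open scoped commutatorElement

set_option linter.unusedSectionVars false

namespace St

variable {V V' R : Type} [Ring R] [Fintype V] [DecidableEq V] [Fintype V'] [DecidableEq V']

/-- the function with values `u` at `i`, `v` at `j` and `1` elsewhere -/
def d2 (i j : V) (u v : Rˣ) : V → Rˣ := fun a => if a = i then u else if a = j then v else 1

def w (i j : V) (u : Rˣ) : St V R := x i j (u : R) * x j i (-((u⁻¹ : Rˣ) : R)) * x i j (u : R)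

def h (i j : V) (u : Rˣ) : St V R := w i j u * (w i j 1)⁻¹

@[simp] theorem h_one (i j : V) : h i j (1 : Rˣ) = 1 := by simp [h]

theorem relabel_w (e : V ↪ V') (i j : V) (u : Rˣ) : relabel e (w i j u) = w (e i) (e j) u := by
  simp [w]

theorem relabel_h (e : V ↪ V') (i j : V) (u : Rˣ) : relabel e (h i j u) = h (e i) (e j) u := by
  simp [h, relabel_w]

/-- the part of a matrix supported on `{i, j}` -/
def Torus_S (i j : V) (a b c d : R) : Matrix V V R :=
  Matrix.single i i a + Matrix.single i j b + Matrix.single j i c + Matrix.single j j d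

/-- a `2 × 2` block in the rows and columns `i, j`, the identity elsewhere -/
def Torus_blk (i j : V) (a b c d : R) : Matrix V V R := 1 + Torus_S i j (a - 1) b c (d - 1)

theorem Torus_S_add (i j : V) (a b c d a' b' c' d' : R) :
    Torus_S i j a b c d + Torus_S i j a' b' c' d' =
      Torus_S i j (a + a') (b + b') (c + c') (d + d') := by
  simp only [Torus_S, Matrix.single_add]
  abel

theorem Torus_S_mul {i j : V} (hij : i ≠ j) (a b c d a' b' c' d' : R) :
    Torus_S i j a b c d * Torus_S i j a' b' c' d' =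
      Torus_S i j (a * a' + b * c') (a * b' + b * d') (c * a' + d * c') (c * b' + d * d') := by
  simp only [Torus_S, Matrix.single_add, add_mul, mul_add, Matrix.single_mul_single_same,
    Matrix.single_mul_single_of_ne _ _ _ _ hij, Matrix.single_mul_single_of_ne _ _ _ _ hij.symm]
  abel

theorem Torus_blk_mul {i j : V} (hij : i ≠ j) (a b c d a' b' c' d' : R) :
    Torus_blk i j a b c d * Torus_blk i j a' b' c' d' =
      Torus_blk i j (a * a' + b * c') (a * b' + b * d') (c * a' + d * c') (c * b' + d * d') := by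
  simp only [Torus_blk]
  rw [add_mul, mul_add, mul_add, one_mul, one_mul, mul_one, Torus_S_mul hij, add_assoc,
    Torus_S_add, Torus_S_add]
  congr 2 <;> noncomm_ring

theorem Torus_pm_ij {i j : V} (hij : i ≠ j) (r : R) : pm (x i j r) = Torus_blk i j 1 r 0 1 := by
  simp [pm_x_of_ne hij, Torus_blk, Torus_S]

theorem Torus_pm_ji {i j : V} (hij : i ≠ j) (r : R) : pm (x j i r) = Torus_blk i j 1 0 r 1 := by
  simp [pm_x_of_ne hij.symm, Torus_blk, Torus_S]

theorem Torus_blk_apply {i j : V} (hij : i ≠ j) (a b c d : R) (p q : V) :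
    Torus_blk i j a b c d p q =
      if p = i then (if q = i then a else if q = j then b else 0)
      else if p = j then (if q = i then c else if q = j then d else 0)
      else if p = q then 1 else 0 := by
  simp only [Torus_blk, Torus_S, Matrix.add_apply, Matrix.single_apply, Matrix.one_apply]
  by_cases h1 : p = i
  · subst h1
    by_cases h2 : q = p
    · subst h2; simp [hij.symm]
    · by_cases h3 : q = j
      · subst h3; simp [hij, hij.symm]
      · simp [hij.symm, h2, h3, Ne.symm h2, Ne.symm h3]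
  · by_cases h1' : p = j
    · subst h1'
      by_cases h2 : q = i
      · subst h2; simp [hij, hij.symm]
      · by_cases h3 : q = p
        · subst h3; simp [hij, hij.symm]
        · simp [hij, hij.symm, h2, h3, Ne.symm h2, Ne.symm h3]
    · simp [h1, h1', Ne.symm h1, Ne.symm h1']

theorem Torus_blk_diag {i j : V} (hij : i ≠ j) (u v : Rˣ) :
    Torus_blk i j (u : R) 0 0 v = Matrix.diagonal (fun c => (d2 i j u v c : R)) := by
  ext p q
  rw [Torus_blk_apply hij, Matrix.diagonal_apply, d2]
  by_cases h1 : p = i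
  · subst h1
    by_cases h2 : q = p
    · subst h2; simp
    · simp [h2, Ne.symm h2]
  · by_cases h1' : p = j
    · subst h1'
      by_cases h2 : q = p
      · subst h2; simp [h1]
      · simp [h1, h2, Ne.symm h2]
    · simp [h1, h1']

theorem Torus_pm_w {i j : V} (hij : i ≠ j) (u : Rˣ) :
    pm (w i j u) = Torus_blk i j 0 (u : R) (-((u⁻¹ : Rˣ) : R)) 0 := by
  rw [w, map_mul, map_mul, Torus_pm_ij hij, Torus_pm_ji hij, Torus_blk_mul hij, Torus_blk_mul hij]
  congr 1 <;> simp

theorem Torus_w_inv (i j : V) (u : Rˣ) : (w i j u)⁻¹ = w i j (-u) := by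
  simp [w, x_neg, mul_assoc]

theorem Torus_exists_third (hV : 3 ≤ Fintype.card V) (i j : V) : ∃ k, k ∉ ({i, j} : Set V) := by
  have hlt : ({i, j} : Finset V).card < (Finset.univ : Finset V).card :=
    lt_of_le_of_lt Finset.card_le_two (by rw [Finset.card_univ]; omega)
  obtain ⟨k, -, hk⟩ := Finset.exists_mem_notMem_of_card_lt_card hlt
  exact ⟨k, by simpa using hk⟩

theorem dg_w (d : V → Rˣ) (i j : V) (u : Rˣ) : dg d (w i j u) = w i j (d i * u * (d j)⁻¹) := by
  simp only [w, map_mul, dg_x, Units.val_mul, mul_inv_rev, inv_inv, mul_neg, neg_mul, mul_assoc]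

theorem w_mem_Ug (i j : V) (u : Rˣ) :
    w i j u ∈ Ug R (fun a b => a ∈ ({i, j} : Set V) ∧ b ∈ ({i, j} : Set V)) := by
  refine Subgroup.mul_mem _ (Subgroup.mul_mem _ (x_mem_Ug ?_ _) (x_mem_Ug ?_ _)) (x_mem_Ug ?_ _) <;>
    simp

theorem isTor_h (hV : 3 ≤ Fintype.card V) {i j : V} (hij : i ≠ j) (u : Rˣ) :
    IsTor (h i j u) (d2 i j u u⁻¹) := by
  obtain ⟨k, hk⟩ := Torus_exists_third hV i j
  refine isTor_of_supp {i, j} k hk
    (Subgroup.mul_mem _ (w_mem_Ug i j u) (Subgroup.inv_mem _ (w_mem_Ug i j 1))) _ ?_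
  rw [Torus_w_inv, map_mul, Torus_pm_w hij, Torus_pm_w hij, Torus_blk_mul hij,
    ← Torus_blk_diag hij]
  congr 1 <;> simp

/-- the Dennis–Stein element:
`x j i a * x i j b = x i j (b v⁻¹) * ds i j a b * x j i (v⁻¹ a)`, `v = 1 + a b` -/
def ds (i j : V) (a b : R) : St V R :=
  (x i j (b * ((un (1 + a * b))⁻¹ : Rˣ)))⁻¹ * x j i a * x i j b *
    (x j i (((un (1 + a * b))⁻¹ : Rˣ) * a))⁻¹

theorem relabel_ds (e : V ↪ V') (i j : V) (a b : R) :
    relabel e (ds i j a b) = ds (e i) (e j) a b := by
  simp [ds]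

theorem ds_mem_Ug (i j : V) (a b : R) :
    ds i j a b ∈ Ug R (fun c e => c ∈ ({i, j} : Set V) ∧ e ∈ ({i, j} : Set V)) := by
  refine Subgroup.mul_mem _ (Subgroup.mul_mem _ (Subgroup.mul_mem _
    (Subgroup.inv_mem _ (x_mem_Ug ?_ _)) (x_mem_Ug ?_ _)) (x_mem_Ug ?_ _))
    (Subgroup.inv_mem _ (x_mem_Ug ?_ _)) <;> simp

theorem pm_ds {i j : V} (hij : i ≠ j) {a b : R} (h1 : IsUnit (1 + a * b))
    (h2 : IsUnit (1 + b * a)) :
    pm (ds i j a b) =
      Matrix.diagonal (fun c => (d2 i j (un (1 + b * a))⁻¹ (un (1 + a * b)) c : R)) := by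
  obtain ⟨v, hv⟩ : ∃ v, v = un (1 + a * b) := ⟨_, rfl⟩
  obtain ⟨v', hv'⟩ : ∃ v', v' = un (1 + b * a) := ⟨_, rfl⟩
  have e1 : (v : R) = 1 + a * b := by rw [hv, un_val h1]
  have e2 : (v' : R) = 1 + b * a := by rw [hv', un_val h2]
  have e3 : ((v⁻¹ : Rˣ) : R) * (1 + a * b) = 1 := by rw [← e1, Units.inv_mul]
  have e4 : (1 + a * b) * ((v⁻¹ : Rˣ) : R) = 1 := by rw [← e1, Units.mul_inv]
  have e5 : ((v'⁻¹ : Rˣ) : R) = 1 - b * ((v⁻¹ : Rˣ) : R) * a := by
    refine Units.inv_eq_of_mul_eq_one_left ?_
    rw [e2]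
    calc (1 - b * ((v⁻¹ : Rˣ) : R) * a) * (1 + b * a)
        = 1 + b * a - b * (((v⁻¹ : Rˣ) : R) * (1 + a * b)) * a := by noncomm_ring
      _ = 1 := by rw [e3]; noncomm_ring
  have e6 : (1 - b * ((v⁻¹ : Rˣ) : R) * a) * b - b * ((v⁻¹ : Rˣ) : R) = 0 := by
    calc _ = b - b * (((v⁻¹ : Rˣ) : R) * (1 + a * b)) := by noncomm_ring
      _ = 0 := by rw [e3]; noncomm_ring
  have e7 : a - (1 + a * b) * (((v⁻¹ : Rˣ) : R) * a) = 0 := by
    rw [← mul_assoc, e4]; noncomm_ring
  rw [ds, ← hv, ← hv', ← x_neg, ← x_neg, map_mul, map_mul, map_mul, Torus_pm_ij hij,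
    Torus_pm_ji hij, Torus_pm_ij hij, Torus_pm_ji hij, Torus_blk_mul hij, Torus_blk_mul hij,
    Torus_blk_mul hij, ← Torus_blk_diag hij, e1, e5]
  generalize ((v⁻¹ : Rˣ) : R) = t at *
  congr 1
  · calc _ = (1 - b * t * a) - ((1 - b * t * a) * b - b * t) * (t * a) := by noncomm_ring
      _ = _ := by rw [e6]; noncomm_ring
  · calc _ = (1 - b * t * a) * b - b * t := by noncomm_ring
      _ = _ := e6
  · calc _ = a - (1 + a * b) * (t * a) := by noncomm_ring
      _ = _ := e7
  · noncomm_ring

theorem isTor_ds (hV : 3 ≤ Fintype.card V) {i j : V} (hij : i ≠ j) {a b : R}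
    (h1 : IsUnit (1 + a * b)) (h2 : IsUnit (1 + b * a)) :
    IsTor (ds i j a b) (d2 i j (un (1 + b * a))⁻¹ (un (1 + a * b))) := by
  obtain ⟨k, hk⟩ := Torus_exists_third hV i j
  exact isTor_of_supp {i, j} k hk (ds_mem_Ug i j a b) _ (pm_ds hij h1 h2)

variable [Algebra (ZMod 2) R]

/-- in characteristic two `w i j 1` acts as the transposition -/
theorem w_conj (hV : 3 ≤ Fintype.card V) {i j : V} (hij : i ≠ j) (y : St V R) :
    w i j 1 * y * (w i j 1)⁻¹ = relabel (Equiv.swap i j).toEmbedding y := by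
  obtain ⟨k, hk⟩ := Torus_exists_third hV i j
  have hpm : ∀ a b, pm (w i j (1 : Rˣ)) a b =
      if Equiv.swap i j b = a then (((1 : V → Rˣ) a : Rˣ) : R) else 0 := by
    intro a b
    rw [Torus_pm_w hij, Torus_blk_apply hij, neg_eq_self']
    by_cases h1 : b = i
    · subst h1
      by_cases h2 : a = j
      · subst h2; simp [hij.symm]
      · by_cases h3 : a = b <;> simp [h2, Ne.symm h2, h3, hij, hij.symm]
    · by_cases h1' : b = j
      · subst h1'
        by_cases h2 : a = i
        · subst h2; simp [h1]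
        · by_cases h3 : a = b <;> simp [h1, h2, Ne.symm h2, h3, hij]
      · rw [Equiv.swap_apply_of_ne_of_ne h1 h1']
        by_cases h2 : a = b
        · subst h2; simp [h1, h1']
        · simp [h1, h1', h2, Ne.symm h2]
  have : (MulAut.conj (w i j (1 : Rˣ))).toMonoidHom =
      (relabel (Equiv.swap i j).toEmbedding : St V R →* St V R) :=
    hom_ext fun a b r _ => by
      have := conj_monomial {i, j} k hk (w_mem_Ug i j 1) (Equiv.swap i j) 1 hpm a b r
      simpa using this
  exact DFunLike.congr_fun this y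

theorem h_mem_G1 (L : Loc R) (i j : V) (u : Rˣ) : h i j u ∈ G1 V L := by
  simp only [mem_G1, h, w, map_mul, map_inv, map_x, map_neg, L.ε_unit, mul_inv_cancel]

theorem ds_mem_G1 (L : Loc R) (i j : V) {a b : R} (hab : L.ε (a * b) = 0) :
    ds i j a b ∈ G1 V L := by
  rw [map_mul] at hab
  simp only [mem_G1, ds, map_mul, map_inv, map_x, L.ε_unit, mul_one, one_mul]
  rcases mul_eq_zero.1 hab with h0 | h0 <;> simp [h0]

/-- a relabelling by a permutation is conjugation by an element supported on its support;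
in particular it fixes whatever commutes with the elements supported there.
(`Equiv.Perm.swap_induction_on` on the subtype `S`, or induction on the support.) -/
theorem relabel_perm_eq (hV : 3 ≤ Fintype.card V) (S : Set V) (σ : Equiv.Perm V)
    (hσ : ∀ a, a ∉ S → σ a = a) {z : St V R}
    (hz : ∀ g ∈ Ug R (fun a b => a ∈ S ∧ b ∈ S), Commute g z) :
    relabel σ.toEmbedding z = z := by
  induction hn : σ.support.card using Nat.strong_induction_on generalizing σ with
  | _ n ih =>
    by_cases h1 : ∀ a, σ a = a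
    · have : σ.toEmbedding = Function.Embedding.refl V := Function.Embedding.ext h1
      rw [this, relabel_refl]
    · push Not at h1
      obtain ⟨a, ha⟩ := h1
      have haS : a ∈ S := by
        by_contra hc
        exact ha (hσ a hc)
      have hbS : σ a ∈ S := by
        by_contra hc
        exact ha (σ.injective (hσ _ hc))
      have h2 := ih _ (hn ▸ Equiv.Perm.card_support_swap_mul ha) (Equiv.swap a (σ a) * σ)
        (fun c hc => by
          rw [Equiv.Perm.mul_apply, hσ c hc, Equiv.swap_apply_of_ne_of_ne]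
          · rintro rfl; exact hc haS
          · intro e; exact hc (e ▸ hbS)) rfl
      have e : σ.toEmbedding =
          (Equiv.swap a (σ a) * σ).toEmbedding.trans (Equiv.swap a (σ a)).toEmbedding :=
        Function.Embedding.ext fun c => by simp
      rw [e, ← relabel_relabel, h2, ← w_conj hV (Ne.symm ha),
        (hz _ (Ug_mono ?_ (w_mem_Ug a (σ a) 1))).eq, mul_inv_cancel_right]
      rintro c d ⟨hc, hd⟩
      constructor
      · rcases hc with rfl | rfl <;> assumption
      · rcases hd with rfl | rfl <;> assumption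

end St

end Crest.Agent.R176
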