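import Crest.Agent.R176.Unip

/-! # R176: monomial and diagonal elements of the Steinberg group -/

noncomputable section

namespace Crest.Agent.R176

open scoped commutatorElement

set_option linter.unusedSectionVars false

namespace St

variable {V V' R : Type} [Ring R] [Fintype V] [DecidableEq V] [Fintype V'] [DecidableEq V']

/-- `t` lifts the diagonal matrix `d` and acts by conjugation as `dg d` -/
def IsTor (t : St V R) (d : V → Rˣ) : Prop :=
  (∀ y, t * y * t⁻¹ = dg d y) ∧ pm t = Matrix.diagonal (fun a => (d a : R))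

theorem IsTor.one : IsTor (1 : St V R) 1 := by
  refine ⟨fun y => by simp, ?_⟩
  rw [map_one]
  simp

theorem IsTor.mul {t t' : St V R} {d d' : V → Rˣ} (h : IsTor t d) (h' : IsTor t' d') :
    IsTor (t * t') (d * d') := by
  refine ⟨fun y => ?_, ?_⟩
  · rw [← dg_dg, ← h'.1, ← h.1]
    group
  · rw [map_mul, h.2, h'.2, Matrix.diagonal_mul_diagonal]
    simp

theorem IsTor.inv {t : St V R} {d : V → Rˣ} (h : IsTor t d) : IsTor t⁻¹ d⁻¹ := by
  refine ⟨fun y => ?_, ?_⟩
  · have h1 := h.1 (St.dg d⁻¹ y)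
    rw [dg_dg, mul_inv_cancel, dg_one] at h1
    calc t⁻¹ * y * t⁻¹⁻¹ = t⁻¹ * (t * St.dg d⁻¹ y * t⁻¹) * t⁻¹⁻¹ := by rw [h1]
      _ = St.dg d⁻¹ y := by group
  · have h1 : pm t⁻¹ * pm t = 1 := by rw [← map_mul, inv_mul_cancel, map_one]
    have h2 : pm t * Matrix.diagonal (fun a => ((d⁻¹ a : Rˣ) : R)) = 1 := by
      rw [h.2, Matrix.diagonal_mul_diagonal]
      simp
    calc pm t⁻¹ = pm t⁻¹ * (pm t * Matrix.diagonal (fun a => ((d⁻¹ a : Rˣ) : R))) := by
          rw [h2, mul_one]
      _ = _ := by rw [← mul_assoc, h1, one_mul]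

theorem IsTor.dg {t : St V R} {d : V → Rˣ} (h : IsTor t d) (c : V → Rˣ) :
    IsTor (dg c t) (c * d * c⁻¹) := by
  refine ⟨fun y => ?_, ?_⟩
  · have h1 : y = St.dg c (St.dg c⁻¹ y) := by rw [dg_dg, mul_inv_cancel, dg_one]
    calc St.dg c t * y * (St.dg c t)⁻¹
        = St.dg c t * St.dg c (St.dg c⁻¹ y) * (St.dg c t)⁻¹ := by rw [← h1]
      _ = St.dg c (t * St.dg c⁻¹ y * t⁻¹) := by rw [map_mul, map_mul, map_inv]
      _ = St.dg (c * d * c⁻¹) y := by rw [h.1, dg_dg, dg_dg]
  · ext a b
    rw [pm_dg, h.2]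
    by_cases hab : a = b
    · subst hab
      simp
    · simp [Matrix.diagonal_apply_ne _ hab]

theorem IsTor.unique {t : St V R} {d d' : V → Rˣ} (h : IsTor t d) (h' : IsTor t d') : d = d' := by
  funext a
  refine Units.ext ?_
  have := congrFun (congrFun (h.2.symm.trans h'.2) a) a
  simpa using this

/-- rows and columns outside `S` of an element supported in `S` are those of `1` -/
theorem TorusA_shape (S : Set V) {g : St V R} (hg : g ∈ Ug R (fun a b => a ∈ S ∧ b ∈ S))
    (a b : V) (h : a ∉ S ∨ b ∉ S) : pm g a b = if a = b then 1 else 0 := by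
  induction hg using Subgroup.closure_induction generalizing a b with
  | mem y hy =>
    obtain ⟨i, j, r, ⟨hi, hj⟩, rfl⟩ := hy
    by_cases hij : i = j
    · subst hij
      rw [x_self, map_one, Matrix.one_apply]
    · rw [pm_x_of_ne hij, Matrix.add_apply, Matrix.one_apply, Matrix.single_apply, if_neg (c := i = a ∧ j = b),
        add_zero]
      rintro ⟨rfl, rfl⟩
      exact h.elim (fun h => h hi) (fun h => h hj)
  | one => rw [map_one, Matrix.one_apply]
  | mul y z _ _ hy hz =>
    rw [map_mul, Matrix.mul_apply]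
    rcases h with h | h
    · rw [Finset.sum_eq_single a]
      · rw [hy a a (Or.inl h), if_pos rfl, one_mul, hz a b (Or.inl h)]
      · intro c _ hc
        rw [hy a c (Or.inl h), if_neg (Ne.symm hc), zero_mul]
      · simp
    · rw [Finset.sum_eq_single b]
      · rw [hz b b (Or.inr h), if_pos rfl, mul_one, hy a b (Or.inr h)]
      · intro c _ hc
        rw [hz c b (Or.inr h), if_neg hc, mul_zero]
      · simp
  | inv y _ hy =>
    rcases h with h | h
    · have h1 : (pm y * pm y⁻¹) a b = if a = b then 1 else 0 := by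
        rw [← map_mul, mul_inv_cancel, map_one, Matrix.one_apply]
      rw [Matrix.mul_apply, Finset.sum_eq_single a] at h1
      · rwa [hy a a (Or.inl h), if_pos rfl, one_mul] at h1
      · intro c _ hc
        rw [hy a c (Or.inl h), if_neg (Ne.symm hc), zero_mul]
      · simp
    · have h1 : (pm y⁻¹ * pm y) a b = if a = b then 1 else 0 := by
        rw [← map_mul, inv_mul_cancel, map_one, Matrix.one_apply]
      rw [Matrix.mul_apply, Finset.sum_eq_single b] at h1
      · rwa [hy b b (Or.inr h), if_pos rfl, mul_one] at h1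
      · intro c _ hc
        rw [hy c b (Or.inr h), if_neg hc, mul_zero]
      · simp

/-- a subgroup normalised by the generators of `Ug Φ` is normalised by `Ug Φ` -/
theorem TorusA_norm {Φ : V → V → Prop} (H : Subgroup (St V R))
    (h : ∀ a b r, Φ a b → ∀ y ∈ H, x a b r * y * (x a b r)⁻¹ ∈ H) {g : St V R}
    (hg : g ∈ Ug R Φ) : ∀ y ∈ H, g * y * g⁻¹ ∈ H := by
  induction hg using Subgroup.closure_induction'' with
  | mem y hy =>
    obtain ⟨i, j, r, hij, rfl⟩ := hy
    exact h i j r hij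
  | inv_mem y hy =>
    obtain ⟨i, j, r, hij, rfl⟩ := hy
    rw [← x_neg]
    exact h i j (-r) hij
  | one => intro y hy; simpa using hy
  | mul u v _ _ hu hv =>
    intro y hy
    have := hu _ (hv y hy)
    convert this using 1
    group

/-- the matrix identity behind `conj_monomial` -/
theorem TorusA_pm_conj {g : St V R} (σ : Equiv.Perm V) (d : V → Rˣ)
    (hpm : ∀ a b, pm g a b = if σ b = a then (d a : R) else 0) {a b : V} (hab : a ≠ b) (r : R) :
    pm (g * x a b r * g⁻¹) = pm (x (σ a) (σ b) (d (σ a) * r * ((d (σ b))⁻¹ : Rˣ))) := by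
  have key : pm g * Matrix.single a b r =
      Matrix.single (σ a) (σ b) ((d (σ a) : R) * r * ((d (σ b))⁻¹ : Rˣ)) * pm g := by
    ext i j
    by_cases hj : j = b
    · subst hj
      rw [Matrix.mul_single_apply_same, hpm]
      by_cases hi : σ a = i
      · subst hi
        rw [Matrix.single_mul_apply_same, hpm]
        simp
      · rw [if_neg hi, zero_mul, Matrix.single_mul_apply_of_ne _ _ _ _ _ (Ne.symm hi)]
    · rw [Matrix.mul_single_apply_of_ne _ _ _ _ _ hj]
      by_cases hi : σ a = i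
      · subst hi
        rw [Matrix.single_mul_apply_same, hpm, if_neg (σ.injective.ne hj), mul_zero]
      · rw [Matrix.single_mul_apply_of_ne _ _ _ _ _ (Ne.symm hi)]
  have h1 : pm g * pm g⁻¹ = 1 := by rw [← map_mul, mul_inv_cancel, map_one]
  rw [map_mul, map_mul, pm_x_of_ne hab, pm_x_of_ne (σ.injective.ne hab), mul_add, mul_one, key,
    add_mul, h1, mul_assoc, h1, mul_one]

/-- **Monomial elements act monomially.**  `g` is supported in `S`, `k ∉ S`.
Recipe: `σ` fixes and `d` is `1` outside `S` (shape of `pm g`: rows and columns outside `S` are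
those of `1`, closure induction).  For `a ∈ S`, `b ∉ S` the subgroup `Ug (c ∈ S ∧ e = b)` is
normalised by `g` (`Ug_conj`) and injects into matrices (`Ug_ext`, rank `1` on `S`, `0` outside);
same for rows; `a, b ∉ S`: `Ug_commute`; `a, b ∈ S`: `x a b r = ⁅x a k r, x k b 1⁆`. -/
theorem conj_monomial (S : Set V) (k : V) (hk : k ∉ S) {g : St V R}
    (hg : g ∈ Ug R (fun a b => a ∈ S ∧ b ∈ S)) (σ : Equiv.Perm V) (d : V → Rˣ)
    (hpm : ∀ a b, pm g a b = if σ b = a then (d a : R) else 0) (a b : V) (r : R) :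
    g * x a b r * g⁻¹ = x (σ a) (σ b) (d (σ a) * r * ((d (σ b))⁻¹ : Rˣ)) := by
  classical
  rcases subsingleton_or_nontrivial R with hR | hR
  · rw [Subsingleton.elim r 0, Subsingleton.elim (_ * _ * _ : R) 0]
    simp
  have hout : ∀ c, c ∉ S → σ c = c ∧ d c = 1 := by
    intro c hc
    have h1 := TorusA_shape S hg c c (Or.inl hc)
    rw [hpm, if_pos rfl] at h1
    by_cases h2 : σ c = c
    · rw [if_pos h2] at h1
      exact ⟨h2, Units.ext h1⟩
    · rw [if_neg h2] at h1
      exact absurd h1 zero_ne_one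
  have hin : ∀ c, c ∈ S → σ c ∈ S := by
    intro c hc
    by_contra h
    have h1 := σ.injective (hout _ h).1
    exact h (by rw [h1]; exact hc)
  have hcol : ∀ (a b : V) (r : R), a ∈ S → b ∉ S →
      g * x a b r * g⁻¹ = x (σ a) (σ b) (d (σ a) * r * ((d (σ b))⁻¹ : Rˣ)) := by
    intro a b r ha hb
    have hab : a ≠ b := fun e => hb (e ▸ ha)
    have hle : Ug R (fun c e => c ∈ S ∧ e = b) ≤
        Ug R (fun c e => (if e ∈ S then 1 else 0 : ℕ) < if c ∈ S then 1 else 0) :=
      Ug_mono fun c e ⟨hc, he⟩ => by simp [hc, he, hb]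
    refine Ug_ext (fun c => (if c ∈ S then 1 else 0 : ℕ)) (hle ?_) (hle ?_)
      (TorusA_pm_conj σ d hpm hab r)
    · refine TorusA_norm _ (fun i j s ⟨hi, hj⟩ y hy => ?_) hg _ (x_mem_Ug ⟨ha, rfl⟩ r)
      refine Ug_conj i j s ?_ ?_ ?_ hy
      · rintro ⟨_, rfl⟩
        exact hb hi
      · rintro e ⟨_, he⟩ _
        exact ⟨hi, he⟩
      · rintro c ⟨_, rfl⟩ _
        exact absurd hi hb
    · exact x_mem_Ug ⟨hin a ha, (hout b hb).1⟩ _
  have hrow : ∀ (a b : V) (r : R), a ∉ S → b ∈ S →
      g * x a b r * g⁻¹ = x (σ a) (σ b) (d (σ a) * r * ((d (σ b))⁻¹ : Rˣ)) := by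
    intro a b r ha hb
    have hab : a ≠ b := fun e => ha (e ▸ hb)
    have hle : Ug R (fun c e => c = a ∧ e ∈ S) ≤
        Ug R (fun c e => (if e ∈ S then 0 else 1 : ℕ) < if c ∈ S then 0 else 1) :=
      Ug_mono fun c e ⟨hc, he⟩ => by simp [hc, he, ha]
    refine Ug_ext (fun c => (if c ∈ S then 0 else 1 : ℕ)) (hle ?_) (hle ?_)
      (TorusA_pm_conj σ d hpm hab r)
    · refine TorusA_norm _ (fun i j s ⟨hi, hj⟩ y hy => ?_) hg _ (x_mem_Ug ⟨rfl, hb⟩ r)
      refine Ug_conj i j s ?_ ?_ ?_ hy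
      · rintro ⟨rfl, _⟩
        exact ha hj
      · rintro e ⟨rfl, _⟩ _
        exact absurd hj ha
      · rintro c ⟨hc, _⟩ _
        exact ⟨hc, hj⟩
    · exact x_mem_Ug ⟨(hout a ha).1, hin b hb⟩ _
  by_cases hab : a = b
  · subst hab
    simp
  by_cases ha : a ∈ S
  · by_cases hb : b ∈ S
    · have hak : a ≠ k := fun e => hk (e ▸ ha)
      have hkb : k ≠ b := fun e => hk (e ▸ hb)
      have h1 : x a b r = ⁅x a k r, x k b (1 : R)⁆ := by rw [x_comm_mul hak hkb hab, mul_one]
      have h2 : g * ⁅x a k r, x k b (1 : R)⁆ * g⁻¹ =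
          ⁅g * x a k r * g⁻¹, g * x k b (1 : R) * g⁻¹⁆ := by
        simp only [commutatorElement_def]
        group
      rw [h1, h2, hcol a k r ha hk, hrow k b 1 hk hb,
        x_comm_mul (σ.injective.ne hak) (σ.injective.ne hkb) (σ.injective.ne hab)]
      simp [mul_assoc]
    · exact hcol a b r ha hb
  · by_cases hb : b ∈ S
    · exact hrow a b r ha hb
    · have hc : Commute g (x a b r) := by
        refine Ug_commute (Ψ' := fun c e => c = a ∧ e = b) ?_ hg (x_mem_Ug ⟨rfl, rfl⟩ r)
        rintro i j _ _ ⟨hi, hj⟩ ⟨rfl, rfl⟩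
        exact ⟨fun e => ha (e ▸ hj), fun e => hb (e ▸ hi)⟩
      rw [hc.eq, (hout a ha).1, (hout b hb).1, (hout a ha).2, (hout b hb).2]
      simp

theorem isTor_of_supp (S : Set V) (k : V) (hk : k ∉ S) {g : St V R}
    (hg : g ∈ Ug R (fun a b => a ∈ S ∧ b ∈ S)) (d : V → Rˣ)
    (hpm : pm g = Matrix.diagonal (fun a => (d a : R))) : IsTor g d := by
  refine ⟨fun y => ?_, hpm⟩
  have key : ((MulAut.conj g).toMonoidHom : St V R →* St V R) = St.dg d := by
    refine hom_ext fun i j r _ => ?_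
    have := conj_monomial S k hk hg 1 d (fun a b => by
      rw [hpm, Matrix.diagonal_apply]
      simp [eq_comm]) i j r
    simpa using this
  simpa using DFunLike.congr_fun key y

end St

end Crest.Agent.R176
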