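import Crest.Agent.R176.TriB

/-! # R176: Gauss triples `(l, d, u)` with respect to an order, and the change of order -/

noncomputable section

namespace Crest.Agent.R176

open scoped commutatorElement

set_option linter.unusedSectionVars false

namespace St

variable {V V' R : Type} [Ring R] [Algebra (ZMod 2) R] [Fintype V] [DecidableEq V]
  [Fintype V'] [DecidableEq V'] {n n' : ℕ}

namespace Tri

variable {L : Loc R} {Ψ : V → V → Prop} {T T' : Tri V R n}

theorem Tri_pm_x_mul {a b : V} (hab : a ≠ b) (r : R) (y : St V R) (c e : V) :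
    pm (x a b r * y) c e = pm y c e + if c = a then r * pm y b e else 0 := by
  rw [map_mul, pm_x_of_ne hab, add_mul, one_mul, Matrix.add_apply]
  split_ifs with h
  · subst h; rw [Matrix.single_mul_apply_same]
  · rw [Matrix.single_mul_apply_of_ne _ _ _ _ _ h]

theorem Tri_pm_mul_x {a b : V} (hab : a ≠ b) (r : R) (y : St V R) (c e : V) :
    pm (y * x a b r) c e = pm y c e + if e = b then pm y c a * r else 0 := by
  rw [map_mul, pm_x_of_ne hab, mul_add, mul_one, Matrix.add_apply]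
  split_ifs with h
  · subst h; rw [Matrix.mul_single_apply_same]
  · rw [Matrix.mul_single_apply_of_ne _ _ _ _ _ h]

theorem Tri_shape_u {T : Tri V R n} {y : St V R} (hy : y ∈ Ug R (fun a b => T.rk a < T.rk b))
    (a b : V) (h : ¬ T.rk a < T.rk b) : pm y a b = if a = b then 1 else 0 :=
  Ug_shape (fun v => OrderDual.toDual (T.rk v)) hy a b h

theorem OK.lmul (hΨ : SO Ψ) (h : T.OK L Ψ) {a b : V} (hab : T.rk b < T.rk a) {r : R}
    (hr : Ψ a b ∨ L.ε r = 0) : (T.lmul a b r).OK L Ψ := by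
  have hne : a ≠ b := fun e => by simp [e] at hab
  refine ⟨mul_mem (x_mem_Ug (Ψ := fun a b => T.rk b < T.rk a) hab r) h.hl, h.hu, fun c e hce hn => ?_, h.pu⟩
  change L.ε (pm (x a b r * T.l) c e) = 0
  rw [Tri_pm_x_mul hne, map_add, h.pl c e hce hn, zero_add]
  split_ifs with hc
  · subst hc
    rw [map_mul]
    rcases hr with hr | hr
    · rw [h.pl b e (fun e' => hn (e' ▸ hr)) fun h' => hn (hΨ.2 _ _ _ hr h'), mul_zero]
    · rw [hr, zero_mul]
  · exact map_zero _

theorem OK.rmul (hΨ : SO Ψ) (h : T.OK L Ψ) {a b : V} (hab : T.rk a < T.rk b) {r : R}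
    (hr : Ψ a b ∨ L.ε r = 0) : (T.rmul a b r).OK L Ψ := by
  have hne : a ≠ b := fun e => by simp [e] at hab
  refine ⟨h.hl, mul_mem h.hu (x_mem_Ug (Ψ := fun a b => T.rk a < T.rk b) hab r), h.pl, fun c e hce hn => ?_⟩
  change L.ε (pm (T.u * x a b r) c e) = 0
  rw [Tri_pm_mul_x hne, map_add, h.pu c e hce hn, zero_add]
  split_ifs with hc
  · subst hc
    rw [map_mul]
    rcases hr with hr | hr
    · rw [h.pu c a (fun e' => hn (e' ▸ hr)) fun h' => hn (hΨ.2 _ _ _ h' hr), zero_mul]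
    · rw [hr, mul_zero]
  · exact map_zero _

/-- left multiplication by a root which is lower before and after the exchange -/
theorem OK.lmul_swap (h : T.OK L Ψ) {a b : V} (r : R) (c : Fin n) (hab : T.rk b < T.rk a)
    (hab' : (T.swap c).rk b < (T.swap c).rk a) :
    (T.lmul a b r).loc2 c = T.loc2 c ∧ (T.lmul a b r).swap c = (T.swap c).lmul a b r := by
  have hne : a ≠ b := fun e => by simp [e] at hab
  have hal : (T.lmul a b r).al c = T.al c := by
    change pm (x a b r * T.l) (T.vj c) (T.vi c) = pm T.l (T.vj c) (T.vi c)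
    rw [Tri_pm_x_mul hne]
    split_ifs with hc
    · subst hc
      have hb : b ≠ T.vi c := by
        rintro rfl
        simp [Tri.swap, vi, vj] at hab'
        exact absurd hab' (not_lt.2 c.castSucc_lt_succ.le)
      rw [Ug_shape T.rk h.hl b (T.vi c) ?_, if_neg hb, mul_zero, add_zero]
      simp only [vi, vj, Equiv.apply_symm_apply, Fin.lt_def, Fin.val_succ, Fin.val_castSucc]
        at hab ⊢
      omega
    · rw [add_zero]
  have hat : (T.lmul a b r).at' c = T.at' c := by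
    unfold at'
    rw [hal]
    rfl
  refine ⟨by unfold loc2; rw [hal]; rfl, ?_⟩
  unfold Tri.swap
  rw [hal, hat]
  simp only [Tri.lmul, mul_assoc]
  rfl

theorem OK.rmul_swap (h : T.OK L Ψ) {a b : V} (r : R) (c : Fin n) (hab : T.rk a < T.rk b)
    (hab' : (T.swap c).rk a < (T.swap c).rk b) :
    (T.rmul a b r).loc2 c = T.loc2 c ∧ (T.rmul a b r).swap c = (T.swap c).rmul a b r := by
  have hne : a ≠ b := fun e => by simp [e] at hab
  have hbe : (T.rmul a b r).be c = T.be c := by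
    change pm (T.u * x a b r) (T.vi c) (T.vj c) = pm T.u (T.vi c) (T.vj c)
    rw [Tri_pm_mul_x hne]
    split_ifs with hc
    · subst hc
      have hb : T.vi c ≠ a := by
        rintro rfl
        simp [Tri.swap, vi, vj] at hab'
        exact absurd hab' (not_lt.2 c.castSucc_lt_succ.le)
      rw [Tri_shape_u h.hu (T.vi c) a ?_, if_neg hb, zero_mul, add_zero]
      simp only [vi, vj, Equiv.apply_symm_apply, Fin.lt_def, Fin.val_succ, Fin.val_castSucc]
        at hab ⊢
      omega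
    · rw [add_zero]
  refine ⟨by unfold loc2; rw [hbe]; rfl, ?_⟩
  unfold Tri.swap
  rw [hbe]
  simp only [Tri.rmul, mul_assoc]
  rfl

/-- `T` in the positions `a, …, a+r-1` and `T'` in the positions `a', …, a'+r-1` have the same
entries -/
def Agree (T : Tri V R n) (a : ℕ) (T' : Tri V' R n') (a' : ℕ) (r : ℕ) : Prop :=
  ∀ (p q : Fin (n + 1)) (p' q' : Fin (n' + 1)) (s s' : ℕ), s < r → s' < r →
    p.val = a + s → q.val = a + s' → p'.val = a' + s → q'.val = a' + s' →
    pm T.l (T.rk.symm p) (T.rk.symm q) = pm T'.l (T'.rk.symm p') (T'.rk.symm q') ∧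
    pm T.u (T.rk.symm p) (T.rk.symm q) = pm T'.u (T'.rk.symm p') (T'.rk.symm q') ∧
    T.d (T.rk.symm p) = T'.d (T'.rk.symm p')

/-- corresponding indices of two windows -/
def Tri_Rel (T : Tri V R n) (a : ℕ) (T' : Tri V' R n') (a' : ℕ) (r : ℕ) (v : V) (v' : V') : Prop :=
  ∃ s < r, (T.rk v).val = a + s ∧ (T'.rk v').val = a' + s

theorem Tri_agree_iff {T' : Tri V' R n'} {a a' r : ℕ} : T.Agree a T' a' r ↔
    ∀ v w v' w', Tri_Rel T a T' a' r v v' → Tri_Rel T a T' a' r w w' →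
      pm T.l v w = pm T'.l v' w' ∧ pm T.u v w = pm T'.u v' w' ∧ T.d v = T'.d v' := by
  constructor
  · rintro h v w v' w' ⟨s, hs, h1, h2⟩ ⟨s', hs', h1', h2'⟩
    simpa using h _ _ _ _ s s' hs hs' h1 h1' h2 h2'
  · intro h p q p' q' s s' hs hs' h1 h2 h3 h4
    exact h _ _ _ _ ⟨s, hs, by simpa using h1, by simpa using h3⟩
      ⟨s', hs', by simpa using h2, by simpa using h4⟩

theorem Tri_Rel.eq_iff {T' : Tri V' R n'} {a a' r : ℕ} {v w : V} {v' w' : V'}
    (h : Tri_Rel T a T' a' r v v') (h' : Tri_Rel T a T' a' r w w') : v = w ↔ v' = w' := by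
  obtain ⟨s, -, h1, h2⟩ := h
  obtain ⟨s', -, h1', h2'⟩ := h'
  rw [← T.rk.injective.eq_iff, ← T'.rk.injective.eq_iff, Fin.ext_iff, Fin.ext_iff]
  omega

theorem Tri_rel_vi {T' : Tri V' R n'} {a a' r : ℕ} {c : Fin n} {c' : Fin n'} {s : ℕ}
    (hs : s + 1 < r) (hc : c.val = a + s) (hc' : c'.val = a' + s) :
    Tri_Rel T a T' a' r (T.vi c) (T'.vi c') :=
  ⟨s, by omega, by simpa [vi] using hc, by simpa [vi] using hc'⟩

theorem Tri_rel_vj {T' : Tri V' R n'} {a a' r : ℕ} {c : Fin n} {c' : Fin n'} {s : ℕ}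
    (hs : s + 1 < r) (hc : c.val = a + s) (hc' : c'.val = a' + s) :
    Tri_Rel T a T' a' r (T.vj c) (T'.vj c') :=
  ⟨s + 1, hs, by simp [vj]; omega, by simp [vj]; omega⟩

theorem Tri_swap_val (c : Fin n) (p : Fin (n + 1)) :
    (Equiv.swap c.castSucc c.succ p).val =
      if p.val = c.val then c.val + 1 else if p.val = c.val + 1 then c.val else p.val := by
  rw [Equiv.swap_apply_def]
  simp only [Fin.ext_iff, Fin.val_castSucc, Fin.val_succ]
  split_ifs <;> simp

theorem Tri_rel_swap {T' : Tri V' R n'} {a a' r : ℕ} {c : Fin n} {c' : Fin n'} {s : ℕ}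
    (hs : s + 1 < r) (hc : c.val = a + s) (hc' : c'.val = a' + s) {v : V} {v' : V'}
    (h : Tri_Rel (T.swap c) a (T'.swap c') a' r v v') : Tri_Rel T a T' a' r v v' := by
  obtain ⟨t, ht, h1, h2⟩ := h
  simp only [swap, Equiv.trans_apply, Tri_swap_val] at h1 h2
  refine ⟨(T.rk v).val - a, ?_, ?_, ?_⟩ <;> split_ifs at h1 h2 <;> omega

theorem Agree.loc2 {T' : Tri V' R n'} {a a' r : ℕ} (h : T.Agree a T' a' r) (c : Fin n)
    (c' : Fin n') (s : ℕ) (hs : s + 1 < r) (hc : c.val = a + s) (hc' : c'.val = a' + s) :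
    T.loc2 c = T'.loc2 c' := by
  rw [Tri_agree_iff] at h
  have hi := Tri_rel_vi (T := T) (T' := T') hs hc hc'
  have hj := Tri_rel_vj (T := T) (T' := T') hs hc hc'
  simp only [Tri.loc2, al, be, (h _ _ _ _ hi hj).2.1, (h _ _ _ _ hi hj).2.2,
    (h _ _ _ _ hj hi).1, (h _ _ _ _ hj hi).2.2]

/-- column and row operations inside the window -/
theorem Agree.swap {T' : Tri V' R n'} {a a' r : ℕ} (h : T.Agree a T' a' r) (c : Fin n)
    (c' : Fin n') (s : ℕ) (hs : s + 1 < r) (hc : c.val = a + s) (hc' : c'.val = a' + s) :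
    (T.swap c).Agree a (T'.swap c') a' r := by
  have h2 := h.loc2 c c' s hs hc hc'
  simp only [Tri.loc2, Prod.mk.injEq] at h2
  obtain ⟨e1, e2, e3, e4⟩ := h2
  have e5 : T.at' c = T'.at' c' := by simp only [at', e1, e2, e3]
  rw [Tri_agree_iff] at h ⊢
  have hi := Tri_rel_vi (T := T) (T' := T') hs hc hc'
  have hj := Tri_rel_vj (T := T) (T' := T') hs hc hc'
  intro v w v' w' hv hw
  replace hv := Tri_rel_swap hs hc hc' hv
  replace hw := Tri_rel_swap hs hc hc' hw
  have n1 := T.vi_ne_vj c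
  have n2 := T'.vi_ne_vj c'
  refine ⟨?_, ?_, ?_⟩
  · simp only [Tri.swap, Tri_pm_mul_x n1, Tri_pm_mul_x n2, Tri_pm_mul_x n1.symm,
      Tri_pm_mul_x n2.symm, e1, e2, e3, e4, e5, (h _ _ _ _ hv hw).1, (h _ _ _ _ hv hi).1,
      (h _ _ _ _ hv hj).1, hw.eq_iff hi, hw.eq_iff hj]
  · simp only [Tri.swap, mul_assoc, Tri_pm_x_mul n1, Tri_pm_x_mul n2, Tri_pm_x_mul n1.symm,
      Tri_pm_x_mul n2.symm, e4, e5, (h _ _ _ _ hv hw).2.1, (h _ _ _ _ hi hw).2.1,
      (h _ _ _ _ hj hw).2.1, hv.eq_iff hi, hv.eq_iff hj]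
  · simp only [Tri.swap, Pi.mul_apply, d2, e4, e5, (h _ _ _ _ hv hw).2.2, hv.eq_iff hi,
      hv.eq_iff hj]

/-- a model on `Fin 4` of a window of length `r ≤ 4`.  Recipe: `rk = refl`; restrict the matrices
`pm l`, `pm u` to the window, extend by the identity, lift with `Ug_surj`; pull `Ψ` back. -/
theorem exists_model (h : T.Good L) (a r : ℕ) (hr : r ≤ 4) (har : a + r ≤ n + 1) :
    ∃ T' : Tri (Fin 4) R 3, T'.Good L ∧ T.Agree a T' 0 r := by
  obtain ⟨Ψ, hΨ, h⟩ := h
  let v : ∀ s : Fin 4, s.val < r → V := fun s hs => T.rk.symm ⟨a + s, by omega⟩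
  have hv : ∀ s hs s' hs', v s hs = v s' hs' ↔ s = s' := fun s hs s' hs' => by
    simp [v, Fin.ext_iff]
  have hlt : ∀ s hs s' hs', T.rk (v s hs) < T.rk (v s' hs') ↔ s < s' := fun s hs s' hs' => by
    simp only [v, Equiv.apply_symm_apply, Fin.lt_def]
    omega
  let M : St V R → Matrix (Fin 4) (Fin 4) R := fun y s s' =>
    if h : s.val < r ∧ s'.val < r then pm y (v s h.1) (v s' h.2) else if s = s' then 1 else 0
  obtain ⟨l, hl, el⟩ := Ug_surj (fun s : Fin 4 => s) (M T.l) fun s s' hs => by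
    simp only [M]
    split
    · rename_i h1
      rw [Ug_shape T.rk h.hl _ _ fun h' => hs ((hlt _ h1.2 _ h1.1).1 h')]
      simp only [hv]
    · rfl
  obtain ⟨u, hu, eu⟩ := Ug_surj (fun s : Fin 4 => OrderDual.toDual s) (M T.u) fun s s' hs => by
    simp only [M]
    split
    · rename_i h1
      rw [Tri_shape_u h.hu _ _ fun h' => hs ((hlt _ h1.1 _ h1.2).1 h')]
      simp only [hv]
    · rfl
  have hp : ∀ {y : St V R} {y' : St (Fin 4) R}, Pat L Ψ y → pm y' = M y →
      Pat L (fun s s' => ∃ (h : s.val < r) (h' : s'.val < r), Ψ (v s h) (v s' h')) y' := by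
    intro y y' hy e s s' hne hn
    simp only [e, M]
    split_ifs with h1
    · exact hy _ _ (fun e' => hne ((hv _ h1.1 _ h1.2).1 e')) fun h' => hn ⟨h1.1, h1.2, h'⟩
    · exact map_zero _
  refine ⟨⟨Equiv.refl _, l, fun s => if h : s.val < r then T.d (v s h) else 1, u⟩,
    ⟨_, ⟨fun s ⟨_, _, h'⟩ => hΨ.1 _ h', fun s s' s'' ⟨h1, _, h3⟩ ⟨_, h2, h4⟩ =>
      ⟨h1, h2, hΨ.2 _ _ _ h3 h4⟩⟩, hl, hu, hp h.pl el, hp h.pu eu⟩, ?_⟩
  intro p q p' q' s s' hs hs' h1 h2 h3 h4
  have hp' : p'.val < r := by omega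
  have hq' : q'.val < r := by omega
  have e1 : T.rk.symm p = v p' hp' := congrArg _ (Fin.ext (by simp only; omega))
  have e2 : T.rk.symm q = v q' hq' := congrArg _ (Fin.ext (by simp only; omega))
  simp [el, eu, M, hp', hq', e1, e2]

end Tri

end St

end Crest.Agent.R176
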