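import Crest.Agent.R176.Torus
import Crest.Agent.R176.Cox

/-! # R176: Gauss triples `(l, d, u)` with respect to an order, and the change of order -/

noncomputable section

namespace Crest.Agent.R176

open scoped commutatorElement

set_option linter.unusedSectionVars false

namespace St

/-- A Gauss triple for the order `rk`. -/
@[ext] structure Tri (V R : Type) [Ring R] (n : ℕ) where
  rk : V ≃ Fin (n + 1)
  l : St V R
  d : V → Rˣ
  u : St V R

/-- strict partial orders -/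
def SO {V : Type} (Ψ : V → V → Prop) : Prop := (∀ a, ¬ Ψ a a) ∧ ∀ a b c, Ψ a b → Ψ b c → Ψ a c

variable {V V' R : Type} [Ring R] [Algebra (ZMod 2) R] [Fintype V] [DecidableEq V]
  [Fintype V'] [DecidableEq V'] {n n' : ℕ}

/-- modulo the maximal ideal, `y` is supported on the diagonal and on `Ψ` -/
def Pat (L : Loc R) (Ψ : V → V → Prop) (y : St V R) : Prop :=
  ∀ a b, a ≠ b → ¬ Ψ a b → L.ε (pm y a b) = 0

theorem TriA_pat_mul {L : Loc R} {Ψ : V → V → Prop} (htr : ∀ a b c, Ψ a b → Ψ b c → Ψ a c)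
    {y z : St V R} (hy : Pat L Ψ y) (hz : Pat L Ψ z) : Pat L Ψ (y * z) := by
  intro a b hab hn
  rw [map_mul, Matrix.mul_apply, map_sum]
  refine Finset.sum_eq_zero fun c _ => ?_
  rw [map_mul]
  by_cases hca : a = c
  · subst hca
    rw [hz a b hab hn, mul_zero]
  by_cases hcb : c = b
  · subst hcb
    rw [hy a c hab hn, zero_mul]
  by_cases h1 : Ψ a c
  · rw [hz c b hcb fun h2 => hn (htr _ _ _ h1 h2), mul_zero]
  · rw [hy a c hca h1, zero_mul]

theorem TriA_pat_x {L : Loc R} {Ψ : V → V → Prop} {i j : V} (hij : i ≠ j) {r : R}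
    (h : ¬ Ψ i j → L.ε r = 0) : Pat L Ψ (x i j r) := by
  intro a b hab hn
  rw [pm_x_of_ne hij, Matrix.add_apply, Matrix.one_apply_ne hab, zero_add, Matrix.single_apply]
  split_ifs with h1
  · obtain ⟨rfl, rfl⟩ := h1
    exact h hn
  · exact map_zero _

theorem TriA_peel {α β : Type} [LinearOrder α] [LinearOrder β] (rk : V → α) (ρ : V → β) {i j : V}
    (h : ∀ c e, ρ e < ρ c ↔ rk e < rk c ∧ ¬ (c = j ∧ e = i)) (hij : j ≠ i) {y : St V R}
    (hy : y ∈ Ug R (fun a b => rk b < rk a)) (h0 : pm y j i = 0) :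
    y ∈ Ug R (fun c e => rk e < rk c ∧ ¬ (c = j ∧ e = i)) := by
  obtain ⟨y', hy', he⟩ := Ug_surj ρ (pm y) fun c e hn => by
    by_cases h1 : rk e < rk c
    · have h2 : c = j ∧ e = i := by
        by_contra h2
        exact hn ((h c e).2 ⟨h1, h2⟩)
      rw [h2.1, h2.2, h0, if_neg hij]
    · exact Ug_shape rk hy c e h1
  rw [← Ug_ext rk (Ug_mono (fun c e hce => ((h c e).1 hce).1) hy') hy he]
  exact Ug_mono (fun c e hce => (h c e).1 hce) hy'

theorem TriA_swap_lt (a : Fin n) {p q : Fin (n + 1)} (h : p < q)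
    (h' : ¬ (q = a.succ ∧ p = a.castSucc)) :
    Equiv.swap a.castSucc a.succ p < Equiv.swap a.castSucc a.succ q := by
  simp only [Equiv.swap_apply_def]
  split_ifs <;> simp only [Fin.ext_iff, Fin.lt_def, Fin.val_succ, Fin.val_castSucc] at * <;> omega

namespace Tri

/-- well-formed triple with pattern `Ψ` -/
structure OK (L : Loc R) (Ψ : V → V → Prop) (T : Tri V R n) : Prop where
  hl : T.l ∈ Ug R (fun a b => T.rk b < T.rk a)
  hu : T.u ∈ Ug R (fun a b => T.rk a < T.rk b)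
  pl : Pat L Ψ T.l
  pu : Pat L Ψ T.u

def Good (L : Loc R) (T : Tri V R n) : Prop := ∃ Ψ, SO Ψ ∧ T.OK L Ψ

def mat (T : Tri V R n) : Matrix V V R :=
  pm T.l * Matrix.diagonal (fun a => (T.d a : R)) * pm T.u

def vi (T : Tri V R n) (a : Fin n) : V := T.rk.symm a.castSucc
def vj (T : Tri V R n) (a : Fin n) : V := T.rk.symm a.succ
def al (T : Tri V R n) (a : Fin n) : R := pm T.l (T.vj a) (T.vi a)
def be (T : Tri V R n) (a : Fin n) : R := pm T.u (T.vi a) (T.vj a)
def at' (T : Tri V R n) (a : Fin n) : R :=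
  ((T.d (T.vj a))⁻¹ : Rˣ) * T.al a * T.d (T.vi a)
def tau (T : Tri V R n) (a : Fin n) : St V R := ds (T.vi a) (T.vj a) (T.at' a) (T.be a)

/-- exchange the positions `a` and `a+1` -/
def swap (T : Tri V R n) (a : Fin n) : Tri V R n where
  rk := T.rk.trans (Equiv.swap a.castSucc a.succ)
  l := T.l * x (T.vj a) (T.vi a) (-T.al a) * x (T.vi a) (T.vj a)
    (T.d (T.vi a) * (T.be a * ((un (1 + T.at' a * T.be a))⁻¹ : Rˣ)) * ((T.d (T.vj a))⁻¹ : Rˣ))
  d := T.d * d2 (T.vi a) (T.vj a) (un (1 + T.be a * T.at' a))⁻¹ (un (1 + T.at' a * T.be a))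
  u := x (T.vj a) (T.vi a) (((un (1 + T.at' a * T.be a))⁻¹ : Rˣ) * T.at' a) *
    x (T.vi a) (T.vj a) (-T.be a) * T.u

/-- product of the pivots in the positions `< k` -/
def pre (T : Tri V R n) (k : ℕ) : Rˣ :=
  (((List.finRange (n + 1)).take k).map (fun s => T.d (T.rk.symm s))).prod

/-- the data seen by the exchange at `a` -/
def loc2 (T : Tri V R n) (a : Fin n) : Rˣ × Rˣ × R × R :=
  (T.d (T.vi a), T.d (T.vj a), T.al a, T.be a)

def lmul (T : Tri V R n) (a b : V) (r : R) : Tri V R n := { T with l := x a b r * T.l }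
def rmul (T : Tri V R n) (a b : V) (r : R) : Tri V R n := { T with u := T.u * x a b r }

variable {L : Loc R} {Ψ : V → V → Prop} {T T' : Tri V R n}

theorem vi_ne_vj (T : Tri V R n) (a : Fin n) : T.vi a ≠ T.vj a := by
  exact fun h => (Fin.castSucc_lt_succ (i := a)).ne (T.rk.symm.injective h)

theorem TriA_rk_vi (T : Tri V R n) (a : Fin n) : T.rk (T.vi a) = a.castSucc :=
  T.rk.apply_symm_apply _

theorem TriA_rk_vj (T : Tri V R n) (a : Fin n) : T.rk (T.vj a) = a.succ :=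
  T.rk.apply_symm_apply _

theorem TriA_eq_vi (T : Tri V R n) (a : Fin n) (c : V) : c = T.vi a ↔ T.rk c = a.castSucc :=
  T.rk.eq_symm_apply

theorem TriA_eq_vj (T : Tri V R n) (a : Fin n) (c : V) : c = T.vj a ↔ T.rk c = a.succ :=
  T.rk.eq_symm_apply

theorem TriA_rk_lt (T : Tri V R n) (a : Fin n) : T.rk (T.vi a) < T.rk (T.vj a) := by
  rw [TriA_rk_vi, TriA_rk_vj]
  exact Fin.castSucc_lt_succ

/-- the rank function merging the positions `a` and `a + 1` -/
def TriA_rho (T : Tri V R n) (a : Fin n) (c : V) : ℕ :=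
  if (T.rk c : ℕ) ≤ a then T.rk c else T.rk c - 1

theorem TriA_rho_lt (T : Tri V R n) (a : Fin n) (c e : V) :
    T.TriA_rho a e < T.TriA_rho a c ↔ T.rk e < T.rk c ∧ ¬ (c = T.vj a ∧ e = T.vi a) := by
  rw [TriA_eq_vi, TriA_eq_vj]
  simp only [TriA_rho, Fin.ext_iff, Fin.lt_def, Fin.val_succ, Fin.val_castSucc]
  split_ifs <;> omega

theorem OK.TriA_al (h : T.OK L Ψ) (a : Fin n) (hn : ¬ Ψ (T.vj a) (T.vi a)) : L.ε (T.al a) = 0 :=
  h.pl _ _ (T.vi_ne_vj a).symm hn

theorem OK.TriA_be (h : T.OK L Ψ) (a : Fin n) (hn : ¬ Ψ (T.vi a) (T.vj a)) : L.ε (T.be a) = 0 :=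
  h.pu _ _ (T.vi_ne_vj a) hn

/-- one of `al`, `be` is in the maximal ideal, since `Ψ` is asymmetric -/
theorem OK.eps_ab (hΨ : SO Ψ) (h : T.OK L Ψ) (a : Fin n) : L.ε (T.at' a * T.be a) = 0 := by
  by_cases h1 : Ψ (T.vi a) (T.vj a)
  · have h2 := h.TriA_al a fun h2 => hΨ.1 _ (hΨ.2 _ _ _ h1 h2)
    simp only [at', map_mul, h2, mul_zero, zero_mul]
  · rw [map_mul, h.TriA_be a h1, mul_zero]

/-- peeling off the simple root: `l * x j i (-al)` only involves the roots that are lower for both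
orders.  Recipe: `Ψ0 c e := rk e < rk c ∧ (c, e) ≠ (j, i)`; the elements `l0 * x j i s`,
`l0 ∈ Ug Ψ0`, form a subgroup (`Ug_conj`) containing the generators; `s` is the `(j,i)` entry by
`Ug_shape` for the rank function which gives `i` and `j` the same rank. -/
theorem peel_l (hl : T.l ∈ Ug R (fun a b => T.rk b < T.rk a)) (a : Fin n) :
    T.l * x (T.vj a) (T.vi a) (-T.al a) ∈
      Ug R (fun c e => T.rk e < T.rk c ∧ ¬ (c = T.vj a ∧ e = T.vi a)) := by
  refine TriA_peel T.rk (T.TriA_rho a) (T.TriA_rho_lt a) (T.vi_ne_vj a).symm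
    (mul_mem hl (x_mem_Ug (by exact T.TriA_rk_lt a) _)) ?_
  rw [map_mul, pm_x_of_ne (T.vi_ne_vj a).symm, mul_add, mul_one, Matrix.add_apply,
    Matrix.mul_single_apply_same, Ug_shape T.rk hl _ _ (lt_irrefl _), if_pos rfl, one_mul]
  exact add_neg_cancel _

theorem peel_u (hu : T.u ∈ Ug R (fun a b => T.rk a < T.rk b)) (a : Fin n) :
    x (T.vi a) (T.vj a) (-T.be a) * T.u ∈
      Ug R (fun c e => T.rk c < T.rk e ∧ ¬ (c = T.vi a ∧ e = T.vj a)) := by
  refine TriA_peel (fun c => OrderDual.toDual (T.rk c))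
    (fun c => OrderDual.toDual (T.TriA_rho a c))
    (fun c e => (T.TriA_rho_lt a e c).trans (by rw [and_comm (a := e = _)]; rfl)) (T.vi_ne_vj a)
    (mul_mem (x_mem_Ug (by exact T.TriA_rk_lt a) _) hu) ?_
  rw [map_mul, pm_x_of_ne (T.vi_ne_vj a), add_mul, one_mul, Matrix.add_apply,
    Matrix.single_mul_apply_same,
    Ug_shape (fun c => OrderDual.toDual (T.rk c)) hu _ _ (lt_irrefl _), if_pos rfl, mul_one]
  exact add_neg_cancel _

/-- Recipe for the patterns: right multiplication by `x j i s` adds `(column j) * s` to column `i`;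
the set of matrices with diagonal `≡ 1` and pattern `Ψ` is closed under products (`Ψ` transitive,
irreflexive), and `x j i (-al)`, `x i j (d_i be v⁻¹ d_j⁻¹)` have pattern `Ψ`. -/
theorem OK.swap (hΨ : SO Ψ) (h : T.OK L Ψ) (a : Fin n) : (T.swap a).OK L Ψ := by
  have h1 : (T.swap a).rk (T.vj a) < (T.swap a).rk (T.vi a) := by
    show Equiv.swap a.castSucc a.succ (T.rk (T.vj a)) < Equiv.swap a.castSucc a.succ (T.rk (T.vi a))
    rw [TriA_rk_vi, TriA_rk_vj, Equiv.swap_apply_left, Equiv.swap_apply_right]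
    exact Fin.castSucc_lt_succ
  have h2 : ∀ c e, T.rk e < T.rk c → ¬ (c = T.vj a ∧ e = T.vi a) →
      (T.swap a).rk e < (T.swap a).rk c := fun c e h3 h4 =>
    TriA_swap_lt a h3 (by rwa [TriA_eq_vi, TriA_eq_vj] at h4)
  have hij := T.vi_ne_vj a
  refine ⟨mul_mem (Ug_mono (fun c e hce => h2 c e hce.1 hce.2) (peel_l h.hl a))
    (x_mem_Ug (by exact h1) _), ?_, ?_, ?_⟩
  · have h3 := mul_mem (x_mem_Ug (Ψ := fun c e => (T.swap a).rk c < (T.swap a).rk e) h1
      (((un (1 + T.at' a * T.be a))⁻¹ : Rˣ) * T.at' a))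
      (Ug_mono (fun c e hce => h2 e c hce.1 fun h4 => hce.2 ⟨h4.2, h4.1⟩) (peel_u h.hu a))
    rwa [← mul_assoc] at h3
  · refine TriA_pat_mul hΨ.2 (TriA_pat_mul hΨ.2 h.pl (TriA_pat_x hij.symm fun hn => ?_))
      (TriA_pat_x hij fun hn => ?_)
    · rw [map_neg, h.TriA_al a hn, neg_zero]
    · simp only [map_mul, h.TriA_be a hn, mul_zero, zero_mul]
  · refine TriA_pat_mul hΨ.2 (TriA_pat_mul hΨ.2 (TriA_pat_x hij.symm fun hn => ?_)
      (TriA_pat_x hij fun hn => ?_)) h.pu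
    · simp only [at', map_mul, h.TriA_al a hn, mul_zero, zero_mul]
    · rw [map_neg, h.TriA_be a hn, neg_zero]

theorem OK.mono {Ψ' : V → V → Prop} (h : T.OK L Ψ) (hle : ∀ a b, Ψ a b → Ψ' a b) : T.OK L Ψ' := by
  exact ⟨h.hl, h.hu, fun a b hab hn => h.pl a b hab fun h1 => hn (hle a b h1),
    fun a b hab hn => h.pu a b hab fun h1 => hn (hle a b h1)⟩

/-- if the matrix is congruent to `1` the pattern can be dropped: modulo the maximal ideal
`l u = 1` with `l` lower and `u` (and `u⁻¹`) upper unitriangular over `𝔽₂`. -/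
theorem OK.bot (h : T.OK L Ψ) (hm : T.mat.map L.ε = 1) : T.OK L (fun _ _ => False) := by
  have h1 : (Matrix.diagonal fun a => (T.d a : R)).map L.ε = 1 := by
    rw [Matrix.diagonal_map (map_zero _), ← Matrix.diagonal_one]
    exact congrArg _ (funext fun a => L.ε_unit _)
  rw [mat, Matrix.map_mul, Matrix.map_mul, h1, mul_one] at hm
  have hinv : ∀ y : St V R, (pm y).map L.ε * (pm y⁻¹).map L.ε = 1 := fun y => by
    rw [← Matrix.map_mul, ← map_mul, mul_inv_cancel, map_one,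
      Matrix.map_one _ (map_zero _) (map_one _)]
  have h2 : (pm T.l).map L.ε = (pm T.u⁻¹).map L.ε := by
    rw [← mul_one ((pm T.l).map L.ε), ← hinv T.u, ← mul_assoc, hm, one_mul]
  have h3 : (pm T.u).map L.ε = (pm T.l⁻¹).map L.ε := by
    have h4 := hinv T.l⁻¹
    rw [inv_inv] at h4
    rw [← one_mul ((pm T.u).map L.ε), ← h4, mul_assoc, hm, mul_one]
  have hl : ∀ y ∈ Ug R (fun a b => T.rk b < T.rk a), ∀ a b, T.rk a < T.rk b →
      L.ε (pm y a b) = 0 := fun y hy a b hab => by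
    rw [Ug_shape T.rk hy a b hab.not_gt, if_neg fun e => hab.ne (congrArg _ e), map_zero]
  have hu : ∀ y ∈ Ug R (fun a b => T.rk a < T.rk b), ∀ a b, T.rk b < T.rk a →
      L.ε (pm y a b) = 0 := fun y hy a b hab => by
    rw [Ug_shape (fun c => OrderDual.toDual (T.rk c)) hy a b hab.not_gt,
      if_neg fun e => hab.ne' (congrArg _ e), map_zero]
  refine ⟨h.hl, h.hu, fun a b hab _ => ?_, fun a b hab _ => ?_⟩
  · rcases lt_or_gt_of_ne (T.rk.injective.ne hab) with h4 | h4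
    · exact hl _ h.hl a b h4
    · exact (congrFun (congrFun h2 a) b).trans (hu _ (inv_mem h.hu) a b h4)
  · rcases lt_or_gt_of_ne (T.rk.injective.ne hab) with h4 | h4
    · exact (congrFun (congrFun h3 a) b).trans (hl _ (inv_mem h.hl) a b h4)
    · exact hu _ h.hu a b h4

end Tri

end St

end Crest.Agent.R176
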