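import Crest.Agent.R176.TriA

/-! # R176: Gauss triples `(l, d, u)` with respect to an order, and the change of order -/

noncomputable section

namespace Crest.Agent.R176

open scoped commutatorElement

set_option linter.unusedSectionVars false

namespace St

variable {V V' R : Type} [Ring R] [Algebra (ZMod 2) R] [Fintype V] [DecidableEq V]
  [Fintype V'] [DecidableEq V'] {n n' : ℕ}

namespace Tri

variable {L : Loc R} {Ψ : V → V → Prop} {T T' : Tri V R n}

theorem TriB_at (T : Tri V R n) (a : Fin n) :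
    (T.d (T.vj a) : R) * T.at' a * ((T.d (T.vi a))⁻¹ : Rˣ) = T.al a := by
  simp [at', mul_assoc]

theorem TriB_diag (d : V → Rˣ) (y : St V R) :
    Matrix.diagonal (fun c => (d c : R)) * pm y = pm (dg d y) * Matrix.diagonal (fun c => (d c : R)) := by
  ext a b
  rw [Matrix.mul_diagonal, Matrix.diagonal_mul, pm_dg]
  simp

theorem TriB_col (M : Matrix V V R) (p q : V) (s : R) (a b : V) (h : b ≠ q) :
    (M * (1 + Matrix.single p q s)) a b = M a b := by
  rw [mul_add, mul_one, Matrix.add_apply, Matrix.mul_single_apply_of_ne _ _ _ _ _ h, add_zero]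

theorem TriB_row (M : Matrix V V R) (p q : V) (s : R) (a b : V) (h : a ≠ p) :
    ((1 + Matrix.single p q s) * M) a b = M a b := by
  rw [add_mul, one_mul, Matrix.add_apply, Matrix.single_mul_apply_of_ne _ _ _ _ _ h, add_zero]

theorem TriB_swap_val (a : Fin n) (s : Fin (n + 1)) :
    (Equiv.swap a.castSucc a.succ s).val =
      if s.val = a.val then a.val + 1 else if s.val = a.val + 1 then a.val else s.val := by
  rw [Equiv.swap_apply_def]
  simp only [Fin.ext_iff, Fin.val_castSucc, Fin.val_succ]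
  split_ifs <;> simp

theorem TriB_symm (T : Tri V R n) (b : Fin n) {s : Fin (n + 1)} (h1 : s ≠ b.castSucc)
    (h2 : s ≠ b.succ) : (T.swap b).rk.symm s = T.rk.symm s := by
  simp [swap, Equiv.swap_apply_of_ne_of_ne h1 h2]

theorem TriB_d (T : Tri V R n) (b : Fin n) {s : Fin (n + 1)} (h1 : s ≠ b.castSucc)
    (h2 : s ≠ b.succ) : (T.swap b).d (T.rk.symm s) = T.d (T.rk.symm s) := by
  have n1 : T.rk.symm s ≠ T.vi b := T.rk.symm.injective.ne h1
  have n2 : T.rk.symm s ≠ T.vj b := T.rk.symm.injective.ne h2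
  simp [swap, d2, n1, n2]

theorem TriB_pre_succ (T : Tri V R n) (k : ℕ) (hk : k < n + 1) :
    T.pre (k + 1) = T.pre k * T.d (T.rk.symm ⟨k, hk⟩) := by
  unfold pre
  rw [List.take_succ_eq_append_getElem (by simpa using hk), List.map_append, List.prod_append]
  simp

/-- the identity in the Steinberg group behind `swap` (only the definition of `ds` and
`t⁻¹ * x * t = dg d⁻¹ x` are used) -/
theorem swap_St (T : Tri V R n) (a : Fin n) (e : V ↪ V') {t : St V' R} {d' : V' → Rˣ}
    (ht : IsTor t d') (hd : ∀ v, d' (e v) = T.d v) :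
    relabel e T.l * t * relabel e T.u =
      relabel e (T.swap a).l * (t * relabel e (T.tau a)) * relabel e (T.swap a).u := by
  have hc : ∀ y, t * y = dg d' y * t := fun y => by rw [← ht.1]; group
  have h1 := hc (x (e (T.vi a)) (e (T.vj a))
    (T.be a * ((un (1 + T.at' a * T.be a))⁻¹ : Rˣ)))⁻¹
  have h2 := hc (x (e (T.vj a)) (e (T.vi a)) (T.at' a))
  rw [map_inv, dg_x, hd, hd] at h1
  rw [dg_x, hd, hd, TriB_at] at h2
  simp only [swap, tau, ds, map_mul, map_inv, relabel_x, x_neg]
  generalize x (e (T.vi a)) (e (T.vj a))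
    (T.be a * ((un (1 + T.at' a * T.be a))⁻¹ : Rˣ)) = A at h1 ⊢
  generalize x (e (T.vi a)) (e (T.vj a)) (T.d (T.vi a) *
    (T.be a * ((un (1 + T.at' a * T.be a))⁻¹ : Rˣ)) * ((T.d (T.vj a))⁻¹ : Rˣ)) = A' at h1 ⊢
  generalize x (e (T.vj a)) (e (T.vi a)) (T.at' a) = B at h2 ⊢
  generalize x (e (T.vj a)) (e (T.vi a)) (T.al a) = B' at h2 ⊢
  have e1 : A = t⁻¹ * A' * t := by
    have : A⁻¹ = t⁻¹ * (A'⁻¹ * t) := by rw [← h1]; group
    rw [← inv_inv A, this]; group
  have e2 : B = t⁻¹ * B' * t := by rw [mul_assoc, ← h2]; group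
  rw [e1, e2]
  group

theorem OK.swap_mat (hΨ : SO Ψ) (h : T.OK L Ψ) (a : Fin n) : (T.swap a).mat = T.mat := by
  have e1 := h.eps_ab hΨ a
  have u1 := L.isUnit_one_add e1
  have u2 := L.isUnit_one_add (by rw [L.ε_mul_comm]; exact e1 : L.ε (T.be a * T.at' a) = 0)
  have hd : Matrix.diagonal (fun c => (((T.swap a).d c : Rˣ) : R)) =
      Matrix.diagonal (fun c => (T.d c : R)) * pm (T.tau a) := by
    rw [tau, pm_ds (T.vi_ne_vj a) u1 u2, Matrix.diagonal_mul_diagonal]
    rfl
  unfold mat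
  rw [hd, mul_assoc, mul_assoc, ← map_mul, TriB_diag, ← mul_assoc, ← map_mul,
    mul_assoc (pm T.l), TriB_diag T.d T.u, ← mul_assoc (pm T.l), ← map_mul]
  congr 2
  simp only [Tri.swap, tau, ds, map_mul, map_inv, dg_x, x_neg, TriB_at]
  group

/-- uniqueness of the Gauss decomposition: `l'⁻¹ l d = d' u' u⁻¹` is lower and upper triangular
(`Ug_shape`, `Ug_inj`) -/
theorem ext_mat {Ψ' : V → V → Prop} (h : T.OK L Ψ) (h' : T'.OK L Ψ') (hrk : T.rk = T'.rk)
    (hm : T.mat = T'.mat) : T = T' := by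
  have hl' := h'.hl
  have hu' := h'.hu
  rw [← hrk] at hl' hu'
  have hA : T'.l⁻¹ * T.l ∈ Ug R (fun a b => T.rk b < T.rk a) := mul_mem (inv_mem hl') h.hl
  have hB : T'.u * T.u⁻¹ ∈ Ug R (fun a b => OrderDual.toDual (T.rk b) < OrderDual.toDual (T.rk a)) :=
    mul_mem hu' (inv_mem h.hu)
  have key : pm (T'.l⁻¹ * T.l) * Matrix.diagonal (fun a => (T.d a : R)) =
      Matrix.diagonal (fun a => (T'.d a : R)) * pm (T'.u * T.u⁻¹) := by
    have e1 : pm T'.l⁻¹ * T.mat * pm T.u⁻¹ = pm T'.l⁻¹ * T'.mat * pm T.u⁻¹ := by rw [hm]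
    unfold mat at e1
    calc _ = pm T'.l⁻¹ * (pm T.l * Matrix.diagonal (fun a => (T.d a : R)) * pm T.u) * pm T.u⁻¹ := by
          rw [mul_assoc (pm T'.l⁻¹) _ (pm T.u⁻¹), mul_assoc _ (pm T.u), ← map_mul pm T.u,
            mul_inv_cancel, map_one, mul_one, map_mul, mul_assoc]
      _ = _ := by
          rw [e1, ← mul_assoc, ← mul_assoc, ← map_mul, inv_mul_cancel, map_one, one_mul, mul_assoc,
            ← map_mul]
  have ke : ∀ a b, pm (T'.l⁻¹ * T.l) a b * T.d b = T'.d a * pm (T'.u * T.u⁻¹) a b := by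
    intro a b
    have := congrFun (congrFun key a) b
    rwa [Matrix.mul_diagonal, Matrix.diagonal_mul] at this
  have sA := Ug_shape T.rk hA
  have sB := Ug_shape (fun a => OrderDual.toDual (T.rk a)) hB
  have hA1 : pm (T'.l⁻¹ * T.l) = 1 := by
    ext a b
    rw [Matrix.one_apply]
    by_cases hab : T.rk b < T.rk a
    · have hne : a ≠ b := fun e => by rw [e] at hab; exact lt_irrefl _ hab
      have := ke a b
      rw [sB a b (not_lt.2 hab.le), if_neg hne, mul_zero] at this
      rw [if_neg hne]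
      exact (Units.mul_left_eq_zero _).1 this
    · exact sA a b hab
  have hB1 : pm (T'.u * T.u⁻¹) = 1 := by
    ext a b
    rw [Matrix.one_apply]
    by_cases hab : T.rk a < T.rk b
    · have hne : a ≠ b := fun e => by rw [e] at hab; exact lt_irrefl _ hab
      have := ke a b
      rw [sA a b (not_lt.2 hab.le), if_neg hne, zero_mul] at this
      rw [if_neg hne]
      exact (Units.mul_right_eq_zero _).1 this.symm
    · exact sB a b hab
  refine Tri.ext hrk ?_ ?_ ?_
  · exact (inv_mul_eq_one.1 (Ug_inj T.rk hA hA1)).symm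
  · funext a
    have := ke a a
    rw [hA1, hB1, Matrix.one_apply_eq, one_mul, mul_one] at this
    exact Units.ext this
  · exact (mul_inv_eq_one.1 (Ug_inj (fun a => OrderDual.toDual (T.rk a)) hB hB1)).symm

theorem OK.swap_swap (hΨ : SO Ψ) (h : T.OK L Ψ) (a : Fin n) : (T.swap a).swap a = T := by
  refine ext_mat ((h.swap hΨ a).swap hΨ a) h ?_ ?_
  · ext v; simp [Tri.swap]
  · rw [(h.swap hΨ a).swap_mat hΨ, h.swap_mat hΨ]

theorem OK.swap_comm (hΨ : SO Ψ) (h : T.OK L Ψ) (a b : Fin n) (hab : a.val + 1 < b.val) :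
    (T.swap a).swap b = (T.swap b).swap a := by
  refine ext_mat ((h.swap hΨ a).swap hΨ b) ((h.swap hΨ b).swap hΨ a) ?_ ?_
  · ext v
    simp only [Tri.swap, Equiv.trans_apply]
    generalize T.rk v = s
    simp only [TriB_swap_val]
    split_ifs <;> omega
  · rw [(h.swap hΨ a).swap_mat hΨ, h.swap_mat hΨ, (h.swap hΨ b).swap_mat hΨ, h.swap_mat hΨ]

theorem OK.swap_braid (hΨ : SO Ψ) (h : T.OK L Ψ) (a b : Fin n) (hab : a.val + 1 = b.val) :
    ((T.swap a).swap b).swap a = ((T.swap b).swap a).swap b := by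
  refine ext_mat (((h.swap hΨ a).swap hΨ b).swap hΨ a) (((h.swap hΨ b).swap hΨ a).swap hΨ b) ?_ ?_
  · ext v
    simp only [Tri.swap, Equiv.trans_apply]
    generalize T.rk v = s
    simp only [TriB_swap_val]
    split_ifs <;> omega
  · rw [((h.swap hΨ a).swap hΨ b).swap_mat hΨ, (h.swap hΨ a).swap_mat hΨ, h.swap_mat hΨ,
      ((h.swap hΨ b).swap hΨ a).swap_mat hΨ, (h.swap hΨ b).swap_mat hΨ, h.swap_mat hΨ]

theorem loc2_swap_far (T : Tri V R n) (a b : Fin n) (hab : a.val + 1 < b.val ∨ b.val + 1 < a.val) :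
    (T.swap b).loc2 a = T.loc2 a := by
  have c1 : a.castSucc ≠ b.castSucc := fun e => by
    have := congrArg Fin.val e; simp only [Fin.val_castSucc] at this; omega
  have c2 : a.castSucc ≠ b.succ := fun e => by
    have := congrArg Fin.val e; simp only [Fin.val_castSucc, Fin.val_succ] at this; omega
  have c3 : a.succ ≠ b.castSucc := fun e => by
    have := congrArg Fin.val e; simp only [Fin.val_castSucc, Fin.val_succ] at this; omega
  have c4 : a.succ ≠ b.succ := fun e => by
    have := congrArg Fin.val e; simp only [Fin.val_succ] at this; omega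
  have hi : (T.swap b).vi a = T.vi a := TriB_symm T b c1 c2
  have hj : (T.swap b).vj a = T.vj a := TriB_symm T b c3 c4
  have n1 : T.vi a ≠ T.vi b := T.rk.symm.injective.ne c1
  have n2 : T.vi a ≠ T.vj b := T.rk.symm.injective.ne c2
  have hb := T.vi_ne_vj b
  simp only [loc2, al, be, hi, hj, Prod.mk.injEq]
  refine ⟨TriB_d T b c1 c2, TriB_d T b c3 c4, ?_, ?_⟩
  · simp only [swap, map_mul, pm_x_of_ne hb, pm_x_of_ne hb.symm]
    rw [TriB_col _ _ _ _ _ _ n2, TriB_col _ _ _ _ _ _ n1]
  · simp only [swap, map_mul, pm_x_of_ne hb, pm_x_of_ne hb.symm, mul_assoc]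
    rw [TriB_row _ _ _ _ _ _ n2, TriB_row _ _ _ _ _ _ n1]

theorem pre_swap_le (T : Tri V R n) (a : Fin n) (k : ℕ) (hk : k ≤ a.val) :
    (T.swap a).pre k = T.pre k := by
  induction k with
  | zero => simp [pre]
  | succ k ih =>
    have hk' : k < n + 1 := by have := a.2; omega
    have c1 : (⟨k, hk'⟩ : Fin (n + 1)) ≠ a.castSucc := fun e => by
      have := congrArg Fin.val e; simp only [Fin.val_castSucc] at this; omega
    have c2 : (⟨k, hk'⟩ : Fin (n + 1)) ≠ a.succ := fun e => by
      have := congrArg Fin.val e; simp only [Fin.val_succ] at this; omega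
    rw [TriB_pre_succ _ k hk', TriB_pre_succ _ k hk', ih (by omega), TriB_symm T a c1 c2,
      TriB_d T a c1 c2]

theorem pre_succ (T : Tri V R n) (s : Fin (n + 1)) :
    T.pre (s.val + 1) = T.pre s.val * T.d (T.rk.symm s) := by
  exact TriB_pre_succ T s.val s.2

theorem pre_swap_ge (T : Tri V R n) (a : Fin n) (k : ℕ) (hk : a.val + 2 ≤ k) :
    ∃ c : Rˣ, T.pre k = T.pre a.val * T.d (T.vi a) * T.d (T.vj a) * c ∧
      (T.swap a).pre k =
        T.pre a.val * (T.swap a).d (T.vj a) * (T.swap a).d (T.vi a) * c := by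
  induction k, hk using Nat.le_induction with
  | base =>
    refine ⟨1, ?_, ?_⟩
    · have e1 := T.pre_succ a.succ
      have e2 := T.pre_succ a.castSucc
      simp only [Fin.val_succ, Fin.val_castSucc] at e1 e2
      rw [e1, e2, mul_one]; rfl
    · have e1 := (T.swap a).pre_succ a.succ
      have e2 := (T.swap a).pre_succ a.castSucc
      simp only [Fin.val_succ, Fin.val_castSucc] at e1 e2
      have f1 : (T.swap a).rk.symm a.succ = T.vi a := by simp [swap, vi]
      have f2 : (T.swap a).rk.symm a.castSucc = T.vj a := by simp [swap, vj]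
      rw [e1, e2, mul_one, f1, f2, T.pre_swap_le a _ le_rfl]
  | succ k hk ih =>
    obtain ⟨c, h1, h2⟩ := ih
    by_cases hk' : k < n + 1
    · have c1 : (⟨k, hk'⟩ : Fin (n + 1)) ≠ a.castSucc := fun e => by
        have := congrArg Fin.val e; simp only [Fin.val_castSucc] at this; omega
      have c2 : (⟨k, hk'⟩ : Fin (n + 1)) ≠ a.succ := fun e => by
        have := congrArg Fin.val e; simp only [Fin.val_succ] at this; omega
      refine ⟨c * T.d (T.rk.symm ⟨k, hk'⟩), ?_, ?_⟩
      · rw [TriB_pre_succ _ k hk', h1, mul_assoc]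
      · rw [TriB_pre_succ _ k hk', h2, TriB_symm T a c1 c2, TriB_d T a c1 c2, mul_assoc]
    · have : ∀ S : Tri V R n, S.pre (k + 1) = S.pre k := fun S => by
        unfold pre
        rw [List.take_of_length_le (by simp; omega), List.take_of_length_le (by simp; omega)]
      exact ⟨c, by rw [this, h1], by rw [this, h2]⟩

end Tri

end St

end Crest.Agent.R176
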