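import Crest.Agent.R176.UnipC

/-! # R176: unipotent subgroups of the Steinberg group, block maps -/

noncomputable section

namespace Crest.Agent.R176

open scoped commutatorElement

set_option linter.unusedSectionVars false

namespace St

variable {V V' W W' R : Type} [Ring R]

section blk
variable [Fintype V] [DecidableEq V] [Fintype W] [DecidableEq W]

/-- image of a generator under the block map -/
def blkX (i j : V) (M : Matrix W W R) : St (V × W) R :=
  if h : i = j then 1 else
    rect (fun a => (i, a)) (fun b => (j, b)) (fun _ _ e => h (congrArg Prod.fst e)) M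

theorem pm_blkX (i j : V) (h : i ≠ j) (M : Matrix W W R) (p q : V × W) :
    pm (blkX i j M) p q = (if p = q then 1 else 0) + if p.1 = i ∧ q.1 = j then M p.2 q.2 else 0 := by
  obtain ⟨p1, p2⟩ := p
  obtain ⟨q1, q2⟩ := q
  rw [blkX, dif_neg h, pm_rect, Matrix.add_apply, Matrix.one_apply]
  congr 1
  simp only [Matrix.sum_apply, Matrix.single_apply, Prod.mk.injEq]
  by_cases h1 : p1 = i
  · by_cases h2 : q1 = j
    · subst h1 h2
      simp only [true_and, and_self, if_true]
      rw [Finset.sum_eq_single p2]
      · rw [Finset.sum_eq_single q2]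
        · simp
        · intro b _ hb; simp [hb]
        · simp
      · intro a _ ha; simp [ha]
      · simp
    · simp [h2, Ne.symm h2]
  · simp [h1, Ne.symm h1]

theorem Unip_pm_blkX (i j : V) (M : Matrix W W R) :
    pm (blkX i j M) = Matrix.compRingEquiv V W R (pm (x i j M)) := by
  by_cases h : i = j
  · subst h
    rw [x_self, blkX, dif_pos rfl, map_one, map_one, map_one]
  · rw [pm_x_of_ne h, map_add, map_one]
    ext p q
    rw [pm_blkX i j h, Matrix.add_apply, Matrix.one_apply]
    congr 1
    change _ = Matrix.single i j M p.1 q.1 p.2 q.2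
    rw [Matrix.single_apply]
    by_cases h1 : i = p.1 ∧ j = q.1
    · rw [if_pos h1, if_pos ⟨h1.1.symm, h1.2.symm⟩]
    · rw [if_neg h1, if_neg fun h2 => h1 ⟨h2.1.symm, h2.2.symm⟩]
      rfl

theorem blkX_mem_Ug (i j : V) (M : Matrix W W R) :
    blkX i j M ∈ Ug R (fun p q : V × W => p.1 = i ∧ q.1 = j) := by
  unfold blkX
  split_ifs with h
  · exact Subgroup.one_mem _
  · exact rect_mem _ _ _ _ _ fun a b => x_mem_Ug ⟨rfl, rfl⟩ _

theorem Unip_blkX_mem (rk : V → ℕ) {i j : V} (h : rk j < rk i) (M : Matrix W W R) :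
    blkX i j M ∈ Ug R (fun p q : V × W => rk q.1 < rk p.1) :=
  Ug_mono (fun _ _ hpq => by rw [hpq.1, hpq.2]; exact h) (blkX_mem_Ug i j M)

/-- Recipe for the three relations: both sides lie in `Ug (rk b < rk a)` for a rank function
depending on the first coordinate only; compare matrices (`Ug_ext`, `pm_blkX`), or `Ug_commute`. -/
theorem blkX_add (i j : V) (M N : Matrix W W R) (h : i ≠ j) :
    blkX i j (M + N) = blkX i j M * blkX i j N := by
  let rk : V → ℕ := fun v => if v = i then 1 else 0
  have hr : rk j < rk i := by simp [rk, h.symm]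
  refine Ug_ext (fun p : V × W => rk p.1) (Unip_blkX_mem rk hr _)
    (Subgroup.mul_mem _ (Unip_blkX_mem rk hr _) (Unip_blkX_mem rk hr _)) ?_
  rw [map_mul, Unip_pm_blkX, Unip_pm_blkX, Unip_pm_blkX, x_add, map_mul, map_mul]

theorem blkX_commute (i j k l : V) (M N : Matrix W W R) (h1 : j ≠ k) (h2 : i ≠ l) :
    Commute (blkX i j M) (blkX k l N) := by
  refine Ug_commute (fun a b c d hab hcd => ⟨fun e => h1 ?_, fun e => h2 ?_⟩)
    (blkX_mem_Ug i j M) (blkX_mem_Ug k l N)
  · rw [← hab.2, e, hcd.1]
  · rw [← hab.1, e, hcd.2]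

theorem blkX_mul (i j k : V) (M N : Matrix W W R) (h1 : i ≠ j) (h2 : j ≠ k) (h3 : i ≠ k) :
    ⁅blkX i j M, blkX j k N⁆ = blkX i k (M * N) := by
  rw [commutatorElement_def, mul_inv_eq_iff_eq_mul, mul_inv_eq_iff_eq_mul]
  have hx := x_comm_mul h1 h2 h3 M N
  rw [commutatorElement_def, mul_inv_eq_iff_eq_mul, mul_inv_eq_iff_eq_mul] at hx
  let rk : V → ℕ := fun v => if v = i then 2 else if v = j then 1 else 0
  have hij : rk j < rk i := by simp [rk, h1.symm]
  have hjk : rk k < rk j := by simp [rk, h1.symm, h2.symm, h3.symm]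
  have hik : rk k < rk i := hjk.trans hij
  refine Ug_ext (fun p : V × W => rk p.1)
    (Subgroup.mul_mem _ (Unip_blkX_mem rk hij _) (Unip_blkX_mem rk hjk _))
    (Subgroup.mul_mem _ (Subgroup.mul_mem _ (Unip_blkX_mem rk hik _) (Unip_blkX_mem rk hjk _))
      (Unip_blkX_mem rk hij _)) ?_
  simp only [map_mul, Unip_pm_blkX]
  rw [← map_mul, ← map_mul, hx, map_mul, map_mul, map_mul, map_mul]

/-- the block map `St V (M_W R) → St (V × W) R` -/
def blk : St V (Matrix W W R) →* St (V × W) R :=
  lift blkX (fun i r => by simp [blkX]) (fun i j r s h => blkX_add i j r s h)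
    (fun i j k l r s _ _ h1 h2 => blkX_commute i j k l r s h1 h2)
    (fun i j k r s h1 h2 h3 => blkX_mul i j k r s h1 h2 h3)

@[simp] theorem blk_x (i j : V) (M : Matrix W W R) : blk (x i j M) = blkX i j M :=
  lift_x _ _ _ _ _ _ _ _

theorem pm_blk (y : St V (Matrix W W R)) (p q : V × W) :
    pm (blk y) p q = pm y p.1 q.1 p.2 q.2 := by
  have : pm.comp blk = ((Matrix.compRingEquiv V W R).toRingHom.toMonoidHom.comp pm :
      St V (Matrix W W R) →* Matrix (V × W) (V × W) R) :=
    hom_ext fun i j r _ => by
      rw [MonoidHom.comp_apply, blk_x, Unip_pm_blkX]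
      rfl
  exact congrFun (congrFun (DFunLike.congr_fun this y) p) q

theorem blk_relabel [Fintype V'] [DecidableEq V'] (e : V ↪ V') (y : St V (Matrix W W R)) :
    blk (relabel e y) = relabel (e.prodMap (Function.Embedding.refl W)) (blk y) := by
  have : blk.comp (relabel e) = ((relabel (e.prodMap (Function.Embedding.refl W))).comp blk :
      St V (Matrix W W R) →* St (V' × W) R) :=
    hom_ext fun i j r h => by
      simp only [MonoidHom.comp_apply, relabel_x, blk_x, blkX, dif_neg h,
        dif_neg (e.injective.ne h), rect, Finset.map_noncommProd]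
      rfl
  exact DFunLike.congr_fun this y

theorem map_blk {R' : Type} [Ring R'] (f : R →+* R') (y : St V (Matrix W W R)) :
    map f (blk y) = blk (map f.mapMatrix y) := by
  have : (map f).comp blk = (blk.comp (map f.mapMatrix) :
      St V (Matrix W W R) →* St (V × W) R') :=
    hom_ext fun i j r h => by
      simp only [MonoidHom.comp_apply, map_x, blk_x, blkX, dif_neg h, rect,
        Finset.map_noncommProd]
      rfl
  exact DFunLike.congr_fun this y

end blk

end St

end Crest.Agent.R176
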