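import Crest.Agent.R176.St

/-! # R176: unipotent subgroups of the Steinberg group, block maps -/

noncomputable section

namespace Crest.Agent.R176

open scoped commutatorElement

set_option linter.unusedSectionVars false

namespace St

variable {V V' W W' R : Type} [Ring R]

theorem UnipA_Ug_le {Ψ : V → V → Prop} {H : Subgroup (St V R)}
    (h : ∀ a b r, a ≠ b → Ψ a b → x a b r ∈ H) : Ug R Ψ ≤ H := by
  refine (Subgroup.closure_le _).2 ?_
  rintro _ ⟨a, b, r, hab, rfl⟩
  by_cases e : a = b
  · subst e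
    rw [x_self]
    exact H.one_mem
  · exact h a b r e hab

/-- Conjugating `Ug Ψ` by a root element.  Recipe: closure induction; on a generator `x c d s`
(`c ≠ d`, `a ≠ b` wlog) use `x_commute`, `conj_left`, `conj_right`. -/
theorem Ug_conj {Ψ : V → V → Prop} (a b : V) (r : R)
    (hop : ¬ Ψ b a) (h1 : ∀ d, Ψ b d → d ≠ a → Ψ a d) (h2 : ∀ c, Ψ c a → c ≠ b → Ψ c b)
    {y : St V R} (hy : y ∈ Ug R Ψ) : x a b r * y * (x a b r)⁻¹ ∈ Ug R Ψ := by
  by_cases hab : a = b
  · subst hab
    simpa using hy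
  refine UnipA_Ug_le (H := (Ug R Ψ).comap (MulAut.conj (x a b r)).toMonoidHom)
    (fun c d s hcd h => ?_) hy
  change x a b r * x c d s * (x a b r)⁻¹ ∈ Ug R Ψ
  by_cases hbc : b = c
  · subst hbc
    have hda : d ≠ a := fun e => hop (e ▸ h)
    rw [conj_left hab hcd hda.symm]
    exact mul_mem (x_mem_Ug (h1 d h hda) _) (x_mem_Ug h _)
  by_cases had : a = d
  · subst had
    rw [conj_right hcd hab (Ne.symm hbc)]
    exact mul_mem (x_mem_Ug (h2 c h (Ne.symm hbc)) _) (x_mem_Ug h _)
  rw [(x_commute hbc had r s).eq, mul_inv_cancel_right]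
  exact x_mem_Ug h _

/-- relabelling maps `Ug` to `Ug` -/
theorem relabel_mem_Ug (e : V ↪ V') {Ψ : V → V → Prop} {Ψ' : V' → V' → Prop}
    (h : ∀ a b, Ψ a b → Ψ' (e a) (e b)) {y : St V R} (hy : y ∈ Ug R Ψ) :
    relabel e y ∈ Ug R Ψ' := by
  refine UnipA_Ug_le (H := (Ug R Ψ').comap (relabel e)) (fun a b r _ hab => ?_) hy
  rw [Subgroup.mem_comap, relabel_x]
  exact x_mem_Ug (h a b hab) _

/-- `dg d` fixes the elements supported where `d = 1` -/
theorem dg_eq_self {Ψ : V → V → Prop} (d : V → Rˣ) (h : ∀ a b, Ψ a b → d a = 1 ∧ d b = 1)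
    {y : St V R} (hy : y ∈ Ug R Ψ) : dg d y = y := by
  refine UnipA_Ug_le (H := (dg d).eqLocus (MonoidHom.id _)) (fun a b r _ hab => ?_) hy
  change dg d (x a b r) = x a b r
  simp [(h a b hab).1, (h a b hab).2]

/-- elements with disjoint supports commute -/
theorem Ug_commute {Ψ Ψ' : V → V → Prop}
    (h : ∀ a b c d, Ψ a b → Ψ' c d → b ≠ c ∧ a ≠ d) {y y' : St V R}
    (hy : y ∈ Ug R Ψ) (hy' : y' ∈ Ug R Ψ') : Commute y y' := by
  refine Subgroup.mem_centralizer_singleton_iff.1
    (UnipA_Ug_le (H := Subgroup.centralizer {y'}) (fun a b r _ hab => ?_) hy)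
  refine Subgroup.mem_centralizer_singleton_iff.2 (Subgroup.mem_centralizer_singleton_iff.1
    (UnipA_Ug_le (H := Subgroup.centralizer {x a b r}) (fun c d s _ hcd => ?_) hy')).symm
  exact Subgroup.mem_centralizer_singleton_iff.2
    (x_commute (h a b c d hab hcd).1 (h a b c d hab hcd).2 r s).eq.symm

/-- Two homomorphisms that agree on generators modulo a subgroup normalised by the second one
agree modulo that subgroup.  (Induction `St.induction_on`.) -/
theorem hom_mod {G : Type*} [Group G] (f f0 : St V R →* G) (N : Subgroup G)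
    (hN : ∀ i j r, i ≠ j → ∀ g ∈ N, f0 (x i j r) * g * (f0 (x i j r))⁻¹ ∈ N)
    (h : ∀ i j r, i ≠ j → f (x i j r) * (f0 (x i j r))⁻¹ ∈ N) (y : St V R) :
    f y * (f0 y)⁻¹ ∈ N := by
  refine induction_on (P := fun y => f y * (f0 y)⁻¹ ∈ N) y (by simp) fun i j r y hij hy => ?_
  have := N.mul_mem (h i j r hij) (hN i j r hij _ hy)
  rw [map_mul, map_mul]
  convert this using 1
  group

/-- product of the commuting root elements `x (f a) (g b) (M a b)` -/
def rect [Fintype W] [Fintype W'] (f : W → V) (g : W' → V) (h : ∀ a b, f a ≠ g b)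
    (M : W → W' → R) : St V R :=
  (Finset.univ : Finset (W × W')).noncommProd (fun p => x (f p.1) (g p.2) (M p.1 p.2))
    (fun p _ q _ _ => x_commute (h q.1 p.2).symm (h p.1 q.2) _ _)

theorem rect_mem [Fintype W] [Fintype W'] (f : W → V) (g : W' → V) (h : ∀ a b, f a ≠ g b)
    (M : W → W' → R) (H : Subgroup (St V R)) (hH : ∀ a b, x (f a) (g b) (M a b) ∈ H) :
    rect f g h M ∈ H := by
  exact H.noncommProd_mem _ fun p _ => hH p.1 p.2

section
variable [Fintype V] [DecidableEq V]

theorem pm_rect [Fintype W] [Fintype W'] (f : W → V) (g : W' → V) (h : ∀ a b, f a ≠ g b)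
    (M : W → W' → R) :
    pm (rect f g h M) = 1 + ∑ a, ∑ b, Matrix.single (f a) (g b) (M a b) := by
  classical
  have key : ∀ s : Finset (W × W'), pm (s.noncommProd (fun p => x (f p.1) (g p.2) (M p.1 p.2))
      (fun p _ q _ _ => x_commute (h q.1 p.2).symm (h p.1 q.2) _ _)) =
      1 + ∑ p ∈ s, Matrix.single (f p.1) (g p.2) (M p.1 p.2) := by
    intro s
    induction s using Finset.induction_on with
    | empty => simp
    | insert p s hp ih =>
      rw [Finset.noncommProd_insert_of_notMem _ _ _ _ hp, map_mul, ih, pm_x_of_ne (h _ _),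
        Finset.sum_insert hp, add_mul, one_mul, mul_add, mul_one, Finset.mul_sum,
        Finset.sum_eq_zero (f := fun q : W × W' => Matrix.single (f p.1) (g p.2) (M p.1 p.2) *
          Matrix.single (f q.1) (g q.2) (M q.1 q.2))
          fun q _ => Matrix.single_mul_single_of_ne _ _ _ _ (h q.1 p.2).symm _]
      abel
  rw [rect, key, Fintype.sum_prod_type]

/-- shape of the matrices of `Ug` -/
theorem Ug_shape {α : Type*} [LinearOrder α] (rk : V → α) {y : St V R}
    (hy : y ∈ Ug R (fun a b => rk b < rk a)) (a b : V) (h : ¬ rk b < rk a) :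
    pm y a b = if a = b then 1 else 0 := by
  have step : ∀ (c d : V) (r : R) (y : St V R), rk d < rk c →
      (∀ a b, ¬ rk b < rk a → pm y a b = if a = b then 1 else 0) →
      ∀ a b, ¬ rk b < rk a → pm (x c d r * y) a b = if a = b then 1 else 0 := by
    intro c d r y hcd ih a b hab
    have hne : c ≠ d := fun e => lt_irrefl _ (e ▸ hcd)
    rw [map_mul, pm_x_of_ne hne, add_mul, one_mul, Matrix.add_apply, ih a b hab]
    by_cases hac : a = c
    · subst hac
      have hdb : d ≠ b := fun e => hab (e ▸ hcd)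
      rw [Matrix.single_mul_apply_same, ih d b fun h' => hab (h'.trans hcd), if_neg hdb, mul_zero,
        add_zero]
    · rw [Matrix.single_mul_apply_of_ne _ _ _ _ _ hac, add_zero]
  revert a b
  induction hy using Subgroup.closure_induction_left with
  | one =>
    intro a b _
    rw [map_one, Matrix.one_apply]
  | mul_left z hz y _ ih =>
    obtain ⟨c, d, r, hcd, rfl⟩ := hz
    exact step c d r y hcd ih
  | inv_mul_cancel z hz y _ ih =>
    obtain ⟨c, d, r, hcd, rfl⟩ := hz
    rw [← x_neg]
    exact step c d _ y hcd ih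

end

end St

end Crest.Agent.R176
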