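import Crest.Agent.R176.UnipA

/-! # R176: unipotent subgroups of the Steinberg group, block maps -/

noncomputable section

namespace Crest.Agent.R176

open scoped commutatorElement

set_option linter.unusedSectionVars false

namespace St

variable {V V' W W' R : Type} [Ring R]

section
variable [Fintype V] [DecidableEq V]

theorem UnipB_rect_add [Fintype W] [Fintype W'] (f : W → V) (g : W' → V) (h : ∀ a b, f a ≠ g b)
    (M M' : W → W' → R) : rect f g h (M + M') = rect f g h M * rect f g h M' := by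
  unfold rect
  rw [← Finset.noncommProd_mul_distrib _ _ _ _
    (fun p _ q _ _ => x_commute (h q.1 p.2).symm (h p.1 q.2) _ _)]
  exact Finset.noncommProd_congr rfl (fun p _ => by simp [x_add]) _

theorem UnipB_rect_zero [Fintype W] [Fintype W'] (f : W → V) (g : W' → V) (h : ∀ a b, f a ≠ g b) :
    rect f g h (0 : W → W' → R) = 1 := by
  unfold rect
  rw [Finset.noncommProd_eq_pow_card _ _ _ 1 (fun p _ => by simp), one_pow]

theorem UnipB_rect_single [Fintype W] [Fintype W'] (f : W → V) (g : W' → V)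
    (h : ∀ a b, f a ≠ g b) (M : W → W' → R) (a : W) (b : W')
    (hM : ∀ a' b', (a', b') ≠ (a, b) → M a' b' = 0) : rect f g h M = x (f a) (g b) (M a b) := by
  classical
  unfold rect
  rw [← Finset.mul_noncommProd_erase _ (Finset.mem_univ (a, b)),
    Finset.noncommProd_eq_pow_card _ _ _ 1 (fun p hp => by
      rw [hM p.1 p.2 (Finset.ne_of_mem_erase hp), x_zero]), one_pow, mul_one]

/-- the rectangle with rows of rank `k` and columns of rank `< k` -/
def UnipB_rk (rk : V → ℕ) (k : ℕ) (M : V → V → R) : St V R :=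
  rect (fun a : {a // rk a = k} => a.1) (fun b : {b // rk b < k} => b.1)
    (fun a b e => by have h1 := a.2; have h2 := b.2; rw [e] at h1; omega)
    (fun a b => M a.1 b.1)

theorem UnipB_rk_add (rk : V → ℕ) (k : ℕ) (M M' : V → V → R) :
    UnipB_rk rk k (M + M') = UnipB_rk rk k M * UnipB_rk rk k M' := by
  unfold UnipB_rk
  rw [← UnipB_rect_add]
  congr 1

theorem UnipB_rk_eq_one (rk : V → ℕ) (k : ℕ) (M : V → V → R)
    (h : ∀ a b, rk a = k → rk b < k → M a b = 0) : UnipB_rk rk k M = 1 := by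
  unfold UnipB_rk
  rw [← UnipB_rect_zero (R := R) (fun a : {a // rk a = k} => a.1) (fun b : {b // rk b < k} => b.1)
    (fun a b e => by have h1 := a.2; have h2 := b.2; rw [e] at h1; omega)]
  congr 1
  funext a b
  exact h a.1 b.1 a.2 b.2

theorem UnipB_rk_mem (rk : V → ℕ) (k : ℕ) (M : V → V → R) :
    UnipB_rk rk k M ∈ Ug R (fun a b => rk a = k ∧ rk b < k) :=
  rect_mem _ _ _ _ _ fun a b => x_mem_Ug ⟨a.2, b.2⟩ _

theorem UnipB_exists_rk (rk : V → ℕ) (k : ℕ) {u : St V R}
    (hu : u ∈ Ug R (fun a b => rk a = k ∧ rk b < k)) : ∃ M, u = UnipB_rk rk k M := by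
  induction hu using Subgroup.closure_induction with
  | mem y hy =>
    obtain ⟨a, b, r, ⟨ha, hb⟩, rfl⟩ := hy
    refine ⟨fun a' b' => if a' = a ∧ b' = b then r else 0, ?_⟩
    unfold UnipB_rk
    rw [UnipB_rect_single _ _ _ _ ⟨a, ha⟩ ⟨b, hb⟩]
    · simp
    · intro a' b' hne
      refine if_neg fun hh => hne ?_
      rw [Prod.mk.injEq]
      exact ⟨Subtype.ext hh.1, Subtype.ext hh.2⟩
  | one => exact ⟨0, (UnipB_rk_eq_one rk k 0 fun _ _ _ _ => rfl).symm⟩
  | mul y z _ _ hy hz =>
    obtain ⟨M, rfl⟩ := hy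
    obtain ⟨M', rfl⟩ := hz
    exact ⟨M + M', (UnipB_rk_add rk k M M').symm⟩
  | inv y _ hy =>
    obtain ⟨M, rfl⟩ := hy
    refine ⟨-M, inv_eq_of_mul_eq_one_right ?_⟩
    rw [← UnipB_rk_add, add_neg_cancel]
    exact UnipB_rk_eq_one rk k 0 fun _ _ _ _ => rfl

theorem UnipB_pm_rk (rk : V → ℕ) (k : ℕ) (M : V → V → R) :
    pm (UnipB_rk rk k M) =
      1 + Matrix.of fun p q => if rk p = k ∧ rk q < k then M p q else 0 := by
  unfold UnipB_rk
  rw [pm_rect]
  congr 1
  ext p q
  simp only [Matrix.sum_apply, Matrix.single_apply, Matrix.of_apply]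
  split_ifs with h
  · rw [Finset.sum_eq_single (⟨p, h.1⟩ : {a // rk a = k}),
      Finset.sum_eq_single (⟨q, h.2⟩ : {b // rk b < k})]
    · simp
    · intro b _ hb
      exact if_neg fun hh => hb (Subtype.ext hh.2)
    · simp
    · intro a _ ha
      exact Finset.sum_eq_zero fun b _ => if_neg fun hh => ha (Subtype.ext hh.1)
    · simp
  · refine Finset.sum_eq_zero fun a _ => Finset.sum_eq_zero fun b _ => if_neg fun hh => h ?_
    rw [← hh.1, ← hh.2]
    exact ⟨a.2, b.2⟩

theorem UnipB_conj (rk : V → ℕ) (k : ℕ) {y : St V R}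
    (hy : y ∈ Ug R (fun a b => rk b < rk a ∧ rk a < k)) :
    ∀ u ∈ Ug R (fun a b => rk a = k ∧ rk b < k),
      y * u * y⁻¹ ∈ Ug R (fun a b => rk a = k ∧ rk b < k) ∧
      y⁻¹ * u * y ∈ Ug R (fun a b => rk a = k ∧ rk b < k) := by
  induction hy using Subgroup.closure_induction with
  | mem y hy =>
    obtain ⟨a, b, r, ⟨hab, ha⟩, rfl⟩ := hy
    intro u hu
    have key : ∀ s : R, x a b s * u * (x a b s)⁻¹ ∈ Ug R (fun a b => rk a = k ∧ rk b < k) :=
      fun s => Ug_conj a b s (fun hh => by omega) (fun d hh _ => by omega)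
        (fun c hh _ => ⟨hh.1, by omega⟩) hu
    refine ⟨key r, ?_⟩
    have := key (-r)
    rwa [x_neg, inv_inv] at this
  | one => intro u hu; simpa using hu
  | mul y z _ _ hy hz =>
    intro u hu
    constructor
    · have := (hy _ (hz u hu).1).1
      convert this using 1
      group
    · have := (hz _ (hy u hu).2).2
      convert this using 1
      group
  | inv y _ hy =>
    intro u hu
    rw [inv_inv]
    exact ⟨(hy u hu).2, (hy u hu).1⟩

theorem UnipB_decomp (rk : V → ℕ) (k : ℕ) {y : St V R}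
    (hy : y ∈ Ug R (fun a b => rk b < rk a ∧ rk a < k + 1)) :
    ∃ y' ∈ Ug R (fun a b => rk b < rk a ∧ rk a < k),
      ∃ u ∈ Ug R (fun a b => rk a = k ∧ rk b < k), y = y' * u := by
  induction hy using Subgroup.closure_induction with
  | mem y hy =>
    obtain ⟨a, b, r, ⟨hab, ha⟩, rfl⟩ := hy
    by_cases hk : rk a = k
    · exact ⟨1, one_mem _, x a b r, x_mem_Ug ⟨hk, by omega⟩ r, (one_mul _).symm⟩
    · exact ⟨x a b r, x_mem_Ug ⟨hab, by omega⟩ r, 1, one_mem _, (mul_one _).symm⟩
  | one => exact ⟨1, one_mem _, 1, one_mem _, (mul_one _).symm⟩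
  | mul y z _ _ hy hz =>
    obtain ⟨y1, hy1, u1, hu1, rfl⟩ := hy
    obtain ⟨y2, hy2, u2, hu2, rfl⟩ := hz
    exact ⟨y1 * y2, mul_mem hy1 hy2, y2⁻¹ * u1 * y2 * u2,
      mul_mem (UnipB_conj rk k hy2 u1 hu1).2 hu2, by group⟩
  | inv y _ hy =>
    obtain ⟨y1, hy1, u1, hu1, rfl⟩ := hy
    exact ⟨y1⁻¹, inv_mem hy1, y1 * u1⁻¹ * y1⁻¹,
      (UnipB_conj rk k hy1 _ (inv_mem hu1)).1, by group⟩

theorem UnipB_row (rk : V → ℕ) (k : ℕ) {y : St V R}
    (hy : y ∈ Ug R (fun a b => rk b < rk a ∧ rk a < k)) (a : V) (ha : k ≤ rk a) :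
    ∀ (X : Matrix V V R) (b : V), (pm y * X) a b = X a b := by
  induction hy using Subgroup.closure_induction with
  | mem y hy =>
    obtain ⟨c, d, r, ⟨hcd, hc⟩, rfl⟩ := hy
    intro X b
    have hne : c ≠ d := fun e => by rw [e] at hcd; omega
    have hac : a ≠ c := fun e => by rw [e] at ha; omega
    rw [pm_x_of_ne hne, add_mul, one_mul, Matrix.add_apply,
      Matrix.single_mul_apply_of_ne _ _ _ _ _ hac, add_zero]
  | one => intro X b; simp
  | mul y z _ _ hy hz => intro X b; rw [map_mul, mul_assoc, hy, hz]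
  | inv y _ hy =>
    intro X b
    rw [← hy (pm y⁻¹ * X) b, ← mul_assoc, ← map_mul, mul_inv_cancel, map_one, one_mul]

theorem UnipB_inj (rk : V → ℕ) (k : ℕ) : ∀ y ∈ Ug R (fun a b => rk b < rk a ∧ rk a < k),
    pm y = 1 → y = 1 := by
  induction k with
  | zero =>
    intro y hy _
    have : Ug R (fun a b => rk b < rk a ∧ rk a < 0) ≤ ⊥ := by
      unfold Ug
      rw [Subgroup.closure_le]
      rintro _ ⟨a, b, r, ⟨_, h⟩, rfl⟩
      omega
    exact this hy
  | succ k ih =>
    intro y hy h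
    obtain ⟨y', hy', u, hu, rfl⟩ := UnipB_decomp rk k hy
    obtain ⟨M, rfl⟩ := UnipB_exists_rk rk k hu
    have h1 : UnipB_rk rk k M = 1 := by
      refine UnipB_rk_eq_one rk k M fun a b ha hb => ?_
      have h2 := UnipB_row rk k hy' a ha.ge (pm (UnipB_rk rk k M)) b
      rw [← map_mul, h, UnipB_pm_rk, Matrix.add_apply, Matrix.of_apply, if_pos ⟨ha, hb⟩] at h2
      simpa using h2
    rw [h1, mul_one] at h ⊢
    exact ih y' hy' h

theorem UnipB_surj (rk : V → ℕ) (k : ℕ) : ∀ M : Matrix V V R,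
    (∀ a b, ¬ (rk b < rk a ∧ rk a < k) → M a b = if a = b then 1 else 0) →
    ∃ y ∈ Ug R (fun a b => rk b < rk a ∧ rk a < k), pm y = M := by
  induction k with
  | zero =>
    intro M hM
    refine ⟨1, one_mem _, ?_⟩
    ext a b
    rw [map_one, hM a b (by omega), Matrix.one_apply]
  | succ k ih =>
    intro M hM
    obtain ⟨y, hy, hpm⟩ := ih
      (Matrix.of fun a b => if rk a = k then (if a = b then 1 else 0) else M a b) (by
        intro a b hab
        rw [Matrix.of_apply]
        by_cases ha : rk a = k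
        · rw [if_pos ha]
        · rw [if_neg ha]
          exact hM a b (by omega))
    refine ⟨y * UnipB_rk rk k M, mul_mem (Ug_mono (fun a b hh => ⟨hh.1, by omega⟩) hy)
      (Ug_mono (fun a b hh => by omega) (UnipB_rk_mem rk k M)), ?_⟩
    ext a b
    rw [map_mul]
    by_cases ha : rk a = k
    · rw [UnipB_row rk k hy a ha.ge, UnipB_pm_rk, Matrix.add_apply, Matrix.of_apply,
        Matrix.one_apply]
      by_cases hb : rk b < k
      · have hab : a ≠ b := fun e => by rw [e] at ha; omega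
        rw [if_neg hab, if_pos ⟨ha, hb⟩, zero_add]
      · rw [if_neg (fun hh : rk a = k ∧ rk b < k => hb hh.2), add_zero, hM a b (by omega)]
    · rw [UnipB_pm_rk, mul_add, mul_one, Matrix.add_apply, hpm, Matrix.of_apply, if_neg ha,
        Matrix.mul_apply, Finset.sum_eq_zero, add_zero]
      intro c _
      rw [Matrix.of_apply, Matrix.of_apply, if_neg ha]
      by_cases hc : rk c = k ∧ rk b < k
      · have hac : a ≠ c := fun e => by rw [e] at ha; omega
        rw [hM a c (by omega), if_neg hac, zero_mul]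
      · rw [if_neg hc, mul_zero]

theorem UnipB_rank {α : Type*} [LinearOrder α] (rk : V → α) :
    ∃ (rk' : V → ℕ) (k : ℕ), ∀ a b, rk b < rk a ↔ (rk' b < rk' a ∧ rk' a < k) := by
  classical
  refine ⟨fun a => (Finset.univ.filter fun c => rk c < rk a).card, Fintype.card V + 1,
    fun a b => ⟨fun h => ⟨Finset.card_lt_card ⟨fun c hc => ?_, fun hs => ?_⟩, ?_⟩, fun h => ?_⟩⟩
  · simp only [Finset.mem_filter, Finset.mem_univ, true_and] at hc ⊢
    exact hc.trans h
  · have := hs (show b ∈ Finset.univ.filter fun c => rk c < rk a by simpa using h)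
    simp at this
  · exact Nat.lt_succ_of_le (Finset.card_le_univ _)
  · by_contra hn
    refine absurd h.1 (not_lt.2 (Finset.card_le_card fun c hc => ?_))
    simp only [Finset.mem_filter, Finset.mem_univ, true_and] at hc ⊢
    exact hc.trans_le (not_lt.1 hn)

/-- **Unipotent subgroups inject into matrices.**  Recipe: reduce to `rk : V → ℕ` (replace `rk a`
by the number of `b` with `rk b < rk a`) and induct on `k` for the root sets
`Ψ_k a b := rk b < rk a ∧ rk a < k`: the elements `y' * rect (rows of rank k) (columns of rank < k) M`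
with `y' ∈ Ug Ψ_k` form a subgroup containing the generators of `Ug Ψ_(k+1)`
(`rect M * rect M' = rect (M + M')`; conjugating `rect M` by a generator of `Ug Ψ_k` gives a
`rect M'`: the set of all `rect M` is the subgroup `Ug (rank k → rank < k)`, use `Ug_conj`);
the rows of rank `k` of `pm (y' * rect M)` are those of `pm (rect M)`, so `M = 0`. -/
theorem Ug_inj {α : Type*} [LinearOrder α] (rk : V → α) {y : St V R}
    (hy : y ∈ Ug R (fun a b => rk b < rk a)) (h : pm y = 1) : y = 1 := by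
  obtain ⟨rk', k, hk⟩ := UnipB_rank rk
  exact UnipB_inj rk' k y (Ug_mono (fun a b hh => (hk a b).1 hh) hy) h

theorem Ug_ext {α : Type*} [LinearOrder α] (rk : V → α) {y y' : St V R}
    (hy : y ∈ Ug R (fun a b => rk b < rk a)) (hy' : y' ∈ Ug R (fun a b => rk b < rk a))
    (h : pm y = pm y') : y = y' := by
  have h1 : y * y'⁻¹ = 1 := Ug_inj rk (mul_mem hy (inv_mem hy')) (by
    rw [map_mul, h, ← map_mul, mul_inv_cancel, map_one])
  exact mul_inv_eq_one.1 h1

/-- every unitriangular matrix is the image of an element of `Ug` (same induction) -/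
theorem Ug_surj {α : Type*} [LinearOrder α] (rk : V → α) (M : Matrix V V R)
    (hM : ∀ a b, ¬ rk b < rk a → M a b = if a = b then 1 else 0) :
    ∃ y ∈ Ug R (fun a b => rk b < rk a), pm y = M := by
  obtain ⟨rk', k, hk⟩ := UnipB_rank rk
  obtain ⟨y, hy, h⟩ := UnipB_surj rk' k M fun a b hh => hM a b fun h' => hh ((hk a b).1 h')
  exact ⟨y, Ug_mono (fun a b hh => (hk a b).2 hh) hy, h⟩

end

end St

end Crest.Agent.R176
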