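import Crest.Agent.R176.UnipB

/-! # R176: unipotent subgroups of the Steinberg group, block maps -/

noncomputable section

namespace Crest.Agent.R176

open scoped commutatorElement

set_option linter.unusedSectionVars false

namespace St

variable {V V' W W' R : Type} [Ring R]

section
variable [Fintype V] [DecidableEq V]

theorem UnipC_pm_x_mul {i j : V} (h : i ≠ j) (r : R) (y : St V R) (a b : V) :
    pm (x i j r * y) a b = pm y a b + if a = i then r * pm y j b else 0 := by
  rw [map_mul, pm_x_of_ne h, add_mul, one_mul, Matrix.add_apply]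
  congr 1
  split_ifs with hai
  · subst hai; exact Matrix.single_mul_apply_same _ _ _ _ _
  · exact Matrix.single_mul_apply_of_ne _ _ _ _ _ hai _

theorem pm_dg (d : V → Rˣ) (y : St V R) (a b : V) :
    pm (dg d y) a b = d a * pm y a b * ((d b)⁻¹ : Rˣ) := by
  induction y using induction_on generalizing a b with
  | h1 =>
    simp only [map_one, Matrix.one_apply]
    split_ifs with h
    · subst h; simp
    · simp
  | hx i j r y hij hy =>
    rw [map_mul (dg d), dg_x, UnipC_pm_x_mul hij, UnipC_pm_x_mul hij, hy, hy]
    split_ifs with h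
    · subst h; simp [mul_add, add_mul, mul_assoc]
    · simp

/-- the matrices of `NI I` are congruent to `1` modulo the two-sided ideal `I` -/
theorem pm_NI (I : AddSubgroup R) (hl : ∀ r a, a ∈ I → r * a ∈ I) (hr : ∀ r a, a ∈ I → a * r ∈ I)
    {y : St V R} (hy : y ∈ NI V (I : Set R)) (i j : V) : (pm y - 1) i j ∈ I := by
  let J : TwoSidedIdeal R := TwoSidedIdeal.mk' (I : Set R) I.zero_mem (fun ha hb => I.add_mem ha hb)
    (fun ha => I.neg_mem ha) (fun {r a} ha => hl r a ha) (fun {a r} ha => hr r a ha)
  have hJ : ∀ r, r ∈ J ↔ r ∈ I := fun r => TwoSidedIdeal.mem_mk' _ _ _ _ _ _ r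
  let f : R →+* J.ringCon.Quotient := J.ringCon.mk'
  have hf : ∀ r, f r = 0 ↔ r ∈ I := fun r => by
    rw [← hJ, ← map_zero f, TwoSidedIdeal.mem_iff]
    exact J.ringCon.eq
  have hle : NI V (I : Set R) ≤ (map f : St V R →* St V _).ker := by
    refine Subgroup.normalClosure_le_normal ?_
    rintro _ ⟨i, j, r, hr, rfl⟩
    show map f (x i j r) = 1
    rw [map_x, (hf r).2 hr, x_zero]
  have h1 : (pm y).map f = 1 := by
    rw [← pm_map, show map f y = 1 from hle hy, map_one]
  rw [← hf, Matrix.sub_apply, map_sub, ← Matrix.map_apply (f := f), h1, Matrix.one_apply,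
    Matrix.one_apply]
  split_ifs <;> simp

variable [Fintype V'] [DecidableEq V']

theorem UnipC_out_right (e : V ↪ V') (y : St V R) (a b : V') (h : b ∉ Set.range e) :
    pm (relabel e y) a b = if a = b then 1 else 0 := by
  induction y using induction_on generalizing a with
  | h1 => simp [Matrix.one_apply]
  | hx i j r y hij hy =>
    rw [map_mul (relabel e), relabel_x, UnipC_pm_x_mul (e.injective.ne hij), hy, hy,
      if_neg (show e j ≠ b from fun h' => h ⟨j, h'⟩)]
    simp

theorem UnipC_out_left (e : V ↪ V') (y : St V R) (a b : V') (h : a ∉ Set.range e) :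
    pm (relabel e y) a b = if a = b then 1 else 0 := by
  induction y using induction_on with
  | h1 => simp [Matrix.one_apply]
  | hx i j r y hij hy =>
    rw [map_mul (relabel e), relabel_x, UnipC_pm_x_mul (e.injective.ne hij), hy,
      if_neg (show a ≠ e i from fun h' => h ⟨i, h'.symm⟩), add_zero]

theorem pm_relabel_apply (e : V ↪ V') (y : St V R) (a b : V) :
    pm (relabel e y) (e a) (e b) = pm y a b := by
  induction y using induction_on generalizing a with
  | h1 => simp [Matrix.one_apply]
  | hx i j r y hij hy =>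
    rw [map_mul (relabel e), relabel_x, UnipC_pm_x_mul (e.injective.ne hij), UnipC_pm_x_mul hij,
      hy, hy]
    simp

theorem pm_relabel_out (e : V ↪ V') (y : St V R) (a b : V')
    (h : a ∉ Set.range e ∨ b ∉ Set.range e) :
    pm (relabel e y) a b = if a = b then 1 else 0 := by
  rcases h with h | h
  · exact UnipC_out_left e y a b h
  · exact UnipC_out_right e y a b h

theorem pm_relabel_eq_one (e : V ↪ V') (y : St V R) : pm (relabel e y) = 1 ↔ pm y = 1 := by
  constructor
  · intro h
    ext a b
    rw [← pm_relabel_apply e, h]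
    simp [Matrix.one_apply]
  · intro h
    ext a b
    by_cases hab : a ∉ Set.range e ∨ b ∉ Set.range e
    · rw [pm_relabel_out e y a b hab, Matrix.one_apply]
    · push Not at hab
      obtain ⟨⟨a, rfl⟩, ⟨b, rfl⟩⟩ := hab
      rw [pm_relabel_apply, h]
      simp [Matrix.one_apply]

theorem relabel_mem_KK [Algebra (ZMod 2) R] {L : Loc R} (e : V ↪ V') {z : St V R}
    (hz : z ∈ KK V L) : relabel e z ∈ KK V' L := by
  rw [mem_KK] at hz ⊢
  exact ⟨by rw [map_relabel, hz.1, map_one], (pm_relabel_eq_one e z).2 hz.2⟩

end

end St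

end Crest.Agent.R176
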